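import Vale.Agent.P002.H2.Clos

/-!
# Decomposition of a semisimple representation
-/

namespace Vale.Agent.P002.H2

open Module

variable {F : Type} {V : Type} [AddCommGroup V] [Module ℂ V]

/-- invariant under all `ρ x` -/
def InvAll (ρ : F → Module.End ℂ V) (W : Submodule ℂ V) : Prop := ∀ x, ∀ v ∈ W, ρ x v ∈ W

/-- irreducible subspaces -/
def IrrSub (ρ : F → Module.End ℂ V) (U : Submodule ℂ V) : Prop :=
  U ≠ ⊥ ∧ InvAll ρ U ∧ ∀ W ≤ U, InvAll ρ W → W = ⊥ ∨ W = U

theorem InvAll.inf {ρ : F → Module.End ℂ V} {W W' : Submodule ℂ V} (h : InvAll ρ W)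
    (h' : InvAll ρ W') : InvAll ρ (W ⊓ W') := fun x v hv => ⟨h x v hv.1, h' x v hv.2⟩

theorem exists_irrSub [FiniteDimensional ℂ V] (ρ : F → Module.End ℂ V) :
    ∀ (d : ℕ) (W : Submodule ℂ V), finrank ℂ W ≤ d → W ≠ ⊥ → InvAll ρ W →
      ∃ U ≤ W, IrrSub ρ U := by
  intro d
  induction d with
  | zero =>
    intro W hd hW _
    exact absurd (Submodule.finrank_eq_zero.1 (Nat.le_zero.1 hd)) hW
  | succ d ih =>
    intro W hd hW hi
    by_cases h : ∀ W' ≤ W, InvAll ρ W' → W' = ⊥ ∨ W' = W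
    · exact ⟨W, le_rfl, hW, hi, h⟩
    · push Not at h
      obtain ⟨W', h1, h2, h3, h4⟩ := h
      have h5 : finrank ℂ W' < finrank ℂ W :=
        Submodule.finrank_lt_finrank_of_lt (lt_of_le_of_ne h1 h4)
      obtain ⟨U, h6, h7⟩ := ih W' (by omega) h3 h2
      exact ⟨U, h6.trans h1, h7⟩

/-- Decomposition into irreducible subspaces, in the form: the sum is everything, and the dimensions
add up. -/
theorem exists_decomp [FiniteDimensional ℂ V] (ρ : F → Module.End ℂ V)
    (hss : ∀ W, InvAll ρ W → ∃ W', InvAll ρ W' ∧ IsCompl W W') :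
    ∃ (k : ℕ) (U : Fin k → Submodule ℂ V), (∀ a, IrrSub ρ (U a)) ∧ (⨆ a, U a) = ⊤ ∧
      ∑ a, finrank ℂ (U a) = finrank ℂ V := by
  have key : ∀ (d : ℕ) (W : Submodule ℂ V), finrank ℂ W ≤ d → InvAll ρ W →
      ∃ (k : ℕ) (U : Fin k → Submodule ℂ V), (∀ a, IrrSub ρ (U a)) ∧ (⨆ a, U a) = W ∧
        ∑ a, finrank ℂ (U a) = finrank ℂ W := by
    intro d
    induction d with
    | zero =>
      intro W hd hi
      have h0 := Submodule.finrank_eq_zero.1 (Nat.le_zero.1 hd)
      subst h0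
      exact ⟨0, Fin.elim0, fun a => a.elim0, by simp, by simp⟩
    | succ d ih =>
      intro W hd hi
      by_cases hW : W = ⊥
      · subst hW
        exact ⟨0, Fin.elim0, fun a => a.elim0, by simp, by simp⟩
      · obtain ⟨U₀, hU₀, hirr⟩ := exists_irrSub ρ _ W le_rfl hW hi
        obtain ⟨W', hW', hc⟩ := hss U₀ hirr.2.1
        have hd1 : Disjoint U₀ (W' ⊓ W) := hc.disjoint.mono_right inf_le_left
        have hsup : U₀ ⊔ (W' ⊓ W) = W := by
          rw [← sup_inf_assoc_of_le W' hU₀, hc.sup_eq_top, top_inf_eq]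
        have hfr : finrank ℂ U₀ + finrank ℂ (W' ⊓ W : Submodule ℂ V) = finrank ℂ W := by
          have h1 := Submodule.finrank_sup_add_finrank_inf_eq U₀ (W' ⊓ W)
          rw [hd1.eq_bot, finrank_bot, add_zero, hsup] at h1
          exact h1.symm
        have hpos : 0 < finrank ℂ U₀ := Nat.pos_of_ne_zero fun h =>
          hirr.1 (Submodule.finrank_eq_zero.1 h)
        obtain ⟨k, U, h1, h2, h3⟩ := ih (W' ⊓ W) (by omega) (hW'.inf hi)
        refine ⟨k + 1, Fin.cons U₀ U, ?_, ?_, ?_⟩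
        · intro a
          refine Fin.cases ?_ (fun a => ?_) a
          · exact hirr
          · exact h1 a
        · rw [← hsup, ← h2]
          apply le_antisymm
          · refine iSup_le fun a => ?_
            refine Fin.cases ?_ (fun a => ?_) a
            · exact le_sup_left
            · exact (le_iSup U a).trans le_sup_right
          · refine sup_le (le_iSup (Fin.cons U₀ U : Fin (k + 1) → Submodule ℂ V) 0)
              (iSup_le fun a => ?_)
            exact le_iSup (Fin.cons U₀ U : Fin (k + 1) → Submodule ℂ V) a.succ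
        · rw [Fin.sum_univ_succ]
          have h4 : (Fin.cons U₀ U : Fin (k + 1) → Submodule ℂ V) 0 = U₀ := rfl
          have h5 : ∀ a : Fin k, (Fin.cons U₀ U : Fin (k + 1) → Submodule ℂ V) a.succ = U a :=
            fun a => rfl
          rw [h4, ← hfr, ← h3]
          rfl
  obtain ⟨k, U, h1, h2, h3⟩ := key _ ⊤ le_rfl fun x v _ => trivial
  exact ⟨k, U, h1, h2, by rw [h3, finrank_top]⟩

end Vale.Agent.P002.H2
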