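import Vale.Agent.P002.H2.A6
import Vale.Agent.P002.H377.Ind
import Vale.Agent.P002.H306.Rep

/-!
# The matrix form of a semisimple representation whose constituents are `Good`
-/

namespace Vale.Agent.P002.H2

open Matrix NumberField Module Vale.Agent.P002R.Orb Vale.Agent.P002.H377

variable {F : Type} [Group F] {I : Type} [MulAction F I]

/-- a system of representatives -/
noncomputable def trv (H : Subgroup F) : Fin (H.relIndex ⊤) → F :=
  if h : H.relIndex ⊤ ≠ 0 then (PC5a ⊤ H le_top h).choose else fun _ => 1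

theorem trv_spec {H : Subgroup F} (h : H.relIndex ⊤ ≠ 0) : Trans ⊤ H (trv H) := by
  unfold trv
  rw [dif_pos h]
  exact (PC5a ⊤ H le_top h).choose_spec

/-- The combinatorial data of a direct sum of `k` induced representations. -/
structure Shape (F : Type) [Group F] where
  k : ℕ
  n : Fin k → ℕ
  H : Fin k → Subgroup F

/-- number of cosets -/
noncomputable def Shape.q (T : Shape F) (a : Fin T.k) : ℕ := (T.H a).relIndex ⊤

/-- representatives -/
noncomputable def Shape.t (T : Shape F) (a : Fin T.k) : Fin (T.q a) → F := trv (T.H a)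

/-- index set of the `a`-th block -/
abbrev Shape.B (T : Shape F) (a : Fin T.k) : Type := Fin (T.q a) × Fin (T.n a)

/-- index set -/
abbrev Shape.Ix (T : Shape F) : Type := (a : Fin T.k) × T.B a

/-- The direct sum of the induced representations. -/
noncomputable def Shape.G (T : Shape F) (τ : ∀ a, F → Matrix (Fin (T.n a)) (Fin (T.n a)) ℂ) (x : F) :
    Matrix T.Ix T.Ix ℂ :=
  Matrix.blockDiagonal' fun a => indM (T.H a) (T.t a) (τ a) x

theorem Shape.sum_G (T : Shape F) (τ : ∀ a, F → Matrix (Fin (T.n a)) (Fin (T.n a)) ℂ) (x : F)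
    (b : T.Ix → ℂ) (a : Fin T.k) (p : T.B a) :
    ∑ s, b s * T.G τ x s ⟨a, p⟩ = ∑ p', b ⟨a, p'⟩ * indM (T.H a) (T.t a) (τ a) x p' p := by
  rw [Fintype.sum_sigma, Finset.sum_eq_single a]
  · refine Finset.sum_congr rfl fun p' _ => ?_
    unfold Shape.G
    rw [Matrix.blockDiagonal'_apply_eq]
  · intro a' _ ha'
    refine Finset.sum_eq_zero fun p' _ => ?_
    unfold Shape.G
    rw [Matrix.blockDiagonal'_apply_ne _ _ _ ha', mul_zero]
  · intro h
    exact absurd (Finset.mem_univ a) h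

theorem Shape.sum_G' (T : Shape F) (τ : ∀ a, F → Matrix (Fin (T.n a)) (Fin (T.n a)) ℂ) (x : F)
    {r : ℕ} (ε : Fin r ≃ T.Ix) (b : T.Ix → ℂ) (j : Fin r) (a : Fin T.k) (p : T.B a)
    (hj : ε j = ⟨a, p⟩) :
    ∑ l, b (ε l) * (T.G τ x).submatrix ε ε l j =
      ∑ p', b ⟨a, p'⟩ * indM (T.H a) (T.t a) (τ a) x p' p := by
  rw [← T.sum_G τ x b a p, ← hj, ← Equiv.sum_comp ε]
  rfl

/-- the matrices `χ x • σ x` -/
def tw {n : ℕ} (χ : F → ℂˣ) (σ : F → SpecialLinearGroup (Fin n) ℂ) (x : F) :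
    Matrix (Fin n) (Fin n) ℂ := (χ x : ℂ) • (σ x).1

theorem tw_mulOn {n : ℕ} {H : Subgroup F} {χ : F → ℂˣ} {σ : F → SpecialLinearGroup (Fin n) ℂ}
    (hχ : MulOn H χ) (hσ : MulOn H σ) : MulOn H (tw χ σ) := by
  refine ⟨?_, fun x hx y hy => ?_⟩
  · unfold tw
    rw [hχ.one, hσ.one, Units.val_one, one_smul]
    rfl
  · unfold tw
    rw [hχ.mul x hx y hy, hσ.mul x hx y hy, Units.val_mul, smul_mul_smul_comm]
    rfl

/-- inverses -/
theorem MulOn.inv_mul {M : Type*} [Monoid M] {H : Subgroup F} {ρ : F → M} (h : MulOn H ρ) {x : F}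
    (hx : x ∈ H) : ρ x⁻¹ * ρ x = 1 := by
  rw [← h.mul _ (inv_mem hx) _ hx, inv_mul_cancel, h.one]

theorem MulOn.mul_inv {M : Type*} [Monoid M] {H : Subgroup F} {ρ : F → M} (h : MulOn H ρ) {x : F}
    (hx : x ∈ H) : ρ x * ρ x⁻¹ = 1 := by
  rw [← h.mul _ hx _ (inv_mem hx), mul_inv_cancel, h.one]

/-- conjugation -/
theorem MulOn.conj_one {M : Type*} [Monoid M] {H : Subgroup F} {ρ : F → M} (h : MulOn H ρ) {x y : F}
    (hx : x ∈ H) (hy : y ∈ H) (h1 : ρ y = 1) : ρ (x * y * x⁻¹) = 1 := by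
  rw [h.mul _ (mul_mem hx hy) _ (inv_mem hx), h.mul _ hx _ hy, h1, mul_one, h.mul_inv hx]

section

variable {V : Type} [AddCommGroup V] [Module ℂ V]

/-- the action on the translates of `e` -/
theorem ind_action {H : Subgroup F} {q n : ℕ} {t : Fin q → F}
    (ht : Trans ⊤ H t) {ρ : F → Module.End ℂ V} (hρ : MulOn ⊤ ρ)
    (e : (Fin n → ℂ) →ₗ[ℂ] V) (τ : F → Matrix (Fin n) (Fin n) ℂ)
    (he : ∀ x ∈ H, ∀ v, ρ x (e v) = e (τ x *ᵥ v)) (x : F) (c' : Fin q) (j : Fin n) :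
    ρ x (ρ (t c') (e (Pi.single j 1))) =
      ∑ p : Fin q × Fin n, indM H t τ x p (c', j) • ρ (t p.1) (e (Pi.single p.2 1)) := by
  obtain ⟨c, hc, huniq⟩ := ht.uniq (x * t c') trivial
  have h1 : x * t c' = t c * ((t c)⁻¹ * (x * t c')) := by group
  have h2 : ρ x (ρ (t c') (e (Pi.single j 1))) =
      ρ (t c) (e (τ ((t c)⁻¹ * (x * t c')) *ᵥ Pi.single j 1)) := by
    rw [← he _ hc, ← Module.End.mul_apply, ← Module.End.mul_apply,
      ← hρ.mul _ trivial _ trivial, ← hρ.mul _ trivial _ trivial, ← h1]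
  rw [h2, Fintype.sum_prod_type, Finset.sum_eq_single c]
  · have h3 : ∀ i, indM H t τ x (c, i) (c', j) = τ ((t c)⁻¹ * (x * t c')) i j := by
      intro i
      unfold indM
      rw [Matrix.of_apply, if_pos (by rw [mul_assoc]; exact hc), mul_assoc]
    have h4 : τ ((t c)⁻¹ * (x * t c')) *ᵥ Pi.single j 1 =
        ∑ i, τ ((t c)⁻¹ * (x * t c')) i j • (Pi.single i (1 : ℂ) : Fin n → ℂ) := by
      rw [Matrix.mulVec_single_one]
      funext i
      rw [Finset.sum_apply, Finset.sum_eq_single i]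
      · simp
      · intro b _ hb
        simp [hb.symm]
      · intro h
        exact absurd (Finset.mem_univ i) h
    rw [h4, map_sum, map_sum]
    refine Finset.sum_congr rfl fun i _ => ?_
    rw [h3, map_smul, map_smul]
  · intro b _ hb
    refine Finset.sum_eq_zero fun i _ => ?_
    have h5 : indM H t τ x (b, i) (c', j) = 0 := by
      unfold indM
      rw [Matrix.of_apply, if_neg]
      intro h6
      exact hb (huniq b (by
        change (t b)⁻¹ * (x * t c') ∈ H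
        rw [← mul_assoc]
        exact h6))
    rw [h5, zero_smul]
  · intro h
    exact absurd (Finset.mem_univ c) h

/-- the translates of `e` span -/
theorem ind_span {H : Subgroup F} {q n : ℕ} {t : Fin q → F}
    (ht : Trans ⊤ H t) {ρ : F → Module.End ℂ V} (hρ : MulOn ⊤ ρ)
    (e : (Fin n → ℂ) →ₗ[ℂ] V) (τ : F → Matrix (Fin n) (Fin n) ℂ)
    (he : ∀ x ∈ H, ∀ v, ρ x (e v) = e (τ x *ᵥ v)) :
    (⨆ x ∈ (⊤ : Subgroup F), (LinearMap.range e).map (ρ x)) ≤
      Submodule.span ℂ (Set.range fun p : Fin q × Fin n => ρ (t p.1) (e (Pi.single p.2 1))) := by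
  refine iSup₂_le fun x _ => ?_
  rintro _ ⟨_, ⟨v, rfl⟩, rfl⟩
  obtain ⟨c, hc, -⟩ := ht.uniq x trivial
  have h1 : x = t c * ((t c)⁻¹ * x) := by group
  have h2 : ρ x (e v) = ρ (t c) (e (τ ((t c)⁻¹ * x) *ᵥ v)) := by
    rw [← he _ hc, ← Module.End.mul_apply, ← hρ.mul _ trivial _ trivial, ← h1]
  rw [h2]
  have h3 : τ ((t c)⁻¹ * x) *ᵥ v = ∑ i, (τ ((t c)⁻¹ * x) *ᵥ v) i • (Pi.single i (1 : ℂ) : Fin n → ℂ) := by
    funext j
    rw [Finset.sum_apply, Finset.sum_eq_single j]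
    · simp
    · intro b _ hb
      simp [hb.symm]
    · intro h
      exact absurd (Finset.mem_univ j) h
  rw [h3, map_sum, map_sum]
  refine Submodule.sum_mem _ fun i _ => ?_
  rw [map_smul, map_smul]
  exact Submodule.smul_mem _ _ (Submodule.subset_span ⟨(c, i), rfl⟩)

end

variable {ι : Type} [MulAction (FreeGroup ι) I]

/-- the representation defined by `X` -/
noncomputable def rep {r : ℕ} (X : ι → SpecialLinearGroup (Fin r) ℂ) :
    FreeGroup ι → Module.End ℂ (Fin r → ℂ) :=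
  fun x => Matrix.toLin' (H306.mh X x)

theorem rep_mulOn {r : ℕ} (X : ι → SpecialLinearGroup (Fin r) ℂ) : MulOn ⊤ (rep X) := by
  refine ⟨?_, fun x _ y _ => ?_⟩
  · unfold rep
    rw [map_one, Matrix.toLin'_one]
    rfl
  · unfold rep
    rw [map_mul, Matrix.toLin'_mul]
    rfl

/-- `X` is conjugate, by `P`, to a direct sum of induced representations of deformable
representations. -/
structure Form (C : Ctx (FreeGroup ι) I) (L : IntermediateField ℚ ℂ) {r : ℕ}
    (X : ι → SpecialLinearGroup (Fin r) ℂ) (T : Shape (FreeGroup ι))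
    (χ : ∀ _ : Fin T.k, FreeGroup ι → ℂˣ)
    (σ : ∀ a : Fin T.k, FreeGroup ι → SpecialLinearGroup (Fin (T.n a)) ℂ)
    (ε : Fin r ≃ T.Ix) (P : (Matrix (Fin r) (Fin r) ℂ)ˣ) : Prop where
  kle : T.k ≤ r
  npos : ∀ a, 0 < T.n a
  nle : ∀ a, T.n a ≤ r
  qne : ∀ a, (T.H a).relIndex ⊤ ≠ 0
  qle : ∀ a, (T.H a).relIndex ⊤ ≤ r
  Zle : ∀ a, C.Z ≤ T.H a
  hχ : ∀ a, MulOn (T.H a) (χ a)
  hσ : ∀ a, MulOn (T.H a) (σ a)
  hD : ∀ a, D C L (T.H a) (σ a)
  eq : ∀ x, H306.mh X x * P.1 = P.1 * (T.G (fun a => tw (χ a) (σ a)) x).submatrix ε ε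
  sub : ∀ a, ∃ e : (Fin (T.n a) → ℂ) →ₗ[ℂ] (Fin r → ℂ), Function.Injective e ∧
    ∀ x ∈ T.H a, ∀ v, rep X x (e v) = e (tw (χ a) (σ a) x *ᵥ v)
  irr : ∀ (a : Fin T.k) (W : Submodule ℂ (T.B a → ℂ)),
    (∀ x, ∀ v ∈ W, indM (T.H a) (T.t a) (tw (χ a) (σ a)) x *ᵥ v ∈ W) → W = ⊥ ∨ W = ⊤

theorem exists_form (C : Ctx (FreeGroup ι) I) (L : IntermediateField ℚ ℂ) {r : ℕ}
    (X : ι → SpecialLinearGroup (Fin r) ℂ) (hss : H306.Ssi (H306.mh X))
    (hgood : ∀ (U : Submodule ℂ (Fin r → ℂ)) (ρU : FreeGroup ι → Module.End ℂ U),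
      IrrSub (rep X) U → (∀ x (v : U), ((ρU x v : U) : Fin r → ℂ) = rep X x v) → Good C L ⊤ ρU) :
    ∃ T χ σ ε P, Form C L X T χ σ ε P := by
  classical
  have hss' : ∀ W, InvAll (rep X) W → ∃ W', InvAll (rep X) W' ∧ IsCompl W W' := hss
  obtain ⟨k, U, hU, hsup, hsum⟩ := exists_decomp (rep X) hss'
  have hex : ∀ a : Fin k, ∃ ρU : FreeGroup ι → Module.End ℂ (U a),
      ∀ x (v : U a), ((ρU x v : U a) : Fin r → ℂ) = rep X x v := fun a =>
    ⟨fun x => (rep X x).restrict ((hU a).2.1 x), fun x v => rfl⟩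
  choose ρU hρU using hex
  have hg := fun a => hgood (U a) (ρU a) (hU a) (hρU a)
  choose H n e χ σ h1 h2 h3 h4 h5 h6 h7 h8 h9 h10 using hg
  obtain ⟨T, hT⟩ : ∃ T : Shape (FreeGroup ι), T = ⟨k, n, H⟩ := ⟨_, rfl⟩
  subst hT
  have htr : ∀ a : Fin k, Trans ⊤ (H a) (trv (H a)) := fun a => trv_spec (h3 a)
  obtain ⟨e', he'⟩ : ∃ e' : ∀ a : Fin k, (Fin (n a) → ℂ) →ₗ[ℂ] (Fin r → ℂ),
      ∀ a, e' a = (U a).subtype ∘ₗ e a := ⟨_, fun _ => rfl⟩
  have hact : ∀ a, ∀ x ∈ H a, ∀ v, rep X x (e' a v) = e' a (tw (χ a) (σ a) x *ᵥ v) := by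
    intro a x hx v
    rw [he']
    change rep X x ((e a v : U a) : Fin r → ℂ) = ((e a (tw (χ a) (σ a) x *ᵥ v) : U a) : Fin r → ℂ)
    rw [← hρU, h8 a x hx, tw, Matrix.smul_mulVec, map_smul]
  obtain ⟨b, hb⟩ : ∃ b : ((a : Fin k) × (Fin ((H a).relIndex ⊤) × Fin (n a))) → Fin r → ℂ,
      b = fun p => rep X (trv (H p.1) p.2.1) (e' p.1 (Pi.single p.2.2 1)) := ⟨_, rfl⟩
  have hbU : ∀ a p, b ⟨a, p⟩ ∈ U a := by
    intro a p
    rw [hb]
    refine (hU a).2.1 _ _ ?_
    rw [he']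
    exact (e a _).2
  have hUa : ∀ a, U a ≤ Submodule.span ℂ (Set.range fun p => b ⟨a, p⟩) := by
    intro a
    have e1 := ind_span (htr a) (rep_mulOn X) (e' a) _ (hact a)
    have e2 : (fun p : Fin ((H a).relIndex ⊤) × Fin (n a) => b ⟨a, p⟩) =
        fun p => rep X (trv (H a) p.1) (e' a (Pi.single p.2 1)) := by
      rw [hb]
    rw [e2]
    refine le_trans ?_ e1
    intro v hv
    have e3 : (⟨v, hv⟩ : U a) ∈ (⊤ : Submodule ℂ (U a)) := trivial
    rw [← h9 a] at e3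
    have e4 : (⨆ x ∈ (⊤ : Subgroup (FreeGroup ι)), (LinearMap.range (e a)).map (ρU a x)) ≤
        (⨆ x ∈ (⊤ : Subgroup (FreeGroup ι)),
          (LinearMap.range (e' a)).map (rep X x)).comap (U a).subtype := by
      refine iSup₂_le fun x hx => ?_
      rintro _ ⟨_, ⟨u, rfl⟩, rfl⟩
      rw [Submodule.mem_comap]
      refine (le_iSup₂ (f := fun (x : FreeGroup ι) (_ : x ∈ (⊤ : Subgroup (FreeGroup ι))) =>
        (LinearMap.range (e' a)).map (rep X x)) x hx) ?_
      refine ⟨e' a u, ⟨u, rfl⟩, ?_⟩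
      rw [he']
      exact (hρU a x (e a u)).symm
    exact e4 e3
  have hspan : ⊤ ≤ Submodule.span ℂ (Set.range b) := by
    rw [← hsup]
    refine iSup_le fun a => (hUa a).trans (Submodule.span_mono ?_)
    rintro _ ⟨p, rfl⟩
    exact ⟨⟨a, p⟩, rfl⟩
  have hcard : Fintype.card ((a : Fin k) × (Fin ((H a).relIndex ⊤) × Fin (n a))) = r := by
    rw [Fintype.card_sigma]
    simp only [Fintype.card_prod, Fintype.card_fin]
    rw [← Finset.sum_congr rfl fun a _ => h10 a, hsum, Module.finrank_fin_fun]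
  have hli : LinearIndependent ℂ b := linearIndependent_of_top_le_span_of_card_eq_finrank hspan (by
    rw [hcard, Module.finrank_fin_fun])
  let ε : Fin r ≃ ((a : Fin k) × (Fin ((H a).relIndex ⊤) × Fin (n a))) :=
    Fintype.equivOfCardEq (by rw [hcard, Fintype.card_fin])
  have hP0 : IsUnit (Matrix.of fun i j => b (ε j) i : Matrix (Fin r) (Fin r) ℂ) := by
    rw [← Matrix.linearIndependent_cols_iff_isUnit]
    exact hli.comp ε ε.injective
  obtain ⟨P, hP⟩ := hP0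
  have hupos : ∀ a, 0 < finrank ℂ (U a) := fun a => Nat.pos_of_ne_zero fun h =>
    (hU a).1 (Submodule.finrank_eq_zero.1 h)
  have hule : ∀ a, finrank ℂ (U a) ≤ r := fun a => by
    have := Submodule.finrank_le (U a)
    rwa [Module.finrank_fin_fun] at this
  have hnpos : ∀ a, 0 < n a := fun a => Nat.pos_of_ne_zero fun h => by
    have h11 := h10 a
    rw [h, mul_zero] at h11
    exact (hupos a).ne' h11
  have hqpos : ∀ a, 0 < (H a).relIndex ⊤ := fun a => Nat.pos_of_ne_zero (h3 a)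
  have hcol : ∀ a x (p : Fin ((H a).relIndex ⊤) × Fin (n a)), rep X x (b ⟨a, p⟩) =
      ∑ p', indM (H a) (trv (H a)) (tw (χ a) (σ a)) x p' p • b ⟨a, p'⟩ := by
    intro a x p
    rw [hb]
    exact ind_action (htr a) (rep_mulOn X) (e' a) _ (hact a) x p.1 p.2
  refine ⟨⟨k, n, H⟩, χ, σ, ε, P, ?_, hnpos, fun a => ?_, h3, fun a => ?_, h2, h5, h6, h7, ?_,
    fun a => ⟨e' a, ?_, hact a⟩, ?_⟩
  · change k ≤ r
    have e1 : ∑ _a : Fin k, 1 ≤ ∑ a, finrank ℂ (U a) := Finset.sum_le_sum fun a _ => hupos a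
    rw [hsum, Module.finrank_fin_fun] at e1
    simpa using e1
  · refine le_trans ?_ (hule a)
    rw [h10 a]
    exact Nat.le_mul_of_pos_left _ (hqpos a)
  · refine le_trans ?_ (hule a)
    rw [h10 a]
    exact Nat.le_mul_of_pos_right _ (hnpos a)
  · intro x
    ext i j
    rw [hP, Matrix.mul_apply, Matrix.mul_apply]
    have e1 : ∀ v, rep X x v = H306.mh X x *ᵥ v := fun v => Matrix.toLin'_apply _ _
    have e2 := congrFun (e1 (b (ε j))) i
    have e3 : (H306.mh X x *ᵥ (b (ε j))) i = ∑ l, H306.mh X x i l *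
        (Matrix.of fun i j => b (ε j) i : Matrix (Fin r) (Fin r) ℂ) l j := rfl
    rw [← e3, ← e2]
    obtain ⟨a, p, hap⟩ : ∃ a p, ε j = ⟨a, p⟩ := ⟨(ε j).1, (ε j).2, rfl⟩
    rw [hap, hcol a x p]
    refine Eq.trans ?_ (Shape.sum_G' ⟨k, n, H⟩ (fun a => tw (χ a) (σ a)) x ε (fun s => b s i) j a p
      hap).symm
    rw [Finset.sum_apply]
    refine Finset.sum_congr rfl fun p' _ => ?_
    exact mul_comm _ _
  · rw [he']
    exact (Subtype.val_injective).comp (h4 a)
  · intro a W hW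
    obtain ⟨E, hE⟩ : ∃ E : ((Fin ((H a).relIndex ⊤) × Fin (n a)) → ℂ) →ₗ[ℂ] (Fin r → ℂ),
        ∀ v, E v = ∑ p, v p • b ⟨a, p⟩ :=
      ⟨Fintype.linearCombination ℂ fun p => b ⟨a, p⟩, fun v => rfl⟩
    have hEinj : Function.Injective E := by
      rw [← LinearMap.ker_eq_bot, LinearMap.ker_eq_bot']
      intro v hv
      have e1 : LinearIndependent ℂ fun p => b ⟨a, p⟩ :=
        hli.comp _ sigma_mk_injective
      rw [hE] at hv
      exact funext fun p => Fintype.linearIndependent_iff.1 e1 v hv p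
    have hEr : LinearMap.range E = U a := by
      apply le_antisymm
      · rintro _ ⟨v, rfl⟩
        rw [hE]
        exact Submodule.sum_mem _ fun p _ => Submodule.smul_mem _ _ (hbU a p)
      · refine (hUa a).trans (Submodule.span_le.2 ?_)
        rintro _ ⟨p, rfl⟩
        refine ⟨Pi.single p 1, ?_⟩
        rw [hE, Finset.sum_eq_single p]
        · simp
        · intro p' _ hp'
          rw [Pi.single_eq_of_ne hp', zero_smul]
        · intro h
          exact absurd (Finset.mem_univ p) h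
    have hEact : ∀ x v, rep X x (E v) = E (indM (H a) (trv (H a)) (tw (χ a) (σ a)) x *ᵥ v) := by
      intro x v
      rw [hE, hE, map_sum]
      simp only [map_smul, hcol, Finset.smul_sum, Matrix.mulVec, dotProduct, Finset.sum_smul,
        smul_smul]
      rw [Finset.sum_comm]
      refine Finset.sum_congr rfl fun p _ => Finset.sum_congr rfl fun p' _ => ?_
      rw [mul_comm]
    have hinv : InvAll (rep X) (W.map E) := by
      rintro x _ ⟨v, hv, rfl⟩
      rw [hEact]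
      exact ⟨_, hW x v hv, rfl⟩
    rcases (hU a).2.2 (W.map E) (by rw [← hEr]; exact LinearMap.map_le_range) hinv with h | h
    · left
      exact Submodule.map_injective_of_injective hEinj (h.trans (Submodule.map_bot E).symm)
    · right
      rw [← hEr, LinearMap.range_eq_map] at h
      exact Submodule.map_injective_of_injective hEinj h

end Vale.Agent.P002.H2
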