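import Vale.Agent.P002.H2.B6

/-!
# Polynomial functions of the data of a direct sum of induced representations
-/

namespace Vale.Agent.P002.H2

open Matrix NumberField Module Vale.Agent.P002R.Orb Vale.Agent.P002.H377

section mem

variable {S : Type*} (A : Subalgebra ℂ (S → ℂ))

theorem mem_mulM {l m n : Type} [Fintype m] {M : S → Matrix l m ℂ} {N : S → Matrix m n ℂ}
    (hM : ∀ i j, (fun s => M s i j) ∈ A) (hN : ∀ i j, (fun s => N s i j) ∈ A) (i : l) (j : n) :
    (fun s => (M s * N s) i j) ∈ A := by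
  have h : (fun s => (M s * N s) i j) = ∑ k, (fun s => M s i k) * fun s => N s k j := by
    funext s
    rw [Matrix.mul_apply, Finset.sum_apply]
    rfl
  rw [h]
  exact sum_mem fun k _ => mul_mem (hM i k) (hN k j)

theorem mem_detM {n : Type} [Fintype n] [DecidableEq n] {M : S → Matrix n n ℂ}
    (hM : ∀ i j, (fun s => M s i j) ∈ A) : (fun s => (M s).det) ∈ A := by
  have h : (fun s => (M s).det) = ∑ π : Equiv.Perm n, ((Equiv.Perm.sign π : ℤ) : ℂ) •
      ∏ i, fun s => M s (π i) i := by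
    funext s
    rw [Matrix.det_apply, Finset.sum_apply]
    refine Finset.sum_congr rfl fun π _ => ?_
    rw [Pi.smul_apply, Finset.prod_apply, smul_eq_mul]
    rw [Units.smul_def, zsmul_eq_mul]
  rw [h]
  exact sum_mem fun π _ => A.smul_mem (prod_mem fun i _ => hM _ _) _

theorem mem_eval {κ : Type*} (G : S → κ → ℂ) (hG : ∀ q, (fun s => G s q) ∈ A)
    (f : MvPolynomial κ ℂ) : (fun s => MvPolynomial.eval (G s) f) ∈ A := by
  induction f using MvPolynomial.induction_on with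
  | C a =>
    simp only [MvPolynomial.eval_C]
    exact A.algebraMap_mem a
  | add f g hf hg =>
    simp only [map_add]
    exact A.add_mem hf hg
  | mul_X f q hf =>
    simp only [map_mul, MvPolynomial.eval_X]
    exact A.mul_mem hf (hG q)

variable {F : Type} [Group F]

theorem mem_indM {Ω n : Type} {H : Subgroup F} {t : Ω → F} {τ : S → F → Matrix n n ℂ}
    (hτ : ∀ x ∈ H, ∀ i j, (fun s => τ s x i j) ∈ A) (x : F) (p q : Ω × n) :
    (fun s => indM H t (τ s) x p q) ∈ A := by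
  by_cases h : (t p.1)⁻¹ * x * t q.1 ∈ H
  · have h1 : (fun s => indM H t (τ s) x p q) =
        fun s => τ s ((t p.1)⁻¹ * x * t q.1) p.2 q.2 := by
      funext s
      exact indM_apply_of_mem h
    rw [h1]
    exact hτ _ h _ _
  · have h1 : (fun s => indM H t (τ s) x p q) = 0 := by
      funext s
      exact indM_apply_of_notMem h
    rw [h1]
    exact zero_mem _

theorem mem_G (T : Shape F) {τ : S → ∀ a, F → Matrix (Fin (T.n a)) (Fin (T.n a)) ℂ}
    (hτ : ∀ a, ∀ x ∈ T.H a, ∀ i j, (fun s => τ s a x i j) ∈ A) (x : F) (p q : T.Ix) :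
    (fun s => T.G (τ s) x p q) ∈ A := by
  obtain ⟨a, p⟩ := p
  obtain ⟨b, q⟩ := q
  by_cases h : a = b
  · subst h
    have h1 : (fun s => T.G (τ s) x ⟨a, p⟩ ⟨a, q⟩) =
        fun s => indM (T.H a) (T.t a) (τ s a) x p q := by
      funext s
      unfold Shape.G
      rw [Matrix.blockDiagonal'_apply_eq]
    rw [h1]
    exact mem_indM A (τ := fun s => τ s a) (hτ a) x p q
  · have h1 : (fun s => T.G (τ s) x ⟨a, p⟩ ⟨b, q⟩) = 0 := by
      funext s
      unfold Shape.G
      rw [Matrix.blockDiagonal'_apply_ne _ _ _ h]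
      rfl
    rw [h1]
    exact zero_mem _

end mem

variable {ι : Type}

/-- The matrices `P G(x) P⁻¹`. -/
noncomputable def conjG {r : ℕ} (T : Shape (FreeGroup ι)) (ε : Fin r ≃ T.Ix)
    (P : (Matrix (Fin r) (Fin r) ℂ)ˣ)
    (τ : ∀ a, FreeGroup ι → Matrix (Fin (T.n a)) (Fin (T.n a)) ℂ) (x : FreeGroup ι) :
    Matrix (Fin r) (Fin r) ℂ :=
  P.1 * (T.G τ x).submatrix ε ε * (P⁻¹).1

/-- The Burnside determinants. -/
noncomputable def burn (T : Shape (FreeGroup ι))
    (g : ∀ a, T.B a × T.B a → FreeGroup ι)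
    (τ : ∀ a, FreeGroup ι → Matrix (Fin (T.n a)) (Fin (T.n a)) ℂ) (a : Fin T.k) : ℂ :=
  (Matrix.of fun (k l : T.B a × T.B a) => indM (T.H a) (T.t a) (τ a) (g a k) l.1 l.2).det

/-- The function whose nonvanishing is preserved. -/
noncomputable def Theta {r : ℕ} (T : Shape (FreeGroup ι)) (ε : Fin r ≃ T.Ix)
    (P : (Matrix (Fin r) (Fin r) ℂ)ˣ) (f : MvPolynomial (ι × Fin r × Fin r) ℂ)
    (g : ∀ a, T.B a × T.B a → FreeGroup ι)
    (τ : ∀ a, FreeGroup ι → Matrix (Fin (T.n a)) (Fin (T.n a)) ℂ) : ℂ :=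
  MvPolynomial.eval (fun q : ι × Fin r × Fin r =>
    conjG T ε P τ (FreeGroup.of q.1) q.2.1 q.2.2) f * ∏ a, burn T g τ a

theorem mem_Theta {S : Type*} (A : Subalgebra ℂ (S → ℂ)) {r : ℕ} (T : Shape (FreeGroup ι))
    (ε : Fin r ≃ T.Ix) (P : (Matrix (Fin r) (Fin r) ℂ)ˣ)
    (f : MvPolynomial (ι × Fin r × Fin r) ℂ) (g : ∀ a, T.B a × T.B a → FreeGroup ι)
    {τ : S → ∀ a, FreeGroup ι → Matrix (Fin (T.n a)) (Fin (T.n a)) ℂ}
    (hτ : ∀ a, ∀ x ∈ T.H a, ∀ i j, (fun s => τ s a x i j) ∈ A) :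
    (fun s => Theta T ε P f g (τ s)) ∈ A := by
  have h1 : (fun s => MvPolynomial.eval (fun q : ι × Fin r × Fin r =>
    conjG T ε P (τ s) (FreeGroup.of q.1) q.2.1 q.2.2) f) ∈ A := by
    refine mem_eval A _ (fun q => ?_) f
    unfold conjG
    refine mem_mulM A (fun i j => mem_mulM A (fun i j => A.algebraMap_mem (P.1 i j))
      (fun i j => ?_) i j) (fun i j => A.algebraMap_mem ((P⁻¹).1 i j)) _ _
    exact mem_G A T hτ _ (ε i) (ε j)
  have h2 : (fun s => ∏ a, burn T g (τ s) a) ∈ A := by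
    have h3 : (fun s => ∏ a, burn T g (τ s) a) = ∏ a, fun s => burn T g (τ s) a := by
      funext s
      rw [Finset.prod_apply]
    rw [h3]
    refine prod_mem fun a _ => ?_
    unfold burn
    refine mem_detM A fun k l => ?_
    exact mem_indM A (τ := fun s => τ s a) (hτ a) (g a k) l.1 l.2
  exact mul_mem h1 h2

/-- Deformation of the `σ a`. -/
theorem deform_sigma {I : Type} [MulAction (FreeGroup ι) I] (C : Ctx (FreeGroup ι) I)
    (L : IntermediateField ℚ ℂ) {r : ℕ} (T : Shape (FreeGroup ι)) (ε : Fin r ≃ T.Ix)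
    (P : (Matrix (Fin r) (Fin r) ℂ)ˣ)
    (f : MvPolynomial (ι × Fin r × Fin r) ℂ) (g : ∀ a, T.B a × T.B a → FreeGroup ι)
    (χ : ∀ _ : Fin T.k, FreeGroup ι → ℂˣ)
    (σ : ∀ a : Fin T.k, FreeGroup ι → SpecialLinearGroup (Fin (T.n a)) ℂ)
    (hD : ∀ a, D C L (T.H a) (σ a))
    (h0 : Theta T ε P f g (fun a => tw (χ a) (σ a)) ≠ 0) :
    ∃ σ' : ∀ a : Fin T.k, FreeGroup ι → SpecialLinearGroup (Fin (T.n a)) ℂ,
      (∀ a, IsDef C L (T.H a) (σ a) (σ' a)) ∧ Theta T ε P f g (fun a => tw (χ a) (σ' a)) ≠ 0 := by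
  classical
  have key : ∀ s : Finset (Fin T.k),
      ∃ σ' : ∀ a : Fin T.k, FreeGroup ι → SpecialLinearGroup (Fin (T.n a)) ℂ,
      (∀ a ∈ s, IsDef C L (T.H a) (σ a) (σ' a)) ∧ (∀ a, a ∉ s → σ' a = σ a) ∧
      Theta T ε P f g (fun a => tw (χ a) (σ' a)) ≠ 0 := by
    intro s
    induction s using Finset.induction_on with
    | empty => exact ⟨σ, fun a ha => absurd ha (Finset.notMem_empty a), fun a _ => rfl, h0⟩
    | insert b s hb ih =>
      obtain ⟨σ', h1, h2, h3⟩ := ih
      obtain ⟨Φ, hΦ⟩ : ∃ Φ : (FreeGroup ι → SpecialLinearGroup (Fin (T.n b)) ℂ) → ℂ,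
          Φ = fun σb => Theta T ε P f g fun a => tw (χ a) (Function.update σ' b σb a) := ⟨_, rfl⟩
      have h4 : Φ ∈ PF (T.H b) (Fin (T.n b)) := by
        rw [hΦ]
        refine mem_Theta _ T ε P f g
          (τ := fun σb a => tw (χ a) (Function.update σ' b σb a)) fun a x hx i j => ?_
        by_cases hab : a = b
        · subst hab
          simp only [Function.update_self]
          exact (PF (T.H a) (Fin (T.n a))).smul_mem (PF_entry hx i j) _
        · simp only [Function.update_of_ne hab]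
          exact PF_const _ _
      have h5 : Φ (σ b) ≠ 0 := by
        rw [hΦ, ← h2 b hb]
        simp only [Function.update_eq_self]
        exact h3
      obtain ⟨σb, h6, h7⟩ := hD b Φ h4 h5
      refine ⟨Function.update σ' b σb, fun a ha => ?_, fun a ha => ?_, ?_⟩
      · by_cases hab : a = b
        · subst hab
          rw [Function.update_self]
          exact h6
        · rw [Function.update_of_ne hab]
          exact h1 a ((Finset.mem_insert.1 ha).resolve_left hab)
      · rw [Finset.mem_insert, not_or] at ha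
        rw [Function.update_of_ne ha.1]
        exact h2 a ha.2
      · rw [hΦ] at h7
        exact h7
  obtain ⟨σ', h1, -, h3⟩ := key Finset.univ
  exact ⟨σ', fun a => h1 a (Finset.mem_univ a), h3⟩

end Vale.Agent.P002.H2
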