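import Vale.Agent.P002.H2.Defs

/-!
# Closure properties of `D`
-/

namespace Vale.Agent.P002.H2

open Matrix NumberField Vale.Agent.P002R.Orb Kronecker

variable {F : Type} [Group F] {I : Type} [MulAction F I]

/-! ### The derived series -/

theorem dser_mono {A B : Subgroup F} (h : A ≤ B) (k : ℕ) : dser A k ≤ dser B k := by
  induction k with
  | zero => exact h
  | succ k ih => exact Subgroup.commutator_mono ih ih

theorem dser_succ_le (A : Subgroup F) (k : ℕ) : dser A (k + 1) ≤ dser A k := by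
  rw [dser, Subgroup.commutator_le]
  intro x hx y hy
  rw [commutatorElement_def]
  exact mul_mem (mul_mem (mul_mem hx hy) (inv_mem hx)) (inv_mem hy)

theorem dser_anti (A : Subgroup F) {k l : ℕ} (h : k ≤ l) : dser A l ≤ dser A k := by
  induction h with
  | refl => exact le_rfl
  | step _ ih => exact (dser_succ_le A _).trans ih

theorem dser_le (A : Subgroup F) (k : ℕ) : dser A k ≤ A := dser_anti A (Nat.zero_le k)

theorem dser_conj (A : Subgroup F) (g : F) (k : ℕ) :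
    dser (A.map (MulAut.conj g).toMonoidHom) k = (dser A k).map (MulAut.conj g).toMonoidHom := by
  induction k with
  | zero => rfl
  | succ k ih => rw [dser, dser, ih, Subgroup.map_commutator]

/-! ### Virtual solvability -/

theorem relIndex_of_le {A A' B : Subgroup F} (h : A' ≤ A) (hB : B.relIndex A ≠ 0) :
    (B ⊓ A').relIndex A' ≠ 0 := by
  rw [Subgroup.inf_relIndex_right]
  exact fun h0 => hB (Subgroup.relIndex_eq_zero_of_le_right h h0)

theorem VS.mono {M : Type*} [Monoid M] {A A' : Subgroup F} {ρ : F → M} (h : VS A ρ)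
    (hA : A' ≤ A) : VS A' ρ := by
  obtain ⟨B, hB, hi, k, hk⟩ := h
  exact ⟨B ⊓ A', inf_le_right, relIndex_of_le hA hi, k,
    fun x hx => hk x (dser_mono inf_le_left k hx)⟩

theorem VS.of_imp {M M' : Type*} [Monoid M] [Monoid M'] {A : Subgroup F} {ρ : F → M}
    {ρ' : F → M'} (h : VS A ρ) (hi : ∀ x ∈ A, ρ x = 1 → ρ' x = 1) : VS A ρ' := by
  obtain ⟨B, hB, hi', k, hk⟩ := h
  exact ⟨B, hB, hi', k, fun x hx => hi x (hB (dser_le B k hx)) (hk x hx)⟩

theorem VS.and {M M' M'' : Type*} [Monoid M] [Monoid M'] [Monoid M''] {A : Subgroup F}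
    {ρ : F → M} {ρ' : F → M'} {ρ'' : F → M''} (h : VS A ρ) (h' : VS A ρ')
    (hi : ∀ x ∈ A, ρ x = 1 → ρ' x = 1 → ρ'' x = 1) : VS A ρ'' := by
  obtain ⟨B, hB, hi1, k, hk⟩ := h
  obtain ⟨B', hB', hi2, k', hk'⟩ := h'
  refine ⟨B ⊓ B', inf_le_left.trans hB, Subgroup.relIndex_inf_ne_zero hi1 hi2, max k k',
    fun x hx => hi x ?_ ?_ ?_⟩
  · exact hB (dser_le B _ (dser_mono inf_le_left _ hx))
  · exact hk x (dser_anti B (le_max_left k k') (dser_mono inf_le_left _ hx))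
  · exact hk' x (dser_anti B' (le_max_right k k') (dser_mono inf_le_right _ hx))

/-! ### Polynomial functions -/

section

variable {n m : Type} [Fintype n] [DecidableEq n] [Fintype m] [DecidableEq m]

theorem PF_entry {H : Subgroup F} {x : F} (hx : x ∈ H) (i j : n) :
    (fun σ : F → SpecialLinearGroup n ℂ => (σ x).1 i j) ∈ PF H n :=
  Algebra.subset_adjoin ⟨x, hx, i, j, rfl⟩

theorem PF_const (H : Subgroup F) (c : ℂ) :
    (fun _ : F → SpecialLinearGroup n ℂ => c) ∈ PF H n :=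
  (PF H n).algebraMap_mem c

theorem PF_mono {H H' : Subgroup F} (h : H' ≤ H) : PF H' n ≤ PF H n := by
  refine Algebra.adjoin_mono ?_
  rintro P ⟨x, hx, i, j, rfl⟩
  exact ⟨x, h hx, i, j, rfl⟩

theorem PF_comp {H H' : Subgroup F} (Φ : (F → SpecialLinearGroup n ℂ) → F → SpecialLinearGroup m ℂ)
    (hΦ : ∀ x ∈ H', ∀ i j, (fun σ => (Φ σ x).1 i j) ∈ PF H n)
    {P : (F → SpecialLinearGroup m ℂ) → ℂ} (hP : P ∈ PF H' m) :
    (fun σ => P (Φ σ)) ∈ PF H n := by
  unfold PF at hP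
  induction hP using Algebra.adjoin_induction with
  | mem P hP =>
    obtain ⟨x, hx, i, j, rfl⟩ := hP
    exact hΦ x hx i j
  | algebraMap c => exact PF_const H c
  | add P Q _ _ hP hQ => exact add_mem hP hQ
  | mul P Q _ _ hP hQ => exact mul_mem hP hQ

end

/-! ### Closure of `D` -/

theorem IntOn.mono {n : Type} {L L' : IntermediateField ℚ ℂ} (h : L ≤ L')
    {H : Subgroup F} {A : F → Matrix n n ℂ} (hA : IntOn L H A) : IntOn L' H A := by
  intro x hx i j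
  obtain ⟨a, ha⟩ := hA x hx i j
  refine ⟨⟨⟨a.1.1, h a.1.2⟩, ?_⟩, ha⟩
  have h1 : IsIntegral ℤ (a.1 : L) := a.2
  have h2 : IsIntegral ℤ (a.1.1 : ℂ) := h1.map L.val
  exact (isIntegral_algHom_iff (L'.val.restrictScalars ℤ) L'.val.injective).1 h2

theorem D.mono {C : Ctx F I} {L L' : IntermediateField ℚ ℂ} (h : L ≤ L') {H : Subgroup F}
    {n : Type} [Fintype n] [DecidableEq n] {σ : F → SpecialLinearGroup n ℂ} (hD : D C L H σ) :
    D C L' H σ := by
  intro P hP h0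
  obtain ⟨σ', h1, h2⟩ := hD P hP h0
  obtain ⟨Q, hQ⟩ := h1.int
  exact ⟨σ', ⟨h1.mul, ⟨Q, hQ.mono h⟩, h1.z, h1.rel, h1.vs⟩, h2⟩

theorem MulOn.mono {M : Type*} [Monoid M] {H H' : Subgroup F} {ρ : F → M} (h : MulOn H ρ)
    (hH : H' ≤ H) : MulOn H' ρ :=
  ⟨h.one, fun x hx y hy => h.mul x (hH hx) y (hH hy)⟩

theorem D.restrict {C : Ctx F I} {L : IntermediateField ℚ ℂ} {H H' : Subgroup F} (h : H' ≤ H)
    {n : Type} [Fintype n] [DecidableEq n] {σ : F → SpecialLinearGroup n ℂ} (hD : D C L H σ) :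
    D C L H' σ := by
  intro P hP h0
  obtain ⟨σ', h1, h2⟩ := hD P (PF_mono h hP) h0
  obtain ⟨Q, hQ⟩ := h1.int
  exact ⟨σ', ⟨h1.mul.mono h, ⟨Q, fun x hx => hQ x (h hx)⟩, h1.z,
    fun y hy hyH => h1.rel y hy (h hyH), h1.vs.mono (inf_le_inf_left _ h)⟩, h2⟩

section

variable {n m : Type} [Fintype n] [DecidableEq n] [Fintype m] [DecidableEq m]

/-- the tensor product -/
def kron (A : SpecialLinearGroup n ℂ) (B : SpecialLinearGroup m ℂ) :
    SpecialLinearGroup (n × m) ℂ :=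
  ⟨A.1 ⊗ₖ B.1, by rw [Matrix.det_kronecker, A.2, B.2, one_pow, one_pow, one_mul]⟩

theorem kron_val (A : SpecialLinearGroup n ℂ) (B : SpecialLinearGroup m ℂ) :
    (kron A B).1 = A.1 ⊗ₖ B.1 := rfl

theorem kron_one : kron (1 : SpecialLinearGroup n ℂ) (1 : SpecialLinearGroup m ℂ) = 1 :=
  Subtype.ext (Matrix.one_kronecker_one (m := n) (n := m) (α := ℂ))

theorem kron_mul (A A' : SpecialLinearGroup n ℂ) (B B' : SpecialLinearGroup m ℂ) :
    kron (A * A') (B * B') = kron A B * kron A' B' :=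
  Subtype.ext (Matrix.mul_kronecker_mul A.1 A'.1 B.1 B'.1)

theorem kron_isConj {A A' : SpecialLinearGroup n ℂ} {B B' : SpecialLinearGroup m ℂ}
    (h : IsConj A A') (h' : IsConj B B') : IsConj (kron A B) (kron A' B') := by
  obtain ⟨c, hc⟩ := isConj_iff.1 h
  obtain ⟨d, hd⟩ := isConj_iff.1 h'
  refine isConj_iff.2 ⟨kron c d, ?_⟩
  rw [mul_inv_eq_iff_eq_mul, ← kron_mul, ← kron_mul, ← hc, ← hd, inv_mul_cancel_right,
    inv_mul_cancel_right]

/-- sums and products of elements of `𝓞 L` -/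
theorem OL_mul {L : IntermediateField ℚ ℂ} {x y : ℂ} (hx : ∃ a : 𝓞 L, x = a.1.1)
    (hy : ∃ a : 𝓞 L, y = a.1.1) : ∃ a : 𝓞 L, x * y = a.1.1 := by
  obtain ⟨a, rfl⟩ := hx
  obtain ⟨b, rfl⟩ := hy
  exact ⟨a * b, rfl⟩

theorem OL_sum {L : IntermediateField ℚ ℂ} {κ : Type*} (s : Finset κ) (f : κ → ℂ)
    (hf : ∀ i ∈ s, ∃ a : 𝓞 L, f i = a.1.1) : ∃ a : 𝓞 L, ∑ i ∈ s, f i = a.1.1 := by
  classical
  induction s using Finset.induction_on with
  | empty => exact ⟨0, Finset.sum_empty⟩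
  | insert i s hi ih =>
    rw [Finset.sum_insert hi]
    obtain ⟨a, ha⟩ := hf i (Finset.mem_insert_self i s)
    obtain ⟨b, hb⟩ := ih fun j hj => hf j (Finset.mem_insert_of_mem hj)
    exact ⟨a + b, by rw [ha, hb]; rfl⟩

theorem OL_prod {L : IntermediateField ℚ ℂ} {κ : Type*} (s : Finset κ) (f : κ → ℂ)
    (hf : ∀ i ∈ s, ∃ a : 𝓞 L, f i = a.1.1) : ∃ a : 𝓞 L, ∏ i ∈ s, f i = a.1.1 := by
  classical
  induction s using Finset.induction_on with
  | empty => exact ⟨1, Finset.prod_empty⟩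
  | insert i s hi ih =>
    rw [Finset.prod_insert hi]
    exact OL_mul (hf i (Finset.mem_insert_self i s)) (ih fun j hj => hf j (Finset.mem_insert_of_mem hj))

/-- the Kronecker product of invertible matrices -/
def kronU (Q : (Matrix n n ℂ)ˣ) (Q' : (Matrix m m ℂ)ˣ) : (Matrix (n × m) (n × m) ℂ)ˣ :=
  ⟨Q.1 ⊗ₖ Q'.1, (Q⁻¹).1 ⊗ₖ (Q'⁻¹).1, by
    rw [← Matrix.mul_kronecker_mul, Units.mul_inv, Units.mul_inv, Matrix.one_kronecker_one], by
    rw [← Matrix.mul_kronecker_mul, Units.inv_mul, Units.inv_mul, Matrix.one_kronecker_one]⟩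

theorem D.tensor {C : Ctx F I} {L : IntermediateField ℚ ℂ} {H : Subgroup F}
    {σ : F → SpecialLinearGroup n ℂ} {τ : F → SpecialLinearGroup m ℂ}
    (h1 : D C L H σ) (h2 : D C L H τ) : D C L H fun x => kron (σ x) (τ x) := by
  intro P hP h0
  have e1 : (fun σ₁ : F → SpecialLinearGroup n ℂ => P fun x => kron (σ₁ x) (τ x)) ∈ PF H n := by
    refine PF_comp (fun σ₁ x => kron (σ₁ x) (τ x)) (fun x hx i j => ?_) hP
    exact mul_mem (PF_entry hx i.1 j.1) (PF_const H ((τ x).1 i.2 j.2))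
  obtain ⟨σ', hσ', h3⟩ := h1 _ e1 h0
  have e2 : (fun τ₁ : F → SpecialLinearGroup m ℂ => P fun x => kron (σ' x) (τ₁ x)) ∈ PF H m := by
    refine PF_comp (fun τ₁ x => kron (σ' x) (τ₁ x)) (fun x hx i j => ?_) hP
    exact mul_mem (PF_const H ((σ' x).1 i.1 j.1)) (PF_entry hx i.2 j.2)
  obtain ⟨τ', hτ', h4⟩ := h2 _ e2 h3
  refine ⟨fun x => kron (σ' x) (τ' x), ⟨⟨?_, fun x hx y hy => ?_⟩, ?_, fun x hx => ?_,
    fun y hy hyH => kron_isConj (hσ'.rel y hy hyH) (hτ'.rel y hy hyH), ?_⟩, h4⟩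
  · rw [hσ'.mul.one, hτ'.mul.one, kron_one]
  · rw [hσ'.mul.mul x hx y hy, hτ'.mul.mul x hx y hy, kron_mul]
  · obtain ⟨Q, hQ⟩ := hσ'.int
    obtain ⟨Q', hQ'⟩ := hτ'.int
    refine ⟨kronU Q Q', fun x hx i j => ?_⟩
    have h5 : (kronU Q Q').1 * (kron (σ' x) (τ' x)).1 * ((kronU Q Q')⁻¹).1 =
        (Q.1 * (σ' x).1 * (Q⁻¹).1) ⊗ₖ (Q'.1 * (τ' x).1 * (Q'⁻¹).1) := by
      rw [Matrix.mul_kronecker_mul, Matrix.mul_kronecker_mul]
      rfl
    have h6 := OL_mul (hQ x hx i.1 j.1) (hQ' x hx i.2 j.2)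
    obtain ⟨a, ha⟩ := h6
    exact ⟨a, (congrFun (congrFun h5 i) j).trans ha⟩
  · rw [hσ'.z x hx, hτ'.z x hx]
  · refine hσ'.vs.and hτ'.vs fun x _ ha hb => ?_
    change kron (σ' x) (τ' x) = 1
    rw [ha, hb, kron_one]

/-- change of the index type -/
def reidx (e : n ≃ m) (A : SpecialLinearGroup n ℂ) : SpecialLinearGroup m ℂ :=
  ⟨Matrix.reindex e e A.1, by rw [Matrix.det_reindex_self, A.2]⟩

theorem reidx_one (e : n ≃ m) : reidx e (1 : SpecialLinearGroup n ℂ) = 1 := by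
  apply Subtype.ext
  change Matrix.reindex e e (1 : Matrix n n ℂ) = 1
  simp

theorem reidx_mul (e : n ≃ m) (A B : SpecialLinearGroup n ℂ) :
    reidx e (A * B) = reidx e A * reidx e B := by
  apply Subtype.ext
  change Matrix.reindex e e (A.1 * B.1) = Matrix.reindex e e A.1 * Matrix.reindex e e B.1
  simp [Matrix.reindex_apply, Matrix.submatrix_mul_equiv]

theorem D.reidx {C : Ctx F I} {L : IntermediateField ℚ ℂ} {H : Subgroup F} (e : n ≃ m)
    {σ : F → SpecialLinearGroup n ℂ} (h : D C L H σ) :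
    D C L H fun x => reidx e (σ x) := by
  intro P hP h0
  have e1 : (fun σ₁ : F → SpecialLinearGroup n ℂ => P fun x => H2.reidx e (σ₁ x)) ∈ PF H n :=
    PF_comp (fun σ₁ x => H2.reidx e (σ₁ x)) (fun x hx i j => PF_entry hx (e.symm i) (e.symm j)) hP
  obtain ⟨σ', hσ', h3⟩ := h _ e1 h0
  refine ⟨fun x => H2.reidx e (σ' x), ⟨⟨?_, fun x hx y hy => ?_⟩, ?_, fun x hx => ?_,
    fun y hy hyH => ?_, ?_⟩, h3⟩
  · rw [hσ'.mul.one, reidx_one]
  · rw [hσ'.mul.mul x hx y hy, reidx_mul]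
  · obtain ⟨Q, hQ⟩ := hσ'.int
    refine ⟨⟨Matrix.reindex e e Q.1, Matrix.reindex e e (Q⁻¹).1, ?_, ?_⟩, fun x hx i j => ?_⟩
    · simp [Matrix.reindex_apply, Matrix.submatrix_mul_equiv]
    · simp [Matrix.reindex_apply, Matrix.submatrix_mul_equiv]
    · have h5 : Matrix.reindex e e Q.1 * (H2.reidx e (σ' x)).1 * Matrix.reindex e e (Q⁻¹).1 =
          Matrix.reindex e e (Q.1 * (σ' x).1 * (Q⁻¹).1) := by
        change Matrix.reindex e e Q.1 * Matrix.reindex e e (σ' x).1 * Matrix.reindex e e (Q⁻¹).1 = _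
        simp only [Matrix.reindex_apply, Matrix.submatrix_mul_equiv]
      obtain ⟨a, ha⟩ := hQ x hx (e.symm i) (e.symm j)
      exact ⟨a, (congrFun (congrFun h5 i) j).trans ha⟩
  · rw [hσ'.z x hx]
  · obtain ⟨c, hc⟩ := isConj_iff.1 (hσ'.rel y hy hyH)
    refine isConj_iff.2 ⟨H2.reidx e c, ?_⟩
    rw [mul_inv_eq_iff_eq_mul, ← reidx_mul, ← reidx_mul, ← hc, inv_mul_cancel_right]
  · exact hσ'.vs.of_imp fun x _ ha => by
      change H2.reidx e (σ' x) = 1
      rw [ha, reidx_one]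

/-- dimension at most one -/
theorem D.of_subsingleton {C : Ctx F I} {L : IntermediateField ℚ ℂ} {H : Subgroup F}
    [Subsingleton n] {σ : F → SpecialLinearGroup n ℂ} : D C L H σ := by
  have hone : ∀ A : SpecialLinearGroup n ℂ, A = 1 := by
    intro A
    rcases isEmpty_or_nonempty n with h | h
    · exact Subtype.ext (Matrix.ext fun i => isEmptyElim i)
    · have : Unique n := ⟨⟨Classical.choice h⟩, fun a => Subsingleton.elim _ _⟩
      apply Subtype.ext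
      have h1 := A.2
      rw [Matrix.det_unique] at h1
      ext i j
      rw [Subsingleton.elim i default, Subsingleton.elim j default, h1]
      simp
  intro P _ h0
  refine ⟨σ, ⟨⟨hone _, fun x _ y _ => by rw [hone (σ x), hone (σ y), hone (σ (x * y)), one_mul]⟩,
    ⟨1, fun x _ i j => ?_⟩, fun _ _ => rfl, fun _ _ _ => IsConj.refl _,
    ⟨C.K ⊓ H, le_rfl, by rw [Subgroup.relIndex_self]; exact one_ne_zero, 0, fun x _ => hone _⟩⟩, h0⟩
  refine ⟨1, ?_⟩
  have h1 : ((1 : (Matrix n n ℂ)ˣ).1 * (σ x).1 * ((1 : (Matrix n n ℂ)ˣ)⁻¹).1) = 1 := by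
    rw [hone (σ x), inv_one, Units.val_one, one_mul, mul_one]
    rfl
  refine (congrFun (congrFun h1 i) j).trans ?_
  rw [Subsingleton.elim i j, Matrix.one_apply_eq]
  rfl

end

end Vale.Agent.P002.H2
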