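import Mathlib
import Vale.Agent.P002.H306.Struct
import Vale.Agent.P002.H306.Dens
import Vale.Agent.P002.H306.Bez

/-!
# Integral points of subtori (the torus lemma)
-/

namespace Vale.Agent.P002.H2

open NumberField Vale.Agent.P002.H306

variable {J : Type} [Fintype J]

/-- Laurent polynomials on the torus `(ℂˣ)^J`. -/
def LauJ (J : Type) : Subalgebra ℂ ((J → ℂˣ) → ℂ) :=
  Algebra.adjoin ℂ ({P | ∃ j, P = fun t => (t j : ℂ)} ∪ {P | ∃ j, P = fun t => (((t j)⁻¹ : ℂˣ) : ℂ)})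

/-- the monomial `∏ t_j ^ b_j` -/
def mono (t : J → ℂˣ) (b : J → ℤ) : ℂˣ := ∏ j, t j ^ b j

theorem mono_add (t : J → ℂˣ) (b b' : J → ℤ) : mono t (b + b') = mono t b * mono t b' := by
  unfold mono
  rw [← Finset.prod_mul_distrib]
  exact Finset.prod_congr rfl fun j _ => zpow_add _ _ _

theorem mono_zero (t : J → ℂˣ) : mono t 0 = 1 := by
  unfold mono
  simp

theorem mono_neg (t : J → ℂˣ) (b : J → ℤ) : mono t (-b) = (mono t b)⁻¹ := by
  rw [eq_inv_iff_mul_eq_one, ← mono_add, neg_add_cancel, mono_zero]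

theorem mono_sub (t : J → ℂˣ) (b b' : J → ℤ) : mono t (b - b') = mono t b * (mono t b')⁻¹ := by
  rw [sub_eq_add_neg, mono_add, mono_neg]

theorem mono_zsmul (t : J → ℂˣ) (m : ℤ) (b : J → ℤ) : mono t (m • b) = mono t b ^ m := by
  unfold mono
  rw [← Finset.prod_zpow]
  refine Finset.prod_congr rfl fun j _ => ?_
  rw [Pi.smul_apply, smul_eq_mul, mul_comm, zpow_mul]

theorem mono_nsmul (t : J → ℂˣ) (m : ℕ) (b : J → ℤ) : mono t (m • b) = mono t b ^ m := by
  rw [← natCast_zsmul, mono_zsmul, zpow_natCast]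

theorem mono_sum (t : J → ℂˣ) {κ : Type} (s : Finset κ) (b : κ → J → ℤ) :
    mono t (∑ i ∈ s, b i) = ∏ i ∈ s, mono t (b i) := by
  classical
  induction s using Finset.induction_on with
  | empty => rw [Finset.sum_empty, Finset.prod_empty, mono_zero]
  | insert i s hi ih => rw [Finset.sum_insert hi, Finset.prod_insert hi, mono_add, ih]

theorem mono_mul (t t' : J → ℂˣ) (b : J → ℤ) :
    mono (fun j => t j * t' j) b = mono t b * mono t' b := by
  unfold mono
  rw [← Finset.prod_mul_distrib]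
  exact Finset.prod_congr rfl fun j _ => mul_zpow _ _ _

theorem mono_single [DecidableEq J] (t : J → ℂˣ) (j : J) : mono t (Pi.single j 1) = t j := by
  unfold mono
  rw [Finset.prod_eq_single j]
  · simp
  · intro b _ hb
    simp [hb]
  · intro h
    exact absurd (Finset.mem_univ j) h

theorem zpow_sum' {G : Type*} [CommGroup G] {κ : Type*} (y : G) (s : Finset κ) (f : κ → ℤ) :
    y ^ (∑ i ∈ s, f i) = ∏ i ∈ s, y ^ f i := by
  classical
  induction s using Finset.induction_on with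
  | empty => rw [Finset.sum_empty, Finset.prod_empty, zpow_zero]
  | insert i s hi ih => rw [Finset.sum_insert hi, Finset.prod_insert hi, zpow_add, ih]

/-- A unit of infinite order. -/
theorem exists_unit : ∃ u : ℂˣ, IsIntegral ℤ (u : ℂ) ∧ IsIntegral ℤ ((u⁻¹ : ℂˣ) : ℂ) ∧
    ∀ n : ℕ, 0 < n → u ^ n ≠ 1 := by
  have h2 : Real.sqrt 2 * Real.sqrt 2 = 2 := Real.mul_self_sqrt (by norm_num)
  have h1 : ((Real.sqrt 2 : ℝ) : ℂ) * ((Real.sqrt 2 : ℝ) : ℂ) = 2 := by
    rw [← Complex.ofReal_mul, h2, Complex.ofReal_ofNat]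
  obtain ⟨u, hu, hui⟩ : ∃ u : ℂˣ, (u : ℂ) = 1 + ((Real.sqrt 2 : ℝ) : ℂ) ∧
      ((u⁻¹ : ℂˣ) : ℂ) = ((Real.sqrt 2 : ℝ) : ℂ) - 1 :=
    ⟨⟨1 + ((Real.sqrt 2 : ℝ) : ℂ), ((Real.sqrt 2 : ℝ) : ℂ) - 1, by linear_combination h1,
      by linear_combination h1⟩, rfl, rfl⟩
  have hs : IsIntegral ℤ ((Real.sqrt 2 : ℝ) : ℂ) := by
    refine IsIntegral.of_pow (n := 2) (by norm_num) ?_
    rw [pow_two, h1]
    exact_mod_cast (isIntegral_algebraMap (R := ℤ) (A := ℂ) (x := 2))
  refine ⟨u, ?_, ?_, fun n hn h => ?_⟩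
  · rw [hu]
    exact isIntegral_one.add hs
  · rw [hui]
    exact hs.sub isIntegral_one
  · have h3 : ((1 + Real.sqrt 2 : ℝ) : ℂ) ^ n = 1 := by
      rw [Complex.ofReal_add, Complex.ofReal_one, ← hu, ← Units.val_pow_eq_pow_val, h,
        Units.val_one]
    have h4 : (1 + Real.sqrt 2 : ℝ) ^ n = 1 := by
      rw [← Complex.ofReal_pow] at h3
      exact_mod_cast h3
    have h5 : (1 : ℝ) < 1 + Real.sqrt 2 := by
      have : 0 < Real.sqrt 2 := Real.sqrt_pos.2 (by norm_num)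
      linarith
    exact absurd h4 (one_lt_pow₀ h5 hn.ne').ne'

/-- elements of `𝓞 L` -/
def InO (L : IntermediateField ℚ ℂ) (z : ℂ) : Prop := ∃ a : 𝓞 L, z = a.1.1

theorem InO.of_mem {L : IntermediateField ℚ ℂ} {z : ℂ} (hz : z ∈ L) (hi : IsIntegral ℤ z) :
    InO L z := by
  refine ⟨⟨⟨z, hz⟩, ?_⟩, rfl⟩
  exact (isIntegral_algHom_iff (L.val.restrictScalars ℤ) L.val.injective).1 hi

theorem InO.mul {L : IntermediateField ℚ ℂ} {x y : ℂ} (hx : InO L x) (hy : InO L y) :
    InO L (x * y) := by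
  obtain ⟨a, rfl⟩ := hx
  obtain ⟨b, rfl⟩ := hy
  exact ⟨a * b, rfl⟩

theorem InO.one (L : IntermediateField ℚ ℂ) : InO L 1 := ⟨1, rfl⟩

theorem InO.prod {L : IntermediateField ℚ ℂ} {κ : Type*} (s : Finset κ) (f : κ → ℂ)
    (hf : ∀ i ∈ s, InO L (f i)) : InO L (∏ i ∈ s, f i) := by
  classical
  induction s using Finset.induction_on with
  | empty => rw [Finset.prod_empty]; exact InO.one L
  | insert i s hi ih =>
    rw [Finset.prod_insert hi]
    exact (hf i (Finset.mem_insert_self i s)).mul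
      (ih fun j hj => hf j (Finset.mem_insert_of_mem hj))

theorem InO.zpow {L : IntermediateField ℚ ℂ} {x : ℂˣ} (hx : InO L (x : ℂ))
    (hx' : InO L ((x⁻¹ : ℂˣ) : ℂ)) (k : ℤ) : InO L ((x ^ k : ℂˣ) : ℂ) := by
  have key : ∀ (y : ℂˣ) (m : ℕ), InO L (y : ℂ) → InO L ((y ^ m : ℂˣ) : ℂ) := by
    intro y m hy
    induction m with
    | zero => rw [pow_zero, Units.val_one]; exact InO.one L
    | succ m ih => rw [pow_succ, Units.val_mul]; exact ih.mul hy
  rcases Int.eq_nat_or_neg k with ⟨n, rfl | rfl⟩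
  · rw [zpow_natCast]
    exact key x n hx
  · rw [zpow_neg, zpow_natCast, ← inv_pow]
    exact key _ n hx'

theorem InO.mono {L L' : IntermediateField ℚ ℂ} (h : L ≤ L') {z : ℂ} (hz : InO L z) :
    InO L' z := by
  obtain ⟨a, rfl⟩ := hz
  exact InO.of_mem (h a.1.2) (a.2.map L.val)

/-- **The torus lemma.** -/
theorem torus (M : ℕ) (hM : 0 < M) (B : AddSubgroup (J → ℤ)) :
    ∃ L : IntermediateField ℚ ℂ, FiniteDimensional ℚ L ∧
      ∀ t : J → ℂˣ, (∀ b ∈ B, mono t b ^ M = 1) → ∀ Ψ ∈ LauJ J, Ψ t ≠ 0 →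
        ∃ t' : J → ℂˣ, (∀ b ∈ B, mono t' b = mono t b) ∧
          (∀ j, InO L (t' j : ℂ) ∧ InO L (((t' j)⁻¹ : ℂˣ) : ℂ)) ∧ Ψ t' ≠ 0 := by
  classical
  obtain ⟨s, e, k, g, hk, hB, he⟩ := struct B
  obtain ⟨u, hu1, hu2, hu3⟩ := exists_unit
  have hkM : 0 < k * M := Nat.mul_pos hk hM
  have hfin : ({z : ℂ | z ^ (k * M) = 1} ∪ {(u : ℂ), ((u⁻¹ : ℂˣ) : ℂ)}).Finite := by
    refine Set.Finite.union ?_ (Set.toFinite _)
    exact (Multiset.finite_toSet (Polynomial.nthRoots (k * M) (1 : ℂ))).subset fun z hz =>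
      (Polynomial.mem_nthRoots hkM).2 hz
  obtain ⟨L, hL⟩ : ∃ L, L = IntermediateField.adjoin ℚ
    ({z : ℂ | z ^ (k * M) = 1} ∪ {(u : ℂ), ((u⁻¹ : ℂˣ) : ℂ)}) := ⟨_, rfl⟩
  have hroot : ∀ z : ℂ, z ^ (k * M) = 1 → IsIntegral ℤ z := fun z hz =>
    IsIntegral.of_pow hkM (by rw [hz]; exact isIntegral_one)
  have hfd : FiniteDimensional ℚ L := by
    rw [hL]
    refine exists_nf _ hfin ?_
    rintro z (hz | rfl | rfl)
    · exact (hroot z hz).tower_top
    · exact hu1.tower_top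
    · exact hu2.tower_top
  have hζL : ∀ z : ℂ, z ^ (k * M) = 1 → InO L z := fun z hz => InO.of_mem
    (by rw [hL]; exact IntermediateField.subset_adjoin _ _ (Or.inl hz)) (hroot z hz)
  have huL : InO L (u : ℂ) := InO.of_mem
    (by rw [hL]; exact IntermediateField.subset_adjoin _ _ (Or.inr (Or.inl rfl))) hu1
  have huL' : InO L ((u⁻¹ : ℂˣ) : ℂ) := InO.of_mem
    (by rw [hL]; exact IntermediateField.subset_adjoin _ _ (Or.inr (Or.inr rfl))) hu2
  refine ⟨L, hfd, fun t ht Ψ hΨ h0 => ?_⟩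
  -- the coordinates
  obtain ⟨E, hE⟩ : ∃ E : J → Fin s → ℤ, E = fun j => e (Pi.single j 1) := ⟨_, rfl⟩
  have heE : ∀ b : J → ℤ, ∀ i, e b i = ∑ j, b j * E j i := by
    intro b i
    have h1 : b = ∑ j, b j • (Pi.single j (1 : ℤ) : J → ℤ) := by
      funext l
      rw [Finset.sum_apply, Finset.sum_eq_single l]
      · simp
      · intro j _ hj
        simp [hj.symm]
      · intro h
        exact absurd (Finset.mem_univ l) h
    conv_lhs => rw [h1]
    rw [map_sum, Finset.sum_apply]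
    refine Finset.sum_congr rfl fun j _ => ?_
    rw [map_zsmul, Pi.smul_apply, hE, smul_eq_mul]
  obtain ⟨y, hy⟩ : ∃ y : Fin s → ℂˣ, y = fun i => mono t (g i) := ⟨_, rfl⟩
  obtain ⟨ζ, hζ⟩ : ∃ ζ : J → ℂˣ, ζ = fun j => t j * (∏ i, y i ^ E j i)⁻¹ := ⟨_, rfl⟩
  obtain ⟨T, hT⟩ : ∃ T : (Fin s → ℂˣ) → J → ℂˣ, T = fun y j => ζ j * ∏ i, y i ^ E j i :=
    ⟨_, rfl⟩
  have hTy : T y = t := by
    rw [hT, hζ]
    funext j
    simp
  have hmT : ∀ (y : Fin s → ℂˣ) b, mono (T y) b = mono ζ b * ∏ i, y i ^ e b i := by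
    intro y b
    rw [hT, mono_mul]
    congr 1
    unfold mono
    simp only [← Finset.prod_zpow]
    rw [Finset.prod_comm]
    refine Finset.prod_congr rfl fun i _ => ?_
    rw [heE, zpow_sum']
    refine Finset.prod_congr rfl fun j _ => ?_
    rw [mul_comm, zpow_mul]
  have hζ1 : ∀ b, mono ζ b ^ (k * M) = 1 := by
    intro b
    have h1 : mono ζ b = mono t (b - ∑ i, e b i • g i) := by
      have h2 := hmT y b
      rw [hTy] at h2
      rw [mono_sub, h2, mono_sum]
      simp only [mono_zsmul, hy]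
      rw [mul_inv_cancel_right]
    rw [h1, pow_mul, ← mono_nsmul]
    exact ht _ (he b)
  have key : ∀ P ∈ LauJ J, ∀ (y : Fin s → ℂˣ) (i : Fin s),
      (fun c => P (T (Function.update y i c))) ∈ Lau := by
    intro P hP y i
    unfold LauJ at hP
    induction hP using Algebra.adjoin_induction with
    | mem P hP =>
      have h2 : ∀ j, ∃ a : ℂˣ, ∀ c, T (Function.update y i c) j = a * c ^ E j i := by
        intro j
        refine ⟨ζ j * ∏ l ∈ Finset.univ.erase i, y l ^ E j l, fun c => ?_⟩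
        rw [hT]
        change ζ j * ∏ l, _ = _
        rw [← Finset.mul_prod_erase _ _ (Finset.mem_univ i), Function.update_self]
        have h3 : ∏ l ∈ Finset.univ.erase i, Function.update y i c l ^ E j l =
            ∏ l ∈ Finset.univ.erase i, y l ^ E j l := by
          refine Finset.prod_congr rfl fun l hl => ?_
          rw [Function.update_of_ne (Finset.ne_of_mem_erase hl)]
        rw [h3, mul_assoc, mul_comm (c ^ E j i), ← mul_assoc]
      rcases hP with ⟨j, rfl⟩ | ⟨j, rfl⟩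
      · obtain ⟨a, ha⟩ := h2 j
        have h4 : (fun c => ((T (Function.update y i c) j : ℂˣ) : ℂ)) =
            algebraMap ℂ (ℂˣ → ℂ) (a : ℂ) * fun c : ℂˣ => ((c ^ E j i : ℂˣ) : ℂ) := by
          funext c
          rw [ha, Units.val_mul]
          rfl
        rw [h4]
        exact mul_mem (Lau.algebraMap_mem _) (Lau_zpow _)
      · obtain ⟨a, ha⟩ := h2 j
        have h4 : (fun c => (((T (Function.update y i c) j)⁻¹ : ℂˣ) : ℂ)) =
            algebraMap ℂ (ℂˣ → ℂ) ((a⁻¹ : ℂˣ) : ℂ) * fun c : ℂˣ => ((c ^ (-E j i) : ℂˣ) : ℂ) := by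
          funext c
          rw [ha, mul_inv, Units.val_mul, ← zpow_neg]
          rfl
        rw [h4]
        exact mul_mem (Lau.algebraMap_mem _) (Lau_zpow _)
    | algebraMap c => exact Lau.algebraMap_mem c
    | add P Q _ _ hP hQ => exact add_mem hP hQ
    | mul P Q _ _ hP hQ => exact mul_mem hP hQ
  by_contra hcon
  push Not at hcon
  have h1 : ∀ y : Fin s → ℂˣ, Ψ (T y) = 0 := by
    refine multi_Lau (fun y => Ψ (T y)) ?_ (Set.range fun m : ℤ => u ^ m) ?_ ?_
    · exact fun y i => key Ψ hΨ y i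
    · refine Set.infinite_range_of_injective ?_
      intro a b hab
      have h2 : u ^ (a - b) = 1 := by
        have : u ^ a = u ^ b := hab
        rw [zpow_sub, this, mul_inv_cancel]
      by_contra hne
      have h3 : (a - b).natAbs ≠ 0 := fun h => hne (sub_eq_zero.1 (Int.natAbs_eq_zero.1 h))
      refine hu3 _ (Nat.pos_of_ne_zero h3) ?_
      rcases Int.natAbs_eq (a - b) with h | h
      · rw [h, zpow_natCast] at h2
        exact h2
      · rw [h, zpow_neg, zpow_natCast, inv_eq_one] at h2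
        exact h2
    · intro y' hy'
      refine hcon (T y') (fun b hb => ?_) fun j => ?_
      · have h2 := hmT y' b
        have h3 := hmT y b
        rw [hTy] at h3
        rw [h2, h3, hB b hb]
        simp
      · have h2 : ∀ i, InO L (y' i : ℂ) ∧ InO L (((y' i)⁻¹ : ℂˣ) : ℂ) := by
          intro i
          obtain ⟨m, hm⟩ := hy' i
          have hm' : u ^ m = y' i := hm
          rw [← hm', ← zpow_neg]
          exact ⟨huL.zpow huL' m, huL.zpow huL' (-m)⟩
        have h3 : ∀ j, (ζ j) ^ (k * M) = 1 := fun j => by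
          have := hζ1 (Pi.single j 1)
          rwa [mono_single] at this
        have h4 : InO L (ζ j : ℂ) := hζL _ (by
          rw [← Units.val_pow_eq_pow_val, h3, Units.val_one])
        have h5 : InO L (((ζ j)⁻¹ : ℂˣ) : ℂ) := hζL _ (by
          rw [← Units.val_pow_eq_pow_val, inv_pow, h3, inv_one, Units.val_one])
        constructor
        · rw [hT]
          change InO L (((ζ j * ∏ i, y' i ^ E j i : ℂˣ)) : ℂ)
          rw [Units.val_mul, Units.coe_prod]
          exact h4.mul (InO.prod _ _ fun i _ => (h2 i).1.zpow (h2 i).2 _)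
        · rw [hT]
          change InO L ((((ζ j * ∏ i, y' i ^ E j i)⁻¹ : ℂˣ)) : ℂ)
          rw [mul_inv, ← Finset.prod_inv_distrib, Units.val_mul, Units.coe_prod]
          refine h5.mul (InO.prod _ _ fun i _ => ?_)
          rw [← zpow_neg]
          exact (h2 i).1.zpow (h2 i).2 _
  exact h0 (hTy ▸ h1 y)

end Vale.Agent.P002.H2
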