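import Vale.Agent.P002.H326J.DefsV

/-!
# Irreducible components, points of the closure, integral points of bounded degree: definitions

Sets of points of `M_r(X)(ℂ)` are given by conjugation invariant sets of semisimple
representations. The Zariski topology of `M_r(X)(ℂ)` is the one defined by the invariant functions
(`IsInvariant`).
-/

namespace Vale.Agent.P002.H2

open Matrix Module NumberField Vale.Agent.P002R.Orb Vale.Agent.P002.H326J

variable {ι : Type} {r : ℕ}

/-- `Z` is irreducible as a set of points of `M_r(X)(ℂ)`: it is nonempty and not contained in the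
union of two closed sets which do not contain it. -/
def IsIrredM (R : Set (FreeGroup ι)) (Z : Set (ι → SpecialLinearGroup (Fin r) ℂ)) : Prop :=
  Z.Nonempty ∧ ∀ F G : MvPolynomial (ι × Fin r × Fin r) ℂ, IsInvariant R F → IsInvariant R G →
    (∀ X ∈ Z, value F X = 0 ∨ value G X = 0) →
      (∀ X ∈ Z, value F X = 0) ∨ ∀ X ∈ Z, value G X = 0

/-- `Z` is an irreducible component (a maximal irreducible subset) of `Y`, both considered as sets
of points of `M_r(X)(ℂ)`. -/
def IsComponentM (R : Set (FreeGroup ι)) (Z Y : Set (ι → SpecialLinearGroup (Fin r) ℂ)) : Prop :=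
  Z ⊆ Y ∧ IsIrredM R Z ∧ ∀ Z' ⊆ Y, IsIrredM R Z' → Z ⊆ Z' → Z' = Z

/-- `X` is a point of `M_r(X)(ℂ)` in the Zariski closure of `Z`: every invariant function that
vanishes on `Z` vanishes at `X`. -/
def InClosureM (R : Set (FreeGroup ι)) (Z : Set (ι → SpecialLinearGroup (Fin r) ℂ))
    (X : ι → SpecialLinearGroup (Fin r) ℂ) : Prop :=
  X ∈ YNone R r ∧ ∀ F : MvPolynomial (ι × Fin r × Fin r) ℂ, IsInvariant R F →
    (∀ X' ∈ Z, value F X' = 0) → value F X = 0

/-- Weak density: the points of `T` which are `𝓞 L`-integral for some number field `L` are Zariski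
dense in the image of `T` in `M_r(X)(ℂ)`. -/
def IsDenseAll (R : Set (FreeGroup ι)) (T : Set (ι → SpecialLinearGroup (Fin r) ℂ)) : Prop :=
  ∀ F : MvPolynomial (ι × Fin r × Fin r) ℂ, IsInvariant R F →
    (∀ X ∈ T, (∃ L : IntermediateField ℚ ℂ, FiniteDimensional ℚ L ∧ IsIntegralPoint R L X) →
      value F X = 0) → ∀ X ∈ T, value F X = 0

/-- The points of `T` which are `𝓞 L`-integral for some number field `L` of degree at most `d` are
Zariski dense in the image of `T` in `M_r(X)(ℂ)`. -/
def IsDenseDeg (R : Set (FreeGroup ι)) (d : ℕ) (T : Set (ι → SpecialLinearGroup (Fin r) ℂ)) :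
    Prop :=
  ∀ F : MvPolynomial (ι × Fin r × Fin r) ℂ, IsInvariant R F →
    (∀ X ∈ T, (∃ L : IntermediateField ℚ ℂ, FiniteDimensional ℚ L ∧ finrank ℚ L ≤ d ∧
      IsIntegralPoint R L X) → value F X = 0) → ∀ X ∈ T, value F X = 0

/-- The representations in `T` over rings of integers of number fields of degree at most `d` are
Zariski dense in `T` as a set of points of the representation variety. -/
def IsDenseRepDeg (d : ℕ) (T : Set (ι → SpecialLinearGroup (Fin r) ℂ)) : Prop :=
  ∀ F : MvPolynomial (ι × Fin r × Fin r) ℂ,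
    (∀ X ∈ T, (∃ L : IntermediateField ℚ ℂ, FiniteDimensional ℚ L ∧ finrank ℚ L ≤ d ∧
      IsIntegralRep L X) → value F X = 0) → ∀ X ∈ T, value F X = 0

end Vale.Agent.P002.H2
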