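import Vale.Agent.P002.H2.DefsN

/-!
# Definitions for the theorem on representations with typed constituents
-/

namespace Vale.Agent.P002.H2

open Matrix Vale.Agent.P002R.Orb Vale.Agent.P002.H326J

/-- A type of irreducible representations of `Γ`: a dimension `d`, two subgroups `K` and `N` and a
function `t` on `N` (the character of the restriction to `N`). -/
structure TypeDatum (Γ : Type) [Group Γ] where
  d : ℕ
  K : Subgroup Γ
  N : Subgroup Γ
  t : N → ℂ

/-- The types which are allowed: `N` is normal and contained in `K`, `K` is the common kernel `O.K`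
of a finite family `O` of maps to orbifold curves for which the `y j` are peripheral, and the values
of `t` are algebraic integers. -/
def TypeDatum.Valid {Γ : Type} [Group Γ] (D : TypeDatum Γ) {s : ℕ} (y : Fin s → Γ) : Prop :=
  D.N.Normal ∧ D.N ≤ D.K ∧ (∃ O : OrbFamily Γ, O.K = D.K ∧ ∀ j, O.IsPeripheral (y j)) ∧
    ∀ x, IsIntegral ℤ (D.t x)

/-- `W` is an irreducible subrepresentation of `X` of type `D`: it is isomorphic, by `e`, to an
irreducible representation `σ` on `ℂ ^ d` which has character `t` on `N` and maps some term of the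
derived series of some subgroup `B` of finite index of `K` to the linear span of the image of
`N`. -/
def HasType {ι : Type} {r : ℕ} {R : Set (FreeGroup ι)} (D : TypeDatum (PresentedGroup R))
    (X : ι → SpecialLinearGroup (Fin r) ℂ) (W : Submodule ℂ (Fin r → ℂ)) : Prop :=
  ∃ (e : (Fin D.d → ℂ) →ₗ[ℂ] (Fin r → ℂ)) (σ : FreeGroup ι → Matrix (Fin D.d) (Fin D.d) ℂ),
    Function.Injective e ∧ LinearMap.range e = W ∧
    (∀ x v, (FreeGroup.lift X x).1 *ᵥ e v = e (σ x *ᵥ v)) ∧
    0 < D.d ∧ (∀ V : Submodule ℂ (Fin D.d → ℂ), (∀ x, ∀ v ∈ V, σ x *ᵥ v ∈ V) → V = ⊥ ∨ V = ⊤) ∧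
    (∀ (x : FreeGroup ι) (h : PresentedGroup.mk R x ∈ D.N),
      (σ x).trace = D.t ⟨PresentedGroup.mk R x, h⟩) ∧
    ∃ B : Subgroup (PresentedGroup R), B ≤ D.K ∧ B.relIndex D.K ≠ 0 ∧
      ∃ m : ℕ, ∀ x : FreeGroup ι, PresentedGroup.mk R x ∈ (derivedSeries B m).map B.subtype →
        σ x ∈ Submodule.span ℂ {A | ∃ y, PresentedGroup.mk R y ∈ D.N ∧ A = σ y}

/-- The points `X` of `YW` which are direct sums of irreducible subrepresentations of the types
`D 0, ..., D (k - 1)`. -/
def YMulti {ι : Type} {r : ℕ} (R : Set (FreeGroup ι)) {s : ℕ} (w : Fin s → FreeGroup ι)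
    (C : Fin s → SpecialLinearGroup (Fin r) ℂ) (k : ℕ)
    (D : Fin k → TypeDatum (PresentedGroup R)) : Set (ι → SpecialLinearGroup (Fin r) ℂ) :=
  {X ∈ YW R w C | ∃ W : Fin k → Submodule ℂ (Fin r → ℂ), (∀ a, HasType (D a) X (W a)) ∧
    (⨆ a, W a) = ⊤ ∧ ∑ a, Module.finrank ℂ (W a) = r}

end Vale.Agent.P002.H2
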