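import Vale.Agent.P002.H2.DefsT

/-!
# Definitions for the theorem on representations with given restriction to a normal subgroup
-/

namespace Vale.Agent.P002.H2

open Matrix Vale.Agent.P002R.Orb Vale.Agent.P002.H326J

/-- `A` is virtually solvable modulo `B`: some term of the derived series of some subgroup of finite
index of `A` is contained in `B`. -/
def VSMod {G : Type} [Group G] (A B : Subgroup G) : Prop :=
  ∃ H : Subgroup G, H ≤ A ∧ H.relIndex A ≠ 0 ∧ ∃ k, (derivedSeries H k).map H.subtype ≤ B

/-- The points `X` of `YW` (see there) for which the character of the restriction of `X` to the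
subgroup `N` is `t`. -/
def YTr {ι : Type} {r : ℕ} (R : Set (FreeGroup ι)) {s : ℕ} (w : Fin s → FreeGroup ι)
    (C : Fin s → SpecialLinearGroup (Fin r) ℂ) (N : Subgroup (PresentedGroup R))
    (t : N → ℂ) : Set (ι → SpecialLinearGroup (Fin r) ℂ) :=
  {X ∈ YW R w C | ∀ (x : FreeGroup ι) (h : PresentedGroup.mk R x ∈ N),
    (FreeGroup.lift X x).1.trace = t ⟨PresentedGroup.mk R x, h⟩}

/-- The points `X` of `YTr` for which some term of the derived series of some subgroup `B` of finite
index of `K` is mapped by `X` to the linear span of the image of `N` (for normal `N`: `B` acts on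
the commutant of `X(N)` through a solvable group). -/
def YRel {ι : Type} {r : ℕ} (R : Set (FreeGroup ι)) {s : ℕ} (w : Fin s → FreeGroup ι)
    (C : Fin s → SpecialLinearGroup (Fin r) ℂ) (K N : Subgroup (PresentedGroup R))
    (t : N → ℂ) : Set (ι → SpecialLinearGroup (Fin r) ℂ) :=
  {X ∈ YTr R w C N t | ∃ B : Subgroup (PresentedGroup R), B ≤ K ∧ B.relIndex K ≠ 0 ∧
    ∃ m : ℕ, ∀ x : FreeGroup ι, PresentedGroup.mk R x ∈ (derivedSeries B m).map B.subtype →
      (FreeGroup.lift X x).1 ∈ Submodule.span ℂ
        {A | ∃ y, PresentedGroup.mk R y ∈ N ∧ A = (FreeGroup.lift X y).1}}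

end Vale.Agent.P002.H2
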