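import Vale.Agent.P002R.YOrbStmt
import Vale.Agent.P002.H326J.DefsV

/-!
# Definitions for the theorem on families of maps to orbifold curves
-/

namespace Vale.Agent.P002.H2

open Matrix Vale.Agent.P002R.Orb Vale.Agent.P002.H326J

/-- The fundamental group of the orbifold curve of genus `g` with `n` marked points: punctures if
`m j = 0`, orbifold points of order `m j` otherwise. -/
abbrev OrbGroup (g n : ℕ) (m : Fin n → ℕ) : Type :=
  PresentedGroup (Rels (k := 1) (fun _ => g) (fun _ => n) (fun _ => m))

/-- The loop around the `j`-th marked point. -/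
abbrev OrbGroup.loop {g n : ℕ} {m : Fin n → ℕ} (j : Fin n) : OrbGroup g n m :=
  PresentedGroup.of (Sum.inr ⟨0, j⟩)

/-- A finite family of maps of subgroups of finite index of `Γ` to orbifold groups of curves: `I` is
a finite `Γ`-set, and there is a homomorphism `φ i` from the stabiliser of `i` with image of finite
index for every `i : I`; the kernels of `φ i` and `φ (x • i)` are conjugate by `x`; for different
points `i`, `j` of an orbit the image of `ker φ i` under `φ j` has finite index. (If `Γ` acts
trivially on `I`, this is just a finite set of homomorphisms from `Γ` to orbifold groups of curves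
with images of finite index.) -/
structure OrbFamily (Γ : Type) [Group Γ] where
  I : Type
  fin : Finite I
  act : MulAction Γ I
  g : I → ℕ
  n : I → ℕ
  m : ∀ i, Fin (n i) → ℕ
  φ : ∀ i, MulAction.stabilizer Γ i →* OrbGroup (g i) (n i) (m i)
  range : ∀ i, (φ i).range.FiniteIndex
  conj : ∀ (x : Γ) (i : I), ((φ (x • i)).ker.map (MulAction.stabilizer Γ (x • i)).subtype) =
    ((φ i).ker.map (MulAction.stabilizer Γ i).subtype).map (MulAut.conj x).toMonoidHom
  dist : ∀ (i : I) (x : Γ), x • i ≠ i →
    ((((φ i).ker.map (MulAction.stabilizer Γ i).subtype).subgroupOf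
      (MulAction.stabilizer Γ (x • i))).map (φ (x • i))).FiniteIndex

attribute [instance] OrbFamily.act OrbFamily.fin

/-- The intersection of the kernels of the `φ i`. -/
def OrbFamily.K {Γ : Type} [Group Γ] (O : OrbFamily Γ) : Subgroup Γ :=
  ⨅ i : O.I, (O.φ i).ker.map (MulAction.stabilizer Γ i).subtype

/-- The element `y` of `Γ` (a meridian) is mapped to loops around points: whenever a conjugate of a
power of `y` lies in the stabiliser of `i`, its image under `φ i` is trivial or conjugate to a power
of the loop around a marked point. -/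
def OrbFamily.IsPeripheral {Γ : Type} [Group Γ] (O : OrbFamily Γ) (y : Γ) : Prop :=
  ∀ (i : O.I) (z : MulAction.stabilizer Γ i), (∃ (x : Γ) (a : ℤ), (z : Γ) = x * y ^ a * x⁻¹) →
    O.φ i z = 1 ∨ ∃ (l : Fin (O.n i)) (b : ℤ), IsConj (OrbGroup.loop l ^ b) (O.φ i z)

/-- The points `X` of `YW` (see there) for which the image of the subgroup `K` is virtually
solvable. -/
def YKer {ι : Type} {r : ℕ} (R : Set (FreeGroup ι)) {s : ℕ} (w : Fin s → FreeGroup ι)
    (C : Fin s → SpecialLinearGroup (Fin r) ℂ) (K : Subgroup (PresentedGroup R)) :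
    Set (ι → SpecialLinearGroup (Fin r) ℂ) :=
  {X ∈ YW R w C | ∃ A : Subgroup (SpecialLinearGroup (Fin r) ℂ),
    A ≤ (K.comap (PresentedGroup.mk R)).map (FreeGroup.lift X) ∧ Group.IsSolvable A ∧
      A.relIndex ((K.comap (PresentedGroup.mk R)).map (FreeGroup.lift X)) ≠ 0}

end Vale.Agent.P002.H2
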