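import Mathlib
import Vale.Agent.P002.Bd3.B9

/-!
# Burnside's theorem as an open condition
-/

namespace Vale.Agent.P002.H2

open Matrix

variable {G : Type*} [Group G] {κ : Type} [Fintype κ] [DecidableEq κ]

theorem span_top_fin {r : ℕ} (hr : 0 < r) (z : G →* Matrix (Fin r) (Fin r) ℂ)
    (h : ∀ W : Submodule ℂ (Fin r → ℂ), (∀ a, ∀ v ∈ W, z a *ᵥ v ∈ W) → W = ⊥ ∨ W = ⊤) :
    Submodule.span ℂ (Set.range z) = ⊤ := by
  obtain ⟨y, hy⟩ : ∃ y : G →* (Matrix (Fin r) (Fin r) ℂ)ˣ, ∀ w, (y w).1 = z w :=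
    ⟨z.toHomUnits, fun w => rfl⟩
  have h1 := Vale.Agent.P002R.adjoin_top_of_simple hr y (by
    intro N hN
    refine h N fun a v hv => ?_
    rw [← hy]
    exact hN a v hv)
  have h2 : (Set.range fun w => (y w : Matrix (Fin r) (Fin r) ℂ)) = Set.range z := by
    ext M
    simp only [Set.mem_range, hy]
  rw [h2] at h1
  have h3 := Algebra.adjoin_eq_span ℂ (Set.range z)
  have h4 : (Submonoid.closure (Set.range z) : Set (Matrix (Fin r) (Fin r) ℂ)) = Set.range z := by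
    have h5 : Set.range z = (MonoidHom.mrange z : Set (Matrix (Fin r) (Fin r) ℂ)) := by
      rw [MonoidHom.coe_mrange]
    rw [h5, Submonoid.closure_eq]
  rw [h4, h1] at h3
  rw [← h3]
  rfl

/-- transport along a bijection of the index sets -/
def reH (e : κ ≃ Fin (Fintype.card κ)) (z : G →* Matrix κ κ ℂ) :
    G →* Matrix (Fin (Fintype.card κ)) (Fin (Fintype.card κ)) ℂ where
  toFun a := (z a).submatrix e.symm e.symm
  map_one' := by rw [map_one, Matrix.submatrix_one_equiv]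
  map_mul' a b := by rw [map_mul, Matrix.submatrix_mul_equiv]

theorem span_top [Nonempty κ] (z : G →* Matrix κ κ ℂ)
    (h : ∀ W : Submodule ℂ (κ → ℂ), (∀ a, ∀ v ∈ W, z a *ᵥ v ∈ W) → W = ⊥ ∨ W = ⊤) :
    Submodule.span ℂ (Set.range z) = ⊤ := by
  obtain ⟨e⟩ : Nonempty (κ ≃ Fin (Fintype.card κ)) := ⟨Fintype.equivFin κ⟩
  obtain ⟨L, hL⟩ : ∃ L : (κ → ℂ) ≃ₗ[ℂ] (Fin (Fintype.card κ) → ℂ), ∀ v i, L v i = v (e.symm i) :=
    ⟨LinearEquiv.funCongrLeft ℂ ℂ e.symm, fun v i => rfl⟩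
  have hE : ∀ (a : G) v, reH e z a *ᵥ (L v) = L (z a *ᵥ v) := by
    intro a v
    funext i
    rw [hL]
    simp only [Matrix.mulVec, dotProduct, hL]
    exact Equiv.sum_comp e.symm fun j => z a (e.symm i) j * v j
  have h1 := span_top_fin (Fintype.card_pos) (reH e z) (by
    intro W hW
    have h2 := h (W.comap L.toLinearMap) (by
      intro a v hv
      rw [Submodule.mem_comap] at hv ⊢
      change L (z a *ᵥ v) ∈ W
      rw [← hE]
      exact hW a _ hv)
    rcases h2 with h2 | h2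
    · left
      rw [eq_bot_iff]
      intro w hw
      have h3 : L.symm w ∈ W.comap L.toLinearMap := by
        rw [Submodule.mem_comap]
        change L (L.symm w) ∈ W
        rw [LinearEquiv.apply_symm_apply]
        exact hw
      rw [h2, Submodule.mem_bot] at h3
      rw [Submodule.mem_bot]
      exact (LinearEquiv.map_eq_zero_iff _).1 h3
    · right
      rw [eq_top_iff]
      intro w _
      have h3 : L.symm w ∈ W.comap L.toLinearMap := by
        rw [h2]
        trivial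
      rw [Submodule.mem_comap] at h3
      have h4 : L (L.symm w) ∈ W := h3
      rwa [LinearEquiv.apply_symm_apply] at h4)
  obtain ⟨E, hE'⟩ : ∃ E : Matrix κ κ ℂ ≃ₗ[ℂ] Matrix (Fin (Fintype.card κ)) (Fin (Fintype.card κ)) ℂ,
      ∀ M, E M = M.submatrix e.symm e.symm := ⟨Matrix.reindexLinearEquiv ℂ ℂ e e, fun M => rfl⟩
  rw [eq_top_iff]
  intro M _
  have h2 : E M ∈ Submodule.span ℂ (Set.range (reH e z)) := by
    rw [h1]
    trivial
  have h3 : Submodule.span ℂ (Set.range (reH e z)) =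
      (Submodule.span ℂ (Set.range z)).map E.toLinearMap := by
    rw [Submodule.map_span]
    congr 1
    ext N
    constructor
    · rintro ⟨a, rfl⟩
      exact ⟨z a, ⟨a, rfl⟩, hE' _⟩
    · rintro ⟨_, ⟨a, rfl⟩, rfl⟩
      exact ⟨a, (hE' _).symm⟩
  rw [h3] at h2
  obtain ⟨N, hN, hNM⟩ := h2
  have h4 : N = M := E.injective hNM
  rwa [h4] at hN

theorem exists_burn [Nonempty κ] (z : G →* Matrix κ κ ℂ)
    (h : ∀ W : Submodule ℂ (κ → ℂ), (∀ a, ∀ v ∈ W, z a *ᵥ v ∈ W) → W = ⊥ ∨ W = ⊤) :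
    ∃ g : κ × κ → G, (Matrix.of fun (k l : κ × κ) => z (g k) l.1 l.2).det ≠ 0 := by
  have h1 : ⊤ ≤ Submodule.span ℂ (Set.range z) := (span_top z h).ge
  obtain ⟨B₀, hB₀⟩ : ∃ B₀, B₀ = Module.Basis.ofSpan h1 := ⟨_, rfl⟩
  have hmem : ∀ i, B₀ i ∈ Set.range z := fun i => by
    rw [hB₀]
    exact Module.Basis.ofSpan_subset h1 (Set.mem_range_self i)
  have hfin : Finite ((linearIndepOn_empty ℂ id).extend (Set.empty_subset (Set.range z))) :=
    Module.Finite.finite_basis B₀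
  have hft : Fintype ((linearIndepOn_empty ℂ id).extend (Set.empty_subset (Set.range z))) :=
    Fintype.ofFinite _
  have hcard : Fintype.card ((linearIndepOn_empty ℂ id).extend
      (Set.empty_subset (Set.range z))) = Fintype.card (κ × κ) := by
    have := Module.finrank_eq_card_basis B₀
    rw [Module.finrank_matrix, Module.finrank_self, mul_one] at this
    rw [← this, Fintype.card_prod]
  obtain ⟨B, hB⟩ : ∃ B : Module.Basis (κ × κ) ℂ (Matrix κ κ ℂ), ∀ i, B i ∈ Set.range z :=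
    ⟨B₀.reindex (Fintype.equivOfCardEq hcard), fun i => by
      rw [Module.Basis.reindex_apply]; exact hmem _⟩
  choose g hg using hB
  refine ⟨g, ?_⟩
  have h2 : IsUnit (Matrix.of fun (k l : κ × κ) => z (g k) l.1 l.2) := by
    rw [← Matrix.linearIndependent_rows_iff_isUnit]
    have h3 : (Matrix.of fun (k l : κ × κ) => z (g k) l.1 l.2).row =
        fun k => (LinearEquiv.curry ℂ ℂ κ κ).symm (B k) := by
      funext k l
      rw [← hg k]
      rfl
    rw [h3]
    exact B.linearIndependent.map' (LinearEquiv.curry ℂ ℂ κ κ).symm.toLinearMap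
      (LinearEquiv.ker _)
  exact ((Matrix.isUnit_iff_isUnit_det _).1 h2).ne_zero

omit [Group G] in
theorem irr_of_burn (z : G → Matrix κ κ ℂ) (g : κ × κ → G)
    (hg : (Matrix.of fun (k l : κ × κ) => z (g k) l.1 l.2).det ≠ 0)
    (W : Submodule ℂ (κ → ℂ)) (hW : ∀ a, ∀ v ∈ W, z a *ᵥ v ∈ W) : W = ⊥ ∨ W = ⊤ := by
  by_cases h0 : W = ⊥
  · exact Or.inl h0
  right
  obtain ⟨v, hv, hv0⟩ := Submodule.exists_mem_ne_zero_of_ne_bot h0
  obtain ⟨i, hi⟩ := Function.ne_iff.1 hv0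
  have hi' : v i ≠ 0 := hi
  -- every matrix is a combination of the `z (g k)`
  have h1 : ∀ M : Matrix κ κ ℂ, ∃ c : κ × κ → ℂ, M = ∑ k, c k • z (g k) := by
    intro M
    obtain ⟨A, hA⟩ : ∃ A, A = Matrix.of fun (k l : κ × κ) => z (g k) l.1 l.2 := ⟨_, rfl⟩
    rw [← hA] at hg
    have hu : IsUnit A.det := isUnit_iff_ne_zero.2 hg
    refine ⟨(fun l => M l.1 l.2) ᵥ* A⁻¹, ?_⟩
    have h2 : ((fun l : κ × κ => M l.1 l.2) ᵥ* A⁻¹) ᵥ* A = fun l => M l.1 l.2 := by
      rw [Matrix.vecMul_vecMul, Matrix.nonsing_inv_mul _ hu, Matrix.vecMul_one]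
    ext a b
    have h3 := congrFun h2 (a, b)
    rw [Matrix.sum_apply]
    rw [Matrix.vecMul, dotProduct] at h3
    rw [← h3]
    refine Finset.sum_congr rfl fun k _ => ?_
    rw [hA]
    rfl
  have h2 : ∀ M : Matrix κ κ ℂ, M *ᵥ v ∈ W := by
    intro M
    obtain ⟨c, hc⟩ := h1 M
    rw [hc, Matrix.sum_mulVec]
    refine Submodule.sum_mem _ fun k _ => ?_
    rw [Matrix.smul_mulVec]
    exact Submodule.smul_mem _ _ (hW _ v hv)
  rw [eq_top_iff]
  intro u _
  have h3 : (Matrix.of fun a b => if b = i then u a * (v i)⁻¹ else 0) *ᵥ v = u := by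
    funext a
    simp only [Matrix.mulVec, dotProduct, Matrix.of_apply, ite_mul, zero_mul, Finset.sum_ite_eq',
      Finset.mem_univ, if_true]
    rw [mul_assoc, inv_mul_cancel₀ hi', mul_one]
  rw [← h3]
  exact h2 _

end Vale.Agent.P002.H2
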