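import Vale.Agent.P002.H2.B6
import Vale.Agent.P002.H2.D6

/-!
# Characters of the subgroups `H a` as points of a torus
-/

namespace Vale.Agent.P002.H2

open Matrix NumberField Module Vale.Agent.P002R.Orb Vale.Agent.P002.H377

variable {ι : Type}

/-- finitely many generators of `H` -/
noncomputable def genP (H : Subgroup (FreeGroup ι)) : (m : ℕ) × (Fin m → FreeGroup ι) :=
  have : Nonempty ((m : ℕ) × (Fin m → FreeGroup ι)) := ⟨⟨0, Fin.elim0⟩⟩
  Classical.epsilon fun p => Subgroup.closure (Set.range p.2) = H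

theorem genP_spec [Finite ι] {H : Subgroup (FreeGroup ι)} (h : H.relIndex ⊤ ≠ 0) :
    Subgroup.closure (Set.range (genP H).2) = H := by
  have h1 : ∃ p : (m : ℕ) × (Fin m → FreeGroup ι), Subgroup.closure (Set.range p.2) = H := by
    have hfi : H.FiniteIndex := ⟨by rwa [Subgroup.relIndex_top_right] at h⟩
    have h2 : Group.FG H := Subgroup.fg_of_index_ne_zero H
    have h3 : H.FG := (Group.fg_iff_subgroup_fg H).1 h2
    obtain ⟨S, hS⟩ := h3
    refine ⟨⟨S.card, fun i => (S.equivFin.symm i : FreeGroup ι)⟩, ?_⟩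
    rw [← hS]
    congr 1
    ext x
    constructor
    · rintro ⟨i, rfl⟩
      exact (S.equivFin.symm i).2
    · intro hx
      exact ⟨S.equivFin ⟨x, hx⟩, by simp⟩
  unfold genP
  exact Classical.epsilon_spec h1

/-- a word representing `x` -/
noncomputable def wd (H : Subgroup (FreeGroup ι)) (x : FreeGroup ι) :
    FreeGroup (Fin (genP H).1) :=
  Classical.epsilon fun u => FreeGroup.lift (genP H).2 u = x

theorem lift_gen_mem [Finite ι] {H : Subgroup (FreeGroup ι)} (h : H.relIndex ⊤ ≠ 0)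
    (u : FreeGroup (Fin (genP H).1)) : FreeGroup.lift (genP H).2 u ∈ H := by
  have h1 : FreeGroup.lift (genP H).2 u ∈ (FreeGroup.lift (genP H).2).range := ⟨u, rfl⟩
  rwa [FreeGroup.range_lift_eq_closure, genP_spec h] at h1

theorem wd_spec [Finite ι] {H : Subgroup (FreeGroup ι)} (h : H.relIndex ⊤ ≠ 0) {x : FreeGroup ι}
    (hx : x ∈ H) : FreeGroup.lift (genP H).2 (wd H x) = x := by
  have h1 : x ∈ (FreeGroup.lift (genP H).2).range := by
    rw [FreeGroup.range_lift_eq_closure, genP_spec h]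
    exact hx
  exact Classical.epsilon_spec h1

/-- the coordinates of the torus -/
abbrev Shape.J (T : Shape (FreeGroup ι)) : Type := (a : Fin T.k) × Fin (genP (T.H a)).1

/-- exponent vectors -/
noncomputable def Shape.vecM (T : Shape (FreeGroup ι)) (a : Fin T.k) :
    FreeGroup (Fin (genP (T.H a)).1) →* Multiplicative (T.J → ℤ) :=
  FreeGroup.lift fun i => Multiplicative.ofAdd (Pi.single (⟨a, i⟩ : T.J) (1 : ℤ))

/-- exponent vectors -/
noncomputable def Shape.vec (T : Shape (FreeGroup ι)) (a : Fin T.k)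
    (u : FreeGroup (Fin (genP (T.H a)).1)) : T.J → ℤ := (T.vecM a u).toAdd

theorem Shape.mono_vec (T : Shape (FreeGroup ι)) (t : T.J → ℂˣ) (a : Fin T.k)
    (u : FreeGroup (Fin (genP (T.H a)).1)) :
    mono t (T.vec a u) = FreeGroup.lift (fun i => t ⟨a, i⟩) u := by
  obtain ⟨φ, hφ⟩ : ∃ φ : FreeGroup (Fin (genP (T.H a)).1) →* ℂˣ, ∀ u, φ u = mono t (T.vec a u) := by
    refine ⟨⟨⟨fun u => mono t (T.vec a u), ?_⟩, fun u v => ?_⟩, fun u => rfl⟩
    · unfold Shape.vec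
      rw [map_one]
      exact mono_zero t
    · change mono t (T.vec a (u * v)) = mono t (T.vec a u) * mono t (T.vec a v)
      rw [← mono_add]
      unfold Shape.vec
      rw [map_mul]
      rfl
  rw [← hφ]
  refine DFunLike.congr_fun ?_ u
  apply FreeGroup.ext_hom
  intro i
  rw [hφ, FreeGroup.lift_apply_of]
  unfold Shape.vec Shape.vecM
  rw [FreeGroup.lift_apply_of]
  exact mono_single t _

/-- the function defined by a point of the torus -/
noncomputable def Shape.chi (T : Shape (FreeGroup ι)) (t : T.J → ℂˣ) (a : Fin T.k)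
    (x : FreeGroup ι) : ℂˣ :=
  FreeGroup.lift (fun i => t ⟨a, i⟩) (wd (T.H a) x)

open Classical in
/-- the vector of the determinant -/
noncomputable def Shape.vx (T : Shape (FreeGroup ι)) (x : FreeGroup ι) : T.J → ℤ :=
  ∑ a, T.n a • ∑ p : Fin (T.q a) × Fin (T.q a),
    if (T.t a p.1)⁻¹ * x * T.t a p.2 ∈ T.H a then
      T.vec a (wd (T.H a) ((T.t a p.1)⁻¹ * x * T.t a p.2)) else 0

/-- the constraints -/
noncomputable def cons {I : Type} [MulAction (FreeGroup ι) I] (C : Ctx (FreeGroup ι) I)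
    (T : Shape (FreeGroup ι)) : AddSubgroup (T.J → ℤ) :=
  AddSubgroup.closure ({b | ∃ a u, (FreeGroup.lift (genP (T.H a)).2 u = 1 ∨
    FreeGroup.lift (genP (T.H a)).2 u ∈ C.Z ∨ FreeGroup.lift (genP (T.H a)).2 u ∈ C.Rel) ∧
      b = T.vec a u} ∪ {b | ∃ x, b = T.vx x})

theorem lift_chi [Finite ι] {H : Subgroup (FreeGroup ι)} (h : H.relIndex ⊤ ≠ 0)
    {χ : FreeGroup ι → ℂˣ} (hχ : MulOn H χ) (u : FreeGroup (Fin (genP H).1)) :
    FreeGroup.lift (fun i => χ ((genP H).2 i)) u = χ (FreeGroup.lift (genP H).2 u) := by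
  obtain ⟨φ, hφ⟩ : ∃ φ : FreeGroup (Fin (genP H).1) →* ℂˣ,
      ∀ u, φ u = χ (FreeGroup.lift (genP H).2 u) := by
    refine ⟨⟨⟨fun u => χ (FreeGroup.lift (genP H).2 u), ?_⟩, fun u v => ?_⟩, fun u => rfl⟩
    · rw [map_one, hχ.one]
    · change χ (FreeGroup.lift (genP H).2 (u * v)) = _
      rw [map_mul]
      exact hχ.mul _ (lift_gen_mem h u) _ (lift_gen_mem h v)
  rw [← hφ]
  refine DFunLike.congr_fun ?_ u
  apply FreeGroup.ext_hom
  intro i
  rw [hφ, FreeGroup.lift_apply_of, FreeGroup.lift_apply_of]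

theorem chi_facts [Finite ι] {I : Type} [MulAction (FreeGroup ι) I] (C : Ctx (FreeGroup ι) I)
    (T : Shape (FreeGroup ι)) (hT : ∀ a, (T.H a).relIndex ⊤ ≠ 0)
    (χ : ∀ _ : Fin T.k, FreeGroup ι → ℂˣ) (hχ : ∀ a, MulOn (T.H a) (χ a))
    (t t' : T.J → ℂˣ) (ht : ∀ a i, t ⟨a, i⟩ = χ a ((genP (T.H a)).2 i))
    (h : ∀ b ∈ cons C T, mono t' b = mono t b) :
    (∀ a, MulOn (T.H a) (T.chi t' a)) ∧
    (∀ a, ∀ x ∈ T.H a, (x ∈ C.Z ∨ x ∈ C.Rel) → T.chi t' a x = χ a x) := by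
  have h1 : ∀ a u, (FreeGroup.lift (genP (T.H a)).2 u = 1 ∨
      FreeGroup.lift (genP (T.H a)).2 u ∈ C.Z ∨ FreeGroup.lift (genP (T.H a)).2 u ∈ C.Rel) →
      FreeGroup.lift (fun i => t' ⟨a, i⟩) u = χ a (FreeGroup.lift (genP (T.H a)).2 u) := by
    intro a u hu
    have h2 := h (T.vec a u) (AddSubgroup.subset_closure (Or.inl ⟨a, u, hu, rfl⟩))
    rw [T.mono_vec, T.mono_vec] at h2
    rw [h2, ← lift_chi (hT a) (hχ a)]
    simp only [ht]
  refine ⟨fun a => ⟨?_, fun x hx y hy => ?_⟩, fun a x hx hx' => ?_⟩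
  · unfold Shape.chi
    rw [h1 a _ (Or.inl (wd_spec (hT a) (one_mem _))), wd_spec (hT a) (one_mem _), (hχ a).one]
  · have h2 := h1 a (wd (T.H a) (x * y) * (wd (T.H a) x * wd (T.H a) y)⁻¹) (by
      left
      rw [map_mul, map_inv, map_mul, wd_spec (hT a) hx, wd_spec (hT a) hy,
        wd_spec (hT a) (mul_mem hx hy), mul_inv_cancel])
    rw [map_mul (FreeGroup.lift (genP (T.H a)).2), map_inv, map_mul (FreeGroup.lift
      (genP (T.H a)).2) (wd (T.H a) x), wd_spec (hT a) hx, wd_spec (hT a) hy,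
        wd_spec (hT a) (mul_mem hx hy), mul_inv_cancel, (hχ a).one, map_mul, map_inv, map_mul,
        mul_inv_eq_one] at h2
    exact h2
  · unfold Shape.chi
    rw [h1 a _ (Or.inr (by rwa [wd_spec (hT a) hx])), wd_spec (hT a) hx]

theorem chi_self [Finite ι] (T : Shape (FreeGroup ι)) (hT : ∀ a, (T.H a).relIndex ⊤ ≠ 0)
    (χ : ∀ _ : Fin T.k, FreeGroup ι → ℂˣ) (hχ : ∀ a, MulOn (T.H a) (χ a))
    (t : T.J → ℂˣ) (ht : ∀ a i, t ⟨a, i⟩ = χ a ((genP (T.H a)).2 i)) (a : Fin T.k)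
    {x : FreeGroup ι} (hx : x ∈ T.H a) : T.chi t a x = χ a x := by
  unfold Shape.chi
  simp only [ht]
  rw [lift_chi (hT a) (hχ a), wd_spec (hT a) hx]

open Classical in
theorem mono_vx (T : Shape (FreeGroup ι)) (t : T.J → ℂˣ) (x : FreeGroup ι) :
    mono t (T.vx x) = ∏ a, (∏ p : Fin (T.q a) × Fin (T.q a),
      if (T.t a p.1)⁻¹ * x * T.t a p.2 ∈ T.H a then
        T.chi t a ((T.t a p.1)⁻¹ * x * T.t a p.2) else 1) ^ T.n a := by
  unfold Shape.vx
  rw [mono_sum]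
  refine Finset.prod_congr rfl fun a _ => ?_
  rw [mono_nsmul, mono_sum]
  congr 1
  refine Finset.prod_congr rfl fun p _ => ?_
  split_ifs
  · rw [T.mono_vec]
    rfl
  · exact mono_zero t

theorem chi_InO (T : Shape (FreeGroup ι)) (L : IntermediateField ℚ ℂ) (t : T.J → ℂˣ)
    (ht : ∀ j, InO L (t j : ℂ) ∧ InO L (((t j)⁻¹ : ℂˣ) : ℂ)) (a : Fin T.k) (x : FreeGroup ι) :
    InO L (T.chi t a x : ℂ) := by
  unfold Shape.chi
  have key : ∀ u : FreeGroup (Fin (genP (T.H a)).1),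
      InO L ((FreeGroup.lift (fun i => t ⟨a, i⟩) u : ℂˣ) : ℂ) ∧
      InO L (((FreeGroup.lift (fun i => t ⟨a, i⟩) u)⁻¹ : ℂˣ) : ℂ) := by
    intro u
    induction u using FreeGroup.induction_on with
    | C1 =>
      rw [map_one, inv_one, Units.val_one]
      exact ⟨InO.one L, InO.one L⟩
    | of i =>
      rw [FreeGroup.lift_apply_of]
      exact ht _
    | inv_of i _ =>
      rw [map_inv, FreeGroup.lift_apply_of, inv_inv]
      exact (ht _).symm
    | mul u v hu hv =>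
      rw [map_mul, mul_inv, Units.val_mul, Units.val_mul]
      exact ⟨hu.1.mul hv.1, hu.2.mul hv.2⟩
  exact (key _).1

theorem chi_Lau (T : Shape (FreeGroup ι)) (a : Fin T.k) (x : FreeGroup ι) :
    (fun t : T.J → ℂˣ => (T.chi t a x : ℂ)) ∈ LauJ T.J := by
  unfold Shape.chi
  have key : ∀ u : FreeGroup (Fin (genP (T.H a)).1),
      (fun t : T.J → ℂˣ => ((FreeGroup.lift (fun i => t ⟨a, i⟩) u : ℂˣ) : ℂ)) ∈ LauJ T.J ∧
      (fun t : T.J → ℂˣ => (((FreeGroup.lift (fun i => t ⟨a, i⟩) u)⁻¹ : ℂˣ) : ℂ)) ∈ LauJ T.J := by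
    intro u
    induction u using FreeGroup.induction_on with
    | C1 =>
      simp only [map_one, inv_one, Units.val_one]
      exact ⟨(LauJ T.J).algebraMap_mem 1, (LauJ T.J).algebraMap_mem 1⟩
    | of i =>
      simp only [FreeGroup.lift_apply_of]
      exact ⟨Algebra.subset_adjoin (Or.inl ⟨_, rfl⟩), Algebra.subset_adjoin (Or.inr ⟨_, rfl⟩)⟩
    | inv_of i _ =>
      simp only [map_inv, FreeGroup.lift_apply_of, inv_inv]
      exact ⟨Algebra.subset_adjoin (Or.inr ⟨_, rfl⟩), Algebra.subset_adjoin (Or.inl ⟨_, rfl⟩)⟩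
    | mul u v hu hv =>
      simp only [map_mul, mul_inv, Units.val_mul]
      exact ⟨mul_mem hu.1 hv.1, mul_mem hu.2 hv.2⟩
  exact (key _).1

end Vale.Agent.P002.H2
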