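import Vale.Agent.P002.H2.C6
import Vale.Agent.P002.H2.E6a
import Vale.Agent.P002.H2.F6
import Vale.Agent.P002.H326.C
import Vale.Agent.P002.H326J.DefsV

/-!
# Final assembly, part 1: the deformed representations lie in the locus
-/

namespace Vale.Agent.P002.H2

open Matrix NumberField Module Vale.Agent.P002R.Orb Vale.Agent.P002.H377 Kronecker

section general

variable {F : Type} [Group F]

theorem indM_congr {Ω n : Type} {H : Subgroup F} {t : Ω → F} {τ τ' : F → Matrix n n ℂ} {x : F}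
    (h : ∀ p q, (t p)⁻¹ * x * t q ∈ H → τ ((t p)⁻¹ * x * t q) = τ' ((t p)⁻¹ * x * t q)) :
    indM H t τ x = indM H t τ' x := by
  ext p q
  by_cases hpq : (t p.1)⁻¹ * x * t q.1 ∈ H
  · rw [indM_apply_of_mem hpq, indM_apply_of_mem hpq, h _ _ hpq]
  · rw [indM_apply_of_notMem hpq, indM_apply_of_notMem hpq]

/-- on a normal subgroup contained in `H` the induced matrices are block diagonal -/
theorem indM_normal {Ω n : Type} [DecidableEq Ω] [DecidableEq n] {H N : Subgroup F} {t : Ω → F}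
    (ht : Trans ⊤ H t) (hN : ∀ x y, y ∈ N → x * y * x⁻¹ ∈ N) (hNH : N ≤ H)
    {τ : F → Matrix n n ℂ} {x : F} (hx : x ∈ N)
    (h1 : ∀ y ∈ N, (∃ c, y = (t c)⁻¹ * x * t c) → τ y = 1) : indM H t τ x = 1 := by
  have hc : ∀ c, (t c)⁻¹ * x * t c ∈ N := fun c => by
    have := hN (t c)⁻¹ x hx
    rwa [inv_inv] at this
  ext p q
  by_cases hpq : p.1 = q.1
  · obtain ⟨p1, p2⟩ := p
    obtain ⟨q1, q2⟩ := q
    change p1 = q1 at hpq
    subst hpq
    rw [indM_apply_of_mem (hNH (hc p1))]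
    change τ ((t p1)⁻¹ * x * t p1) p2 q2 = _
    rw [h1 _ (hc p1) ⟨p1, rfl⟩, Matrix.one_apply, Matrix.one_apply]
    simp
  · rw [indM_apply_of_notMem, Matrix.one_apply_ne fun h => hpq (congrArg Prod.fst h)]
    intro h
    have h2 : (t p.1)⁻¹ * t q.1 ∈ H := by
      have h3 := mul_mem h (inv_mem (hNH (hc q.1)))
      have h4 : (t p.1)⁻¹ * x * t q.1 * ((t q.1)⁻¹ * x * t q.1)⁻¹ = (t p.1)⁻¹ * t q.1 := by
        group
      rwa [h4] at h3
    obtain ⟨c, -, hu⟩ := ht.uniq (t q.1) trivial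
    have h5 : p.1 = c := hu _ h2
    have h6 : q.1 = c := hu _ (by
      change (t q.1)⁻¹ * t q.1 ∈ H
      rw [inv_mul_cancel]
      exact one_mem _)
    exact hpq (h5.trans h6.symm)

/-- conjugate over `GL_r`, hence over `SL_r` -/
theorem isConj_of_units {r : ℕ} {A B : SpecialLinearGroup (Fin r) ℂ}
    (U : (Matrix (Fin r) (Fin r) ℂ)ˣ) (h : U.1 * A.1 = B.1 * U.1) : IsConj A B := by
  rcases Nat.eq_zero_or_pos r with hr | hr
  · subst hr
    have : A = B := Subtype.ext (Matrix.ext fun i => i.elim0)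
    rw [this]
  · have hdet : U.1.det ≠ 0 := ((Matrix.isUnit_iff_isUnit_det _).1 U.isUnit).ne_zero
    obtain ⟨c, hc⟩ := IsAlgClosed.exists_pow_nat_eq (U.1.det) hr
    have hc0 : c ≠ 0 := by
      rintro rfl
      rw [zero_pow hr.ne'] at hc
      exact hdet hc.symm
    have h1 : (c⁻¹ • U.1).det = 1 := by
      rw [Matrix.det_smul, Fintype.card_fin, inv_pow, hc, inv_mul_cancel₀ hdet]
    obtain ⟨V, hV⟩ : ∃ V : SpecialLinearGroup (Fin r) ℂ, V.1 = c⁻¹ • U.1 := ⟨⟨_, h1⟩, rfl⟩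
    refine isConj_iff.2 ⟨V, ?_⟩
    rw [mul_inv_eq_iff_eq_mul]
    apply Subtype.ext
    change V.1 * A.1 = B.1 * V.1
    rw [hV, smul_mul_assoc, h, mul_smul_comm]

/-- `χ x • σ x` as an invertible matrix -/
noncomputable def twU {n : ℕ} (χ : F → ℂˣ) (σ : F → SpecialLinearGroup (Fin n) ℂ) (x : F) :
    (Matrix (Fin n) (Fin n) ℂ)ˣ where
  val := tw χ σ x
  inv := (((χ x)⁻¹ : ℂˣ) : ℂ) • ((σ x)⁻¹).1
  val_inv := by
    unfold tw
    rw [smul_mul_smul_comm, ← Units.val_mul, mul_inv_cancel, Units.val_one, one_smul]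
    exact congrArg Subtype.val (mul_inv_cancel (σ x))
  inv_val := by
    unfold tw
    rw [smul_mul_smul_comm, ← Units.val_mul, inv_mul_cancel, Units.val_one, one_smul]
    exact congrArg Subtype.val (inv_mul_cancel (σ x))

theorem twU_mulOn {n : ℕ} {H : Subgroup F} {χ : F → ℂˣ} {σ : F → SpecialLinearGroup (Fin n) ℂ}
    (hχ : MulOn H χ) (hσ : MulOn H σ) : MulOn H (twU χ σ) :=
  ⟨Units.ext (tw_mulOn hχ hσ).one, fun x hx y hy => Units.ext ((tw_mulOn hχ hσ).mul x hx y hy)⟩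

omit [Group F] in
theorem twU_isConj {n : ℕ} {χ χ' : F → ℂˣ} {σ σ' : F → SpecialLinearGroup (Fin n) ℂ} {x : F}
    (h1 : χ' x = χ x) (h2 : IsConj (σ x) (σ' x)) : IsConj (twU χ σ x) (twU χ' σ' x) := by
  obtain ⟨c, hc⟩ := isConj_iff.1 h2
  obtain ⟨U, hU⟩ : ∃ U : (Matrix (Fin n) (Fin n) ℂ)ˣ, U.1 = c.1 :=
    ⟨⟨c.1, (c⁻¹).1, congrArg Subtype.val (mul_inv_cancel c),
      congrArg Subtype.val (inv_mul_cancel c)⟩, rfl⟩
  refine isConj_iff.2 ⟨U, ?_⟩
  rw [mul_inv_eq_iff_eq_mul]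
  apply Units.ext
  rw [Units.val_mul, Units.val_mul, hU]
  change c.1 * ((χ x : ℂ) • (σ x).1) = ((χ' x : ℂ) • (σ' x).1) * c.1
  rw [h1, mul_smul_comm, smul_mul_assoc]
  congr 1
  rw [mul_inv_eq_iff_eq_mul] at hc
  exact congrArg Subtype.val hc

theorem Shape.G_mulOn (T : Shape F) {τ : ∀ a, F → Matrix (Fin (T.n a)) (Fin (T.n a)) ℂ}
    (hT : ∀ a, (T.H a).relIndex ⊤ ≠ 0) (hτ : ∀ a, MulOn (T.H a) (τ a)) : MulOn ⊤ (T.G τ) := by
  have h := fun a => PC5c (le_top : T.H a ≤ ⊤) (trv_spec (hT a)) (τ a) (hτ a)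
  refine ⟨?_, fun x hx y hy => ?_⟩
  · unfold Shape.G
    have h1 : (fun a => indM (T.H a) (T.t a) (τ a) 1) = 1 := funext fun a => (h a).one
    rw [h1, Matrix.blockDiagonal'_one]
  · unfold Shape.G
    rw [← Matrix.blockDiagonal'_mul]
    congr 1
    exact funext fun a => (h a).mul x hx y hy

end general

end Vale.Agent.P002.H2
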