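import Vale.Agent.P002.H2.G6

/-!
# Final assembly, part 2: facts about the original representation
-/

namespace Vale.Agent.P002.H2

open Matrix NumberField Module Vale.Agent.P002R.Orb Vale.Agent.P002.H377 Vale.Agent.P002.H306

variable {ι : Type} {I : Type} [MulAction (FreeGroup ι) I]

theorem mh_one_of_Z {r : ℕ} {R : Set (FreeGroup ι)} {X : ι → SpecialLinearGroup (Fin r) ℂ}
    (hX : ∀ w ∈ R, mh X w = 1) {z : FreeGroup ι} (hz : z ∈ Subgroup.normalClosure R) :
    mh X z = 1 := by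
  have h1 : Subgroup.normalClosure R ≤ (mh X).ker :=
    Subgroup.normalClosure_le_normal fun w hw => hX w hw
  exact h1 hz

/-- eigenvalues of the elements of `Rel` -/
theorem eig_rel {r N₀ s : ℕ} (w : Fin s → FreeGroup ι) (X : ι → SpecialLinearGroup (Fin r) ℂ)
    (hw : ∀ j z, (mh X (w j)).charpoly.IsRoot z → z ^ N₀ = 1) (y : FreeGroup ι)
    (hy : ∃ x j, ∃ a : ℤ, y = x * w j ^ a * x⁻¹) (v : Fin r → ℂ) (hv : v ≠ 0) (c : ℂ)
    (hc : mh X y *ᵥ v = c • v) : c ^ N₀ = 1 := by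
  obtain ⟨x, j, a, rfl⟩ := hy
  -- the eigenvector of `X (w j) ^ a`
  have hinv : ∀ g, mh X g⁻¹ * mh X g = 1 := fun g => by rw [← map_mul, inv_mul_cancel, map_one]
  have hinv' : ∀ g, mh X g * mh X g⁻¹ = 1 := fun g => by rw [← map_mul, mul_inv_cancel, map_one]
  obtain ⟨u, hu⟩ : ∃ u, u = mh X x⁻¹ *ᵥ v := ⟨_, rfl⟩
  have hxu : mh X x *ᵥ u = v := by rw [hu, mulVec_mulVec, hinv', one_mulVec]
  have hu0 : u ≠ 0 := by
    rintro rfl
    rw [mulVec_zero] at hxu
    exact hv hxu.symm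
  have hcu : mh X (w j ^ a) *ᵥ u = c • u := by
    have h1 : mh X (x * w j ^ a * x⁻¹) *ᵥ v = mh X x *ᵥ (mh X (w j ^ a) *ᵥ u) := by
      rw [hu, mulVec_mulVec, mulVec_mulVec, map_mul, map_mul, Matrix.mul_assoc]
    rw [h1] at hc
    have h2 := congrArg (fun v => mh X x⁻¹ *ᵥ v) hc
    simp only [mulVec_mulVec, mulVec_smul] at h2
    rw [← Matrix.mul_assoc, hinv, Matrix.one_mul, ← hu] at h2
    exact h2
  -- a common eigenvector
  obtain ⟨E, hE⟩ : ∃ E : Submodule ℂ (Fin r → ℂ), ∀ v, v ∈ E ↔ mh X (w j ^ a) *ᵥ v = c • v :=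
    ⟨LinearMap.ker ((mh X (w j ^ a)).mulVecLin - c • LinearMap.id), fun v => by
      rw [LinearMap.mem_ker, LinearMap.sub_apply, sub_eq_zero]
      rfl⟩
  have hEinv : ∀ v ∈ E, (mh X (w j)).mulVecLin v ∈ E := by
    intro v hv
    rw [hE] at hv ⊢
    rw [mulVecLin_apply, mulVec_mulVec, ← map_mul, (Commute.zpow_self (w j) a).eq, map_mul,
      ← mulVec_mulVec, hv, mulVec_smul]
  have hnt : Nontrivial E := ⟨⟨⟨u, (hE u).2 hcu⟩, 0, fun h => hu0 (congrArg Subtype.val h)⟩⟩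
  obtain ⟨β, hβ⟩ := Module.End.exists_eigenvalue ((mh X (w j)).mulVecLin.restrict hEinv)
  obtain ⟨⟨e, he⟩, he'⟩ := hβ.exists_hasEigenvector
  have he0 : e ≠ 0 := fun h => he'.2 (Subtype.ext h)
  have he1 : mh X (w j) *ᵥ e = β • e := congrArg Subtype.val he'.apply_eq_smul
  have hβ0 : β ≠ 0 := by
    rintro rfl
    rw [zero_smul] at he1
    have h1 : e = 0 := by
      rw [← one_mulVec e, ← hinv (w j), ← mulVec_mulVec, he1, mulVec_zero]
    exact he0 h1
  have hβN : β ^ N₀ = 1 := by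
    refine hw j β ?_
    have h1 : Module.End.HasEigenvalue (Matrix.toLin' (mh X (w j))) β :=
      Module.End.hasEigenvalue_of_hasEigenvector (x := e)
        ⟨Module.End.mem_eigenspace_iff.2 (by rw [Matrix.toLin'_apply]; exact he1), he0⟩
    exact (Matrix.mem_spectrum_iff_isRoot_charpoly.1 (by
      rw [← Matrix.spectrum_toLin']
      exact h1.mem_spectrum))
  have hpow : ∀ m : ℕ, mh X (w j ^ m) *ᵥ e = β ^ m • e := by
    intro m
    induction m with
    | zero => rw [pow_zero, pow_zero, map_one, one_mulVec, one_smul]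
    | succ m ih =>
      rw [pow_succ, map_mul, ← mulVec_mulVec, he1, mulVec_smul, ih, smul_smul, pow_succ, mul_comm]
  have hzpow : mh X (w j ^ a) *ᵥ e = β ^ a • e := by
    rcases Int.eq_nat_or_neg a with ⟨m, rfl | rfl⟩
    · rw [zpow_natCast, zpow_natCast]
      exact hpow m
    · rw [_root_.zpow_neg, zpow_natCast, _root_.zpow_neg, zpow_natCast]
      have h1 := congrArg (fun v => mh X (w j ^ m)⁻¹ *ᵥ v) (hpow m)
      simp only [mulVec_mulVec, mulVec_smul] at h1
      rw [hinv, one_mulVec] at h1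
      conv_rhs => rw [h1]
      rw [smul_smul, inv_mul_cancel₀ (pow_ne_zero _ hβ0), one_smul]
  have hca : c = β ^ a := by
    have h1 := (hE e).1 he
    rw [hzpow] at h1
    obtain ⟨i, hi⟩ := Function.ne_iff.1 he0
    have h2 := congrFun h1 i
    rw [Pi.smul_apply, Pi.smul_apply, smul_eq_mul, smul_eq_mul] at h2
    exact (mul_right_cancel₀ hi h2).symm
  rw [hca, ← zpow_natCast, ← _root_.zpow_mul, mul_comm, _root_.zpow_mul, zpow_natCast, hβN,
    _root_.one_zpow]

/-- the eigenvalue powers of a matrix `χ • σ`, `det σ = 1` -/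
theorem chi_pow_of_eig {n N₀ : ℕ} (c : ℂˣ) (A : SpecialLinearGroup (Fin n) ℂ)
    (h : ∀ (v : Fin n → ℂ) (z : ℂ), v ≠ 0 → ((c : ℂ) • A.1) *ᵥ v = z • v → z ^ N₀ = 1) :
    c ^ (n * N₀) = 1 := by
  obtain ⟨B, hB⟩ : ∃ B, B = (c : ℂ) • A.1 := ⟨_, rfl⟩
  rw [← hB] at h
  have h1 : B.det = (c : ℂ) ^ n := by
    rw [hB, Matrix.det_smul, A.2, mul_one, Fintype.card_fin]
  have h2 : B.det = (Matrix.charpoly B).roots.prod :=
    Matrix.det_eq_prod_roots_charpoly_of_splits (IsAlgClosed.splits _)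
  have h3 : ∀ z ∈ (Matrix.charpoly B).roots, z ^ N₀ = 1 := by
    intro z hz
    have hz1 : B.charpoly.IsRoot z := Polynomial.isRoot_of_mem_roots hz
    have hz2 : z ∈ spectrum ℂ (Matrix.toLin' B) := by
      rw [Matrix.spectrum_toLin']
      exact Matrix.mem_spectrum_iff_isRoot_charpoly.2 hz1
    obtain ⟨v, hv⟩ := (Module.End.hasEigenvalue_iff_mem_spectrum.2 hz2).exists_hasEigenvector
    refine h v z hv.2 ?_
    have := hv.apply_eq_smul
    rwa [Matrix.toLin'_apply] at this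
  have h4 : ∀ m : Multiset ℂ, (∀ z ∈ m, z ^ N₀ = 1) → m.prod ^ N₀ = 1 := by
    intro m
    induction m using Multiset.induction_on with
    | empty => intro _; rw [Multiset.prod_zero, one_pow]
    | cons z m ih =>
      intro hm
      rw [Multiset.prod_cons, mul_pow, hm z (Multiset.mem_cons_self z m), one_mul]
      exact ih fun w hw => hm w (Multiset.mem_cons_of_mem hw)
  apply Units.ext
  rw [Units.val_pow_eq_pow_val, Units.val_one, pow_mul, ← h1, h2]
  exact h4 _ h3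

end Vale.Agent.P002.H2
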