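import Vale.Agent.P002.H2.H6

/-!
# Final assembly, part 3: the constraints on the characters
-/

namespace Vale.Agent.P002.H2

open Matrix NumberField Module Vale.Agent.P002R.Orb Vale.Agent.P002.H377 Vale.Agent.P002.H306

variable {ι : Type} {I : Type} [MulAction (FreeGroup ι) I] {C : Ctx (FreeGroup ι) I}
  {L : IntermediateField ℚ ℂ} {r : ℕ} {X : ι → SpecialLinearGroup (Fin r) ℂ}
  {T : Shape (FreeGroup ι)} {χ : ∀ _ : Fin T.k, FreeGroup ι → ℂˣ}
  {σ : ∀ a : Fin T.k, FreeGroup ι → SpecialLinearGroup (Fin (T.n a)) ℂ}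
  {ε : Fin r ≃ T.Ix} {P : (Matrix (Fin r) (Fin r) ℂ)ˣ}

theorem det_blockDiagonal'_fin {k : ℕ} {m : Fin k → Type} [∀ i, Fintype (m i)]
    [∀ i, DecidableEq (m i)] (d : ∀ i, Matrix (m i) (m i) ℂ) :
    (Matrix.blockDiagonal' d).det = ∏ i, (d i).det := by
  rw [(Matrix.blockTriangular_blockDiagonal' d).det_fintype]
  refine Finset.prod_congr rfl fun i _ => ?_
  rw [← Matrix.det_submatrix_equiv_self (Equiv.sigmaSubtype i) (d i)]
  congr 1
  ext ⟨⟨a, p⟩, hp⟩ ⟨⟨b, q⟩, hq⟩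
  change a = i at hp
  change b = i at hq
  subst hp
  subst hq
  exact Matrix.blockDiagonal'_apply_eq d _ p q

theorem det_mh {r : ℕ} (X : ι → SpecialLinearGroup (Fin r) ℂ) (x : FreeGroup ι) :
    (mh X x).det = 1 := (FreeGroup.lift X x).2

theorem Form.det_G (hF : Form C L X T χ σ ε P) (x : FreeGroup ι) :
    (T.G (fun a => tw (χ a) (σ a)) x).det = 1 := by
  have h1 := congrArg Matrix.det (hF.eq x)
  rw [Matrix.det_mul, Matrix.det_mul, det_mh, one_mul, Matrix.det_submatrix_equiv_self] at h1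
  have h2 : P.1.det ≠ 0 := ((Matrix.isUnit_iff_isUnit_det _).1 P.isUnit).ne_zero
  have h3 : P.1.det * 1 = P.1.det * (T.G (fun a => tw (χ a) (σ a)) x).det := by rw [mul_one, ← h1]
  exact (mul_left_cancel₀ h2 h3).symm

open Classical in
/-- the determinant as a function of the characters -/
theorem det_G_eq (T : Shape (FreeGroup ι)) (hT : ∀ a, (T.H a).relIndex ⊤ ≠ 0) (x : FreeGroup ι) :
    ∃ δ : ℂ, δ ^ 2 = 1 ∧ ∀ (χ : ∀ _ : Fin T.k, FreeGroup ι → ℂˣ)
      (σ : ∀ a : Fin T.k, FreeGroup ι → SpecialLinearGroup (Fin (T.n a)) ℂ),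
      (T.G (fun a => tw (χ a) (σ a)) x).det =
        δ * ((∏ a, (∏ p : Fin (T.q a) × Fin (T.q a), if (T.t a p.1)⁻¹ * x * T.t a p.2 ∈ T.H a then
          χ a ((T.t a p.1)⁻¹ * x * T.t a p.2) else 1) ^ T.n a : ℂˣ) : ℂ) := by
  have h1 : ∀ a, _ := fun a => PC5d' (n := Fin (T.n a)) (trv_spec (hT a)) x trivial
  choose e he1 he2 using h1
  refine ⟨∏ a, e a, ?_, fun χ σ => ?_⟩
  · rw [← Finset.prod_pow]
    exact Finset.prod_eq_one fun a _ => he1 a
  · unfold Shape.G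
    rw [det_blockDiagonal'_fin, Units.coe_prod, ← Finset.prod_mul_distrib]
    refine Finset.prod_congr rfl fun a _ => ?_
    have h2 := he2 a (χ a) (σ a)
    rw [Fintype.card_fin] at h2
    refine h2.trans ?_
    congr 1
    rw [Units.val_pow_eq_pow_val, Units.coe_prod]
    congr 1
    refine Finset.prod_congr rfl fun p _ => ?_
    change (if (T.t a p.1)⁻¹ * x * T.t a p.2 ∈ T.H a then
      ((χ a ((T.t a p.1)⁻¹ * x * T.t a p.2) : ℂˣ) : ℂ) else 1) = _
    split_ifs <;> rfl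

theorem Form.tw_Z (hF : Form C L X T χ σ ε P) (hX : ∀ z ∈ C.Z, mh X z = 1) (a : Fin T.k)
    {z : FreeGroup ι} (hz : z ∈ C.Z) : tw (χ a) (σ a) z = 1 := by
  obtain ⟨e, he, he'⟩ := hF.sub a
  refine Matrix.mulVec_injective ?_
  funext v
  apply he
  rw [← he' z (hF.Zle a hz), rep, hX z hz, Matrix.toLin'_one, Matrix.one_mulVec]
  rfl

theorem Form.chi_Z (hF : Form C L X T χ σ ε P) (hX : ∀ z ∈ C.Z, mh X z = 1) (a : Fin T.k)
    {z : FreeGroup ι} (hz : z ∈ C.Z) : χ a z ^ T.n a = 1 := by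
  have h1 := congrArg Matrix.det (hF.tw_Z hX a hz)
  unfold tw at h1
  rw [Matrix.det_smul, (σ a z).2, mul_one, Matrix.det_one, Fintype.card_fin] at h1
  exact Units.ext h1

theorem Form.chi_Rel (hF : Form C L X T χ σ ε P) {N₀ : ℕ}
    (hX : ∀ y ∈ C.Rel, ∀ (v : Fin r → ℂ) (c : ℂ), v ≠ 0 → mh X y *ᵥ v = c • v → c ^ N₀ = 1)
    (a : Fin T.k) {y : FreeGroup ι} (hy : y ∈ C.Rel) (hyH : y ∈ T.H a) :
    χ a y ^ (T.n a * N₀) = 1 := by
  obtain ⟨e, he, he'⟩ := hF.sub a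
  refine chi_pow_of_eig (χ a y) (σ a y) fun v z hv hz => ?_
  refine hX y hy (e v) z (fun h => hv (he (h.trans (map_zero e).symm))) ?_
  have h1 := he' y hyH v
  rw [tw, hz, map_smul, rep, Matrix.toLin'_apply] at h1
  exact h1

theorem Form.cons_pow [Finite ι] (hF : Form C L X T χ σ ε P) {N₀ : ℕ}
    (hXZ : ∀ z ∈ C.Z, mh X z = 1)
    (hX : ∀ y ∈ C.Rel, ∀ (v : Fin r → ℂ) (c : ℂ), v ≠ 0 → mh X y *ᵥ v = c • v → c ^ N₀ = 1)
    (t : T.J → ℂˣ) (ht : ∀ a i, t ⟨a, i⟩ = χ a ((genP (T.H a)).2 i)) :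
    ∀ b ∈ cons C T, mono t b ^ (2 * N₀ * r.factorial) = 1 := by
  classical
  have hdvd : ∀ a, T.n a ∣ r.factorial := fun a => Nat.dvd_factorial (hF.npos a) (hF.nle a)
  intro b hb
  unfold cons at hb
  induction hb using AddSubgroup.closure_induction with
  | mem b hb =>
    rcases hb with ⟨a, u, hu, rfl⟩ | ⟨x, rfl⟩
    · have h1 : mono t (T.vec a u) = χ a (FreeGroup.lift (genP (T.H a)).2 u) := by
        rw [T.mono_vec, ← lift_chi (hF.qne a) (hF.hχ a)]
        simp only [ht]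
      rw [h1]
      obtain ⟨d, hd⟩ := hdvd a
      rcases hu with hu | hu | hu
      · rw [hu, (hF.hχ a).one, one_pow]
      · rw [hd, show 2 * N₀ * (T.n a * d) = T.n a * (2 * N₀ * d) by ring, pow_mul,
          hF.chi_Z hXZ a hu, one_pow]
      · rw [hd, show 2 * N₀ * (T.n a * d) = (T.n a * N₀) * (2 * d) by ring, pow_mul,
          hF.chi_Rel hX a hu (lift_gen_mem (hF.qne a) u), one_pow]
    · obtain ⟨δ, hδ, hdet⟩ := det_G_eq T hF.qne x
      have h1 := hdet χ σ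
      rw [hF.det_G x] at h1
      have h2 : mono t (T.vx x) = (∏ a, (∏ p : Fin (T.q a) × Fin (T.q a),
          if (T.t a p.1)⁻¹ * x * T.t a p.2 ∈ T.H a then
          χ a ((T.t a p.1)⁻¹ * x * T.t a p.2) else 1) ^ T.n a : ℂˣ) := by
        rw [mono_vx]
        refine Finset.prod_congr rfl fun a _ => ?_
        congr 1
        refine Finset.prod_congr rfl fun p _ => ?_
        by_cases h3 : (T.t a p.1)⁻¹ * x * T.t a p.2 ∈ T.H a
        · rw [if_pos h3, if_pos h3, chi_self T hF.qne χ hF.hχ t ht a h3]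
        · rw [if_neg h3, if_neg h3]
      rw [← h2] at h1
      have h3 : mono t (T.vx x) ^ 2 = 1 := by
        apply Units.ext
        rw [Units.val_pow_eq_pow_val, Units.val_one]
        calc ((mono t (T.vx x) : ℂˣ) : ℂ) ^ 2 = (δ * ((mono t (T.vx x) : ℂˣ) : ℂ)) ^ 2 := by
              rw [mul_pow, hδ, one_mul]
          _ = 1 := by rw [← h1, one_pow]
      rw [show 2 * N₀ * r.factorial = 2 * (N₀ * r.factorial) by ring, pow_mul, h3, one_pow]
  | zero => rw [mono_zero, one_pow]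
  | add a b _ _ ha hb => rw [mono_add, mul_pow, ha, hb, one_mul]
  | neg a _ ha => rw [mono_neg, inv_pow, ha, inv_one]

end Vale.Agent.P002.H2
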