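import Vale.Agent.P002.H2.I6

/-!
# Final assembly, part 4: membership in the locus
-/

namespace Vale.Agent.P002.H2

open Matrix NumberField Module Vale.Agent.P002R.Orb Vale.Agent.P002.H377 Vale.Agent.P002.H306

variable {ι : Type} {I : Type} [MulAction (FreeGroup ι) I]

/-- a hom from the free group is determined by the generators: the representation defined by the
matrices `conjG` -/
theorem exists_X {r : ℕ} (T : Shape (FreeGroup ι)) (ε : Fin r ≃ T.Ix)
    (P : (Matrix (Fin r) (Fin r) ℂ)ˣ)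
    (τ : ∀ a, FreeGroup ι → Matrix (Fin (T.n a)) (Fin (T.n a)) ℂ)
    (hT : ∀ a, (T.H a).relIndex ⊤ ≠ 0) (hτ : ∀ a, MulOn (T.H a) (τ a))
    (hdet : ∀ x, (T.G τ x).det = 1) :
    ∃ X : ι → SpecialLinearGroup (Fin r) ℂ, ∀ x, mh X x = conjG T ε P τ x := by
  have hG := T.G_mulOn hT hτ
  have hd : ∀ x, (conjG T ε P τ x).det = 1 := by
    intro x
    unfold conjG
    rw [Matrix.det_mul, Matrix.det_mul, Matrix.det_submatrix_equiv_self, hdet, mul_one,
      ← Matrix.det_mul, Units.mul_inv, Matrix.det_one]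
  obtain ⟨φ, hφ⟩ : ∃ φ : FreeGroup ι →* Matrix (Fin r) (Fin r) ℂ, ∀ x, φ x = conjG T ε P τ x := by
    refine ⟨⟨⟨fun x => conjG T ε P τ x, ?_⟩, fun x y => ?_⟩, fun x => rfl⟩
    · unfold conjG
      rw [hG.one, Matrix.submatrix_one_equiv, Matrix.mul_one, Units.mul_inv]
    · change conjG T ε P τ (x * y) = conjG T ε P τ x * conjG T ε P τ y
      unfold conjG
      rw [hG.mul x trivial y trivial, ← Matrix.submatrix_mul_equiv (T.G τ x) (T.G τ y) ε ε ε]
      have h1 : (P⁻¹).1 * P.1 = 1 := Units.inv_mul P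
      calc P.1 * ((T.G τ x).submatrix ε ε * (T.G τ y).submatrix ε ε) * (P⁻¹).1
          = P.1 * (T.G τ x).submatrix ε ε * 1 * (T.G τ y).submatrix ε ε * (P⁻¹).1 := by
            simp only [Matrix.mul_assoc, Matrix.one_mul]
        _ = _ := by
            rw [← h1]
            simp only [Matrix.mul_assoc]
  obtain ⟨X, hX⟩ : ∃ X : ι → SpecialLinearGroup (Fin r) ℂ,
      ∀ p, (X p).1 = conjG T ε P τ (FreeGroup.of p) :=
    ⟨fun p => ⟨conjG T ε P τ (FreeGroup.of p), hd _⟩, fun p => rfl⟩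
  refine ⟨X, fun x => ?_⟩
  rw [← hφ]
  refine DFunLike.congr_fun ?_ x
  apply FreeGroup.ext_hom
  intro p
  rw [hφ, mh_of, hX]

/-- the image of the `a`-th block -/
noncomputable def blk {r : ℕ} (T : Shape (FreeGroup ι)) (ε : Fin r ≃ T.Ix)
    (P : (Matrix (Fin r) (Fin r) ℂ)ˣ) (a : Fin T.k) : (T.B a → ℂ) →ₗ[ℂ] (Fin r → ℂ) :=
  (P.1.mulVecLin) ∘ₗ (LinearMap.funLeft ℂ ℂ ε) ∘ₗ
    (LinearMap.pi fun s : T.Ix => if h : s.1 = a then
      (LinearMap.proj (R := ℂ) (φ := fun _ : T.B a => ℂ) (h ▸ s.2)) else 0)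

theorem blk_apply {r : ℕ} (T : Shape (FreeGroup ι)) (ε : Fin r ≃ T.Ix)
    (P : (Matrix (Fin r) (Fin r) ℂ)ˣ) (a : Fin T.k) (v : T.B a → ℂ) :
    ∃ u : T.Ix → ℂ, (∀ p, u ⟨a, p⟩ = v p) ∧ (∀ b, b ≠ a → ∀ p, u ⟨b, p⟩ = 0) ∧
      blk T ε P a v = P.1 *ᵥ (fun i => u (ε i)) := by
  refine ⟨fun s => (if h : s.1 = a then
    (LinearMap.proj (R := ℂ) (φ := fun _ : T.B a => ℂ) (h ▸ s.2)) else 0) v, fun p => ?_,
    fun b hb p => ?_, rfl⟩
  · simp
  · simp [hb]

theorem conjG_blk {r : ℕ} (T : Shape (FreeGroup ι)) (ε : Fin r ≃ T.Ix)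
    (P : (Matrix (Fin r) (Fin r) ℂ)ˣ)
    (τ : ∀ a, FreeGroup ι → Matrix (Fin (T.n a)) (Fin (T.n a)) ℂ) (x : FreeGroup ι) (a : Fin T.k)
    (v : T.B a → ℂ) : conjG T ε P τ x *ᵥ blk T ε P a v =
      blk T ε P a (indM (T.H a) (T.t a) (τ a) x *ᵥ v) := by
  obtain ⟨u, h1, h2, h3⟩ := blk_apply T ε P a v
  obtain ⟨u', h1', h2', h3'⟩ := blk_apply T ε P a (indM (T.H a) (T.t a) (τ a) x *ᵥ v)
  rw [h3, h3']
  unfold conjG
  rw [Matrix.mulVec_mulVec, Matrix.mul_assoc, Units.inv_mul, Matrix.mul_one,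
    ← Matrix.mulVec_mulVec]
  congr 1
  funext i
  have h4 : ((T.G τ x).submatrix ε ε *ᵥ fun i => u (ε i)) i = ∑ s, T.G τ x (ε i) s * u s := by
    simp only [Matrix.mulVec, dotProduct, Matrix.submatrix_apply]
    exact Equiv.sum_comp ε fun s => T.G τ x (ε i) s * u s
  rw [h4, Fintype.sum_sigma, Finset.sum_eq_single a]
  · obtain ⟨b, p, hbp⟩ : ∃ b p, ε i = ⟨b, p⟩ := ⟨(ε i).1, (ε i).2, rfl⟩
    rw [hbp]
    by_cases hb : b = a
    · subst hb
      rw [h1']
      simp only [Matrix.mulVec, dotProduct]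
      refine Finset.sum_congr rfl fun q _ => ?_
      rw [h1]
      congr 1
      unfold Shape.G
      rw [Matrix.blockDiagonal'_apply_eq]
    · rw [h2' b hb]
      refine Finset.sum_eq_zero fun q _ => ?_
      unfold Shape.G
      rw [Matrix.blockDiagonal'_apply_ne _ _ _ hb, zero_mul]
  · intro b _ hb
    refine Finset.sum_eq_zero fun q _ => ?_
    rw [h2 b hb, mul_zero]
  · intro h
    exact absurd (Finset.mem_univ a) h

theorem blk_injective {r : ℕ} (T : Shape (FreeGroup ι)) (ε : Fin r ≃ T.Ix)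
    (P : (Matrix (Fin r) (Fin r) ℂ)ˣ) (a : Fin T.k) : Function.Injective (blk T ε P a) := by
  rw [← LinearMap.ker_eq_bot, LinearMap.ker_eq_bot']
  intro v hv
  obtain ⟨u, h1, h2, h3⟩ := blk_apply T ε P a v
  rw [h3] at hv
  have h4 : (fun i => u (ε i)) = 0 := by
    have h5 := congrArg (fun w => (P⁻¹).1 *ᵥ w) hv
    simp only [Matrix.mulVec_mulVec, Units.inv_mul, Matrix.one_mulVec, Matrix.mulVec_zero] at h5
    exact h5
  funext p
  have h5 := congrFun h4 (ε.symm ⟨a, p⟩)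
  simp only [Equiv.apply_symm_apply, Pi.zero_apply] at h5
  rw [← h1, h5]
  rfl

theorem blk_top {r : ℕ} (T : Shape (FreeGroup ι)) (ε : Fin r ≃ T.Ix)
    (P : (Matrix (Fin r) (Fin r) ℂ)ˣ) : (⨆ a, LinearMap.range (blk T ε P a)) = ⊤ := by
  rw [eq_top_iff]
  intro w _
  obtain ⟨z, hz⟩ : ∃ z, z = (P⁻¹).1 *ᵥ w := ⟨_, rfl⟩
  have hw : w = P.1 *ᵥ z := by rw [hz, Matrix.mulVec_mulVec, Units.mul_inv, Matrix.one_mulVec]
  have h1 : w = ∑ a, blk T ε P a (fun p => z (ε.symm ⟨a, p⟩)) := by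
    have h2 : ∀ a, _ := fun a => blk_apply T ε P a (fun p => z (ε.symm ⟨a, p⟩))
    choose u hu1 hu2 hu3 using h2
    rw [Finset.sum_congr rfl fun a _ => hu3 a, ← Matrix.mulVec_sum, hw]
    congr 1
    funext i
    obtain ⟨b, p, hbp⟩ : ∃ b p, ε i = ⟨b, p⟩ := ⟨(ε i).1, (ε i).2, rfl⟩
    rw [Finset.sum_apply, Finset.sum_eq_single b]
    · rw [hbp, hu1, ← hbp, Equiv.symm_apply_apply]
    · intro a _ ha
      rw [hbp, hu2 a b (Ne.symm ha)]
    · intro h
      exact absurd (Finset.mem_univ b) h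
  rw [h1]
  exact Submodule.sum_mem _ fun a _ => (le_iSup (fun a => LinearMap.range (blk T ε P a)) a) ⟨_, rfl⟩

/-- semisimplicity -/
theorem ssi_of_burn {r : ℕ} (T : Shape (FreeGroup ι)) (ε : Fin r ≃ T.Ix)
    (P : (Matrix (Fin r) (Fin r) ℂ)ˣ)
    (τ : ∀ a, FreeGroup ι → Matrix (Fin (T.n a)) (Fin (T.n a)) ℂ)
    (hne : ∀ a, Nonempty (T.B a))
    (g : ∀ a, T.B a × T.B a → FreeGroup ι) (hg : ∀ a, burn T g τ a ≠ 0)
    (X : ι → SpecialLinearGroup (Fin r) ℂ) (hX : ∀ x, mh X x = conjG T ε P τ x) :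
    ∀ W, IsInv X W → ∃ W', IsInv X W' ∧ IsCompl W W' := by
  have hXp : ∀ p, (X p).1 = conjG T ε P τ (FreeGroup.of p) := fun p => by rw [← hX, mh_of]
  -- invariance under the generators implies invariance under all elements
  have hall : ∀ W : Submodule ℂ (Fin r → ℂ), IsInv X W → ∀ x, ∀ v ∈ W, mh X x *ᵥ v ∈ W := by
    intro W hW x
    induction x using FreeGroup.induction_on with
    | C1 =>
      intro v hv
      rw [map_one, Matrix.one_mulVec]
      exact hv
    | of p =>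
      intro v hv
      rw [mh_of]
      exact hW p v hv
    | inv_of p ih =>
      refine inv_mem (g := mh X (FreeGroup.of p)) ?_ ih
      rw [← map_mul, inv_mul_cancel, map_one]
    | mul x y hx hy =>
      intro v hv
      rw [map_mul, ← Matrix.mulVec_mulVec]
      exact hx _ (hy v hv)
  refine Vale.Agent.P002.H326.isSS_of_sSup (Set.range fun a => LinearMap.range (blk T ε P a)) ?_ ?_
  · rintro _ ⟨a, rfl⟩
    refine ⟨?_, ?_, fun W hW hWi => ?_⟩
    · intro h
      rw [LinearMap.range_eq_bot] at h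
      obtain ⟨p⟩ := hne a
      have h1 : blk T ε P a (Pi.single p 1) = blk T ε P a 0 := by rw [h]; rfl
      have h2 := congrFun (blk_injective T ε P a h1) p
      simp at h2
    · rintro p _ ⟨v, rfl⟩
      rw [hXp, conjG_blk]
      exact ⟨_, rfl⟩
    · have h1 := irr_of_burn (fun x => indM (T.H a) (T.t a) (τ a) x) (g a) (hg a)
        (W.comap (blk T ε P a)) (by
          intro x v hv
          rw [Submodule.mem_comap] at hv ⊢
          rw [← conjG_blk, ← hX]
          exact hall W hWi x _ hv)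
      rcases h1 with h1 | h1
      · left
        rw [eq_bot_iff]
        intro w hw
        obtain ⟨v, rfl⟩ := hW hw
        have h2 : v ∈ W.comap (blk T ε P a) := hw
        rw [h1, Submodule.mem_bot] at h2
        rw [h2, map_zero]
        exact Submodule.zero_mem _
      · right
        refine le_antisymm hW ?_
        rintro _ ⟨v, rfl⟩
        have h2 : v ∈ W.comap (blk T ε P a) := by
          rw [h1]
          trivial
        exact h2
  · rw [sSup_range]
    exact blk_top T ε P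

end Vale.Agent.P002.H2
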