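import Vale.Agent.P002.H2.J6

/-!
# Final assembly, part 5: conjugacy classes, virtual solvability, integrality
-/

namespace Vale.Agent.P002.H2

open Matrix NumberField Module Vale.Agent.P002R.Orb Vale.Agent.P002.H377 Vale.Agent.P002.H306
  Kronecker

variable {ι : Type} {I : Type} [MulAction (FreeGroup ι) I]

/-- block diagonal invertible matrices -/
noncomputable def bdU {k : ℕ} {m : Fin k → Type} [∀ i, Fintype (m i)]
    [∀ i, DecidableEq (m i)] (Q : ∀ i, (Matrix (m i) (m i) ℂ)ˣ) :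
    (Matrix ((i : Fin k) × m i) ((i : Fin k) × m i) ℂ)ˣ where
  val := Matrix.blockDiagonal' fun i => (Q i).1
  inv := Matrix.blockDiagonal' fun i => ((Q i)⁻¹).1
  val_inv := by
    rw [← Matrix.blockDiagonal'_mul]
    have : (fun i => (Q i).1 * ((Q i)⁻¹).1) = 1 := funext fun i => Units.mul_inv _
    rw [this, Matrix.blockDiagonal'_one]
  inv_val := by
    rw [← Matrix.blockDiagonal'_mul]
    have : (fun i => ((Q i)⁻¹).1 * (Q i).1) = 1 := funext fun i => Units.inv_mul _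
    rw [this, Matrix.blockDiagonal'_one]

/-- reindexing invertible matrices -/
def subU {m n : Type} [Fintype m] [DecidableEq m] [Fintype n] [DecidableEq n] (ε : m ≃ n)
    (Q : (Matrix n n ℂ)ˣ) : (Matrix m m ℂ)ˣ where
  val := Q.1.submatrix ε ε
  inv := (Q⁻¹).1.submatrix ε ε
  val_inv := by rw [Matrix.submatrix_mul_equiv, Units.mul_inv, Matrix.submatrix_one_equiv]
  inv_val := by rw [Matrix.submatrix_mul_equiv, Units.inv_mul, Matrix.submatrix_one_equiv]

/-- the conjugacy class of the image of an element -/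
theorem class_eq {r : ℕ} (T : Shape (FreeGroup ι)) (ε : Fin r ≃ T.Ix)
    (P P' : (Matrix (Fin r) (Fin r) ℂ)ˣ)
    (χ χ' : ∀ _ : Fin T.k, FreeGroup ι → ℂˣ)
    (σ σ' : ∀ a : Fin T.k, FreeGroup ι → SpecialLinearGroup (Fin (T.n a)) ℂ)
    (hχ : ∀ a, MulOn (T.H a) (χ a)) (hσ : ∀ a, MulOn (T.H a) (σ a))
    (hχ' : ∀ a, MulOn (T.H a) (χ' a)) (hσ' : ∀ a, MulOn (T.H a) (σ' a))
    (X X' : ι → SpecialLinearGroup (Fin r) ℂ) (y : FreeGroup ι)
    (hX : mh X y * P.1 = P.1 * (T.G (fun a => tw (χ a) (σ a)) y).submatrix ε ε)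
    (hX' : mh X' y = conjG T ε P' (fun a => tw (χ' a) (σ' a)) y)
    (hc : ∀ (a : Fin T.k) (x : FreeGroup ι) (k : ℤ), x⁻¹ * y ^ k * x ∈ T.H a →
      IsConj (twU (χ a) (σ a) (x⁻¹ * y ^ k * x)) (twU (χ' a) (σ' a) (x⁻¹ * y ^ k * x))) :
    IsConj (FreeGroup.lift X y) (FreeGroup.lift X' y) := by
  have h1 : ∀ a, ∃ Q : (Matrix (T.B a) (T.B a) ℂ)ˣ,
      Q.1 * indM (T.H a) (T.t a) (tw (χ a) (σ a)) y =
        indM (T.H a) (T.t a) (tw (χ' a) (σ' a)) y * Q.1 := by
    intro a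
    obtain ⟨p, hp⟩ := PC5b' (t := T.t a) (twU (χ a) (σ a)) (twU (χ' a) (σ' a))
      (twU_mulOn (hχ a) (hσ a)) (twU_mulOn (hχ' a) (hσ' a)) y (fun c k h => hc a _ k h)
    exact PC5e' (tw (χ a) (σ a)) (tw (χ' a) (σ' a)) y p fun c c' h => congrArg Units.val (hp c c' h)
  choose Q hQ using h1
  refine isConj_of_units (P' * subU ε (bdU Q) * P⁻¹) ?_
  have h2 : (bdU Q).1 * T.G (fun a => tw (χ a) (σ a)) y =
      T.G (fun a => tw (χ' a) (σ' a)) y * (bdU Q).1 := by
    have e1 : (bdU Q).1 = Matrix.blockDiagonal' fun a => (Q a).1 := rfl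
    rw [e1]
    unfold Shape.G
    rw [← Matrix.blockDiagonal'_mul, ← Matrix.blockDiagonal'_mul]
    congr 1
    exact funext fun a => hQ a
  have h3 : (subU ε (bdU Q)).1 * (T.G (fun a => tw (χ a) (σ a)) y).submatrix ε ε =
      (T.G (fun a => tw (χ' a) (σ' a)) y).submatrix ε ε * (subU ε (bdU Q)).1 := by
    change (bdU Q).1.submatrix ε ε * _ = _ * (bdU Q).1.submatrix ε ε
    rw [Matrix.submatrix_mul_equiv, h2, Matrix.submatrix_mul_equiv]
  have h4 : mh X y = P.1 * (T.G (fun a => tw (χ a) (σ a)) y).submatrix ε ε * (P⁻¹).1 := by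
    rw [← hX, Matrix.mul_assoc, Units.mul_inv, Matrix.mul_one]
  change (P' * subU ε (bdU Q) * P⁻¹ : (Matrix (Fin r) (Fin r) ℂ)ˣ).1 * mh X y =
    mh X' y * (P' * subU ε (bdU Q) * P⁻¹ : (Matrix (Fin r) (Fin r) ℂ)ˣ).1
  rw [h4, hX', Units.val_mul, Units.val_mul]
  unfold conjG
  have h5 : (P⁻¹).1 * P.1 = 1 := Units.inv_mul P
  have h6 : (P'⁻¹).1 * P'.1 = 1 := Units.inv_mul P'
  calc P'.1 * (subU ε (bdU Q)).1 * (P⁻¹).1 *
        (P.1 * (T.G (fun a => tw (χ a) (σ a)) y).submatrix ε ε * (P⁻¹).1)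
      = P'.1 * (subU ε (bdU Q)).1 * ((P⁻¹).1 * P.1) *
        (T.G (fun a => tw (χ a) (σ a)) y).submatrix ε ε * (P⁻¹).1 := by
        simp only [Matrix.mul_assoc]
    _ = P'.1 * ((subU ε (bdU Q)).1 *
        (T.G (fun a => tw (χ a) (σ a)) y).submatrix ε ε) * (P⁻¹).1 := by
        rw [h5]
        simp only [Matrix.mul_assoc, Matrix.one_mul]
    _ = P'.1 * (T.G (fun a => tw (χ' a) (σ' a)) y).submatrix ε ε * 1 *
        (subU ε (bdU Q)).1 * (P⁻¹).1 := by
        rw [h3]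
        simp only [Matrix.mul_assoc, Matrix.one_mul]
    _ = _ := by
        rw [← h6]
        simp only [Matrix.mul_assoc]

/-- relative index of conjugates inside a normal subgroup -/
theorem relIndex_conj {F : Type} [Group F] (K B : Subgroup F) (x : F)
    (hK : ∀ y ∈ K, x⁻¹ * y * x ∈ K) (hK' : ∀ y ∈ K, x * y * x⁻¹ ∈ K) (h : B.relIndex K ≠ 0) :
    (B.map (MulAut.conj x).toMonoidHom).relIndex K ≠ 0 := by
  have h1 : K.map (MulAut.conj x).toMonoidHom = K := by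
    ext y
    constructor
    · rintro ⟨z, hz, rfl⟩
      exact hK' z hz
    · intro hy
      exact ⟨x⁻¹ * y * x, hK y hy, by
        change x * (x⁻¹ * y * x) * x⁻¹ = y
        group⟩
  rw [← h1, Subgroup.relIndex_map_map_of_injective _ _ (MulAut.conj x).injective]
  exact h

/-- virtual solvability on `K` -/
theorem vs_X {r : ℕ} (C : Ctx (FreeGroup ι) I) (T : Shape (FreeGroup ι)) (ε : Fin r ≃ T.Ix)
    (P' : (Matrix (Fin r) (Fin r) ℂ)ˣ) (τ : ∀ a, FreeGroup ι → Matrix (Fin (T.n a)) (Fin (T.n a)) ℂ)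
    (hT : ∀ a, (T.H a).relIndex ⊤ ≠ 0)
    (hKn : ∀ x, ∀ y ∈ C.K, x * y * x⁻¹ ∈ C.K)
    (hvs : ∀ a, VS (C.K ⊓ T.H a) (τ a))
    (X' : ι → SpecialLinearGroup (Fin r) ℂ) (hX' : ∀ y, mh X' y = conjG T ε P' τ y) :
    VS C.K (FreeGroup.lift X') := by
  choose B hB1 hB2 m hm using hvs
  have hKn' : ∀ x, ∀ y ∈ C.K, x⁻¹ * y * x ∈ C.K := fun x y hy => by
    have := hKn x⁻¹ y hy
    rwa [inv_inv] at this
  -- the intersection of all conjugates
  obtain ⟨D, hD⟩ : ∃ D : Subgroup (FreeGroup ι), D = C.K ⊓ ⨅ p : (a : Fin T.k) × Fin (T.q a),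
      (B p.1).map (MulAut.conj (T.t p.1 p.2)).toMonoidHom := ⟨_, rfl⟩
  have hDB : ∀ a c, ∀ j, ∀ x ∈ dser D j, (T.t a c)⁻¹ * x * T.t a c ∈ dser (B a) j := by
    intro a c j x hx
    have h1 : D ≤ (B a).map (MulAut.conj (T.t a c)).toMonoidHom := by
      rw [hD]
      exact inf_le_right.trans (iInf_le (fun p : (a : Fin T.k) × Fin (T.q a) =>
        (B p.1).map (MulAut.conj (T.t p.1 p.2)).toMonoidHom) ⟨a, c⟩)
    have h2 := dser_mono h1 j hx
    rw [dser_conj] at h2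
    obtain ⟨y, hy, hyx⟩ := h2
    have h3 : T.t a c * y * (T.t a c)⁻¹ = x := hyx
    rw [← h3]
    have h4 : (T.t a c)⁻¹ * (T.t a c * y * (T.t a c)⁻¹) * T.t a c = y := by group
    rw [h4]
    exact hy
  refine ⟨D, by rw [hD]; exact inf_le_left, ?_, Finset.univ.sup m, fun x hx => ?_⟩
  · rw [hD, Subgroup.inf_relIndex_left]
    refine Subgroup.relIndex_iInf_ne_zero fun p => ?_
    refine relIndex_conj _ _ _ (hKn' _) (hKn _) ?_
    have h1 : (C.K ⊓ T.H p.1).relIndex C.K ≠ 0 := by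
      rw [Subgroup.inf_relIndex_left]
      refine fun h => hT p.1 (Subgroup.relIndex_eq_zero_of_le_right le_top h)
    exact Subgroup.relIndex_ne_zero_trans (hB2 p.1) h1
  · have h1 : T.G τ x = 1 := by
      unfold Shape.G
      have h2 : (fun a => indM (T.H a) (T.t a) (τ a) x) = 1 := by
        funext a
        change indM (T.H a) (T.t a) (τ a) x = 1
        have hBH : B a ≤ T.H a := (hB1 a).trans inf_le_right
        have hxa : ∀ c, (T.t a c)⁻¹ * x * T.t a c ∈ dser (B a) (m a) := fun c =>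
          dser_anti (B a) (Finset.le_sup (Finset.mem_univ a)) (hDB a c _ x hx)
        have hxH : ∀ c, (T.t a c)⁻¹ * x * T.t a c ∈ T.H a := fun c =>
          hBH (dser_le _ _ (hxa c))
        ext p q
        by_cases hpq : p.1 = q.1
        · obtain ⟨p1, p2⟩ := p
          obtain ⟨q1, q2⟩ := q
          change p1 = q1 at hpq
          subst hpq
          rw [indM_apply_of_mem (hxH p1)]
          change τ a ((T.t a p1)⁻¹ * x * T.t a p1) p2 q2 = _
          rw [hm a _ (hxa p1), Matrix.one_apply, Matrix.one_apply]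
          simp
        · rw [indM_apply_of_notMem, Matrix.one_apply_ne fun h => hpq (congrArg Prod.fst h)]
          intro h
          have h2 : (T.t a p.1)⁻¹ * T.t a q.1 ∈ T.H a := by
            have h3 := mul_mem h (inv_mem (hxH q.1))
            have h4 : (T.t a p.1)⁻¹ * x * T.t a q.1 * ((T.t a q.1)⁻¹ * x * T.t a q.1)⁻¹ =
                (T.t a p.1)⁻¹ * T.t a q.1 := by
              group
            rwa [h4] at h3
          obtain ⟨c, -, hu⟩ := (trv_spec (hT a)).uniq (T.t a q.1) trivial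
          have h5 : p.1 = c := hu _ h2
          have h6 : q.1 = c := hu _ (by
            change (T.t a q.1)⁻¹ * T.t a q.1 ∈ T.H a
            rw [inv_mul_cancel]
            exact one_mem _)
          exact hpq (h5.trans h6.symm)
      rw [h2, Matrix.blockDiagonal'_one]
    have h2 := hX' x
    unfold conjG at h2
    rw [h1, Matrix.submatrix_one_equiv, Matrix.mul_one, Units.mul_inv] at h2
    exact Subtype.ext h2

/-- conjugating the `τ a` -/
theorem G_conj (T : Shape (FreeGroup ι))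
    (τ : ∀ a, FreeGroup ι → Matrix (Fin (T.n a)) (Fin (T.n a)) ℂ)
    (Q : ∀ a, (Matrix (Fin (T.n a)) (Fin (T.n a)) ℂ)ˣ) :
    ∃ U : (Matrix T.Ix T.Ix ℂ)ˣ, ∀ x, U.1 * T.G τ x * (U⁻¹).1 =
      T.G (fun a y => (Q a).1 * τ a y * ((Q a)⁻¹).1) x := by
  obtain ⟨V, hV1, hV2⟩ : ∃ V : ∀ a, (Matrix (T.B a) (T.B a) ℂ)ˣ,
      (∀ a, (V a).1 = (1 : Matrix (Fin (T.q a)) (Fin (T.q a)) ℂ) ⊗ₖ (Q a).1) ∧
      ∀ a, ((V a)⁻¹).1 = (1 : Matrix (Fin (T.q a)) (Fin (T.q a)) ℂ) ⊗ₖ ((Q a)⁻¹).1 := by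
    refine ⟨fun a => ⟨(1 : Matrix (Fin (T.q a)) (Fin (T.q a)) ℂ) ⊗ₖ (Q a).1,
      (1 : Matrix (Fin (T.q a)) (Fin (T.q a)) ℂ) ⊗ₖ ((Q a)⁻¹).1, ?_, ?_⟩, fun a => rfl,
      fun a => rfl⟩
    · rw [← Matrix.mul_kronecker_mul, Units.mul_inv, Matrix.one_mul, Matrix.one_kronecker_one]
    · rw [← Matrix.mul_kronecker_mul, Units.inv_mul, Matrix.one_mul, Matrix.one_kronecker_one]
  refine ⟨bdU V, fun x => ?_⟩
  change Matrix.blockDiagonal' (fun a => (V a).1) * Matrix.blockDiagonal' _ *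
    Matrix.blockDiagonal' (fun a => ((V a)⁻¹).1) = _
  rw [← Matrix.blockDiagonal'_mul, ← Matrix.blockDiagonal'_mul]
  unfold Shape.G
  congr 1
  funext a
  rw [hV1, hV2]
  ext ⟨p, i⟩ ⟨q, j⟩
  rw [Matrix.mul_apply, Fintype.sum_prod_type, Finset.sum_eq_single q]
  · have h1 : ∀ j', ((1 : Matrix (Fin (T.q a)) (Fin (T.q a)) ℂ) ⊗ₖ (Q a).1 *
        indM (T.H a) (T.t a) (τ a) x) (p, i) (q, j') =
        ∑ i', (Q a).1 i i' * indM (T.H a) (T.t a) (τ a) x (p, i') (q, j') := by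
      intro j'
      rw [Matrix.mul_apply, Fintype.sum_prod_type, Finset.sum_eq_single p]
      · refine Finset.sum_congr rfl fun i' _ => ?_
        rw [Matrix.kronecker_apply, Matrix.one_apply_eq, one_mul]
      · intro b _ hb
        refine Finset.sum_eq_zero fun i' _ => ?_
        rw [Matrix.kronecker_apply, Matrix.one_apply_ne (Ne.symm hb), zero_mul, zero_mul]
      · intro h
        exact absurd (Finset.mem_univ p) h
    by_cases h : (T.t a p)⁻¹ * x * T.t a q ∈ T.H a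
    · rw [indM_apply_of_mem (p := (p, i)) (q := (q, j)) h]
      refine Eq.trans ?_ (Matrix.mul_apply).symm
      refine Finset.sum_congr rfl fun j' _ => ?_
      rw [h1, Matrix.kronecker_apply, Matrix.one_apply_eq, one_mul, Matrix.mul_apply]
      congr 1
      refine Finset.sum_congr rfl fun i' _ => ?_
      rw [indM_apply_of_mem (p := (p, i')) (q := (q, j')) h]
    · rw [indM_apply_of_notMem (p := (p, i)) (q := (q, j)) h]
      refine Finset.sum_eq_zero fun j' _ => ?_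
      rw [h1, Finset.sum_eq_zero, zero_mul]
      intro i' _
      rw [indM_apply_of_notMem (p := (p, i')) (q := (q, j')) h, mul_zero]
  · intro b _ hb
    refine Finset.sum_eq_zero fun j' _ => ?_
    rw [Matrix.kronecker_apply, Matrix.one_apply_ne hb, zero_mul, mul_zero]
  · intro h
    exact absurd (Finset.mem_univ q) h

/-- integrality of the entries -/
theorem G_int (T : Shape (FreeGroup ι)) (L : IntermediateField ℚ ℂ)
    (τ : ∀ a, FreeGroup ι → Matrix (Fin (T.n a)) (Fin (T.n a)) ℂ)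
    (h : ∀ a, ∀ x ∈ T.H a, ∀ i j, InO L (τ a x i j)) (x : FreeGroup ι) (p q : T.Ix) :
    InO L (T.G τ x p q) := by
  have h0 : InO L 0 := ⟨0, rfl⟩
  obtain ⟨a, p⟩ := p
  obtain ⟨b, q⟩ := q
  unfold Shape.G
  by_cases hab : a = b
  · subst hab
    rw [Matrix.blockDiagonal'_apply_eq]
    by_cases hpq : (T.t a p.1)⁻¹ * x * T.t a q.1 ∈ T.H a
    · rw [indM_apply_of_mem hpq]
      exact h a _ hpq _ _
    · rw [indM_apply_of_notMem hpq]
      exact h0
  · rw [Matrix.blockDiagonal'_apply_ne _ _ _ hab]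
    exact h0

end Vale.Agent.P002.H2
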