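import Vale.Agent.P002.H2.K6
import Vale.Agent.P002.H326J.J6
import Vale.Agent.P002.H326J.J7

/-!
# Final assembly
-/

namespace Vale.Agent.P002.H2

open Matrix NumberField Module Vale.Agent.P002R.Orb Vale.Agent.P002.H377 Vale.Agent.P002.H306
  Vale.Agent.P002.H326J commutatorElement

variable {ι : Type} {I : Type} [MulAction (FreeGroup ι) I]

theorem finite_index_le (ι : Type) [Finite ι] (B : ℕ) :
    {H : Subgroup (FreeGroup ι) | H.index ≠ 0 ∧ H.index ≤ B}.Finite := by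
  obtain ⟨Δ, hn, hf, h⟩ := Vale.Agent.P002.H326J.exists_delta ι B
  refine (Set.finite_range
    (fun K : Subgroup (FreeGroup ι ⧸ Δ) => K.comap (QuotientGroup.mk' Δ))).subset ?_
  rintro H ⟨h0, hB⟩
  refine ⟨H.map (QuotientGroup.mk' Δ), ?_⟩
  change (H.map (QuotientGroup.mk' Δ)).comap (QuotientGroup.mk' Δ) = H
  rw [Subgroup.comap_map_eq, QuotientGroup.ker_mk', sup_eq_left]
  exact h H h0 hB

/-- shapes with bounded data -/
def shapes (ι : Type) (r : ℕ) : Set (Shape (FreeGroup ι)) :=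
  {T | T.k ≤ r ∧ (∀ a, T.n a ≤ r) ∧ ∀ a, (T.H a).relIndex ⊤ ≠ 0 ∧ (T.H a).relIndex ⊤ ≤ r}

theorem shapes_finite (ι : Type) [Finite ι] (r : ℕ) : (shapes ι r).Finite := by
  have hf : Finite {H : Subgroup (FreeGroup ι) // H.index ≠ 0 ∧ H.index ≤ r} :=
    finite_index_le ι r
  refine (Set.finite_range (fun p : (k : Fin (r + 1)) ×
    (Fin k → Fin (r + 1) × {H : Subgroup (FreeGroup ι) // H.index ≠ 0 ∧ H.index ≤ r}) =>
      (⟨p.1, fun a => (p.2 a).1, fun a => (p.2 a).2.1⟩ : Shape (FreeGroup ι)))).subset ?_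
  rintro ⟨k, n, H⟩ ⟨h1, h2, h3⟩
  refine ⟨⟨⟨k, Nat.lt_succ_of_le h1⟩, fun a => (⟨n a, Nat.lt_succ_of_le (h2 a)⟩, ⟨H a, ?_⟩)⟩, rfl⟩
  have := h3 a
  rwa [Subgroup.relIndex_top_right] at this

/-- one field for finitely many conditions -/
theorem exists_sup {κ : Type*} (S : Set κ) (hS : S.Finite) (A : κ → IntermediateField ℚ ℂ → Prop)
    (hmono : ∀ s L L', L ≤ L' → A s L → A s L')
    (h : ∀ s ∈ S, ∃ L : IntermediateField ℚ ℂ, FiniteDimensional ℚ L ∧ A s L) :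
    ∃ L : IntermediateField ℚ ℂ, FiniteDimensional ℚ L ∧ ∀ s ∈ S, A s L := by
  induction S, hS using Set.Finite.induction_on with
  | empty => exact ⟨⊥, inferInstance, fun s hs => absurd hs (Set.notMem_empty s)⟩
  | insert _ _ ih =>
    rename_i a S _ _
    obtain ⟨L₁, h1, h2⟩ := ih fun s hs => h s (Set.mem_insert_of_mem _ hs)
    obtain ⟨L₂, h3, h4⟩ := h a (Set.mem_insert a S)
    refine ⟨L₁ ⊔ L₂, IntermediateField.finiteDimensional_sup _ _, fun s hs => ?_⟩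
    rcases Set.mem_insert_iff.1 hs with rfl | hs
    · exact hmono s _ _ le_sup_right h4
    · exact hmono s _ _ le_sup_left (h2 s hs)

theorem torus_mono {J : Type} [Fintype J] (M : ℕ) (B : AddSubgroup (J → ℤ))
    (L L' : IntermediateField ℚ ℂ) (hL : L ≤ L')
    (h : ∀ t : J → ℂˣ, (∀ b ∈ B, mono t b ^ M = 1) → ∀ Ψ ∈ LauJ J, Ψ t ≠ 0 →
        ∃ t' : J → ℂˣ, (∀ b ∈ B, mono t' b = mono t b) ∧
          (∀ j, InO L (t' j : ℂ) ∧ InO L (((t' j)⁻¹ : ℂˣ) : ℂ)) ∧ Ψ t' ≠ 0) :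
    ∀ t : J → ℂˣ, (∀ b ∈ B, mono t b ^ M = 1) → ∀ Ψ ∈ LauJ J, Ψ t ≠ 0 →
        ∃ t' : J → ℂˣ, (∀ b ∈ B, mono t' b = mono t b) ∧
          (∀ j, InO L' (t' j : ℂ) ∧ InO L' (((t' j)⁻¹ : ℂˣ) : ℂ)) ∧ Ψ t' ≠ 0 := by
  intro t ht Ψ hΨ h0
  obtain ⟨t', h1, h2, h3⟩ := h t ht Ψ hΨ h0
  exact ⟨t', h1, fun j => ⟨(h2 j).1.mono hL, (h2 j).2.mono hL⟩, h3⟩

theorem dens_SL {r : ℕ} (Z : ι → Matrix (Fin r) (Fin r) ℂ)
    (f : MvPolynomial (ι × Fin r × Fin r) ℂ) (S : (Matrix (Fin r) (Fin r) ℂ)ˣ)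
    (h : MvPolynomial.eval (fun q : ι × Fin r × Fin r => (S.1 * Z q.1 * S⁻¹.1) q.2.1 q.2.2) f ≠ 0) :
    ∃ A : SpecialLinearGroup (Fin r) ℤ, MvPolynomial.eval (fun q : ι × Fin r × Fin r =>
      (A.1.map (Int.castRingHom ℂ) * Z q.1 * A⁻¹.1.map (Int.castRingHom ℂ)) q.2.1 q.2.2) f ≠ 0 := by
  by_contra hcon
  push Not at hcon
  refine h ?_
  refine Vale.Agent.P002.H306.dens (s := 0) (fun _ => Z) (fun y i => i.elim0) Set.univ
    ?_ f (fun A y _ => hcon A) S (fun i => i.elim0)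
  rw [Set.infinite_univ_iff]
  refine Infinite.of_injective (fun n : ℕ => Units.mk0 ((n : ℂ) + 1) (Nat.cast_add_one_ne_zero n))
    fun a b hab => ?_
  have h1 : ((a : ℂ) + 1) = (b : ℂ) + 1 := congrArg Units.val hab
  exact_mod_cast add_right_cancel h1

theorem isKn (C : Ctx (FreeGroup ι) I) : ∀ x, ∀ y ∈ C.K, x * y * x⁻¹ ∈ C.K := by
  intro x y hy
  unfold Ctx.K at hy ⊢
  rw [Subgroup.mem_iInf] at hy ⊢
  intro i
  have := C.hN x (x⁻¹ • i) y (hy _)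
  rwa [smul_inv_smul] at this

theorem tw_congr {n : ℕ} {χ χ' : FreeGroup ι → ℂˣ}
    {σ : FreeGroup ι → SpecialLinearGroup (Fin n) ℂ} {x : FreeGroup ι} (h : χ x = χ' x) :
    tw χ σ x = tw χ' σ x := by
  unfold tw
  rw [h]

/-- the density locus -/
def YK {r s : ℕ} (R : Set (FreeGroup ι)) (w : Fin s → FreeGroup ι)
    (C₀ : Fin s → SpecialLinearGroup (Fin r) ℂ) (K : Subgroup (FreeGroup ι)) :
    Set (ι → SpecialLinearGroup (Fin r) ℂ) :=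
  {X ∈ YW R w C₀ | VS K (FreeGroup.lift X)}

theorem adm_sub (C : Ctx (FreeGroup ι) I) {N₀ r : ℕ} (X : ι → SpecialLinearGroup (Fin r) ℂ)
    (hXvs : VS C.K (FreeGroup.lift X)) (hXZ : ∀ z ∈ C.Z, mh X z = 1)
    (hXe : ∀ y ∈ C.Rel, ∀ (v : Fin r → ℂ) (c : ℂ), v ≠ 0 → mh X y *ᵥ v = c • v → c ^ N₀ = 1)
    (U : Submodule ℂ (Fin r → ℂ)) (ρU : FreeGroup ι → Module.End ℂ U) (hU : IrrSub (rep X) U)
    (hρU : ∀ x (v : U), ((ρU x v : U) : Fin r → ℂ) = rep X x v) : Adm C N₀ ⊤ ρU := by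
  refine ⟨⟨?_, fun x _ y _ => ?_⟩, ⟨?_, fun W hW => ?_⟩, le_top, ?_, fun z hz => ?_,
    fun y hy _ a b ha hb => ?_, ?_⟩
  · refine LinearMap.ext fun v => Subtype.ext ?_
    rw [hρU, (rep_mulOn X).one]
    rfl
  · refine LinearMap.ext fun v => Subtype.ext ?_
    rw [Module.End.mul_apply, hρU, hρU, hρU, (rep_mulOn X).mul x trivial y trivial,
      Module.End.mul_apply]
  · exact Submodule.nontrivial_iff_ne_bot.2 hU.1
  · have h1 := hU.2.2 (W.map U.subtype) (Submodule.map_subtype_le U W) (by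
      rintro x _ ⟨v, hv, rfl⟩
      refine ⟨ρU x v, hW x trivial v hv, ?_⟩
      exact hρU x v)
    rcases h1 with h1 | h1
    · left
      exact (Submodule.map_injective_of_injective U.injective_subtype)
        (h1.trans (Submodule.map_bot _).symm)
    · right
      refine (Submodule.map_injective_of_injective U.injective_subtype) (h1.trans ?_)
      rw [Submodule.map_top, Submodule.range_subtype]
  · rw [Subgroup.index_top]
    exact one_ne_zero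
  · refine ⟨1, LinearMap.ext fun v => Subtype.ext ?_⟩
    rw [hρU, rep, hXZ z hz, Matrix.toLin'_one, one_smul]
    rfl
  · have h1 : ∀ c, (ρU y).HasEigenvalue c → c ^ N₀ = 1 := by
      intro c hc
      obtain ⟨v, hv⟩ := hc.exists_hasEigenvector
      refine hXe y hy v.1 c (fun h => hv.2 (Subtype.ext h)) ?_
      have h2 := congrArg Subtype.val hv.apply_eq_smul
      rw [hρU, rep, Matrix.toLin'_apply] at h2
      exact h2
    rw [h1 a ha, h1 b hb]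
  · rw [inf_top_eq]
    refine hXvs.of_imp fun x _ hx => LinearMap.ext fun v => Subtype.ext ?_
    rw [hρU, rep]
    have h1 : mh X x = 1 := congrArg Subtype.val hx
    rw [h1, Matrix.toLin'_one]
    rfl

theorem exists_words {T : Shape (FreeGroup ι)} (hT : ∀ a, (T.H a).relIndex ⊤ ≠ 0)
    (hne : ∀ a, Nonempty (T.B a))
    (τ : ∀ a, FreeGroup ι → Matrix (Fin (T.n a)) (Fin (T.n a)) ℂ)
    (hτ : ∀ a, MulOn (T.H a) (τ a))
    (hirr : ∀ (a : Fin T.k) (W : Submodule ℂ (T.B a → ℂ)),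
      (∀ x, ∀ v ∈ W, indM (T.H a) (T.t a) (τ a) x *ᵥ v ∈ W) → W = ⊥ ∨ W = ⊤) :
    ∃ g : ∀ a, T.B a × T.B a → FreeGroup ι, ∀ a, burn T g τ a ≠ 0 := by
  have hburn : ∀ a, ∃ g : T.B a × T.B a → FreeGroup ι,
      (Matrix.of fun (k l : T.B a × T.B a) =>
        indM (T.H a) (T.t a) (τ a) (g k) l.1 l.2).det ≠ 0 := by
    intro a
    have := hne a
    have hm := PC5c (le_top : T.H a ≤ ⊤) (trv_spec (hT a)) (τ a) (hτ a)
    obtain ⟨z, hz⟩ : ∃ z : FreeGroup ι →* Matrix (T.B a) (T.B a) ℂ,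
        ∀ x, z x = indM (T.H a) (T.t a) (τ a) x :=
      ⟨⟨⟨_, hm.one⟩, fun x y => hm.mul x trivial y trivial⟩, fun x => rfl⟩
    obtain ⟨g, hg⟩ := exists_burn z (by
      intro W hW
      refine hirr a W fun x v hv => ?_
      rw [← hz]
      exact hW x v hv)
    refine ⟨g, ?_⟩
    simp only [hz] at hg
    exact hg
  choose g hg using hburn
  exact ⟨g, hg⟩

theorem Theta_congr {r : ℕ} (T : Shape (FreeGroup ι)) (ε : Fin r ≃ T.Ix)
    (P : (Matrix (Fin r) (Fin r) ℂ)ˣ) (f : MvPolynomial (ι × Fin r × Fin r) ℂ)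
    (g : ∀ a, T.B a × T.B a → FreeGroup ι)
    (τ τ' : ∀ a, FreeGroup ι → Matrix (Fin (T.n a)) (Fin (T.n a)) ℂ)
    (h : ∀ a, ∀ x ∈ T.H a, τ a x = τ' a x) : Theta T ε P f g τ = Theta T ε P f g τ' := by
  have h2 : ∀ a x, indM (T.H a) (T.t a) (τ a) x = indM (T.H a) (T.t a) (τ' a) x := fun a x =>
    indM_congr fun p q hpq => h a _ hpq
  have h1 : ∀ x, T.G τ x = T.G τ' x := by
    intro x
    unfold Shape.G
    congr 1
    funext a
    exact h2 a x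
  unfold Theta conjG burn
  simp only [h1, h2]

/-- virtual solvability of a twist -/
theorem vs_tw {n : ℕ} {K H : Subgroup (FreeGroup ι)} {χ : FreeGroup ι → ℂˣ}
    {σ : FreeGroup ι → SpecialLinearGroup (Fin n) ℂ} (hχ : MulOn H χ) (h : VS (K ⊓ H) σ) :
    VS (K ⊓ H) (tw χ σ) := by
  obtain ⟨B, hB1, hB2, m, hm⟩ := h
  have hBH : B ≤ H := hB1.trans inf_le_right
  refine ⟨B, hB1, hB2, m + 1, fun x hx => ?_⟩
  have h7 : χ x = 1 := by
    obtain ⟨ψ, hψ⟩ : ∃ ψ : H →* ℂˣ, ∀ y, ψ y = χ y.1 := ⟨homOf hχ, fun y => rfl⟩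
    have h8 : dser B (m + 1) ≤ ψ.ker.map H.subtype := by
      rw [dser, Subgroup.commutator_le]
      intro u hu v hv
      have hu' := hBH (dser_le B _ hu)
      have hv' := hBH (dser_le B _ hv)
      refine ⟨⁅(⟨u, hu'⟩ : H), ⟨v, hv'⟩⁆, ?_, rfl⟩
      change ψ _ = 1
      rw [map_commutatorElement, commutatorElement_eq_one_iff_mul_comm, mul_comm]
    obtain ⟨y', hy', rfl⟩ := h8 hx
    have h9 : ψ y' = 1 := hy'
    rw [hψ] at h9
    exact h9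
  unfold tw
  rw [hm x (dser_succ_le B m hx), h7, Units.val_one, one_smul]
  rfl

/-- the integral model -/
theorem exists_int {r : ℕ} (T : Shape (FreeGroup ι)) (ε : Fin r ≃ T.Ix)
    (P : (Matrix (Fin r) (Fin r) ℂ)ˣ) (L : IntermediateField ℚ ℂ)
    (τ : ∀ a, FreeGroup ι → Matrix (Fin (T.n a)) (Fin (T.n a)) ℂ)
    (hint : ∀ a, ∃ Q : (Matrix (Fin (T.n a)) (Fin (T.n a)) ℂ)ˣ,
      ∀ x ∈ T.H a, ∀ i j, InO L ((Q.1 * τ a x * (Q⁻¹).1) i j))
    (f : MvPolynomial (ι × Fin r × Fin r) ℂ)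
    (hf : MvPolynomial.eval (fun q : ι × Fin r × Fin r =>
      conjG T ε P τ (FreeGroup.of q.1) q.2.1 q.2.2) f ≠ 0) :
    ∃ P' : (Matrix (Fin r) (Fin r) ℂ)ˣ, (∀ x i j, InO L (conjG T ε P' τ x i j)) ∧
      MvPolynomial.eval (fun q : ι × Fin r × Fin r =>
        conjG T ε P' τ (FreeGroup.of q.1) q.2.1 q.2.2) f ≠ 0 := by
  choose Q hQ using hint
  obtain ⟨U, hU⟩ := G_conj T τ Q
  obtain ⟨V, hV⟩ : ∃ V : (Matrix (Fin r) (Fin r) ℂ)ˣ, V = subU ε U := ⟨_, rfl⟩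
  obtain ⟨Gi, hGi⟩ : ∃ Gi : FreeGroup ι → Matrix (Fin r) (Fin r) ℂ, ∀ x, Gi x =
      (T.G (fun a y => (Q a).1 * τ a y * ((Q a)⁻¹).1) x).submatrix ε ε := ⟨_, fun x => rfl⟩
  have hGiU : ∀ x, Gi x = V.1 * (T.G τ x).submatrix ε ε * (V⁻¹).1 := by
    intro x
    rw [hGi, ← hU, hV]
    change _ = U.1.submatrix ε ε * _ * (U⁻¹).1.submatrix ε ε
    rw [Matrix.submatrix_mul_equiv, Matrix.submatrix_mul_equiv]
  have hGint : ∀ x i j, InO L (Gi x i j) := by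
    intro x i j
    rw [hGi]
    exact G_int T _ _ hQ x (ε i) (ε j)
  have hconj : ∀ (S : (Matrix (Fin r) (Fin r) ℂ)ˣ) x,
      S.1 * Gi x * (S⁻¹).1 = conjG T ε (S * V) τ x := by
    intro S x
    rw [hGiU]
    unfold conjG
    rw [_root_.mul_inv_rev, Units.val_mul, Units.val_mul]
    simp only [Matrix.mul_assoc]
  have hf1 : MvPolynomial.eval (fun q : ι × Fin r × Fin r =>
      ((P * V⁻¹).1 * Gi (FreeGroup.of q.1) * ((P * V⁻¹)⁻¹).1) q.2.1 q.2.2) f ≠ 0 := by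
    have h4 : (fun q : ι × Fin r × Fin r =>
        ((P * V⁻¹).1 * Gi (FreeGroup.of q.1) * ((P * V⁻¹)⁻¹).1) q.2.1 q.2.2) =
        fun q : ι × Fin r × Fin r => conjG T ε P τ (FreeGroup.of q.1) q.2.1 q.2.2 := by
      funext q
      rw [hconj, inv_mul_cancel_right]
    rw [h4]
    exact hf
  obtain ⟨A, hA⟩ := dens_SL (fun p => Gi (FreeGroup.of p)) f _ hf1
  obtain ⟨A', hA'1, hA'2⟩ : ∃ A' : (Matrix (Fin r) (Fin r) ℂ)ˣ,
      A'.1 = A.1.map (Int.castRingHom ℂ) ∧ (A'⁻¹).1 = A⁻¹.1.map (Int.castRingHom ℂ) := by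
    refine ⟨⟨A.1.map (Int.castRingHom ℂ), A⁻¹.1.map (Int.castRingHom ℂ), ?_, ?_⟩, rfl, rfl⟩
    · rw [← Matrix.map_mul]
      have h4 : A.1 * A⁻¹.1 = 1 := congrArg Subtype.val (mul_inv_cancel A)
      rw [h4, Matrix.map_one _ (map_zero _) (map_one _)]
    · rw [← Matrix.map_mul]
      have h4 : A⁻¹.1 * A.1 = 1 := congrArg Subtype.val (inv_mul_cancel A)
      rw [h4, Matrix.map_one _ (map_zero _) (map_one _)]
  have hzi : ∀ z : ℤ, InO L (z : ℂ) := fun z =>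
    InO.of_mem (intCast_mem L z) (isIntegral_algebraMap (R := ℤ) (A := ℂ) (x := z))
  refine ⟨A' * V, fun x i j => ?_, ?_⟩
  · rw [← hconj, hA'1, hA'2, Matrix.mul_apply]
    refine OL_sum _ _ fun l _ => OL_mul ?_ (hzi _)
    rw [Matrix.mul_apply]
    exact OL_sum _ _ fun l _ => OL_mul (hzi _) (hGint _ _ _)
  · have h4 : (fun q : ι × Fin r × Fin r =>
        conjG T ε (A' * V) τ (FreeGroup.of q.1) q.2.1 q.2.2) = (fun q : ι × Fin r × Fin r =>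
        (A.1.map (Int.castRingHom ℂ) * Gi (FreeGroup.of q.1) *
          A⁻¹.1.map (Int.castRingHom ℂ)) q.2.1 q.2.2) := by
      funext q
      rw [← hconj, hA'1, hA'2]
    rw [h4]
    exact hA

theorem assembly [Finite ι] (C : Ctx (FreeGroup ι) I) (R : Set (FreeGroup ι))
    (hZ : C.Z = Subgroup.normalClosure R) {s : ℕ} (w : Fin s → FreeGroup ι)
    (hRel : ∀ y, y ∈ C.Rel ↔ ∃ x j, ∃ a : ℤ, y = x * w j ^ a * x⁻¹) (N₀ r : ℕ) (hN₀ : 0 < N₀)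
    (L : IntermediateField ℚ ℂ) (hL : FiniteDimensional ℚ L)
    (hgood : ∀ (V : Type) [AddCommGroup V] [Module ℂ V] [FiniteDimensional ℂ V]
      (ρ : FreeGroup ι → Module.End ℂ V), Module.finrank ℂ V ≤ r → Adm C N₀ ⊤ ρ → Good C L ⊤ ρ)
    (C₀ : Fin s → SpecialLinearGroup (Fin r) ℂ) (hC₀ : ∀ j z, IsEigenvalue (C₀ j) z → z ^ N₀ = 1) :
    ∃ L' : IntermediateField ℚ ℂ, FiniteDimensional ℚ L' ∧ IsDenseRep L' (YK R w C₀ C.K) := by
  classical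
  -- the field
  obtain ⟨L₂, hL₂, hT⟩ := exists_sup (shapes ι r) (shapes_finite ι r)
    (fun T L => ∀ t : T.J → ℂˣ, (∀ b ∈ cons C T, mono t b ^ (2 * N₀ * r.factorial) = 1) →
      ∀ Ψ ∈ LauJ T.J, Ψ t ≠ 0 → ∃ t' : T.J → ℂˣ, (∀ b ∈ cons C T, mono t' b = mono t b) ∧
          (∀ j, InO L (t' j : ℂ) ∧ InO L (((t' j)⁻¹ : ℂˣ) : ℂ)) ∧ Ψ t' ≠ 0)
    (fun T L L' hL h => torus_mono _ _ L L' hL h)
    (fun T _ => torus _ (Nat.mul_pos (Nat.mul_pos two_pos hN₀) (Nat.factorial_pos r)) _)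
  refine ⟨L ⊔ L₂, IntermediateField.finiteDimensional_sup _ _, ?_⟩
  intro f hf X hX
  by_contra hfX
  obtain ⟨⟨hXN, hXc⟩, hXvs⟩ := hX
  obtain ⟨hXR, hXss⟩ := (mem_YNone_iff R X).1 hXN
  have hXZ : ∀ z ∈ C.Z, mh X z = 1 := fun z hz => mh_one_of_Z hXR (hZ ▸ hz)
  have hXw : ∀ j z, (mh X (w j)).charpoly.IsRoot z → z ^ N₀ = 1 := by
    intro j z hz
    refine hC₀ j z ?_
    change (C₀ j).1.charpoly.IsRoot z
    have h1 := charpoly_isConj (hXc j)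
    rw [← h1]
    exact hz
  have hXe : ∀ y ∈ C.Rel, ∀ (v : Fin r → ℂ) (c : ℂ), v ≠ 0 → mh X y *ᵥ v = c • v →
      c ^ N₀ = 1 := fun y hy v c hv hc => eig_rel w X hXw y ((hRel y).1 hy) v hv c hc
  -- the form
  obtain ⟨T, χ, σ, ε, P, hF⟩ := exists_form C L X hXss (by
    intro U ρU hU hρU
    have hr : Module.finrank ℂ U ≤ r := by
      have := Submodule.finrank_le U
      rwa [Module.finrank_fin_fun] at this
    exact hgood U ρU hr (adm_sub C X hXvs hXZ hXe U ρU hU hρU))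
  have hqpos : ∀ a, 0 < T.q a := fun a => Nat.pos_of_ne_zero (hF.qne a)
  have hne : ∀ a, Nonempty (T.B a) := fun a => ⟨(⟨0, hqpos a⟩, ⟨0, hF.npos a⟩)⟩
  have hTs : T ∈ shapes ι r := ⟨hF.kle, hF.nle, fun a => ⟨hF.qne a, hF.qle a⟩⟩
  -- the Burnside words
  obtain ⟨g, hg⟩ := exists_words hF.qne hne (fun a => tw (χ a) (σ a))
    (fun a => tw_mulOn (hF.hχ a) (hF.hσ a)) hF.irr
  have hXP : ∀ x, mh X x = conjG T ε P (fun a => tw (χ a) (σ a)) x := by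
    intro x
    unfold conjG
    rw [← hF.eq, Matrix.mul_assoc, Units.mul_inv, Matrix.mul_one]
  have hΘ0 : Theta T ε P f g (fun a => tw (χ a) (σ a)) ≠ 0 := by
    unfold Theta
    refine mul_ne_zero ?_ (Finset.prod_ne_zero_iff.2 fun a _ => hg a)
    intro h
    apply hfX
    rw [← h]
    change MvPolynomial.eval₂ (algebraMap ℂ ℂ) _ f = MvPolynomial.eval₂ (RingHom.id ℂ) _ f
    congr 1
    funext q
    rw [← hXP, mh_of]
  -- deform `σ`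
  obtain ⟨σ', hσ', hΘ1⟩ := deform_sigma C L T ε P f g χ σ hF.hD hΘ0
  -- deform `χ`
  obtain ⟨t, ht⟩ : ∃ t : T.J → ℂˣ, ∀ a i, t ⟨a, i⟩ = χ a ((genP (T.H a)).2 i) :=
    ⟨fun j => χ j.1 ((genP (T.H j.1)).2 j.2), fun a i => rfl⟩
  have hΨ : (fun t : T.J → ℂˣ => Theta T ε P f g (fun a => tw (T.chi t a) (σ' a))) ∈ LauJ T.J := by
    refine mem_Theta _ T ε P f g (τ := fun t a => tw (T.chi t a) (σ' a)) fun a x hx i j => ?_
    exact mul_mem (chi_Lau T a x) ((LauJ T.J).algebraMap_mem ((σ' a x).1 i j))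
  have hΨ0 : (fun t : T.J → ℂˣ => Theta T ε P f g (fun a => tw (T.chi t a) (σ' a))) t ≠ 0 := by
    change Theta T ε P f g (fun a => tw (T.chi t a) (σ' a)) ≠ 0
    rw [Theta_congr T ε P f g _ (fun a => tw (χ a) (σ' a)) fun a x hx =>
      tw_congr (chi_self T hF.qne χ hF.hχ t ht a hx)]
    exact hΘ1
  obtain ⟨t', h1, h2, h3⟩ := hT T hTs t (hF.cons_pow hXZ hXe t ht) _ hΨ hΨ0
  obtain ⟨hχ', hχe⟩ := chi_facts C T hF.qne χ hF.hχ t t' ht h1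
  obtain ⟨χ', hχ'e⟩ : ∃ χ' : ∀ _ : Fin T.k, FreeGroup ι → ℂˣ, χ' = fun a => T.chi t' a := ⟨_, rfl⟩
  have e1 : ∀ a, T.chi t' a = χ' a := fun a => by rw [hχ'e]
  simp only [e1] at hχ' hχe h3
  obtain ⟨τ', hτ'⟩ : ∃ τ' : ∀ a, FreeGroup ι → Matrix (Fin (T.n a)) (Fin (T.n a)) ℂ,
      τ' = fun a => tw (χ' a) (σ' a) := ⟨_, rfl⟩
  have hτm : ∀ a, MulOn (T.H a) (τ' a) := fun a => by
    rw [hτ']
    exact tw_mulOn (hχ' a) (hσ' a).mul
  -- determinant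
  have hdet : ∀ x, (T.G τ' x).det = 1 := by
    intro x
    obtain ⟨δ, -, hδ⟩ := det_G_eq T hF.qne x
    have h4 := hδ χ σ
    have h5 := hδ χ' σ'
    rw [hτ', h5, ← hF.det_G x, h4]
    congr 1
    have h6 := h1 (T.vx x) (AddSubgroup.subset_closure (Or.inr ⟨x, rfl⟩))
    rw [mono_vx, mono_vx] at h6
    have h7 : (∏ a, (∏ p : Fin (T.q a) × Fin (T.q a),
        if (T.t a p.1)⁻¹ * x * T.t a p.2 ∈ T.H a then
        T.chi t a ((T.t a p.1)⁻¹ * x * T.t a p.2) else 1) ^ T.n a) =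
        (∏ a, (∏ p : Fin (T.q a) × Fin (T.q a),
        if (T.t a p.1)⁻¹ * x * T.t a p.2 ∈ T.H a then
        χ a ((T.t a p.1)⁻¹ * x * T.t a p.2) else 1) ^ T.n a) := by
      refine Finset.prod_congr rfl fun a _ => ?_
      congr 1
      refine Finset.prod_congr rfl fun p _ => ?_
      by_cases h3 : (T.t a p.1)⁻¹ * x * T.t a p.2 ∈ T.H a
      · rw [if_pos h3, if_pos h3, chi_self T hF.qne χ hF.hχ t ht a h3]
      · rw [if_neg h3, if_neg h3]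
    rw [h7] at h6
    simp only [e1] at h6
    rw [h6]
  -- the values on `Z`
  have hZn : ∀ x y, y ∈ C.Z → x * y * x⁻¹ ∈ C.Z := C.hZ
  have hτZ : ∀ a, ∀ z ∈ C.Z, τ' a z = 1 := by
    intro a z hz
    rw [hτ', ← hF.tw_Z hXZ a hz]
    change ((χ' a z : ℂˣ) : ℂ) • (σ' a z).1 = ((χ a z : ℂˣ) : ℂ) • (σ a z).1
    rw [hχe a z (hF.Zle a hz) (Or.inl hz), (hσ' a).z z hz]
  have hGZ : ∀ z ∈ C.Z, T.G τ' z = 1 := by
    intro z hz
    unfold Shape.G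
    have h4 : (fun a => indM (T.H a) (T.t a) (τ' a) z) = 1 := by
      funext a
      exact indM_normal (trv_spec (hF.qne a)) hZn (hF.Zle a) hz fun y hy _ => hτZ a y hy
    rw [h4, Matrix.blockDiagonal'_one]
  -- membership
  have hmem : ∀ P' : (Matrix (Fin r) (Fin r) ℂ)ˣ, ∃ X' : ι → SpecialLinearGroup (Fin r) ℂ,
      (∀ x, mh X' x = conjG T ε P' τ' x) ∧ X' ∈ YK R w C₀ C.K := by
    intro P'
    obtain ⟨X', hX'⟩ := exists_X T ε P' τ' hF.qne hτm hdet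
    have hg' : ∀ a, burn T g τ' a ≠ 0 := by
      intro a
      have h4 : ∏ a, burn T g (fun a => tw (χ' a) (σ' a)) a ≠ 0 := (mul_ne_zero_iff.1 h3).2
      rw [hτ']
      exact Finset.prod_ne_zero_iff.1 h4 a (Finset.mem_univ a)
    refine ⟨X', hX', ⟨⟨?_, ?_⟩, fun j => ?_⟩, ?_⟩
    · intro z hz
      have h4 := hX' z
      unfold conjG at h4
      rw [hGZ z (hZ ▸ Subgroup.subset_normalClosure hz), Matrix.submatrix_one_equiv,
        Matrix.mul_one, Units.mul_inv] at h4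
      exact Subtype.ext h4
    · exact ssi_of_burn T ε P' τ' hne g hg' X' hX'
    · refine (hXc j).trans ?_
      refine class_eq T ε P P' χ χ' σ σ' hF.hχ hF.hσ hχ' (fun a => (hσ' a).mul) X X' (w j)
        (hF.eq _) (by rw [hX', hτ']) fun a x k hk => ?_
      have h4 : x⁻¹ * w j ^ k * x ∈ C.Rel := (hRel _).2 ⟨x⁻¹, j, k, by rw [inv_inv]⟩
      exact twU_isConj (hχe a _ hk (Or.inr h4)) ((hσ' a).rel _ h4 hk)
    · refine vs_X C T ε P' τ' hF.qne (isKn C) (fun a => ?_) X' hX'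
      rw [hτ']
      exact vs_tw (hχ' a) (hσ' a).vs
  -- integrality
  have hint : ∀ a, ∃ Q : (Matrix (Fin (T.n a)) (Fin (T.n a)) ℂ)ˣ,
      ∀ x ∈ T.H a, ∀ i j, InO (L ⊔ L₂) ((Q.1 * τ' a x * (Q⁻¹).1) i j) := by
    intro a
    obtain ⟨Q, hQ⟩ := (hσ' a).int
    refine ⟨Q, fun x hx i j => ?_⟩
    have h4 : Q.1 * τ' a x * (Q⁻¹).1 = ((χ' a x : ℂˣ) : ℂ) • (Q.1 * (σ' a x).1 * (Q⁻¹).1) := by
      rw [hτ']
      change Q.1 * (((χ' a x : ℂˣ) : ℂ) • (σ' a x).1) * (Q⁻¹).1 = _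
      rw [mul_smul_comm, smul_mul_assoc]
    rw [h4, Matrix.smul_apply, smul_eq_mul]
    refine InO.mul ?_ (InO.mono le_sup_left (hQ x hx i j))
    rw [hχ'e]
    exact InO.mono le_sup_right (chi_InO T L₂ t' h2 a x)
  have h4 : MvPolynomial.eval (fun q : ι × Fin r × Fin r =>
      conjG T ε P τ' (FreeGroup.of q.1) q.2.1 q.2.2) f ≠ 0 := by
    rw [hτ']
    exact (mul_ne_zero_iff.1 h3).1
  obtain ⟨P', hP'1, hP'2⟩ := exists_int T ε P _ τ' hint f h4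
  obtain ⟨X', hX'1, hX'2⟩ := hmem P'
  have hX'4 : IsIntegralRep (L ⊔ L₂) X' := by
    intro p i j
    have h5 : (X' p).1 = conjG T ε P' τ' (FreeGroup.of p) := by rw [← hX'1, mh_of]
    rw [h5]
    exact hP'1 _ i j
  refine hP'2 ?_
  rw [← hf X' hX'2 hX'4]
  change MvPolynomial.eval₂ (RingHom.id ℂ) _ f = MvPolynomial.eval₂ (algebraMap ℂ ℂ) _ f
  congr 1
  funext q
  rw [← hX'1, mh_of]

end Vale.Agent.P002.H2
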