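import Vale.Agent.P002.H2.DefsT
import Vale.Agent.P002.H2.Clos

/-!
# Virtually solvable images: comparison of the definitions
-/

namespace Vale.Agent.P002.H2

variable {F : Type} [Group F] {G : Type*} [Group G]

theorem dser_map (φ : F →* F) (B : Subgroup F) (k : ℕ) : dser (B.map φ) k = (dser B k).map φ := by
  induction k with
  | zero => rfl
  | succ k ih => rw [dser, dser, ih, Subgroup.map_commutator]

/-- the derived series of the image -/
theorem derivedSeries_map_le (φ : F →* G) (B : Subgroup F) (k : ℕ) :
    (derivedSeries (B.map φ) k).map (B.map φ).subtype = (dser B k).map φ := by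
  induction k with
  | zero =>
    rw [derivedSeries_zero, dser, ← MonoidHom.range_eq_map, Subgroup.range_subtype]
  | succ k ih =>
    rw [derivedSeries_succ, dser, Subgroup.map_commutator, ih, Subgroup.map_commutator]

theorem vs_iff (φ : F →* G) (K : Subgroup F) :
    VS K φ ↔ ∃ A : Subgroup G, A ≤ K.map φ ∧ Group.IsSolvable A ∧ A.relIndex (K.map φ) ≠ 0 := by
  constructor
  · rintro ⟨B, hB, hi, k, hk⟩
    refine ⟨B.map φ, Subgroup.map_mono hB, ?_, ?_⟩
    · refine ⟨k, ?_⟩
      have h1 := derivedSeries_map_le φ B k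
      have h2 : (dser B k).map φ = ⊥ := by
        rw [eq_bot_iff]
        rintro _ ⟨x, hx, rfl⟩
        exact hk x hx
      rw [h2] at h1
      exact (Subgroup.map_eq_bot_iff_of_injective _ (Subgroup.subtype_injective _)).1 h1
    · rw [← Subgroup.relIndex_comap]
      exact fun h => hi (Subgroup.relIndex_eq_zero_of_le_left (Subgroup.le_comap_map φ B) h)
  · rintro ⟨A, hA, hs, hi⟩
    obtain ⟨k, hk⟩ := hs.solvable
    refine ⟨K ⊓ A.comap φ, inf_le_left, ?_, k, fun x hx => ?_⟩
    · rw [Subgroup.inf_relIndex_left, Subgroup.relIndex_comap]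
      exact hi
    · obtain ⟨ψ, hψ⟩ : ∃ ψ : (K ⊓ A.comap φ : Subgroup F) →* A,
          ∀ y, ((ψ y : A) : G) = φ y.1 :=
        ⟨(φ.comp (K ⊓ A.comap φ).subtype).codRestrict A fun y => y.2.2, fun y => rfl⟩
      have h1 : ∀ j, dser (K ⊓ A.comap φ) j ≤
          (derivedSeries (K ⊓ A.comap φ : Subgroup F) j).map (K ⊓ A.comap φ).subtype := by
        intro j
        induction j with
        | zero =>
          rw [derivedSeries_zero, dser, ← MonoidHom.range_eq_map, Subgroup.range_subtype]
        | succ j ih =>
          rw [derivedSeries_succ, dser, Subgroup.map_commutator]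
          exact Subgroup.commutator_mono ih ih
      obtain ⟨y, hy, rfl⟩ := h1 k hx
      have h2 : ψ y ∈ derivedSeries A k := map_derivedSeries_le_derivedSeries ψ k ⟨y, hy, rfl⟩
      rw [hk, Subgroup.mem_bot] at h2
      have h3 := hψ y
      rw [h2] at h3
      exact h3.symm

end Vale.Agent.P002.H2
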