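import Vale.Agent.P002.H2.TE

/-!
# Representations whose constituents belong to different contexts
-/

namespace Vale.Agent.P002.H2

open Matrix NumberField Module Vale.Agent.P002R.Orb Vale.Agent.P002.H377 Vale.Agent.P002.H306

/-- a context together with the set it acts on -/
structure Pack (F : Type) [Group F] where
  I : Type
  [act : MulAction F I]
  C : Ctx F I

attribute [instance] Pack.act

variable {ι : Type}

/-- `X` is conjugate, by `P`, to a direct sum of induced representations of deformable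
representations. -/
structure FormM (L : IntermediateField ℚ ℂ) {r : ℕ}
    (X : ι → SpecialLinearGroup (Fin r) ℂ) (T : Shape (FreeGroup ι))
    (p : Fin T.k → Pack (FreeGroup ι)) (U : Fin T.k → Submodule ℂ (Fin r → ℂ))
    (χ : ∀ _ : Fin T.k, FreeGroup ι → ℂˣ)
    (σ : ∀ a : Fin T.k, FreeGroup ι → SpecialLinearGroup (Fin (T.n a)) ℂ)
    (ε : Fin r ≃ T.Ix) (P : (Matrix (Fin r) (Fin r) ℂ)ˣ) : Prop where
  kle : T.k ≤ r
  npos : ∀ a, 0 < T.n a
  nle : ∀ a, T.n a ≤ r
  qne : ∀ a, (T.H a).relIndex ⊤ ≠ 0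
  qle : ∀ a, (T.H a).relIndex ⊤ ≤ r
  Zle : ∀ a, (p a).C.Z ≤ T.H a
  hχ : ∀ a, MulOn (T.H a) (χ a)
  hσ : ∀ a, MulOn (T.H a) (σ a)
  hD : ∀ a, DA (p a).C L (T.H a) (σ a)
  eq : ∀ x, H306.mh X x * P.1 = P.1 * (T.G (fun a => tw (χ a) (σ a)) x).submatrix ε ε
  sub : ∀ a, ∃ e : (Fin (T.n a) → ℂ) →ₗ[ℂ] U a, Function.Injective e ∧
    ∀ x ∈ T.H a, ∀ v, rep X x (e v) = ((e (tw (χ a) (σ a) x *ᵥ v) : U a) : Fin r → ℂ)
  irr : ∀ (a : Fin T.k) (W : Submodule ℂ (T.B a → ℂ)),
    (∀ x, ∀ v ∈ W, indM (T.H a) (T.t a) (tw (χ a) (σ a)) x *ᵥ v ∈ W) → W = ⊥ ∨ W = ⊤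
  rng : ∀ a, LinearMap.range (blk T ε P a) = U a

/-- the image of the `a`-th block is spanned by columns of `P` -/
theorem blk_eq_sum {r : ℕ} (T : Shape (FreeGroup ι)) (ε : Fin r ≃ T.Ix)
    (P : (Matrix (Fin r) (Fin r) ℂ)ˣ) (a : Fin T.k) (v : T.B a → ℂ) :
    blk T ε P a v = ∑ q, v q • fun i => P.1 i (ε.symm ⟨a, q⟩) := by
  obtain ⟨u, hu1, hu2, hu3⟩ := blk_apply T ε P a v
  rw [hu3]
  funext i
  have e1 : (P.1 *ᵥ fun i => u (ε i)) i = ∑ s : T.Ix, P.1 i (ε.symm s) * u s := by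
    rw [← Equiv.sum_comp ε fun s => P.1 i (ε.symm s) * u s]
    simp only [Equiv.symm_apply_apply]
    rfl
  rw [e1, Fintype.sum_sigma, Finset.sum_eq_single a]
  · rw [Finset.sum_apply]
    refine Finset.sum_congr rfl fun q _ => ?_
    rw [hu1, Pi.smul_apply, smul_eq_mul, mul_comm]
  · intro a' _ ha'
    refine Finset.sum_eq_zero fun q _ => ?_
    rw [hu2 a' ha' q, mul_zero]
  · intro h
    exact absurd (Finset.mem_univ a) h

/-- the image of the `a`-th block is the span of columns of `P` -/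
theorem range_blk {r : ℕ} (T : Shape (FreeGroup ι)) (ε : Fin r ≃ T.Ix)
    (P : (Matrix (Fin r) (Fin r) ℂ)ˣ) (a : Fin T.k) :
    LinearMap.range (blk T ε P a) =
      Submodule.span ℂ (Set.range fun q : T.B a => fun i => P.1 i (ε.symm ⟨a, q⟩)) := by
  apply le_antisymm
  · rintro _ ⟨v, rfl⟩
    rw [blk_eq_sum]
    exact Submodule.sum_mem _ fun q _ => Submodule.smul_mem _ _ (Submodule.subset_span ⟨q, rfl⟩)
  · refine Submodule.span_le.2 ?_
    rintro _ ⟨q, rfl⟩
    refine ⟨Pi.single q 1, ?_⟩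
    rw [blk_eq_sum, Finset.sum_eq_single q]
    · rw [Pi.single_eq_same, one_smul]
    · intro q' _ hq'
      rw [Pi.single_eq_of_ne hq', zero_smul]
    · intro h
      exact absurd (Finset.mem_univ q) h

theorem exists_formM (L : IntermediateField ℚ ℂ) {r k : ℕ}
    (X : ι → SpecialLinearGroup (Fin r) ℂ) (p : Fin k → Pack (FreeGroup ι))
    (U : Fin k → Submodule ℂ (Fin r → ℂ)) (hU : ∀ a, IrrSub (rep X) (U a))
    (hsup : (⨆ a, U a) = ⊤) (hsum : ∑ a, finrank ℂ (U a) = finrank ℂ (Fin r → ℂ))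
    (ρU : ∀ a, FreeGroup ι → Module.End ℂ (U a))
    (hρU : ∀ a x (v : U a), ((ρU a x v : U a) : Fin r → ℂ) = rep X x v)
    (hg : ∀ a, GoodA (p a).C L ⊤ (ρU a)) :
    ∃ n H χ σ ε P, FormM L X ⟨k, n, H⟩ p U χ σ ε P := by
  classical
  choose H n e χ σ h1 h2 h3 h4 h5 h6 h7 h8 h9 h10 using hg
  have htr : ∀ a : Fin k, Trans ⊤ (H a) (trv (H a)) := fun a => trv_spec (h3 a)
  obtain ⟨e', he'⟩ : ∃ e' : ∀ a : Fin k, (Fin (n a) → ℂ) →ₗ[ℂ] (Fin r → ℂ),
      ∀ a, e' a = (U a).subtype ∘ₗ e a := ⟨_, fun _ => rfl⟩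
  have hact : ∀ a, ∀ x ∈ H a, ∀ v, rep X x (e' a v) = e' a (tw (χ a) (σ a) x *ᵥ v) := by
    intro a x hx v
    rw [he']
    change rep X x ((e a v : U a) : Fin r → ℂ) = ((e a (tw (χ a) (σ a) x *ᵥ v) : U a) : Fin r → ℂ)
    rw [← hρU a, h8 a x hx, tw, Matrix.smul_mulVec, map_smul]
  obtain ⟨b, hb⟩ : ∃ b : ((a : Fin k) × (Fin ((H a).relIndex ⊤) × Fin (n a))) → Fin r → ℂ,
      b = fun p => rep X (trv (H p.1) p.2.1) (e' p.1 (Pi.single p.2.2 1)) := ⟨_, rfl⟩
  have hbU : ∀ a p, b ⟨a, p⟩ ∈ U a := by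
    intro a p
    rw [hb]
    refine (hU a).2.1 _ _ ?_
    rw [he']
    exact (e a _).2
  have hUa : ∀ a, U a ≤ Submodule.span ℂ (Set.range fun p => b ⟨a, p⟩) := by
    intro a
    have e1 := ind_span (htr a) (rep_mulOn X) (e' a) _ (hact a)
    have e2 : (fun p : Fin ((H a).relIndex ⊤) × Fin (n a) => b ⟨a, p⟩) =
        fun p => rep X (trv (H a) p.1) (e' a (Pi.single p.2 1)) := by
      rw [hb]
    rw [e2]
    refine le_trans ?_ e1
    intro v hv
    have e3 : (⟨v, hv⟩ : U a) ∈ (⊤ : Submodule ℂ (U a)) := trivial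
    rw [← h9 a] at e3
    have e4 : (⨆ x ∈ (⊤ : Subgroup (FreeGroup ι)), (LinearMap.range (e a)).map (ρU a x)) ≤
        (⨆ x ∈ (⊤ : Subgroup (FreeGroup ι)),
          (LinearMap.range (e' a)).map (rep X x)).comap (U a).subtype := by
      refine iSup₂_le fun x hx => ?_
      rintro _ ⟨_, ⟨u, rfl⟩, rfl⟩
      rw [Submodule.mem_comap]
      refine (le_iSup₂ (f := fun (x : FreeGroup ι) (_ : x ∈ (⊤ : Subgroup (FreeGroup ι))) =>
        (LinearMap.range (e' a)).map (rep X x)) x hx) ?_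
      refine ⟨e' a u, ⟨u, rfl⟩, ?_⟩
      rw [he']
      exact (hρU a x (e a u)).symm
    exact e4 e3
  have hspan : ⊤ ≤ Submodule.span ℂ (Set.range b) := by
    rw [← hsup]
    refine iSup_le fun a => (hUa a).trans (Submodule.span_mono ?_)
    rintro _ ⟨p, rfl⟩
    exact ⟨⟨a, p⟩, rfl⟩
  have hcard : Fintype.card ((a : Fin k) × (Fin ((H a).relIndex ⊤) × Fin (n a))) = r := by
    rw [Fintype.card_sigma]
    simp only [Fintype.card_prod, Fintype.card_fin]
    rw [← Finset.sum_congr rfl fun a _ => h10 a, hsum, Module.finrank_fin_fun]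
  have hli : LinearIndependent ℂ b := linearIndependent_of_top_le_span_of_card_eq_finrank hspan (by
    rw [hcard, Module.finrank_fin_fun])
  let ε : Fin r ≃ ((a : Fin k) × (Fin ((H a).relIndex ⊤) × Fin (n a))) :=
    Fintype.equivOfCardEq (by rw [hcard, Fintype.card_fin])
  have hP0 : IsUnit (Matrix.of fun i j => b (ε j) i : Matrix (Fin r) (Fin r) ℂ) := by
    rw [← Matrix.linearIndependent_cols_iff_isUnit]
    exact hli.comp ε ε.injective
  obtain ⟨P, hP⟩ := hP0
  have hupos : ∀ a, 0 < finrank ℂ (U a) := fun a => Nat.pos_of_ne_zero fun h =>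
    (hU a).1 (Submodule.finrank_eq_zero.1 h)
  have hule : ∀ a, finrank ℂ (U a) ≤ r := fun a => by
    have := Submodule.finrank_le (U a)
    rwa [Module.finrank_fin_fun] at this
  have hnpos : ∀ a, 0 < n a := fun a => Nat.pos_of_ne_zero fun h => by
    have h11 := h10 a
    rw [h, mul_zero] at h11
    exact (hupos a).ne' h11
  have hqpos : ∀ a, 0 < (H a).relIndex ⊤ := fun a => Nat.pos_of_ne_zero (h3 a)
  have hcol : ∀ a x (p : Fin ((H a).relIndex ⊤) × Fin (n a)), rep X x (b ⟨a, p⟩) =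
      ∑ p', indM (H a) (trv (H a)) (tw (χ a) (σ a)) x p' p • b ⟨a, p'⟩ := by
    intro a x p
    rw [hb]
    exact ind_action (htr a) (rep_mulOn X) (e' a) _ (hact a) x p.1 p.2
  refine ⟨n, H, χ, σ, ε, P, ?_, hnpos, fun a => ?_, h3, fun a => ?_, h2, h5, h6, h7, ?_,
    fun a => ⟨e a, h4 a, fun x hx v => ?_⟩, ?_, fun a => ?_⟩
  · change k ≤ r
    have e1 : ∑ _a : Fin k, 1 ≤ ∑ a, finrank ℂ (U a) := Finset.sum_le_sum fun a _ => hupos a
    rw [hsum, Module.finrank_fin_fun] at e1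
    simpa using e1
  · refine le_trans ?_ (hule a)
    rw [h10 a]
    exact Nat.le_mul_of_pos_left _ (hqpos a)
  · refine le_trans ?_ (hule a)
    rw [h10 a]
    exact Nat.le_mul_of_pos_right _ (hnpos a)
  · intro x
    ext i j
    rw [hP, Matrix.mul_apply, Matrix.mul_apply]
    have e1 : ∀ v, rep X x v = H306.mh X x *ᵥ v := fun v => Matrix.toLin'_apply _ _
    have e2 := congrFun (e1 (b (ε j))) i
    have e3 : (H306.mh X x *ᵥ (b (ε j))) i = ∑ l, H306.mh X x i l *
        (Matrix.of fun i j => b (ε j) i : Matrix (Fin r) (Fin r) ℂ) l j := rfl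
    rw [← e3, ← e2]
    obtain ⟨a, p, hap⟩ : ∃ a p, ε j = ⟨a, p⟩ := ⟨(ε j).1, (ε j).2, rfl⟩
    rw [hap, hcol a x p]
    refine Eq.trans ?_ (Shape.sum_G' ⟨k, n, H⟩ (fun a => tw (χ a) (σ a)) x ε (fun s => b s i) j a p
      hap).symm
    rw [Finset.sum_apply]
    refine Finset.sum_congr rfl fun p' _ => ?_
    exact mul_comm _ _
  · have e1 := hact a x hx v
    rw [he'] at e1
    exact e1
  · intro a W hW
    obtain ⟨E, hE⟩ : ∃ E : ((Fin ((H a).relIndex ⊤) × Fin (n a)) → ℂ) →ₗ[ℂ] (Fin r → ℂ),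
        ∀ v, E v = ∑ p, v p • b ⟨a, p⟩ :=
      ⟨Fintype.linearCombination ℂ fun p => b ⟨a, p⟩, fun v => rfl⟩
    have hEinj : Function.Injective E := by
      rw [← LinearMap.ker_eq_bot, LinearMap.ker_eq_bot']
      intro v hv
      have e1 : LinearIndependent ℂ fun p => b ⟨a, p⟩ :=
        hli.comp _ sigma_mk_injective
      rw [hE] at hv
      exact funext fun p => Fintype.linearIndependent_iff.1 e1 v hv p
    have hEr : LinearMap.range E = U a := by
      apply le_antisymm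
      · rintro _ ⟨v, rfl⟩
        rw [hE]
        exact Submodule.sum_mem _ fun p _ => Submodule.smul_mem _ _ (hbU a p)
      · refine (hUa a).trans (Submodule.span_le.2 ?_)
        rintro _ ⟨p, rfl⟩
        refine ⟨Pi.single p 1, ?_⟩
        rw [hE, Finset.sum_eq_single p]
        · simp
        · intro p' _ hp'
          rw [Pi.single_eq_of_ne hp', zero_smul]
        · intro h
          exact absurd (Finset.mem_univ p) h
    have hEact : ∀ x v, rep X x (E v) = E (indM (H a) (trv (H a)) (tw (χ a) (σ a)) x *ᵥ v) := by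
      intro x v
      rw [hE, hE, map_sum]
      simp only [map_smul, hcol, Finset.smul_sum, Matrix.mulVec, dotProduct, Finset.sum_smul,
        smul_smul]
      rw [Finset.sum_comm]
      refine Finset.sum_congr rfl fun p _ => Finset.sum_congr rfl fun p' _ => ?_
      rw [mul_comm]
    have hinv : InvAll (rep X) (W.map E) := by
      rintro x _ ⟨v, hv, rfl⟩
      rw [hEact]
      exact ⟨_, hW x v hv, rfl⟩
    rcases (hU a).2.2 (W.map E) (by rw [← hEr]; exact LinearMap.map_le_range) hinv with h | h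
    · left
      exact Submodule.map_injective_of_injective hEinj (h.trans (Submodule.map_bot E).symm)
    · right
      rw [← hEr, LinearMap.range_eq_map] at h
      exact Submodule.map_injective_of_injective hEinj h
  · refine (range_blk ⟨k, n, H⟩ ε P a).trans ?_
    have e1 : (fun q : Fin ((H a).relIndex ⊤) × Fin (n a) => fun i => P.1 i (ε.symm ⟨a, q⟩)) =
        fun q => b ⟨a, q⟩ := by
      funext q i
      rw [hP]
      change b (ε (ε.symm ⟨a, q⟩)) i = _
      rw [Equiv.apply_symm_apply]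
    refine Eq.trans (congrArg (fun f => Submodule.span ℂ (Set.range f)) e1) ?_
    refine le_antisymm (Submodule.span_le.2 ?_) (hUa a)
    rintro _ ⟨q, rfl⟩
    exact hbU a q

/-- Deformation of the `σ a`. -/
theorem deform_sigmaM (L : IntermediateField ℚ ℂ) {r : ℕ} (T : Shape (FreeGroup ι))
    (p : Fin T.k → Pack (FreeGroup ι)) (ε : Fin r ≃ T.Ix)
    (P : (Matrix (Fin r) (Fin r) ℂ)ˣ)
    (f : MvPolynomial (ι × Fin r × Fin r) ℂ) (g : ∀ a, T.B a × T.B a → FreeGroup ι)
    (χ : ∀ _ : Fin T.k, FreeGroup ι → ℂˣ)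
    (σ : ∀ a : Fin T.k, FreeGroup ι → SpecialLinearGroup (Fin (T.n a)) ℂ)
    (hD : ∀ a, DA (p a).C L (T.H a) (σ a))
    (h0 : Theta T ε P f g (fun a => tw (χ a) (σ a)) ≠ 0) :
    ∃ σ' : ∀ a : Fin T.k, FreeGroup ι → SpecialLinearGroup (Fin (T.n a)) ℂ,
      (∀ a, IsDefA (p a).C L (T.H a) (σ a) (σ' a)) ∧ Theta T ε P f g (fun a => tw (χ a) (σ' a)) ≠ 0 := by
  classical
  have key : ∀ s : Finset (Fin T.k),
      ∃ σ' : ∀ a : Fin T.k, FreeGroup ι → SpecialLinearGroup (Fin (T.n a)) ℂ,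
      (∀ a ∈ s, IsDefA (p a).C L (T.H a) (σ a) (σ' a)) ∧ (∀ a, a ∉ s → σ' a = σ a) ∧
      Theta T ε P f g (fun a => tw (χ a) (σ' a)) ≠ 0 := by
    intro s
    induction s using Finset.induction_on with
    | empty => exact ⟨σ, fun a ha => absurd ha (Finset.notMem_empty a), fun a _ => rfl, h0⟩
    | insert b s hb ih =>
      obtain ⟨σ', h1, h2, h3⟩ := ih
      obtain ⟨Φ, hΦ⟩ : ∃ Φ : (FreeGroup ι → SpecialLinearGroup (Fin (T.n b)) ℂ) → ℂ,
          Φ = fun σb => Theta T ε P f g fun a => tw (χ a) (Function.update σ' b σb a) := ⟨_, rfl⟩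
      have h4 : Φ ∈ PF (T.H b) (Fin (T.n b)) := by
        rw [hΦ]
        refine mem_Theta _ T ε P f g
          (τ := fun σb a => tw (χ a) (Function.update σ' b σb a)) fun a x hx i j => ?_
        by_cases hab : a = b
        · subst hab
          simp only [Function.update_self]
          exact (PF (T.H a) (Fin (T.n a))).smul_mem (PF_entry hx i j) _
        · simp only [Function.update_of_ne hab]
          exact PF_const _ _
      have h5 : Φ (σ b) ≠ 0 := by
        rw [hΦ, ← h2 b hb]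
        simp only [Function.update_eq_self]
        exact h3
      obtain ⟨σb, h6, h7⟩ := hD b Φ h4 h5
      refine ⟨Function.update σ' b σb, fun a ha => ?_, fun a ha => ?_, ?_⟩
      · by_cases hab : a = b
        · subst hab
          rw [Function.update_self]
          exact h6
        · rw [Function.update_of_ne hab]
          exact h1 a ((Finset.mem_insert.1 ha).resolve_left hab)
      · rw [Finset.mem_insert, not_or] at ha
        rw [Function.update_of_ne ha.1]
        exact h2 a ha.2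
      · rw [hΦ] at h7
        exact h7
  obtain ⟨σ', h1, -, h3⟩ := key Finset.univ
  exact ⟨σ', fun a => h1 a (Finset.mem_univ a), h3⟩

end Vale.Agent.P002.H2
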