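import Vale.Agent.P002.H2.MA

/-!
# The constraints on the characters, several contexts
-/

namespace Vale.Agent.P002.H2

open Matrix NumberField Module Vale.Agent.P002R.Orb Vale.Agent.P002.H377 Vale.Agent.P002.H306

variable {ι : Type}

/-- the constraints -/
noncomputable def consM (T : Shape (FreeGroup ι)) (p : Fin T.k → Pack (FreeGroup ι)) :
    AddSubgroup (T.J → ℤ) :=
  AddSubgroup.closure ({b | ∃ a u, (FreeGroup.lift (genP (T.H a)).2 u = 1 ∨
    FreeGroup.lift (genP (T.H a)).2 u ∈ (p a).C.Z ∨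
      FreeGroup.lift (genP (T.H a)).2 u ∈ (p a).C.Rel) ∧
      b = T.vec a u} ∪ {b | ∃ x, b = T.vx x})

theorem chi_factsM [Finite ι] (T : Shape (FreeGroup ι)) (p : Fin T.k → Pack (FreeGroup ι))
    (hT : ∀ a, (T.H a).relIndex ⊤ ≠ 0)
    (χ : ∀ _ : Fin T.k, FreeGroup ι → ℂˣ) (hχ : ∀ a, MulOn (T.H a) (χ a))
    (t t' : T.J → ℂˣ) (ht : ∀ a i, t ⟨a, i⟩ = χ a ((genP (T.H a)).2 i))
    (h : ∀ b ∈ consM T p, mono t' b = mono t b) :
    (∀ a, MulOn (T.H a) (T.chi t' a)) ∧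
    (∀ a, ∀ x ∈ T.H a, (x ∈ (p a).C.Z ∨ x ∈ (p a).C.Rel) → T.chi t' a x = χ a x) := by
  have h1 : ∀ a u, (FreeGroup.lift (genP (T.H a)).2 u = 1 ∨
      FreeGroup.lift (genP (T.H a)).2 u ∈ (p a).C.Z ∨
        FreeGroup.lift (genP (T.H a)).2 u ∈ (p a).C.Rel) →
      FreeGroup.lift (fun i => t' ⟨a, i⟩) u = χ a (FreeGroup.lift (genP (T.H a)).2 u) := by
    intro a u hu
    have h2 := h (T.vec a u) (AddSubgroup.subset_closure (Or.inl ⟨a, u, hu, rfl⟩))
    rw [T.mono_vec, T.mono_vec] at h2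
    rw [h2, ← lift_chi (hT a) (hχ a)]
    simp only [ht]
  refine ⟨fun a => ⟨?_, fun x hx y hy => ?_⟩, fun a x hx hx' => ?_⟩
  · unfold Shape.chi
    rw [h1 a _ (Or.inl (wd_spec (hT a) (one_mem _))), wd_spec (hT a) (one_mem _), (hχ a).one]
  · have h2 := h1 a (wd (T.H a) (x * y) * (wd (T.H a) x * wd (T.H a) y)⁻¹) (by
      left
      rw [map_mul, map_inv, map_mul, wd_spec (hT a) hx, wd_spec (hT a) hy,
        wd_spec (hT a) (mul_mem hx hy), mul_inv_cancel])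
    rw [map_mul (FreeGroup.lift (genP (T.H a)).2), map_inv, map_mul (FreeGroup.lift
      (genP (T.H a)).2) (wd (T.H a) x), wd_spec (hT a) hx, wd_spec (hT a) hy,
        wd_spec (hT a) (mul_mem hx hy), mul_inv_cancel, (hχ a).one, map_mul, map_inv, map_mul,
        mul_inv_eq_one] at h2
    exact h2
  · unfold Shape.chi
    rw [h1 a _ (Or.inr (by rwa [wd_spec (hT a) hx])), wd_spec (hT a) hx]

variable {L : IntermediateField ℚ ℂ} {r : ℕ} {X : ι → SpecialLinearGroup (Fin r) ℂ}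
  {T : Shape (FreeGroup ι)} {p : Fin T.k → Pack (FreeGroup ι)}
  {V : Fin T.k → Submodule ℂ (Fin r → ℂ)}
  {χ : ∀ _ : Fin T.k, FreeGroup ι → ℂˣ}
  {σ : ∀ a : Fin T.k, FreeGroup ι → SpecialLinearGroup (Fin (T.n a)) ℂ}
  {ε : Fin r ≃ T.Ix} {P : (Matrix (Fin r) (Fin r) ℂ)ˣ}

theorem FormM.det_G (hF : FormM L X T p V χ σ ε P) (x : FreeGroup ι) :
    (T.G (fun a => tw (χ a) (σ a)) x).det = 1 := by
  have h1 := congrArg Matrix.det (hF.eq x)
  rw [Matrix.det_mul, Matrix.det_mul, det_mh, one_mul, Matrix.det_submatrix_equiv_self] at h1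
  have h2 : P.1.det ≠ 0 := ((Matrix.isUnit_iff_isUnit_det _).1 P.isUnit).ne_zero
  have h3 : P.1.det * 1 = P.1.det * (T.G (fun a => tw (χ a) (σ a)) x).det := by rw [mul_one, ← h1]
  exact (mul_left_cancel₀ h2 h3).symm

/-- the characters of the constituents `χ ⊗ τ` of `W` satisfy `χ ^ n ∈ U` on `Z` -/
def UnitInM (Z : Subgroup (FreeGroup ι)) (X : ι → SpecialLinearGroup (Fin r) ℂ)
    (W : Submodule ℂ (Fin r → ℂ)) (U : Subgroup ℂˣ) : Prop :=
  ∀ (H : Subgroup (FreeGroup ι)) (n : ℕ) (χ : FreeGroup ι → ℂˣ)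
    (τ : FreeGroup ι → SpecialLinearGroup (Fin n) ℂ), H.index ≠ 0 → H.index ≤ r → Z ≤ H →
    MulOn H χ → (∃ e : (Fin n → ℂ) →ₗ[ℂ] W, Function.Injective e ∧
      ∀ k ∈ Z, ∀ v, rep X k (e v) = (((χ k : ℂ) • e ((τ k).1 *ᵥ v) : W) : Fin r → ℂ)) →
    ∀ k ∈ Z, χ k ^ n ∈ U

theorem FormM.chi_Z (hF : FormM L X T p V χ σ ε P) {U : Subgroup ℂˣ} (a : Fin T.k)
    (hX : UnitInM (p a).C.Z X (V a) U) {z : FreeGroup ι} (hz : z ∈ (p a).C.Z) :
    χ a z ^ T.n a ∈ U := by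
  obtain ⟨e, he, he'⟩ := hF.sub a
  refine hX (T.H a) (T.n a) (χ a) (σ a) ?_ ?_ (hF.Zle a) (hF.hχ a)
    ⟨e, he, fun z hz v => ?_⟩ z hz
  · rw [← Subgroup.relIndex_top_right]
    exact hF.qne a
  · rw [← Subgroup.relIndex_top_right]
    exact hF.qle a
  · have h1 := he' z (hF.Zle a hz) v
    rw [tw, Matrix.smul_mulVec, map_smul] at h1
    exact h1

theorem FormM.chi_Rel (hF : FormM L X T p V χ σ ε P) {N₀ : ℕ} (a : Fin T.k)
    (hX : ∀ y ∈ (p a).C.Rel, ∀ (v : Fin r → ℂ) (c : ℂ), v ≠ 0 → mh X y *ᵥ v = c • v →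
      c ^ N₀ = 1)
    {y : FreeGroup ι} (hy : y ∈ (p a).C.Rel) (hyH : y ∈ T.H a) :
    χ a y ^ (T.n a * N₀) = 1 := by
  obtain ⟨e, he, he'⟩ := hF.sub a
  refine chi_pow_of_eig (χ a y) (σ a y) fun v z hv hz => ?_
  refine hX y hy (e v) z (fun h => hv (he ((Subtype.ext h).trans (map_zero e).symm))) ?_
  have h1 := he' y hyH v
  rw [tw, hz, map_smul, rep, Matrix.toLin'_apply] at h1
  exact h1

theorem FormM.cons_pow [Finite ι] (hF : FormM L X T p V χ σ ε P) {N₀ : ℕ} {U : Subgroup ℂˣ}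
    (hXZ : ∀ a, UnitInM (p a).C.Z X (V a) U)
    (hX : ∀ a, ∀ y ∈ (p a).C.Rel, ∀ (v : Fin r → ℂ) (c : ℂ), v ≠ 0 → mh X y *ᵥ v = c • v →
      c ^ N₀ = 1)
    (t : T.J → ℂˣ) (ht : ∀ a i, t ⟨a, i⟩ = χ a ((genP (T.H a)).2 i)) :
    ∀ b ∈ consM T p, mono t b ^ (2 * N₀ * r.factorial) ∈ U := by
  classical
  have hdvd : ∀ a, T.n a ∣ r.factorial := fun a => Nat.dvd_factorial (hF.npos a) (hF.nle a)
  intro b hb
  unfold consM at hb
  induction hb using AddSubgroup.closure_induction with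
  | mem b hb =>
    rcases hb with ⟨a, u, hu, rfl⟩ | ⟨x, rfl⟩
    · have h1 : mono t (T.vec a u) = χ a (FreeGroup.lift (genP (T.H a)).2 u) := by
        rw [T.mono_vec, ← lift_chi (hF.qne a) (hF.hχ a)]
        simp only [ht]
      rw [h1]
      obtain ⟨d, hd⟩ := hdvd a
      rcases hu with hu | hu | hu
      · rw [hu, (hF.hχ a).one, one_pow]
        exact one_mem U
      · rw [hd, show 2 * N₀ * (T.n a * d) = T.n a * (2 * N₀ * d) by ring, pow_mul]
        exact pow_mem (hF.chi_Z a (hXZ a) hu) _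
      · rw [hd, show 2 * N₀ * (T.n a * d) = (T.n a * N₀) * (2 * d) by ring, pow_mul,
          hF.chi_Rel a (hX a) hu (lift_gen_mem (hF.qne a) u), one_pow]
        exact one_mem U
    · obtain ⟨δ, hδ, hdet⟩ := det_G_eq T hF.qne x
      have h1 := hdet χ σ
      rw [hF.det_G x] at h1
      have h2 : mono t (T.vx x) = (∏ a, (∏ p : Fin (T.q a) × Fin (T.q a),
          if (T.t a p.1)⁻¹ * x * T.t a p.2 ∈ T.H a then
          χ a ((T.t a p.1)⁻¹ * x * T.t a p.2) else 1) ^ T.n a : ℂˣ) := by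
        rw [mono_vx]
        refine Finset.prod_congr rfl fun a _ => ?_
        congr 1
        refine Finset.prod_congr rfl fun p _ => ?_
        by_cases h3 : (T.t a p.1)⁻¹ * x * T.t a p.2 ∈ T.H a
        · rw [if_pos h3, if_pos h3, chi_self T hF.qne χ hF.hχ t ht a h3]
        · rw [if_neg h3, if_neg h3]
      rw [← h2] at h1
      have h3 : mono t (T.vx x) ^ 2 = 1 := by
        apply Units.ext
        rw [Units.val_pow_eq_pow_val, Units.val_one]
        calc ((mono t (T.vx x) : ℂˣ) : ℂ) ^ 2 = (δ * ((mono t (T.vx x) : ℂˣ) : ℂ)) ^ 2 := by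
              rw [mul_pow, hδ, one_mul]
          _ = 1 := by rw [← h1, one_pow]
      rw [show 2 * N₀ * r.factorial = 2 * (N₀ * r.factorial) by ring, pow_mul, h3,
        one_pow]
      exact one_mem U
  | zero =>
    rw [mono_zero, one_pow]
    exact one_mem U
  | add a b _ _ ha hb =>
    rw [mono_add, mul_pow]
    exact mul_mem ha hb
  | neg a _ ha =>
    rw [mono_neg, inv_pow]
    exact inv_mem ha

/-- agreement on `K` of one induced representation -/
theorem agr_ind {n : ℕ} {K H : Subgroup (FreeGroup ι)}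
    (τ τ' : FreeGroup ι → Matrix (Fin n) (Fin n) ℂ)
    (hT : H.relIndex ⊤ ≠ 0)
    (hKn : ∀ x, ∀ y ∈ K, x * y * x⁻¹ ∈ K)
    (hagr : Agr (K ⊓ H) τ τ') :
    Agr K (indM H (trv H) τ) (indM H (trv H) τ') := by
  obtain ⟨B, hB1, hB2, m, hm⟩ := hagr
  have hKn' : ∀ x, ∀ y ∈ K, x⁻¹ * y * x ∈ K := fun x y hy => by
    have := hKn x⁻¹ y hy
    rwa [inv_inv] at this
  -- the intersection of all conjugates
  obtain ⟨D, hD⟩ : ∃ D : Subgroup (FreeGroup ι), D = K ⊓ ⨅ c : Fin (H.relIndex ⊤),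
      B.map (MulAut.conj (trv H c)).toMonoidHom := ⟨_, rfl⟩
  have hDB : ∀ c, ∀ j, ∀ x ∈ dser D j, (trv H c)⁻¹ * x * trv H c ∈ dser B j := by
    intro c j x hx
    have h1 : D ≤ B.map (MulAut.conj (trv H c)).toMonoidHom := by
      rw [hD]
      exact inf_le_right.trans (iInf_le (fun c : Fin (H.relIndex ⊤) =>
        B.map (MulAut.conj (trv H c)).toMonoidHom) c)
    have h2 := dser_mono h1 j hx
    rw [dser_conj] at h2
    obtain ⟨y, hy, hyx⟩ := h2
    have h3 : trv H c * y * (trv H c)⁻¹ = x := hyx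
    rw [← h3]
    have h4 : (trv H c)⁻¹ * (trv H c * y * (trv H c)⁻¹) * trv H c = y := by group
    rw [h4]
    exact hy
  refine ⟨D, by rw [hD]; exact inf_le_left, ?_, m, fun x hx => ?_⟩
  · rw [hD, Subgroup.inf_relIndex_left]
    refine Subgroup.relIndex_iInf_ne_zero fun c => ?_
    refine relIndex_conj _ _ _ (hKn' _) (hKn _) ?_
    have h1 : (K ⊓ H).relIndex K ≠ 0 := by
      rw [Subgroup.inf_relIndex_left]
      refine fun h => hT (Subgroup.relIndex_eq_zero_of_le_right le_top h)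
    exact Subgroup.relIndex_ne_zero_trans hB2 h1
  · have hBH : B ≤ H := hB1.trans inf_le_right
    have hxa : ∀ c, (trv H c)⁻¹ * x * trv H c ∈ dser B m := fun c => hDB c _ x hx
    have hxH : ∀ c, (trv H c)⁻¹ * x * trv H c ∈ H := fun c => hBH (dser_le _ _ (hxa c))
    refine indM_congr fun p q hpq => ?_
    have hpq' : p = q := by
      have h2 : (trv H p)⁻¹ * trv H q ∈ H := by
        have h3 := mul_mem hpq (inv_mem (hxH q))
        have h4 : (trv H p)⁻¹ * x * trv H q * ((trv H q)⁻¹ * x * trv H q)⁻¹ =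
            (trv H p)⁻¹ * trv H q := by
          group
        rwa [h4] at h3
      obtain ⟨c, -, hu⟩ := (trv_spec hT).uniq (trv H q) trivial
      have h5 : p = c := hu _ h2
      have h6 : q = c := hu _ (by
        change (trv H q)⁻¹ * trv H q ∈ H
        rw [inv_mul_cancel]
        exact one_mem _)
      exact h5.trans h6.symm
    subst hpq'
    exact hm _ (hxa p)

/-- agreement on `Z` of one induced representation -/
theorem ind_eq_Z {n : ℕ} {Z H : Subgroup (FreeGroup ι)}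
    (τ τ' : FreeGroup ι → Matrix (Fin n) (Fin n) ℂ)
    (hT : H.relIndex ⊤ ≠ 0) (hZn : ∀ x y, y ∈ Z → x * y * x⁻¹ ∈ Z) (hZH : Z ≤ H)
    (h : ∀ z ∈ Z, τ' z = τ z) :
    ∀ z ∈ Z, indM H (trv H) τ' z = indM H (trv H) τ z := by
  intro z hz
  have hc : ∀ c, (trv H c)⁻¹ * z * trv H c ∈ Z := fun c => by
    have := hZn (trv H c)⁻¹ z hz
    rwa [inv_inv] at this
  refine indM_congr fun p q hpq => ?_
  have hpq' : p = q := by
    have h2 : (trv H p)⁻¹ * trv H q ∈ H := by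
      have h3 := mul_mem hpq (inv_mem (hZH (hc q)))
      have h4 : (trv H p)⁻¹ * z * trv H q * ((trv H q)⁻¹ * z * trv H q)⁻¹ =
          (trv H p)⁻¹ * trv H q := by
        group
      rwa [h4] at h3
    obtain ⟨c, -, hu⟩ := (trv_spec hT).uniq (trv H q) trivial
    have h5 : p = c := hu _ h2
    have h6 : q = c := hu _ (by
      change (trv H q)⁻¹ * trv H q ∈ H
      rw [inv_mul_cancel]
      exact one_mem _)
    exact h5.trans h6.symm
  subst hpq'
  exact h _ (hc p)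

end Vale.Agent.P002.H2
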