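import Vale.Agent.P002.H2.MB

/-!
# Typed subrepresentations
-/

namespace Vale.Agent.P002.H2

open Matrix NumberField Module Vale.Agent.P002R.Orb Vale.Agent.P002.H377 Vale.Agent.P002.H306

variable {ι : Type}

/-- `W` is, by `e`, isomorphic to the irreducible representation `σ` with character `t` on `Z` which
is virtually solvable on `K` relatively to `Z` -/
def BType (Z K : Subgroup (FreeGroup ι)) (d : ℕ) (t : FreeGroup ι → ℂ) {r : ℕ}
    (X : ι → SpecialLinearGroup (Fin r) ℂ) (W : Submodule ℂ (Fin r → ℂ)) : Prop :=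
  ∃ (e : (Fin d → ℂ) →ₗ[ℂ] (Fin r → ℂ)) (σ : FreeGroup ι → Matrix (Fin d) (Fin d) ℂ),
    Function.Injective e ∧ LinearMap.range e = W ∧
    (∀ x v, mh X x *ᵥ e v = e (σ x *ᵥ v)) ∧
    0 < d ∧ (∀ V : Submodule ℂ (Fin d → ℂ), (∀ x, ∀ v ∈ V, σ x *ᵥ v ∈ V) → V = ⊥ ∨ V = ⊤) ∧
    (∀ z ∈ Z, (σ z).trace = t z) ∧ RelVS K Z σ

/-- the type is preserved by deformations fixed on `Z` and on a term of the derived series of a
subgroup of finite index of `K` -/
theorem btype_transport {Z K : Subgroup (FreeGroup ι)} {d : ℕ} {t : FreeGroup ι → ℂ} {r : ℕ}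
    {X X' : ι → SpecialLinearGroup (Fin r) ℂ} {B : Type} [Fintype B] [DecidableEq B]
    (b b' : (B → ℂ) →ₗ[ℂ] (Fin r → ℂ)) (hb : Function.Injective b) (hb' : Function.Injective b')
    (M M' : FreeGroup ι → Matrix B B ℂ) (h1 : ∀ x v, mh X x *ᵥ b v = b (M x *ᵥ v))
    (h1' : ∀ x v, mh X' x *ᵥ b' v = b' (M' x *ᵥ v)) (hZ : ∀ z ∈ Z, M' z = M z)
    (hagr : Agr K M M')
    (hirr : ∀ V : Submodule ℂ (B → ℂ), (∀ x, ∀ v ∈ V, M' x *ᵥ v ∈ V) → V = ⊥ ∨ V = ⊤)
    (h : BType Z K d t X (LinearMap.range b)) : BType Z K d t X' (LinearMap.range b') := by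
  obtain ⟨e, σ, he, her, heq, hd, -, htr, B₁, hB₁, hi₁, k₁, hk₁⟩ := h
  -- the isomorphism
  obtain ⟨φ, hφ⟩ : ∃ φ : (B → ℂ) ≃ₗ[ℂ] (Fin d → ℂ), ∀ v, e (φ v) = b v := by
    let e1 : (Fin d → ℂ) ≃ₗ[ℂ] LinearMap.range e := LinearEquiv.ofInjective e he
    let b1 : (B → ℂ) ≃ₗ[ℂ] LinearMap.range b := LinearEquiv.ofInjective b hb
    let c1 : LinearMap.range b ≃ₗ[ℂ] LinearMap.range e := LinearEquiv.ofEq _ _ her.symm
    refine ⟨(b1.trans c1).trans e1.symm, fun v => ?_⟩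
    have e2 : ∀ u, ((e1 u : LinearMap.range e) : Fin r → ℂ) = e u := fun u => rfl
    rw [← e2]
    change ((e1 (e1.symm (c1 (b1 v))) : LinearMap.range e) : Fin r → ℂ) = b v
    rw [LinearEquiv.apply_symm_apply]
    rfl
  obtain ⟨σ', hσ'⟩ : ∃ σ' : FreeGroup ι → Matrix (Fin d) (Fin d) ℂ, ∀ x, σ' x =
      LinearMap.toMatrix' (φ.toLinearMap ∘ₗ Matrix.toLin' (M' x) ∘ₗ φ.symm.toLinearMap) :=
    ⟨_, fun x => rfl⟩
  have hσv : ∀ x v, σ' x *ᵥ v = φ (M' x *ᵥ φ.symm v) := by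
    intro x v
    rw [hσ', ← Matrix.toLin'_apply, Matrix.toLin'_toMatrix']
    rfl
  have hσM : ∀ x v, σ x *ᵥ v = φ (M x *ᵥ φ.symm v) := by
    intro x v
    apply he
    rw [← heq, hφ, ← h1, ← hφ, LinearEquiv.apply_symm_apply]
  have hσσ : ∀ x, M' x = M x → σ' x = σ x := by
    intro x hx
    refine Matrix.mulVec_injective (funext fun v => ?_)
    rw [hσv, hσM, hx]
  refine ⟨b' ∘ₗ φ.symm.toLinearMap, σ', hb'.comp φ.symm.injective, ?_, fun x v => ?_, hd,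
    fun V hV => ?_, fun z hz => ?_, ?_⟩
  · rw [LinearMap.range_comp, LinearEquiv.range, Submodule.map_top]
  · change mh X' x *ᵥ b' (φ.symm v) = b' (φ.symm (σ' x *ᵥ v))
    rw [h1', hσv, LinearEquiv.symm_apply_apply]
  · have h2 := hirr (V.comap φ.toLinearMap) (by
      intro x v hv
      have h3 := hV x _ hv
      change σ' x *ᵥ φ v ∈ V at h3
      rw [hσv, LinearEquiv.symm_apply_apply] at h3
      exact h3)
    rcases h2 with h2 | h2
    · left
      rw [eq_bot_iff]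
      intro v hv
      have h3 : φ.symm v ∈ V.comap φ.toLinearMap := by
        change φ (φ.symm v) ∈ V
        rw [LinearEquiv.apply_symm_apply]
        exact hv
      rw [h2, Submodule.mem_bot] at h3
      rw [Submodule.mem_bot, ← LinearEquiv.apply_symm_apply φ v, h3, map_zero]
    · right
      rw [eq_top_iff]
      intro v _
      have h3 : φ.symm v ∈ V.comap φ.toLinearMap := by
        rw [h2]
        trivial
      change φ (φ.symm v) ∈ V at h3
      rwa [LinearEquiv.apply_symm_apply] at h3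
  · rw [hσσ z (hZ z hz), htr z hz]
  · obtain ⟨B₂, hB₂, hi₂, k₂, hk₂⟩ := hagr
    refine ⟨B₁ ⊓ B₂, inf_le_left.trans hB₁, Subgroup.relIndex_inf_ne_zero hi₁ hi₂, max k₁ k₂,
      fun x hx => ?_⟩
    have h3 := hk₁ x (dser_anti B₁ (le_max_left k₁ k₂) (dser_mono inf_le_left _ hx))
    have h4 := hk₂ x (dser_anti B₂ (le_max_right k₁ k₂) (dser_mono inf_le_right _ hx))
    rw [hσσ x h4]
    refine Submodule.span_mono ?_ h3
    rintro _ ⟨z, hz, rfl⟩
    exact ⟨z, hz, hσσ z (hZ z hz)⟩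

end Vale.Agent.P002.H2
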