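import Vale.Agent.P002.H2.MC

/-!
# The final assembly for several contexts
-/

namespace Vale.Agent.P002.H2

open Matrix NumberField Module Vale.Agent.P002R.Orb Vale.Agent.P002.H377 Vale.Agent.P002.H306
  Vale.Agent.P002.H326J commutatorElement

variable {ι : Type}

theorem btype_irr {Z K : Subgroup (FreeGroup ι)} {d : ℕ} {t : FreeGroup ι → ℂ} {r : ℕ}
    {X : ι → SpecialLinearGroup (Fin r) ℂ} {W : Submodule ℂ (Fin r → ℂ)}
    (h : BType Z K d t X W) : IrrSub (rep X) W := by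
  obtain ⟨e, σ, he, her, heq, hd, hirr, -⟩ := h
  subst her
  refine ⟨?_, ?_, fun V hV hVi => ?_⟩
  · intro h0
    rw [LinearMap.range_eq_bot] at h0
    have h1 : e (Pi.single ⟨0, hd⟩ 1) = e 0 := by rw [h0]; rfl
    have h2 := congrFun (he h1) ⟨0, hd⟩
    simp at h2
  · rintro x _ ⟨v, rfl⟩
    rw [rep, Matrix.toLin'_apply, heq]
    exact ⟨_, rfl⟩
  · have h1 := hirr (V.comap e) (by
      intro x v hv
      change e (σ x *ᵥ v) ∈ V
      rw [← heq]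
      have h2 := hVi x _ hv
      rwa [rep, Matrix.toLin'_apply] at h2)
    rcases h1 with h1 | h1
    · left
      rw [eq_bot_iff]
      intro w hw
      obtain ⟨v, rfl⟩ := hV hw
      have h2 : v ∈ V.comap e := hw
      rw [h1, Submodule.mem_bot] at h2
      rw [h2, map_zero]
      exact Submodule.zero_mem _
    · right
      refine le_antisymm hV ?_
      rintro _ ⟨v, rfl⟩
      have h2 : v ∈ V.comap e := by
        rw [h1]
        trivial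
      exact h2

/-- the core of the assembly -/
theorem coreM [Finite ι] {R : Set (FreeGroup ι)} {s r N₀ : ℕ} {w : Fin s → FreeGroup ι}
    {C₀ : Fin s → SpecialLinearGroup (Fin r) ℂ} {L L₂ : IntermediateField ℚ ℂ}
    {X : ι → SpecialLinearGroup (Fin r) ℂ} {T : Shape (FreeGroup ι)}
    {p : Fin T.k → Pack (FreeGroup ι)} {V : Fin T.k → Submodule ℂ (Fin r → ℂ)}
    {χ : ∀ _ : Fin T.k, FreeGroup ι → ℂˣ}
    {σ : ∀ a : Fin T.k, FreeGroup ι → SpecialLinearGroup (Fin (T.n a)) ℂ}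
    {ε : Fin r ≃ T.Ix} {P : (Matrix (Fin r) (Fin r) ℂ)ˣ}
    (hF : FormM L X T p V χ σ ε P) (hZ : ∀ a, R ⊆ (p a).C.Z)
    (hRel : ∀ a y, y ∈ (p a).C.Rel ↔ ∃ x j, ∃ a : ℤ, y = x * w j ^ a * x⁻¹)
    (U : Subgroup ℂˣ)
    (hT : ∀ t : T.J → ℂˣ, (∀ b ∈ consM T p, mono t b ^ (2 * N₀ * r.factorial) ∈ U) →
      ∀ Ψ ∈ LauJ T.J, Ψ t ≠ 0 → ∃ t' : T.J → ℂˣ, (∀ b ∈ consM T p, mono t' b = mono t b) ∧
          (∀ j, InO L₂ (t' j : ℂ) ∧ InO L₂ (((t' j)⁻¹ : ℂˣ) : ℂ)) ∧ Ψ t' ≠ 0)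
    (hXY : X ∈ YW R w C₀) (hXZ : ∀ a, UnitInM (p a).C.Z X (V a) U)
    (hXe : ∀ a, ∀ y ∈ (p a).C.Rel, ∀ (v : Fin r → ℂ) (c : ℂ), v ≠ 0 → mh X y *ᵥ v = c • v →
      c ^ N₀ = 1)
    (d : Fin T.k → ℕ) (tr : Fin T.k → FreeGroup ι → ℂ)
    (hV : ∀ a, BType (p a).C.Z (p a).C.K (d a) (tr a) X (V a))
    (f : MvPolynomial (ι × Fin r × Fin r) ℂ) (hfX : value f X ≠ 0) :
    ∃ X' ∈ YW R w C₀, IsIntegralRep (L ⊔ L₂) X' ∧ value f X' ≠ 0 ∧
      ∃ V' : Fin T.k → Submodule ℂ (Fin r → ℂ),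
        (∀ a, BType (p a).C.Z (p a).C.K (d a) (tr a) X' (V' a)) ∧ (⨆ a, V' a) = ⊤ ∧
        ∑ a, finrank ℂ (V' a) = r := by
  classical
  obtain ⟨hXN, hXc⟩ := hXY
  have hXR' : ∀ z ∈ R, FreeGroup.lift X z = 1 := hXN.1
  have hqpos : ∀ a, 0 < T.q a := fun a => Nat.pos_of_ne_zero (hF.qne a)
  have hne : ∀ a, Nonempty (T.B a) := fun a => ⟨(⟨0, hqpos a⟩, ⟨0, hF.npos a⟩)⟩
  -- the Burnside words
  obtain ⟨g, hg⟩ := exists_words hF.qne hne (fun a => tw (χ a) (σ a))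
    (fun a => tw_mulOn (hF.hχ a) (hF.hσ a)) hF.irr
  have hXP : ∀ x, mh X x = conjG T ε P (fun a => tw (χ a) (σ a)) x := by
    intro x
    unfold conjG
    rw [← hF.eq, Matrix.mul_assoc, Units.mul_inv, Matrix.mul_one]
  have hΘ0 : Theta T ε P f g (fun a => tw (χ a) (σ a)) ≠ 0 := by
    unfold Theta
    refine mul_ne_zero ?_ (Finset.prod_ne_zero_iff.2 fun a _ => hg a)
    intro h
    apply hfX
    rw [← h]
    change MvPolynomial.eval₂ (algebraMap ℂ ℂ) _ f = MvPolynomial.eval₂ (RingHom.id ℂ) _ f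
    congr 1
    funext q
    rw [← hXP, mh_of]
  -- deform `σ`
  obtain ⟨σ', hσ', hΘ1⟩ := deform_sigmaM L T p ε P f g χ σ hF.hD hΘ0
  -- deform `χ`
  obtain ⟨t, ht⟩ : ∃ t : T.J → ℂˣ, ∀ a i, t ⟨a, i⟩ = χ a ((genP (T.H a)).2 i) :=
    ⟨fun j => χ j.1 ((genP (T.H j.1)).2 j.2), fun a i => rfl⟩
  have hΨ : (fun t : T.J → ℂˣ => Theta T ε P f g (fun a => tw (T.chi t a) (σ' a))) ∈ LauJ T.J := by
    refine mem_Theta _ T ε P f g (τ := fun t a => tw (T.chi t a) (σ' a)) fun a x hx i j => ?_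
    exact mul_mem (chi_Lau T a x) ((LauJ T.J).algebraMap_mem ((σ' a x).1 i j))
  have hΨ0 : (fun t : T.J → ℂˣ => Theta T ε P f g (fun a => tw (T.chi t a) (σ' a))) t ≠ 0 := by
    change Theta T ε P f g (fun a => tw (T.chi t a) (σ' a)) ≠ 0
    rw [Theta_congr T ε P f g _ (fun a => tw (χ a) (σ' a)) fun a x hx =>
      tw_congr (chi_self T hF.qne χ hF.hχ t ht a hx)]
    exact hΘ1
  obtain ⟨t', h1, h2, h3⟩ := hT t (hF.cons_pow hXZ hXe t ht) _ hΨ hΨ0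
  obtain ⟨hχ', hχe⟩ := chi_factsM T p hF.qne χ hF.hχ t t' ht h1
  obtain ⟨χ', hχ'e⟩ : ∃ χ' : ∀ _ : Fin T.k, FreeGroup ι → ℂˣ, χ' = fun a => T.chi t' a := ⟨_, rfl⟩
  have e1 : ∀ a, T.chi t' a = χ' a := fun a => by rw [hχ'e]
  simp only [e1] at hχ' hχe h3
  obtain ⟨τ', hτ'⟩ : ∃ τ' : ∀ a, FreeGroup ι → Matrix (Fin (T.n a)) (Fin (T.n a)) ℂ,
      τ' = fun a => tw (χ' a) (σ' a) := ⟨_, rfl⟩
  have hτm : ∀ a, MulOn (T.H a) (τ' a) := fun a => by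
    rw [hτ']
    exact tw_mulOn (hχ' a) (hσ' a).mul
  -- determinant
  have hdet : ∀ x, (T.G τ' x).det = 1 := by
    intro x
    obtain ⟨δ, -, hδ⟩ := det_G_eq T hF.qne x
    have h4 := hδ χ σ
    have h5 := hδ χ' σ'
    rw [hτ', h5, ← hF.det_G x, h4]
    congr 1
    have h6 := h1 (T.vx x) (AddSubgroup.subset_closure (Or.inr ⟨x, rfl⟩))
    rw [mono_vx, mono_vx] at h6
    have h7 : (∏ a, (∏ p : Fin (T.q a) × Fin (T.q a),
        if (T.t a p.1)⁻¹ * x * T.t a p.2 ∈ T.H a then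
        T.chi t a ((T.t a p.1)⁻¹ * x * T.t a p.2) else 1) ^ T.n a) =
        (∏ a, (∏ p : Fin (T.q a) × Fin (T.q a),
        if (T.t a p.1)⁻¹ * x * T.t a p.2 ∈ T.H a then
        χ a ((T.t a p.1)⁻¹ * x * T.t a p.2) else 1) ^ T.n a) := by
      refine Finset.prod_congr rfl fun a _ => ?_
      congr 1
      refine Finset.prod_congr rfl fun p _ => ?_
      by_cases h3 : (T.t a p.1)⁻¹ * x * T.t a p.2 ∈ T.H a
      · rw [if_pos h3, if_pos h3, chi_self T hF.qne χ hF.hχ t ht a h3]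
      · rw [if_neg h3, if_neg h3]
    rw [h7] at h6
    simp only [e1] at h6
    rw [h6]
  -- the values on `Z`
  obtain ⟨τ₀, hτ₀⟩ : ∃ τ₀ : ∀ a, FreeGroup ι → Matrix (Fin (T.n a)) (Fin (T.n a)) ℂ,
      τ₀ = fun a => tw (χ a) (σ a) := ⟨_, rfl⟩
  have hτZ : ∀ a, ∀ z ∈ (p a).C.Z, τ' a z = τ₀ a z := by
    intro a z hz
    rw [hτ', hτ₀]
    change ((χ' a z : ℂˣ) : ℂ) • (σ' a z).1 = ((χ a z : ℂˣ) : ℂ) • (σ a z).1
    rw [hχe a z (hF.Zle a hz) (Or.inl hz), (hσ' a).z z hz]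
  have hIZ : ∀ a, ∀ z ∈ (p a).C.Z, indM (T.H a) (T.t a) (τ' a) z =
      indM (T.H a) (T.t a) (τ₀ a) z := fun a =>
    ind_eq_Z (τ₀ a) (τ' a) (hF.qne a) (p a).C.hZ (hF.Zle a) (hτZ a)
  have hIK : ∀ a, Agr (p a).C.K (indM (T.H a) (T.t a) (τ₀ a)) (indM (T.H a) (T.t a) (τ' a)) := by
    intro a
    refine agr_ind (τ₀ a) (τ' a) (hF.qne a) (isKn (p a).C) ?_
    rw [hτ', hτ₀]
    exact agr_tw (hF.hχ a) (hχ' a) (hσ' a).agr
  have hGZ : ∀ z, (∀ a, z ∈ (p a).C.Z) → T.G τ' z = T.G τ₀ z := by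
    intro z hz
    unfold Shape.G
    congr 1
    funext a
    exact hIZ a z (hz a)
  -- membership
  have hmem : ∀ P' : (Matrix (Fin r) (Fin r) ℂ)ˣ, ∃ X' : ι → SpecialLinearGroup (Fin r) ℂ,
      (∀ x, mh X' x = conjG T ε P' τ' x) ∧ X' ∈ YW R w C₀ ∧
      ∃ V' : Fin T.k → Submodule ℂ (Fin r → ℂ),
        (∀ a, BType (p a).C.Z (p a).C.K (d a) (tr a) X' (V' a)) ∧ (⨆ a, V' a) = ⊤ ∧
        ∑ a, finrank ℂ (V' a) = r := by
    intro P'
    obtain ⟨X', hX'⟩ := exists_X T ε P' τ' hF.qne hτm hdet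
    have hg' : ∀ a, burn T g τ' a ≠ 0 := by
      intro a
      have h4 : ∏ a, burn T g (fun a => tw (χ' a) (σ' a)) a ≠ 0 := (mul_ne_zero_iff.1 h3).2
      rw [hτ']
      exact Finset.prod_ne_zero_iff.1 h4 a (Finset.mem_univ a)
    -- `X'` and `X` are conjugate where the matrices agree
    obtain ⟨h, hh⟩ : ∃ h : SpecialLinearGroup (Fin r) ℂ, ∀ x, T.G τ' x = T.G τ₀ x →
        FreeGroup.lift X' x = h * FreeGroup.lift X x * h⁻¹ := by
      obtain ⟨h, c, hc, hhc⟩ := exists_scale (P' * P⁻¹)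
      refine ⟨h, fun x hx => ?_⟩
      rw [eq_mul_inv_iff_mul_eq]
      apply Subtype.ext
      change mh X' x * h.1 = h.1 * mh X x
      rw [hhc, hX', hXP, ← hτ₀]
      unfold conjG
      rw [hx, mul_smul_comm, smul_mul_assoc, Units.val_mul]
      congr 1
      have e2 : (P'⁻¹).1 * P'.1 = 1 := Units.inv_mul P'
      have e3 : (P⁻¹).1 * P.1 = 1 := Units.inv_mul P
      calc P'.1 * (T.G τ₀ x).submatrix ε ε * (P'⁻¹).1 * (P'.1 * (P⁻¹).1)
          = P'.1 * (T.G τ₀ x).submatrix ε ε * ((P'⁻¹).1 * P'.1) * (P⁻¹).1 := by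
            simp only [Matrix.mul_assoc]
        _ = P'.1 * ((P⁻¹).1 * P.1) * (T.G τ₀ x).submatrix ε ε * (P⁻¹).1 := by
            rw [e2, e3]
            simp only [Matrix.mul_assoc, Matrix.mul_one]
        _ = _ := by simp only [Matrix.mul_assoc]
    refine ⟨X', hX', ⟨⟨?_, ?_⟩, fun j => ?_⟩, fun a => LinearMap.range (blk T ε P' a),
      fun a => ?_, blk_top T ε P', ?_⟩
    · intro z hz
      rw [hh z (hGZ z fun a => hZ a hz), hXR' z hz, mul_one, mul_inv_cancel]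
    · exact ssi_of_burn T ε P' τ' hne g hg' X' hX'
    · refine (hXc j).trans ?_
      refine class_eq T ε P P' χ χ' σ σ' hF.hχ hF.hσ hχ' (fun a => (hσ' a).mul) X X' (w j)
        (hF.eq _) (by rw [hX', hτ']) fun a x k hk => ?_
      have h4 : x⁻¹ * w j ^ k * x ∈ (p a).C.Rel := (hRel a _).2 ⟨x⁻¹, j, k, by rw [inv_inv]⟩
      exact twU_isConj (hχe a _ hk (Or.inr h4)) ((hσ' a).rel _ h4 hk)
    · refine btype_transport (X := X) (blk T ε P a) (blk T ε P' a) (blk_injective T ε P a)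
        (blk_injective T ε P' a) (indM (T.H a) (T.t a) (τ₀ a)) (indM (T.H a) (T.t a) (τ' a))
        (fun x v => ?_) (fun x v => ?_) (hIZ a) (hIK a)
        (irr_of_burn (fun x => indM (T.H a) (T.t a) (τ' a) x) (g a) (hg' a)) ?_
      · rw [hXP, ← hτ₀, conjG_blk]
      · rw [hX', conjG_blk]
      · rw [hF.rng a]
        exact hV a
    · have h5 : ∀ a, finrank ℂ (LinearMap.range (blk T ε P' a)) = Fintype.card (T.B a) := by
        intro a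
        rw [LinearMap.finrank_range_of_inj (blk_injective T ε P' a), Module.finrank_fintype_fun_eq_card]
      rw [Finset.sum_congr rfl fun a _ => h5 a, ← Fintype.card_sigma]
      exact (Fintype.card_congr ε).symm.trans (Fintype.card_fin r)
  -- integrality
  have hint : ∀ a, ∃ Q : (Matrix (Fin (T.n a)) (Fin (T.n a)) ℂ)ˣ,
      ∀ x ∈ T.H a, ∀ i j, InO (L ⊔ L₂) ((Q.1 * τ' a x * (Q⁻¹).1) i j) := by
    intro a
    obtain ⟨Q, hQ⟩ := (hσ' a).int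
    refine ⟨Q, fun x hx i j => ?_⟩
    have h4 : Q.1 * τ' a x * (Q⁻¹).1 = ((χ' a x : ℂˣ) : ℂ) • (Q.1 * (σ' a x).1 * (Q⁻¹).1) := by
      rw [hτ']
      change Q.1 * (((χ' a x : ℂˣ) : ℂ) • (σ' a x).1) * (Q⁻¹).1 = _
      rw [mul_smul_comm, smul_mul_assoc]
    rw [h4, Matrix.smul_apply, smul_eq_mul]
    refine InO.mul ?_ (InO.mono le_sup_left (hQ x hx i j))
    rw [hχ'e]
    exact InO.mono le_sup_right (chi_InO T L₂ t' h2 a x)
  have h4 : MvPolynomial.eval (fun q : ι × Fin r × Fin r =>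
      conjG T ε P τ' (FreeGroup.of q.1) q.2.1 q.2.2) f ≠ 0 := by
    rw [hτ']
    exact (mul_ne_zero_iff.1 h3).1
  obtain ⟨P', hP'1, hP'2⟩ := exists_int T ε P _ τ' hint f h4
  obtain ⟨X', hX'1, hX'2, hX'3⟩ := hmem P'
  have hX'4 : IsIntegralRep (L ⊔ L₂) X' := by
    intro p i j
    have h5 : (X' p).1 = conjG T ε P' τ' (FreeGroup.of p) := by rw [← hX'1, mh_of]
    rw [h5]
    exact hP'1 _ i j
  refine ⟨X', hX'2, hX'4, fun h0 => hP'2 ?_, hX'3⟩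
  rw [← h0]
  change MvPolynomial.eval₂ (RingHom.id ℂ) _ f = MvPolynomial.eval₂ (algebraMap ℂ ℂ) _ f
  congr 1
  funext q
  rw [← hX'1, mh_of]

end Vale.Agent.P002.H2
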