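import Vale.Agent.P002.H2.TD

/-!
# The final assembly for representations fixed on `Z`
-/

namespace Vale.Agent.P002.H2

open Matrix NumberField Module Vale.Agent.P002R.Orb Vale.Agent.P002.H377 Vale.Agent.P002.H306
  Vale.Agent.P002.H326J commutatorElement

variable {ι : Type} {I : Type} [MulAction (FreeGroup ι) I]

/-- Some term of the derived series of some subgroup of finite index of `K` is mapped to the linear
span of the image of `Z`. -/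
def RelVS {F : Type} [Group F] {A : Type*} [AddCommGroup A] [Module ℂ A] (K Z : Subgroup F)
    (ρ : F → A) : Prop :=
  ∃ B ≤ K, B.relIndex K ≠ 0 ∧ ∃ k, ∀ x ∈ dser B k, ρ x ∈ Submodule.span ℂ (ρ '' Z)

theorem RelVS.map {F : Type} [Group F] {A A' : Type*} [AddCommGroup A] [Module ℂ A]
    [AddCommGroup A'] [Module ℂ A'] {K Z : Subgroup F}
    {ρ : F → A} (h : RelVS K Z ρ) (f : A →ₗ[ℂ] A') : RelVS K Z (fun x => f (ρ x)) := by
  obtain ⟨B, hB, hi, k, hk⟩ := h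
  refine ⟨B, hB, hi, k, fun x hx => ?_⟩
  have h1 : f (ρ x) ∈ (Submodule.span ℂ (ρ '' Z)).map f := ⟨_, hk x hx, rfl⟩
  rw [Submodule.map_span, Set.image_image] at h1
  exact h1

theorem RelVS.of_inj {F : Type} [Group F] {A A' : Type*} [AddCommGroup A] [Module ℂ A]
    [AddCommGroup A'] [Module ℂ A'] {K Z : Subgroup F}
    {ρ : F → A} (f : A →ₗ[ℂ] A') (hf : Function.Injective f)
    (h : RelVS K Z (fun x => f (ρ x))) : RelVS K Z ρ := by
  obtain ⟨B, hB, hi, k, hk⟩ := h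
  refine ⟨B, hB, hi, k, fun x hx => ?_⟩
  have h1 := hk x hx
  have h2 : (fun x => f (ρ x)) '' (Z : Set F) = f '' (ρ '' Z) := by rw [Set.image_image]
  rw [h2, ← Submodule.map_span] at h1
  obtain ⟨y, hy, hyx⟩ := h1
  rw [← hf hyx]
  exact hy

/-- the density locus -/
def YKA {r s : ℕ} (R : Set (FreeGroup ι)) (w : Fin s → FreeGroup ι)
    (C₀ : Fin s → SpecialLinearGroup (Fin r) ℂ) (K Z : Subgroup (FreeGroup ι))
    (R1 : FreeGroup ι → SpecialLinearGroup (Fin r) ℂ) :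
    Set (ι → SpecialLinearGroup (Fin r) ℂ) :=
  {X ∈ YW R w C₀ | (∃ g : SpecialLinearGroup (Fin r) ℂ,
    ∀ z ∈ Z, FreeGroup.lift X z = g * R1 z * g⁻¹) ∧ RelVS K Z (fun x => mh X x)}

/-- admissible irreducible representations -/
structure AdmA (C : Ctx (FreeGroup ι) I) (N₀ : ℕ) {r : ℕ}
    (R1 : FreeGroup ι → SpecialLinearGroup (Fin r) ℂ) {V : Type} [AddCommGroup V] [Module ℂ V]
    (ρ : FreeGroup ι → Module.End ℂ V) : Prop where
  mul : MulOn ⊤ ρ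
  irr : Irr ⊤ ρ
  eig : ∀ y ∈ C.Rel, ∀ a b, (ρ y).HasEigenvalue a → (ρ y).HasEigenvalue b → a ^ N₀ = b ^ N₀
  vs : RelVS C.K C.Z ρ
  sub : ∃ e : V →ₗ[ℂ] (Fin r → ℂ), Function.Injective e ∧
    ∀ z ∈ C.Z, ∀ v, e (ρ z v) = (R1 z).1 *ᵥ e v

theorem admA_sub (C : Ctx (FreeGroup ι) I) {N₀ r : ℕ} (X : ι → SpecialLinearGroup (Fin r) ℂ)
    {R1 : FreeGroup ι → SpecialLinearGroup (Fin r) ℂ}
    (hXvs : RelVS C.K C.Z (fun x => mh X x))
    (hX1 : ∃ g : SpecialLinearGroup (Fin r) ℂ,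
      ∀ z ∈ C.Z, FreeGroup.lift X z = g * R1 z * g⁻¹)
    (hXe : ∀ y ∈ C.Rel, ∀ (v : Fin r → ℂ) (c : ℂ), v ≠ 0 → mh X y *ᵥ v = c • v → c ^ N₀ = 1)
    (U : Submodule ℂ (Fin r → ℂ)) (ρU : FreeGroup ι → Module.End ℂ U) (hU : IrrSub (rep X) U)
    (hρU : ∀ x (v : U), ((ρU x v : U) : Fin r → ℂ) = rep X x v) : AdmA C N₀ R1 ρU := by
  refine ⟨⟨?_, fun x _ y _ => ?_⟩, ⟨?_, fun W hW => ?_⟩, fun y hy a b ha hb => ?_, ?_, ?_⟩
  · refine LinearMap.ext fun v => Subtype.ext ?_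
    rw [hρU, (rep_mulOn X).one]
    rfl
  · refine LinearMap.ext fun v => Subtype.ext ?_
    rw [Module.End.mul_apply, hρU, hρU, hρU, (rep_mulOn X).mul x trivial y trivial,
      Module.End.mul_apply]
  · exact Submodule.nontrivial_iff_ne_bot.2 hU.1
  · have h1 := hU.2.2 (W.map U.subtype) (Submodule.map_subtype_le U W) (by
      rintro x _ ⟨v, hv, rfl⟩
      refine ⟨ρU x v, hW x trivial v hv, ?_⟩
      exact hρU x v)
    rcases h1 with h1 | h1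
    · left
      exact (Submodule.map_injective_of_injective U.injective_subtype)
        (h1.trans (Submodule.map_bot _).symm)
    · right
      refine (Submodule.map_injective_of_injective U.injective_subtype) (h1.trans ?_)
      rw [Submodule.map_top, Submodule.range_subtype]
  · have h1 : ∀ c, (ρU y).HasEigenvalue c → c ^ N₀ = 1 := by
      intro c hc
      obtain ⟨v, hv⟩ := hc.exists_hasEigenvector
      refine hXe y hy v.1 c (fun h => hv.2 (Subtype.ext h)) ?_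
      have h2 := congrArg Subtype.val hv.apply_eq_smul
      rw [hρU, rep, Matrix.toLin'_apply] at h2
      exact h2
    rw [h1 a ha, h1 b hb]
  · obtain ⟨f, hf⟩ : ∃ f : Matrix (Fin r) (Fin r) ℂ →ₗ[ℂ] (U →ₗ[ℂ] (Fin r → ℂ)),
        ∀ M, f M = Matrix.toLin' M ∘ₗ U.subtype :=
      ⟨{ toFun := fun M => Matrix.toLin' M ∘ₗ U.subtype
         map_add' := fun M N => by rw [map_add, LinearMap.add_comp]
         map_smul' := fun c M => by rw [map_smul, LinearMap.smul_comp]; rfl }, fun M => rfl⟩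
    obtain ⟨g, hg⟩ : ∃ g : Module.End ℂ U →ₗ[ℂ] (U →ₗ[ℂ] (Fin r → ℂ)),
        ∀ M, g M = U.subtype ∘ₗ M :=
      ⟨{ toFun := fun M => U.subtype ∘ₗ M
         map_add' := fun M N => by rw [LinearMap.comp_add]
         map_smul' := fun c M => by rw [LinearMap.comp_smul]; rfl }, fun M => rfl⟩
    refine RelVS.of_inj g ?_ ?_
    · intro M N hMN
      rw [hg, hg] at hMN
      refine LinearMap.ext fun v => Subtype.ext ?_
      exact congrArg (fun l => l v) hMN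
    · have h1 := hXvs.map f
      have h2 : (fun x => f (mh X x)) = fun x => g (ρU x) := by
        funext x
        rw [hf, hg]
        refine LinearMap.ext fun v => ?_
        exact (hρU x v).symm
      rwa [h2] at h1
  · obtain ⟨g, hg⟩ := hX1
    refine ⟨Matrix.toLin' (g⁻¹).1 ∘ₗ U.subtype, ?_, fun z hz v => ?_⟩
    · intro v w hvw
      have h1 : (g⁻¹).1 *ᵥ (v : Fin r → ℂ) = (g⁻¹).1 *ᵥ (w : Fin r → ℂ) := hvw
      have h2 := congrArg (fun u => g.1 *ᵥ u) h1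
      simp only [Matrix.mulVec_mulVec] at h2
      have h3 : g.1 * (g⁻¹).1 = 1 := congrArg Subtype.val (mul_inv_cancel g)
      rw [h3, Matrix.one_mulVec, Matrix.one_mulVec] at h2
      exact Subtype.ext h2
    · change (g⁻¹).1 *ᵥ ((ρU z v : U) : Fin r → ℂ) = (R1 z).1 *ᵥ ((g⁻¹).1 *ᵥ (v : Fin r → ℂ))
      have h1 : g⁻¹ * FreeGroup.lift X z = R1 z * g⁻¹ := by
        rw [hg z hz]
        group
      have h2 : (g⁻¹).1 * mh X z = (R1 z).1 * (g⁻¹).1 := congrArg Subtype.val h1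
      rw [hρU, rep, Matrix.toLin'_apply, Matrix.mulVec_mulVec, Matrix.mulVec_mulVec, h2]

/-- the torus lemma for the group `U` of units -/
def Torus (U : Subgroup ℂˣ) : Prop :=
  ∀ (J : Type) [Fintype J] (B : AddSubgroup (J → ℤ)) (M : ℕ), 0 < M →
    ∃ L : IntermediateField ℚ ℂ, FiniteDimensional ℚ L ∧
      ∀ t : J → ℂˣ, (∀ b ∈ B, mono t b ^ M ∈ U) → ∀ Ψ ∈ LauJ J, Ψ t ≠ 0 →
        ∃ t' : J → ℂˣ, (∀ b ∈ B, mono t' b = mono t b) ∧
          (∀ j, InO L (t' j : ℂ) ∧ InO L (((t' j)⁻¹ : ℂˣ) : ℂ)) ∧ Ψ t' ≠ 0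

theorem torusA_mono {J : Type} [Fintype J] (M : ℕ) (B : AddSubgroup (J → ℤ)) (U : Subgroup ℂˣ)
    (L L' : IntermediateField ℚ ℂ) (hL : L ≤ L')
    (h : ∀ t : J → ℂˣ, (∀ b ∈ B, mono t b ^ M ∈ U) → ∀ Ψ ∈ LauJ J, Ψ t ≠ 0 →
        ∃ t' : J → ℂˣ, (∀ b ∈ B, mono t' b = mono t b) ∧
          (∀ j, InO L (t' j : ℂ) ∧ InO L (((t' j)⁻¹ : ℂˣ) : ℂ)) ∧ Ψ t' ≠ 0) :
    ∀ t : J → ℂˣ, (∀ b ∈ B, mono t b ^ M ∈ U) → ∀ Ψ ∈ LauJ J, Ψ t ≠ 0 →
        ∃ t' : J → ℂˣ, (∀ b ∈ B, mono t' b = mono t b) ∧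
          (∀ j, InO L' (t' j : ℂ) ∧ InO L' (((t' j)⁻¹ : ℂˣ) : ℂ)) ∧ Ψ t' ≠ 0 := by
  intro t ht Ψ hΨ h0
  obtain ⟨t', h1, h2, h3⟩ := h t ht Ψ hΨ h0
  exact ⟨t', h1, fun j => ⟨(h2 j).1.mono hL, (h2 j).2.mono hL⟩, h3⟩

/-- scaling an invertible matrix to determinant one -/
theorem exists_scale {r : ℕ} (Q : (Matrix (Fin r) (Fin r) ℂ)ˣ) :
    ∃ (h : SpecialLinearGroup (Fin r) ℂ) (c : ℂ), c ≠ 0 ∧ h.1 = c • Q.1 := by
  rcases Nat.eq_zero_or_pos r with hr | hr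
  · subst hr
    exact ⟨1, 1, one_ne_zero, Matrix.ext fun i => i.elim0⟩
  · have hdet : Q.1.det ≠ 0 := ((Matrix.isUnit_iff_isUnit_det _).1 Q.isUnit).ne_zero
    obtain ⟨c, hc⟩ := IsAlgClosed.exists_pow_nat_eq (Q.1.det) hr
    have hc0 : c ≠ 0 := by
      rintro rfl
      rw [zero_pow hr.ne'] at hc
      exact hdet hc.symm
    refine ⟨⟨c⁻¹ • Q.1, ?_⟩, c⁻¹, inv_ne_zero hc0, rfl⟩
    rw [Matrix.det_smul, Fintype.card_fin, inv_pow, hc, inv_mul_cancel₀ hdet]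

theorem assemblyA [Finite ι] (C : Ctx (FreeGroup ι) I) (R : Set (FreeGroup ι))
    (hZ : R ⊆ C.Z) {s : ℕ} (w : Fin s → FreeGroup ι)
    (hRel : ∀ y, y ∈ C.Rel ↔ ∃ x j, ∃ a : ℤ, y = x * w j ^ a * x⁻¹) (N₀ r : ℕ) (hN₀ : 0 < N₀)
    (L : IntermediateField ℚ ℂ) (hL : FiniteDimensional ℚ L)
    (R1 : FreeGroup ι → SpecialLinearGroup (Fin r) ℂ)
    (hgood : ∀ (V : Type) [AddCommGroup V] [Module ℂ V] [FiniteDimensional ℂ V]
      (ρ : FreeGroup ι → Module.End ℂ V), Module.finrank ℂ V ≤ r → AdmA C N₀ R1 ρ →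
        GoodA C L ⊤ ρ)
    (U : Subgroup ℂˣ) (hU : Torus U)
    (hdU : ∀ (H : Subgroup (FreeGroup ι)) (n : ℕ) (χ : FreeGroup ι → ℂˣ)
      (τ : FreeGroup ι → SpecialLinearGroup (Fin n) ℂ), H.index ≠ 0 → H.index ≤ r → C.Z ≤ H →
      MulOn H χ → (∃ e : (Fin n → ℂ) →ₗ[ℂ] (Fin r → ℂ), Function.Injective e ∧
        ∀ k ∈ C.Z, ∀ v, (R1 k).1 *ᵥ e v = (χ k : ℂ) • e ((τ k).1 *ᵥ v)) →
      ∀ k ∈ C.Z, χ k ^ n ∈ U)
    (C₀ : Fin s → SpecialLinearGroup (Fin r) ℂ) (hC₀ : ∀ j z, IsEigenvalue (C₀ j) z → z ^ N₀ = 1) :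
    ∃ L' : IntermediateField ℚ ℂ, FiniteDimensional ℚ L' ∧ IsDenseRep L' (YKA R w C₀ C.K C.Z R1) := by
  classical
  -- the field
  obtain ⟨L₂, hL₂, hT⟩ := exists_sup (shapes ι r) (shapes_finite ι r)
    (fun T L => ∀ t : T.J → ℂˣ, (∀ b ∈ cons C T, mono t b ^ (2 * N₀ * r.factorial) ∈ U) →
      ∀ Ψ ∈ LauJ T.J, Ψ t ≠ 0 → ∃ t' : T.J → ℂˣ, (∀ b ∈ cons C T, mono t' b = mono t b) ∧
          (∀ j, InO L (t' j : ℂ) ∧ InO L (((t' j)⁻¹ : ℂˣ) : ℂ)) ∧ Ψ t' ≠ 0)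
    (fun T L L' hL h => torusA_mono _ _ U L L' hL h)
    (fun T _ => hU T.J _ _ (Nat.mul_pos (Nat.mul_pos two_pos hN₀) (Nat.factorial_pos r)))
  refine ⟨L ⊔ L₂, IntermediateField.finiteDimensional_sup _ _, ?_⟩
  intro f hf X hX
  by_contra hfX
  obtain ⟨⟨hXN, hXc⟩, hX1, hXvs⟩ := hX
  obtain ⟨-, hXss⟩ := (mem_YNone_iff R X).1 hXN
  have hXR' : ∀ z ∈ R, FreeGroup.lift X z = 1 := hXN.1
  have hXZ : UnitIn C.Z X U := by
    intro H n χ τ h1 h2 h3 h4 h5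
    obtain ⟨g, hg⟩ := hX1
    obtain ⟨e, he, hA⟩ := h5
    refine hdU H n χ τ h1 h2 h3 h4 ⟨Matrix.toLin' (g⁻¹).1 ∘ₗ e, ?_, fun z hz v => ?_⟩
    · intro v w hvw
      have h1 : (g⁻¹).1 *ᵥ e v = (g⁻¹).1 *ᵥ e w := hvw
      have h2 := congrArg (fun u => g.1 *ᵥ u) h1
      simp only [Matrix.mulVec_mulVec] at h2
      have h3 : g.1 * (g⁻¹).1 = 1 := congrArg Subtype.val (mul_inv_cancel g)
      rw [h3, Matrix.one_mulVec, Matrix.one_mulVec] at h2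
      exact he h2
    · have h1 : g⁻¹ * FreeGroup.lift X z = R1 z * g⁻¹ := by
        rw [hg z hz]
        group
      have h2 : (g⁻¹).1 * mh X z = (R1 z).1 * (g⁻¹).1 := congrArg Subtype.val h1
      change (R1 z).1 *ᵥ ((g⁻¹).1 *ᵥ e v) = (χ z : ℂ) • ((g⁻¹).1 *ᵥ e ((τ z).1 *ᵥ v))
      rw [Matrix.mulVec_mulVec, ← h2, ← Matrix.mulVec_mulVec, hA z hz, Matrix.mulVec_smul]
  have hXw : ∀ j z, (mh X (w j)).charpoly.IsRoot z → z ^ N₀ = 1 := by
    intro j z hz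
    refine hC₀ j z ?_
    change (C₀ j).1.charpoly.IsRoot z
    have h1 := charpoly_isConj (hXc j)
    rw [← h1]
    exact hz
  have hXe : ∀ y ∈ C.Rel, ∀ (v : Fin r → ℂ) (c : ℂ), v ≠ 0 → mh X y *ᵥ v = c • v →
      c ^ N₀ = 1 := fun y hy v c hv hc => eig_rel w X hXw y ((hRel y).1 hy) v hv c hc
  -- the form
  obtain ⟨T, χ, σ, ε, P, hF⟩ := exists_formA C L X hXss (by
    intro U ρU hU hρU
    have hr : Module.finrank ℂ U ≤ r := by
      have := Submodule.finrank_le U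
      rwa [Module.finrank_fin_fun] at this
    exact hgood U ρU hr (admA_sub C X hXvs hX1 hXe U ρU hU hρU))
  have hqpos : ∀ a, 0 < T.q a := fun a => Nat.pos_of_ne_zero (hF.qne a)
  have hne : ∀ a, Nonempty (T.B a) := fun a => ⟨(⟨0, hqpos a⟩, ⟨0, hF.npos a⟩)⟩
  have hTs : T ∈ shapes ι r := ⟨hF.kle, hF.nle, fun a => ⟨hF.qne a, hF.qle a⟩⟩
  -- the Burnside words
  obtain ⟨g, hg⟩ := exists_words hF.qne hne (fun a => tw (χ a) (σ a))
    (fun a => tw_mulOn (hF.hχ a) (hF.hσ a)) hF.irr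
  have hXP : ∀ x, mh X x = conjG T ε P (fun a => tw (χ a) (σ a)) x := by
    intro x
    unfold conjG
    rw [← hF.eq, Matrix.mul_assoc, Units.mul_inv, Matrix.mul_one]
  have hΘ0 : Theta T ε P f g (fun a => tw (χ a) (σ a)) ≠ 0 := by
    unfold Theta
    refine mul_ne_zero ?_ (Finset.prod_ne_zero_iff.2 fun a _ => hg a)
    intro h
    apply hfX
    rw [← h]
    change MvPolynomial.eval₂ (algebraMap ℂ ℂ) _ f = MvPolynomial.eval₂ (RingHom.id ℂ) _ f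
    congr 1
    funext q
    rw [← hXP, mh_of]
  -- deform `σ`
  obtain ⟨σ', hσ', hΘ1⟩ := deform_sigmaA C L T ε P f g χ σ hF.hD hΘ0
  -- deform `χ`
  obtain ⟨t, ht⟩ : ∃ t : T.J → ℂˣ, ∀ a i, t ⟨a, i⟩ = χ a ((genP (T.H a)).2 i) :=
    ⟨fun j => χ j.1 ((genP (T.H j.1)).2 j.2), fun a i => rfl⟩
  have hΨ : (fun t : T.J → ℂˣ => Theta T ε P f g (fun a => tw (T.chi t a) (σ' a))) ∈ LauJ T.J := by
    refine mem_Theta _ T ε P f g (τ := fun t a => tw (T.chi t a) (σ' a)) fun a x hx i j => ?_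
    exact mul_mem (chi_Lau T a x) ((LauJ T.J).algebraMap_mem ((σ' a x).1 i j))
  have hΨ0 : (fun t : T.J → ℂˣ => Theta T ε P f g (fun a => tw (T.chi t a) (σ' a))) t ≠ 0 := by
    change Theta T ε P f g (fun a => tw (T.chi t a) (σ' a)) ≠ 0
    rw [Theta_congr T ε P f g _ (fun a => tw (χ a) (σ' a)) fun a x hx =>
      tw_congr (chi_self T hF.qne χ hF.hχ t ht a hx)]
    exact hΘ1
  obtain ⟨t', h1, h2, h3⟩ := hT T hTs t (hF.cons_pow hXZ hXe t ht) _ hΨ hΨ0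
  obtain ⟨hχ', hχe⟩ := chi_facts C T hF.qne χ hF.hχ t t' ht h1
  obtain ⟨χ', hχ'e⟩ : ∃ χ' : ∀ _ : Fin T.k, FreeGroup ι → ℂˣ, χ' = fun a => T.chi t' a := ⟨_, rfl⟩
  have e1 : ∀ a, T.chi t' a = χ' a := fun a => by rw [hχ'e]
  simp only [e1] at hχ' hχe h3
  obtain ⟨τ', hτ'⟩ : ∃ τ' : ∀ a, FreeGroup ι → Matrix (Fin (T.n a)) (Fin (T.n a)) ℂ,
      τ' = fun a => tw (χ' a) (σ' a) := ⟨_, rfl⟩
  have hτm : ∀ a, MulOn (T.H a) (τ' a) := fun a => by
    rw [hτ']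
    exact tw_mulOn (hχ' a) (hσ' a).mul
  -- determinant
  have hdet : ∀ x, (T.G τ' x).det = 1 := by
    intro x
    obtain ⟨δ, -, hδ⟩ := det_G_eq T hF.qne x
    have h4 := hδ χ σ
    have h5 := hδ χ' σ'
    rw [hτ', h5, ← hF.det_G x, h4]
    congr 1
    have h6 := h1 (T.vx x) (AddSubgroup.subset_closure (Or.inr ⟨x, rfl⟩))
    rw [mono_vx, mono_vx] at h6
    have h7 : (∏ a, (∏ p : Fin (T.q a) × Fin (T.q a),
        if (T.t a p.1)⁻¹ * x * T.t a p.2 ∈ T.H a then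
        T.chi t a ((T.t a p.1)⁻¹ * x * T.t a p.2) else 1) ^ T.n a) =
        (∏ a, (∏ p : Fin (T.q a) × Fin (T.q a),
        if (T.t a p.1)⁻¹ * x * T.t a p.2 ∈ T.H a then
        χ a ((T.t a p.1)⁻¹ * x * T.t a p.2) else 1) ^ T.n a) := by
      refine Finset.prod_congr rfl fun a _ => ?_
      congr 1
      refine Finset.prod_congr rfl fun p _ => ?_
      by_cases h3 : (T.t a p.1)⁻¹ * x * T.t a p.2 ∈ T.H a
      · rw [if_pos h3, if_pos h3, chi_self T hF.qne χ hF.hχ t ht a h3]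
      · rw [if_neg h3, if_neg h3]
    rw [h7] at h6
    simp only [e1] at h6
    rw [h6]
  -- the values on `Z`
  have hZn : ∀ x y, y ∈ C.Z → x * y * x⁻¹ ∈ C.Z := C.hZ
  obtain ⟨τ₀, hτ₀⟩ : ∃ τ₀ : ∀ a, FreeGroup ι → Matrix (Fin (T.n a)) (Fin (T.n a)) ℂ,
      τ₀ = fun a => tw (χ a) (σ a) := ⟨_, rfl⟩
  have hτZ : ∀ a, ∀ z ∈ C.Z, τ' a z = τ₀ a z := by
    intro a z hz
    rw [hτ', hτ₀]
    change ((χ' a z : ℂˣ) : ℂ) • (σ' a z).1 = ((χ a z : ℂˣ) : ℂ) • (σ a z).1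
    rw [hχe a z (hF.Zle a hz) (Or.inl hz), (hσ' a).z z hz]
  have hGZ : ∀ z ∈ C.Z, T.G τ' z = T.G τ₀ z := by
    intro z hz
    unfold Shape.G
    congr 1
    funext a
    have hc : ∀ c, (T.t a c)⁻¹ * z * T.t a c ∈ C.Z := fun c => by
      have := hZn (T.t a c)⁻¹ z hz
      rwa [inv_inv] at this
    refine indM_congr fun p q hpq => ?_
    have hpq' : p = q := by
      have h2 : (T.t a p)⁻¹ * T.t a q ∈ T.H a := by
        have h3 := mul_mem hpq (inv_mem (hF.Zle a (hc q)))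
        have h4 : (T.t a p)⁻¹ * z * T.t a q * ((T.t a q)⁻¹ * z * T.t a q)⁻¹ =
            (T.t a p)⁻¹ * T.t a q := by
          group
        rwa [h4] at h3
      obtain ⟨c, -, hu⟩ := (trv_spec (hF.qne a)).uniq (T.t a q) trivial
      have h5 : p = c := hu _ h2
      have h6 : q = c := hu _ (by
        change (T.t a q)⁻¹ * T.t a q ∈ T.H a
        rw [inv_mul_cancel]
        exact one_mem _)
      exact h5.trans h6.symm
    subst hpq'
    exact hτZ a _ (hc p)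
  have hGK : Agr C.K (T.G τ₀) (T.G τ') := by
    refine agr_X C T τ₀ τ' hF.qne (isKn C) fun a => ?_
    rw [hτ', hτ₀]
    exact agr_tw (hF.hχ a) (hχ' a) (hσ' a).agr
  -- membership
  have hmem : ∀ P' : (Matrix (Fin r) (Fin r) ℂ)ˣ, ∃ X' : ι → SpecialLinearGroup (Fin r) ℂ,
      (∀ x, mh X' x = conjG T ε P' τ' x) ∧ X' ∈ YKA R w C₀ C.K C.Z R1 := by
    intro P'
    obtain ⟨X', hX'⟩ := exists_X T ε P' τ' hF.qne hτm hdet
    have hg' : ∀ a, burn T g τ' a ≠ 0 := by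
      intro a
      have h4 : ∏ a, burn T g (fun a => tw (χ' a) (σ' a)) a ≠ 0 := (mul_ne_zero_iff.1 h3).2
      rw [hτ']
      exact Finset.prod_ne_zero_iff.1 h4 a (Finset.mem_univ a)
    -- `X'` and `X` are conjugate where the matrices agree
    obtain ⟨h, hh⟩ : ∃ h : SpecialLinearGroup (Fin r) ℂ, ∀ x, T.G τ' x = T.G τ₀ x →
        FreeGroup.lift X' x = h * FreeGroup.lift X x * h⁻¹ := by
      obtain ⟨h, c, hc, hhc⟩ := exists_scale (P' * P⁻¹)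
      refine ⟨h, fun x hx => ?_⟩
      rw [eq_mul_inv_iff_mul_eq]
      apply Subtype.ext
      change mh X' x * h.1 = h.1 * mh X x
      rw [hhc, hX', hXP, ← hτ₀]
      unfold conjG
      rw [hx, mul_smul_comm, smul_mul_assoc, Units.val_mul]
      congr 1
      have e2 : (P'⁻¹).1 * P'.1 = 1 := Units.inv_mul P'
      have e3 : (P⁻¹).1 * P.1 = 1 := Units.inv_mul P
      calc P'.1 * (T.G τ₀ x).submatrix ε ε * (P'⁻¹).1 * (P'.1 * (P⁻¹).1)
          = P'.1 * (T.G τ₀ x).submatrix ε ε * ((P'⁻¹).1 * P'.1) * (P⁻¹).1 := by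
            simp only [Matrix.mul_assoc]
        _ = P'.1 * ((P⁻¹).1 * P.1) * (T.G τ₀ x).submatrix ε ε * (P⁻¹).1 := by
            rw [e2, e3]
            simp only [Matrix.mul_assoc, Matrix.mul_one]
        _ = _ := by simp only [Matrix.mul_assoc]
    refine ⟨X', hX', ⟨⟨?_, ?_⟩, fun j => ?_⟩, ?_, ?_⟩
    · intro z hz
      rw [hh z (hGZ z (hZ hz)), hXR' z hz, mul_one, mul_inv_cancel]
    · exact ssi_of_burn T ε P' τ' hne g hg' X' hX'
    · refine (hXc j).trans ?_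
      refine class_eq T ε P P' χ χ' σ σ' hF.hχ hF.hσ hχ' (fun a => (hσ' a).mul) X X' (w j)
        (hF.eq _) (by rw [hX', hτ']) fun a x k hk => ?_
      have h4 : x⁻¹ * w j ^ k * x ∈ C.Rel := (hRel _).2 ⟨x⁻¹, j, k, by rw [inv_inv]⟩
      exact twU_isConj (hχe a _ hk (Or.inr h4)) ((hσ' a).rel _ h4 hk)
    · obtain ⟨g, hg⟩ := hX1
      refine ⟨h * g, fun z hz => ?_⟩
      rw [hh z (hGZ z hz), hg z hz]
      group
    · obtain ⟨B, hB, hBi, k, hk⟩ := hXvs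
      obtain ⟨B', hB', hBi', k', hk'⟩ := hGK
      refine ⟨B ⊓ B', inf_le_left.trans hB, Subgroup.relIndex_inf_ne_zero hBi hBi', max k k',
        fun x hx => ?_⟩
      have h5 := hk x (dser_anti B (le_max_left k k') (dser_mono inf_le_left _ hx))
      obtain ⟨cj, hcj⟩ : ∃ cj : Matrix (Fin r) (Fin r) ℂ →ₗ[ℂ] Matrix (Fin r) (Fin r) ℂ,
          ∀ M, cj M = h.1 * M * (h⁻¹).1 :=
        ⟨{ toFun := fun M => h.1 * M * (h⁻¹).1
           map_add' := fun M N => by rw [Matrix.mul_add, Matrix.add_mul]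
           map_smul' := fun c M => by
            rw [Matrix.mul_smul, Matrix.smul_mul]
            rfl }, fun M => rfl⟩
      have h6 : ∀ x, T.G τ' x = T.G τ₀ x → mh X' x = cj (mh X x) := by
        intro x hx
        rw [hcj]
        exact congrArg Subtype.val (hh x hx)
      have h7 : mh X' x = cj (mh X x) := h6 x (hk' x (dser_anti B' (le_max_right k k')
        (dser_mono inf_le_right _ hx)))
      have h8 : cj (mh X x) ∈ (Submodule.span ℂ ((fun x => mh X x) '' C.Z)).map cj :=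
        ⟨_, h5, rfl⟩
      rw [Submodule.map_span, Set.image_image] at h8
      change mh X' x ∈ _
      rw [h7]
      refine Submodule.span_mono ?_ h8
      rintro _ ⟨y, hy, rfl⟩
      exact ⟨y, hy, h6 y (hGZ y hy)⟩
  -- integrality
  have hint : ∀ a, ∃ Q : (Matrix (Fin (T.n a)) (Fin (T.n a)) ℂ)ˣ,
      ∀ x ∈ T.H a, ∀ i j, InO (L ⊔ L₂) ((Q.1 * τ' a x * (Q⁻¹).1) i j) := by
    intro a
    obtain ⟨Q, hQ⟩ := (hσ' a).int
    refine ⟨Q, fun x hx i j => ?_⟩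
    have h4 : Q.1 * τ' a x * (Q⁻¹).1 = ((χ' a x : ℂˣ) : ℂ) • (Q.1 * (σ' a x).1 * (Q⁻¹).1) := by
      rw [hτ']
      change Q.1 * (((χ' a x : ℂˣ) : ℂ) • (σ' a x).1) * (Q⁻¹).1 = _
      rw [mul_smul_comm, smul_mul_assoc]
    rw [h4, Matrix.smul_apply, smul_eq_mul]
    refine InO.mul ?_ (InO.mono le_sup_left (hQ x hx i j))
    rw [hχ'e]
    exact InO.mono le_sup_right (chi_InO T L₂ t' h2 a x)
  have h4 : MvPolynomial.eval (fun q : ι × Fin r × Fin r =>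
      conjG T ε P τ' (FreeGroup.of q.1) q.2.1 q.2.2) f ≠ 0 := by
    rw [hτ']
    exact (mul_ne_zero_iff.1 h3).1
  obtain ⟨P', hP'1, hP'2⟩ := exists_int T ε P _ τ' hint f h4
  obtain ⟨X', hX'1, hX'2⟩ := hmem P'
  have hX'4 : IsIntegralRep (L ⊔ L₂) X' := by
    intro p i j
    have h5 : (X' p).1 = conjG T ε P' τ' (FreeGroup.of p) := by rw [← hX'1, mh_of]
    rw [h5]
    exact hP'1 _ i j
  refine hP'2 ?_
  rw [← hf X' hX'2 hX'4]
  change MvPolynomial.eval₂ (RingHom.id ℂ) _ f = MvPolynomial.eval₂ (algebraMap ℂ ℂ) _ f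
  congr 1
  funext q
  rw [← hX'1, mh_of]

end Vale.Agent.P002.H2
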