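import Vale.Agent.P002.H2.TH
import Vale.Agent.P002.H326.C

/-!
# Restriction of semisimple representations to normal subgroups
-/

namespace Vale.Agent.P002.H2

open Matrix NumberField Module Vale.Agent.P002R.Orb

variable {F : Type} [Group F] {r : ℕ}

theorem sl_inv_mul (ρ : F →* SpecialLinearGroup (Fin r) ℂ) (g : F) :
    (ρ g⁻¹).1 * (ρ g).1 = 1 := by
  rw [map_inv]
  exact congrArg Subtype.val (inv_mul_cancel (ρ g))

theorem sl_mul_inv (ρ : F →* SpecialLinearGroup (Fin r) ℂ) (g : F) :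
    (ρ g).1 * (ρ g⁻¹).1 = 1 := by
  rw [map_inv]
  exact congrArg Subtype.val (mul_inv_cancel (ρ g))

/-- Clifford's theorem -/
theorem ss_normal (Z : Subgroup F) (hZ : Z.Normal)
    (ρ : F →* SpecialLinearGroup (Fin r) ℂ) (h : SSOn ⊤ ρ) : SSOn Z ρ := by
  obtain ⟨X, hX⟩ : ∃ X : Z → SpecialLinearGroup (Fin r) ℂ, ∀ z, X z = ρ z.1 := ⟨_, fun z => rfl⟩
  have hinv : ∀ W : Submodule ℂ (Fin r → ℂ), IsInv X W ↔ ∀ z ∈ Z, ∀ v ∈ W, (ρ z).1 *ᵥ v ∈ W := by
    intro W
    constructor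
    · intro h1 z hz v hv
      have := h1 ⟨z, hz⟩ v hv
      rwa [hX] at this
    · intro h1 z v hv
      rw [hX]
      exact h1 z.1 z.2 v hv
  -- translates of invariant subspaces
  have hmapinv : ∀ (g : F) (W : Submodule ℂ (Fin r → ℂ)), IsInv X W →
      IsInv X (W.map (Matrix.mulVecLin (ρ g).1)) := by
    intro g W hW
    rw [hinv] at hW ⊢
    rintro z hz _ ⟨v, hv, rfl⟩
    refine ⟨(ρ (g⁻¹ * z * g)).1 *ᵥ v, hW _ ?_ v hv, ?_⟩
    · have := hZ.conj_mem z hz g⁻¹
      rwa [inv_inv] at this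
    · change (ρ g).1 *ᵥ ((ρ (g⁻¹ * z * g)).1 *ᵥ v) = (ρ z).1 *ᵥ ((ρ g).1 *ᵥ v)
      rw [Matrix.mulVec_mulVec, Matrix.mulVec_mulVec]
      congr 1
      have h2 : ρ g * ρ (g⁻¹ * z * g) = ρ z * ρ g := by
        rw [← map_mul, ← map_mul]
        congr 1
        group
      exact congrArg Subtype.val h2
  have hmm : ∀ (g : F) (W : Submodule ℂ (Fin r → ℂ)),
      (W.map (Matrix.mulVecLin (ρ g).1)).map (Matrix.mulVecLin (ρ g⁻¹).1) = W := by
    intro g W
    rw [← Submodule.map_comp, ← Matrix.mulVecLin_mul, sl_inv_mul, Matrix.mulVecLin_one,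
      Submodule.map_id]
  have hirr : ∀ (g : F) (W : Submodule ℂ (Fin r → ℂ)), H326.Irr X W →
      H326.Irr X (W.map (Matrix.mulVecLin (ρ g).1)) := by
    intro g W hW
    refine ⟨?_, hmapinv g W hW.2.1, fun W' hW' hi => ?_⟩
    · intro h0
      have h1 := hmm g W
      rw [h0, Submodule.map_bot] at h1
      exact hW.1 h1.symm
    · have h1 : W'.map (Matrix.mulVecLin (ρ g⁻¹).1) ≤ W := by
        rw [← hmm g W]
        exact Submodule.map_mono hW'
      have h2 := hmm g⁻¹ W'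
      rw [inv_inv] at h2
      rcases hW.2.2 _ h1 (hmapinv g⁻¹ W' hi) with h3 | h3
      · left
        rw [h3, Submodule.map_bot] at h2
        exact h2.symm
      · right
        rw [h3] at h2
        exact h2.symm
  obtain ⟨S, hS⟩ : ∃ S, S = sSup {W | H326.Irr X W} := ⟨_, rfl⟩
  have hSX : IsInv X S := by
    rw [hS]
    exact H326.isInv_sSup fun W hW => hW.2.1
  have hSF : ∀ g ∈ (⊤ : Subgroup F), ∀ v ∈ S, (ρ g).1 *ᵥ v ∈ S := by
    intro g _
    have h1 : S ≤ S.comap (Matrix.mulVecLin (ρ g).1) := by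
      nth_rewrite 1 [hS]
      refine sSup_le fun W hW v hv => ?_
      have h2 : W.map (Matrix.mulVecLin (ρ g).1) ≤ S := by
        rw [hS]
        exact le_sSup (hirr g W hW)
      exact h2 ⟨v, hv, rfl⟩
    exact fun v hv => h1 hv
  obtain ⟨W', h1, h2⟩ := h S hSF
  have hW'X : IsInv X W' := (hinv W').2 fun z _ v hv => h1 z trivial v hv
  have htop : sSup {W | H326.Irr X W} = ⊤ := by
    by_cases h3 : W' = ⊥
    · rw [h3] at h2
      have := h2.sup_eq_top
      rwa [sup_bot_eq, hS] at this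
    · obtain ⟨U, h4, h5⟩ := H326.exists_irr X _ W' le_rfl h3 hW'X
      have h6 : U ≤ S := by
        rw [hS]
        exact le_sSup h5
      exact absurd (le_bot_iff.1 (h2.disjoint h6 h4)) h5.1
  intro W hW
  obtain ⟨W'', h3, h4⟩ := H326.isSS_of_sSup (X := X) _ (fun _ h => h) htop W ((hinv W).2 hW)
  exact ⟨W'', (hinv W'').1 h3, h4⟩

end Vale.Agent.P002.H2
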