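import Vale.Agent.P002.H2.TJ
import Vale.Agent.P002.H2.TI
import Vale.Agent.P002.H2.TE
import Vale.Agent.P002.H377.Conj

/-!
# Matrix-valued versions
-/

namespace Vale.Agent.P002.H2

open Matrix NumberField Module Vale.Agent.P002R.Orb Vale.Agent.P002.H252

/-- semisimplicity of the restriction to `Z` -/
def SSg {F : Type} [Group F] {r : ℕ} (Z : Subgroup F) (M : F →* Matrix (Fin r) (Fin r) ℂ) : Prop :=
  ∀ W : Submodule ℂ (Fin r → ℂ), (∀ z ∈ Z, ∀ v ∈ W, M z *ᵥ v ∈ W) →
    ∃ W' : Submodule ℂ (Fin r → ℂ), (∀ z ∈ Z, ∀ v ∈ W', M z *ᵥ v ∈ W') ∧ IsCompl W W'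

section clifford

variable {F : Type} [Group F] {r : ℕ}

theorem m_inv_mul (M : F →* Matrix (Fin r) (Fin r) ℂ) (g : F) : M g⁻¹ * M g = 1 := by
  rw [← map_mul, inv_mul_cancel, map_one]

theorem m_mul_inv (M : F →* Matrix (Fin r) (Fin r) ℂ) (g : F) : M g * M g⁻¹ = 1 := by
  rw [← map_mul, mul_inv_cancel, map_one]

/-- Clifford's theorem -/
theorem ss_normalM (Z : Subgroup F) (hZ : Z.Normal)
    (ρ : F →* Matrix (Fin r) (Fin r) ℂ) (h : SSg ⊤ ρ) : SSg Z ρ := by
  have hex : ∀ z : Z, ∃ (X : SpecialLinearGroup (Fin r) ℂ) (c : ℂ), c ≠ 0 ∧ X.1 = c • ρ z.1 :=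
    fun z => exists_scale ⟨ρ z.1, ρ z.1⁻¹, m_mul_inv ρ z.1, m_inv_mul ρ z.1⟩
  choose X cX hcX hX using hex
  have hinv : ∀ W : Submodule ℂ (Fin r → ℂ), IsInv X W ↔ ∀ z ∈ Z, ∀ v ∈ W, ρ z *ᵥ v ∈ W := by
    intro W
    constructor
    · intro h1 z hz v hv
      have h2 := h1 ⟨z, hz⟩ v hv
      rw [hX, Matrix.smul_mulVec] at h2
      exact (Submodule.smul_mem_iff W (hcX _)).1 h2
    · intro h1 z v hv
      rw [hX, Matrix.smul_mulVec]
      exact W.smul_mem _ (h1 z.1 z.2 v hv)
  -- translates of invariant subspaces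
  have hmapinv : ∀ (g : F) (W : Submodule ℂ (Fin r → ℂ)), IsInv X W →
      IsInv X (W.map (Matrix.mulVecLin (ρ g))) := by
    intro g W hW
    rw [hinv] at hW ⊢
    rintro z hz _ ⟨v, hv, rfl⟩
    refine ⟨(ρ (g⁻¹ * z * g)) *ᵥ v, hW _ ?_ v hv, ?_⟩
    · have := hZ.conj_mem z hz g⁻¹
      rwa [inv_inv] at this
    · change (ρ g) *ᵥ ((ρ (g⁻¹ * z * g)) *ᵥ v) = (ρ z) *ᵥ ((ρ g) *ᵥ v)
      rw [Matrix.mulVec_mulVec, Matrix.mulVec_mulVec]
      congr 1
      have h2 : ρ g * ρ (g⁻¹ * z * g) = ρ z * ρ g := by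
        rw [← map_mul, ← map_mul]
        congr 1
        group
      exact h2
  have hmm : ∀ (g : F) (W : Submodule ℂ (Fin r → ℂ)),
      (W.map (Matrix.mulVecLin (ρ g))).map (Matrix.mulVecLin (ρ g⁻¹)) = W := by
    intro g W
    rw [← Submodule.map_comp, ← Matrix.mulVecLin_mul, m_inv_mul, Matrix.mulVecLin_one,
      Submodule.map_id]
  have hirr : ∀ (g : F) (W : Submodule ℂ (Fin r → ℂ)), H326.Irr X W →
      H326.Irr X (W.map (Matrix.mulVecLin (ρ g))) := by
    intro g W hW
    refine ⟨?_, hmapinv g W hW.2.1, fun W' hW' hi => ?_⟩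
    · intro h0
      have h1 := hmm g W
      rw [h0, Submodule.map_bot] at h1
      exact hW.1 h1.symm
    · have h1 : W'.map (Matrix.mulVecLin (ρ g⁻¹)) ≤ W := by
        rw [← hmm g W]
        exact Submodule.map_mono hW'
      have h2 := hmm g⁻¹ W'
      rw [inv_inv] at h2
      rcases hW.2.2 _ h1 (hmapinv g⁻¹ W' hi) with h3 | h3
      · left
        rw [h3, Submodule.map_bot] at h2
        exact h2.symm
      · right
        rw [h3] at h2
        exact h2.symm
  obtain ⟨S, hS⟩ : ∃ S, S = sSup {W | H326.Irr X W} := ⟨_, rfl⟩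
  have hSX : IsInv X S := by
    rw [hS]
    exact H326.isInv_sSup fun W hW => hW.2.1
  have hSF : ∀ g ∈ (⊤ : Subgroup F), ∀ v ∈ S, (ρ g) *ᵥ v ∈ S := by
    intro g _
    have h1 : S ≤ S.comap (Matrix.mulVecLin (ρ g)) := by
      nth_rewrite 1 [hS]
      refine sSup_le fun W hW v hv => ?_
      have h2 : W.map (Matrix.mulVecLin (ρ g)) ≤ S := by
        rw [hS]
        exact le_sSup (hirr g W hW)
      exact h2 ⟨v, hv, rfl⟩
    exact fun v hv => h1 hv
  obtain ⟨W', h1, h2⟩ := h S hSF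
  have hW'X : IsInv X W' := (hinv W').2 fun z _ v hv => h1 z trivial v hv
  have htop : sSup {W | H326.Irr X W} = ⊤ := by
    by_cases h3 : W' = ⊥
    · rw [h3] at h2
      have := h2.sup_eq_top
      rwa [sup_bot_eq, hS] at this
    · obtain ⟨U, h4, h5⟩ := H326.exists_irr X _ W' le_rfl h3 hW'X
      have h6 : U ≤ S := by
        rw [hS]
        exact le_sSup h5
      exact absurd (le_bot_iff.1 (h2.disjoint h6 h4)) h5.1
  intro W hW
  obtain ⟨W'', h3, h4⟩ := H326.isSS_of_sSup (X := X) _ (fun _ h => h) htop W ((hinv W).2 hW)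
  exact ⟨W'', (hinv W'').1 h3, h4⟩

end clifford

section eig

variable {r : ℕ}

/-- a basis of the span consisting of group elements, with nondegenerate Gram matrix -/
theorem exists_gramM {Z : Type} [Group Z] {X : Z →* Matrix (Fin r) (Fin r) ℂ}
    (h : SSf fun z => Matrix.toLin' (X z)) :
    ∃ (d : ℕ) (u : Fin d → Z), (gramW X u).det ≠ 0 ∧
      LinearIndependent ℂ (fun i => X (u i)) ∧
      ∀ z, X z ∈ Submodule.span ℂ (Set.range fun i => X (u i)) := by
  obtain ⟨d, -, hd, u, hu⟩ := (crit X).1 h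
  have hli : LinearIndependent ℂ (fun i => X (u i)) := by
    rw [Fintype.linearIndependent_iff]
    intro c hc
    have h1 : c ᵥ* gramW X u = 0 := by
      funext j
      rw [vecMul_gramW, hc, zero_mul, Matrix.trace_zero]
      rfl
    have h2 : c = 0 := by
      by_contra h0
      exact hu (Matrix.exists_vecMul_eq_zero_iff.1 ⟨c, h0, h1⟩)
    exact fun i => congrFun h2 i
  refine ⟨d, u, hu, hli, fun z => ?_⟩
  by_contra hz
  refine hd (Fin.cons z u) ?_
  have h1 : (fun i => X ((Fin.cons z u : Fin (d + 1) → Z) i)) =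
      Fin.cons (X z) fun i => X (u i) := by
    funext i
    refine Fin.cases ?_ (fun i => ?_) i
    · rfl
    · rfl
  rw [h1, linearIndependent_finCons]
  exact ⟨hli, hz⟩

theorem eig_of_traceM {Z : Type} [Group Z] (X : Z →* Matrix (Fin r) (Fin r) ℂ)
    (hss : SSf fun z => Matrix.toLin' (X z)) (htr' : ∀ z, IsIntegral ℤ (X z).trace) :
    ∀ (z : Z) (c : ℂ), (X z).charpoly.IsRoot c → IsIntegral ℤ c ∧ IsIntegral ℤ c⁻¹ := by
  obtain ⟨d, u, hu, hli, hsp⟩ := exists_gramM hss
  -- the first claim, for all elements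
  have key : ∀ (z : Z) (c : ℂ), (X z).charpoly.IsRoot c → IsIntegral ℤ c := by
    intro z c hc
    -- an eigenvector in the algebra
    obtain ⟨a, ha0, hac⟩ : ∃ a ∈ algOf X, a ≠ 0 ∧ X z * a = c • a := by
      by_contra hcon
      push Not at hcon
      obtain ⟨T, hT⟩ : ∃ T : algOf X →ₗ[ℂ] algOf X, ∀ b, (T b).1 = X z * b.1 - c • b.1 :=
        ⟨{ toFun := fun b => ⟨X z * b.1 - c • b.1, Subalgebra.sub_mem _
              (Subalgebra.mul_mem _ (X_mem_algOf X z) b.2) (Subalgebra.smul_mem _ b.2 c)⟩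
           map_add' := fun b b' => by
            apply Subtype.ext
            change X z * (b.1 + b'.1) - c • (b.1 + b'.1) = (X z * b.1 - c • b.1) +
              (X z * b'.1 - c • b'.1)
            rw [mul_add, smul_add]
            abel
           map_smul' := fun s b => by
            apply Subtype.ext
            change X z * (s • b.1) - c • (s • b.1) = s • (X z * b.1 - c • b.1)
            rw [mul_smul_comm, smul_sub, smul_comm] }, fun b => rfl⟩
      have hinj : Function.Injective T := by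
        rw [← LinearMap.ker_eq_bot, LinearMap.ker_eq_bot']
        intro b hb
        by_contra hb0
        refine hcon b.1 b.2 (fun h => hb0 (Subtype.ext h)) ?_
        have h1 := hT b
        rw [hb] at h1
        exact (sub_eq_zero.1 h1.symm)
      have hsurj := LinearMap.surjective_of_injective hinj
      obtain ⟨b, hb⟩ := hsurj 1
      have h1 : X z * b.1 - c • b.1 = 1 := by
        rw [← hT, hb]
        rfl
      obtain ⟨v, hv, hvc⟩ := exists_eigvec' (X z) hc
      have h2 := congrArg (fun M => v ᵥ* M) h1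
      simp only [Matrix.vecMul_sub, Matrix.vecMul_one, ← Matrix.vecMul_vecMul,
        Matrix.vecMul_smul, hvc, Matrix.smul_vecMul, sub_self] at h2
      exact hv h2.symm
    obtain ⟨ha0, hac⟩ := hac
    -- coordinates
    rw [mem_algOf] at *
    have hspan : ∀ g, X g ∈ Submodule.span ℂ (Set.range fun i => X (u i)) := hsp
    have ha' : a ∈ Submodule.span ℂ (Set.range fun i => X (u i)) := by
      have h1 : Submodule.span ℂ (Set.range X) ≤
          Submodule.span ℂ (Set.range fun i => X (u i)) := by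
        rw [Submodule.span_le]
        rintro _ ⟨g, rfl⟩
        exact hspan g
      refine h1 ?_
      assumption
    obtain ⟨b, hb⟩ := (Submodule.mem_span_range_iff_exists_fun ℂ).1 ha'
    have hb0 : b ≠ 0 := by
      rintro rfl
      apply ha0
      rw [← hb]
      simp
    have hM : ∀ (m : ℕ) (j : Fin d), ∃ M : Fin d → ℂ, ∑ i, M i • X (u i) = X (z ^ m * u j) :=
      fun m j => (Submodule.mem_span_range_iff_exists_fun ℂ).1 (hspan _)
    choose M hM using hM
    have hpow : ∀ m : ℕ, X (z ^ m) * a = c ^ m • a := by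
      intro m
      induction m with
      | zero => rw [pow_zero, pow_zero, map_one, one_mul, one_smul]
      | succ m ih =>
        rw [pow_succ, map_mul, mul_assoc, hac, mul_smul_comm, ih, smul_smul, pow_succ, mul_comm]
    obtain ⟨G, hG⟩ : ∃ G, G = gramW X u := ⟨_, rfl⟩
    have hGint : ∀ i j, IsIntegral ℤ (G i j) := fun i j => by
      rw [hG]
      exact htr' _
    refine int_of_almost (d := G.det) (by rw [hG]; exact hu) fun m => ?_
    -- the integral matrix `det G • M m`
    obtain ⟨A, hA⟩ : ∃ A : Matrix (Fin d) (Fin d) ℂ, A = Matrix.of fun i j => M m j i := ⟨_, rfl⟩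
    have hGA : ∀ i j, (G * A) i j = (X (u i * (z ^ m * u j))).trace := by
      intro i j
      rw [Matrix.mul_apply, map_mul, ← hM, Finset.mul_sum, Matrix.trace_sum]
      refine Finset.sum_congr rfl fun l _ => ?_
      rw [hG, hA, mul_smul_comm, Matrix.trace_smul, smul_eq_mul, mul_comm, gramW, map_mul]
      rfl
    have hAint : ∀ i j, IsIntegral ℤ ((G.det • A) i j) := by
      intro i j
      rw [Matrix.smul_apply, smul_eq_mul]
      refine cramer_int G hGint (fun l => A l j) (fun l => ?_) i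
      have h1 : (G *ᵥ fun l => A l j) l = (G * A) l j := rfl
      rw [h1, hGA]
      exact htr' _
    refine eig_int _ hAint hb0 ?_
    rw [Matrix.smul_mulVec, ← smul_smul]
    congr 1
    -- coordinates of `X (z ^ m) a`
    have h1 : ∑ i, (A *ᵥ b) i • X (u i) = ∑ i, (c ^ m • b) i • X (u i) := by
      have h2 : ∑ i, (A *ᵥ b) i • X (u i) = X (z ^ m) * a := by
        rw [← hb, Finset.mul_sum]
        simp only [Matrix.mulVec, dotProduct, Finset.sum_smul]
        rw [Finset.sum_comm]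
        refine Finset.sum_congr rfl fun j _ => ?_
        rw [mul_smul_comm, ← map_mul, ← hM, Finset.smul_sum]
        refine Finset.sum_congr rfl fun i _ => ?_
        rw [smul_smul, hA, mul_comm]
        rfl
      rw [h2, hpow, ← hb, Finset.smul_sum]
      refine Finset.sum_congr rfl fun i _ => ?_
      rw [smul_smul]
      rfl
    have h3 := Fintype.linearIndependent_iff.1 hli (fun i => (A *ᵥ b) i - (c ^ m • b) i) (by
      simp only [sub_smul, Finset.sum_sub_distrib]
      rw [h1, sub_self])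
    funext i
    exact sub_eq_zero.1 (h3 i)
  intro z c hc
  refine ⟨key z c hc, key z⁻¹ c⁻¹ ?_⟩
  obtain ⟨v, hv, hvc⟩ := exists_eigvec (X z) hc
  -- the inverse
  have h3 : X z⁻¹ *ᵥ (X z *ᵥ v) = v := by
    rw [Matrix.mulVec_mulVec, ← map_mul, inv_mul_cancel, map_one, Matrix.one_mulVec]
  have hc0 : c ≠ 0 := by
    rintro rfl
    rw [hvc, zero_smul, Matrix.mulVec_zero] at h3
    exact hv h3.symm
  have h2 : X z⁻¹ *ᵥ v = c⁻¹ • v := by
    rw [hvc, Matrix.mulVec_smul] at h3
    rw [← h3, smul_smul, inv_mul_cancel₀ hc0, one_smul]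
    conv_rhs => rw [← h3]
  have h4 : Module.End.HasEigenvalue (Matrix.toLin' (X z⁻¹)) c⁻¹ :=
    Module.End.hasEigenvalue_of_hasEigenvector (x := v)
      ⟨Module.End.mem_eigenspace_iff.2 (by rw [Matrix.toLin'_apply]; exact h2), hv⟩
  exact (Matrix.mem_spectrum_iff_isRoot_charpoly.1 (by
    rw [← Matrix.spectrum_toLin']
    exact h4.mem_spectrum))

end eig

/-- semisimple representations with the same traces are isomorphic -/
theorem conj_of_traceM {F : Type} [Group F] (Z : Subgroup F) {r : ℕ}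
    (ρ ρ' : F →* Matrix (Fin r) (Fin r) ℂ) (hss : SSg Z ρ) (hss' : SSg Z ρ')
    (htr : ∀ z ∈ Z, (ρ z).trace = (ρ' z).trace) :
    ∃ e : (Fin r → ℂ) ≃ₗ[ℂ] (Fin r → ℂ), ∀ z ∈ Z, ∀ v, e (ρ z *ᵥ v) = ρ' z *ᵥ e v := by
  classical
  -- the representations as algebra homomorphisms
  let act : (F →* Matrix (Fin r) (Fin r) ℂ) → (Z →* End ℂ (Fin r → ℂ)) := fun ρ =>
    { toFun := fun z => Matrix.toLin' (ρ z.1)
      map_one' := by
        rw [Submonoid.coe_one, map_one]
        exact Matrix.toLin'_one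
      map_mul' := fun a b => by
        rw [Subgroup.coe_mul, map_mul]
        exact Matrix.toLin'_mul _ _ }
  let f : (F →* Matrix (Fin r) (Fin r) ℂ) → (MonoidAlgebra ℂ Z →ₐ[ℂ] End ℂ (Fin r → ℂ)) :=
    fun ρ => MonoidAlgebra.lift ℂ _ Z (act ρ)
  have hf : ∀ ρ z, f ρ (MonoidAlgebra.of ℂ Z z) = Matrix.toLin' (ρ z.1) := fun ρ z =>
    MonoidAlgebra.lift_of (act ρ) z
  have hS : ∀ ρ : F →* Matrix (Fin r) (Fin r) ℂ,
      (∀ W : Submodule ℂ (Fin r → ℂ), (∀ z ∈ Z, ∀ v ∈ W, (ρ z).mulVec v ∈ W) →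
      ∃ W' : Submodule ℂ (Fin r → ℂ), (∀ z ∈ Z, ∀ v ∈ W', (ρ z).mulVec v ∈ W') ∧
        IsCompl W W') → SSf (f ρ) := by
    intro ρ h W hW
    obtain ⟨W', h1, h2⟩ := h W fun z hz v hv => by
      have h3 := hW (MonoidAlgebra.of ℂ Z ⟨z, hz⟩) v hv
      rw [hf, Matrix.toLin'_apply] at h3
      exact h3
    refine ⟨W', fun b => ?_, h2⟩
    induction b using MonoidAlgebra.induction_on with
    | of z =>
      intro v hv
      rw [hf, Matrix.toLin'_apply]
      exact h1 z.1 z.2 v hv
    | add x y hx hy =>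
      intro v hv
      rw [map_add]
      exact W'.add_mem (hx v hv) (hy v hv)
    | smul c x hx =>
      intro v hv
      rw [map_smul]
      exact W'.smul_mem c (hx v hv)
  obtain ⟨e, he⟩ := H377.iso_of_trace_hom (f ρ) (f ρ') (hS ρ hss) (hS ρ' hss') (by
    intro b
    induction b using MonoidAlgebra.induction_on with
    | of z =>
      rw [hf, hf, Matrix.trace_toLin'_eq, Matrix.trace_toLin'_eq]
      exact htr z.1 z.2
    | add x y hx hy => rw [map_add, map_add, map_add, map_add, hx, hy]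
    | smul c x hx => rw [map_smul, map_smul, map_smul, map_smul, hx])
  refine ⟨e, fun z hz v => ?_⟩
  have h1 := he (MonoidAlgebra.of ℂ Z ⟨z, hz⟩) v
  rw [hf, hf] at h1
  exact h1

end Vale.Agent.P002.H2
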