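import Vale.Agent.P002.H2.M7
import Vale.Agent.P002.H2.L6
import Vale.Agent.P002.H252.PC3
import Vale.Agent.P002.H377.VS4
import Vale.Agent.P002.H627.T7

/-!
# The context defined by a family of maps to orbifold curves
-/

namespace Vale.Agent.P002.H2

open Matrix NumberField Module Vale.Agent.P002R.Orb Vale.Agent.P002.H326J

variable {ι : Type} {R : Set (FreeGroup ι)}

/-- the action of the free group -/
@[reducible] def actF (O : OrbFamily (PresentedGroup R)) : MulAction (FreeGroup ι) O.I :=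
  MulAction.compHom O.I (PresentedGroup.mk R)

theorem mk_surj (R : Set (FreeGroup ι)) : Function.Surjective (PresentedGroup.mk R) :=
  QuotientGroup.mk_surjective

theorem mk_eq_one (R : Set (FreeGroup ι)) (x : FreeGroup ι) :
    PresentedGroup.mk R x = 1 ↔ x ∈ Subgroup.normalClosure R :=
  QuotientGroup.eq_one_iff x

/-- `ker (φ i)` as a subgroup of `Γ` -/
def OrbFamily.N {Γ : Type} [Group Γ] (O : OrbFamily Γ) (i : O.I) : Subgroup Γ :=
  (O.φ i).ker.map (MulAction.stabilizer Γ i).subtype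

theorem OrbFamily.mem_N {Γ : Type} [Group Γ] (O : OrbFamily Γ) (i : O.I) (x : Γ) :
    x ∈ O.N i ↔ ∃ h : x ∈ MulAction.stabilizer Γ i, O.φ i ⟨x, h⟩ = 1 := by
  constructor
  · rintro ⟨y, hy, rfl⟩
    exact ⟨y.2, hy⟩
  · rintro ⟨h, h1⟩
    exact ⟨⟨x, h⟩, h1, rfl⟩

/-- the context -/
def ctxOf (O : OrbFamily (PresentedGroup R)) {s : ℕ} (w : Fin s → FreeGroup ι) :
    letI := actF O
    Ctx (FreeGroup ι) O.I :=
  let := actF O
  { Z := Subgroup.normalClosure R
    Rel := {y | ∃ x j, ∃ a : ℤ, y = x * w j ^ a * x⁻¹}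
    N := fun i => (O.N i).comap (PresentedGroup.mk R)
    hZ := fun x y hy => (Subgroup.normalClosure_normal).conj_mem y hy x
    hZN := fun i x hx => by
      rw [Subgroup.mem_comap, (mk_eq_one R x).2 hx]
      exact one_mem _
    hst := fun i x hx => by
      rw [Subgroup.mem_comap, O.mem_N] at hx
      obtain ⟨h, -⟩ := hx
      exact h
    hN := fun x i y hy => by
      rw [Subgroup.mem_comap] at hy ⊢
      have h1 : O.N (PresentedGroup.mk R x • i) = (O.N i).map
        (MulAut.conj (PresentedGroup.mk R x)).toMonoidHom := O.conj _ i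
      have h2 : PresentedGroup.mk R (x * y * x⁻¹) ∈ O.N (PresentedGroup.mk R x • i) := by
        rw [h1]
        refine ⟨PresentedGroup.mk R y, hy, ?_⟩
        rw [map_mul, map_mul, map_inv]
        rfl
      exact h2
    hconj := fun x y hy => by
      obtain ⟨u, j, a, rfl⟩ := hy
      exact ⟨x * u, j, a, by group⟩
    hpow := fun y hy b => by
      obtain ⟨u, j, a, rfl⟩ := hy
      refine ⟨u, j, a * b, ?_⟩
      rw [conj_zpow, _root_.zpow_mul]
    hfi := fun i j hij hj => by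
      obtain ⟨x, hx⟩ := hj
      obtain ⟨g, hg⟩ : ∃ g : PresentedGroup R, g = PresentedGroup.mk R x := ⟨_, rfl⟩
      have hgj : g • i = j := by
        rw [hg]
        exact hx
      subst hgj
      have h1 := (O.dist i g (Ne.symm hij)).index_ne_zero
      obtain ⟨A, hA⟩ : ∃ A, A = (((O.N i).subgroupOf
        (MulAction.stabilizer (PresentedGroup R) (g • i))).map (O.φ (g • i))) := ⟨_, rfl⟩
      have h1' : A.index ≠ 0 := by
        rw [hA]
        exact h1
      obtain ⟨ψ, hψ⟩ : ∃ ψ : MulAction.stabilizer (FreeGroup ι) (g • i) →*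
          OrbGroup (O.g (g • i)) (O.n (g • i)) (O.m (g • i)), ∀ y,
          ψ y = O.φ (g • i) ⟨PresentedGroup.mk R y.1, y.2⟩ :=
        ⟨(O.φ (g • i)).comp (((PresentedGroup.mk R).comp
          (MulAction.stabilizer (FreeGroup ι) (g • i)).subtype).codRestrict _
            fun y => y.2), fun y => rfl⟩
      have h2 : (A.comap ψ).index ≠ 0 := by
        rw [Subgroup.index_comap]
        exact fun h => h1' (by
          rw [← Subgroup.relIndex_top_right]
          exact Subgroup.relIndex_eq_zero_of_le_right le_top h)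
      have h3 : A.comap ψ ≤ (((O.N i).comap (PresentedGroup.mk R) ⊓
          MulAction.stabilizer (FreeGroup ι) (g • i)) ⊔
          (O.N (g • i)).comap (PresentedGroup.mk R)).subgroupOf
            (MulAction.stabilizer (FreeGroup ι) (g • i)) := by
        intro y hy
        rw [Subgroup.mem_comap, hA] at hy
        obtain ⟨z, hz, hzy⟩ := hy
        obtain ⟨z', hz'⟩ := mk_surj R z.1
        have hz's : z' ∈ MulAction.stabilizer (FreeGroup ι) (g • i) := by
          have h4 : PresentedGroup.mk R z' ∈ MulAction.stabilizer (PresentedGroup R) (g • i) := by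
            rw [hz']
            exact z.2
          exact h4
        rw [Subgroup.mem_subgroupOf]
        have h5 : (y : FreeGroup ι) = z' * (z'⁻¹ * y) := by group
        rw [h5]
        have hz1 : z' ∈ (O.N i).comap (PresentedGroup.mk R) := by
          rw [Subgroup.mem_comap, hz']
          exact hz
        refine Subgroup.mul_mem_sup (Subgroup.mem_inf.2 ⟨hz1, hz's⟩) ?_
        · rw [Subgroup.mem_comap, O.mem_N]
          have h6 : z'⁻¹ * y ∈ MulAction.stabilizer (FreeGroup ι) (g • i) :=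
            mul_mem (inv_mem hz's) y.2
          refine ⟨h6, ?_⟩
          have h7 := hψ (⟨z', hz's⟩⁻¹ * y)
          have h8 : ψ ⟨z', hz's⟩ = O.φ (g • i) z := by
            rw [hψ]
            congr 1
            exact Subtype.ext hz'
          rw [map_mul, map_inv, h8, hzy, inv_mul_cancel] at h7
          exact h7.symm
      intro h4
      exact h2 (by
        have h5 := Subgroup.index_dvd_of_le h3
        rw [show (Subgroup.subgroupOf _ _).index = 0 from h4, zero_dvd_iff] at h5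
        exact h5) }

theorem exists_N {r s : ℕ} (C₀ : Fin s → SpecialLinearGroup (Fin r) ℂ)
    (hC₀ : ∀ j z, IsEigenvalue (C₀ j) z → ∃ n : ℕ, 0 < n ∧ z ^ n = 1) :
    ∃ N₀ : ℕ, 0 < N₀ ∧ ∀ j z, IsEigenvalue (C₀ j) z → z ^ N₀ = 1 := by
  classical
  have hf : ∀ j, {z : ℂ | IsEigenvalue (C₀ j) z}.Finite := fun j =>
    Polynomial.finite_setOfPred_isRoot (Matrix.charpoly_monic _).ne_zero
  have hf2 : (⋃ j, {z : ℂ | IsEigenvalue (C₀ j) z}).Finite := Set.finite_iUnion hf
  have h1 : ∀ z : ℂ, ∃ n : ℕ, 0 < n ∧ (z ∈ (⋃ j, {z : ℂ | IsEigenvalue (C₀ j) z}) → z ^ n = 1) := by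
    intro z
    by_cases hz : z ∈ (⋃ j, {z : ℂ | IsEigenvalue (C₀ j) z})
    · obtain ⟨j, hj⟩ := Set.mem_iUnion.1 hz
      obtain ⟨n, hn, hn'⟩ := hC₀ j z hj
      exact ⟨n, hn, fun _ => hn'⟩
    · exact ⟨1, one_pos, fun h => absurd h hz⟩
  choose n hn hn' using h1
  refine ⟨∏ z ∈ hf2.toFinset, n z, Finset.prod_pos fun z _ => hn z, fun j z hz => ?_⟩
  have hz' : z ∈ (⋃ j, {z : ℂ | IsEigenvalue (C₀ j) z}) := Set.mem_iUnion.2 ⟨j, hz⟩
  rw [← Finset.mul_prod_erase _ _ (hf2.mem_toFinset.2 hz'), pow_mul, hn' z hz', one_pow]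

theorem ctxOf_K (O : OrbFamily (PresentedGroup R)) {s : ℕ} (w : Fin s → FreeGroup ι) :
    letI := actF O
    (ctxOf O w).K = O.K.comap (PresentedGroup.mk R) := by
  let := actF O
  ext x
  unfold Ctx.K OrbFamily.K
  rw [Subgroup.mem_iInf, Subgroup.mem_comap, Subgroup.mem_iInf]
  rfl

theorem YK_eq (O : OrbFamily (PresentedGroup R)) {r s : ℕ} (w : Fin s → FreeGroup ι)
    (C₀ : Fin s → SpecialLinearGroup (Fin r) ℂ) :
    letI := actF O
    YK R w C₀ (ctxOf O w).K = YKer R w C₀ O.K := by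
  let := actF O
  ext X
  unfold YK YKer
  rw [Set.mem_ofPred_eq, Set.mem_ofPred_eq, vs_iff, ctxOf_K]

/-- the maps on the stabilisers in the free group -/
def phiF (O : OrbFamily (PresentedGroup R)) (i : O.I) :
    letI := actF O
    MulAction.stabilizer (FreeGroup ι) i →* H252.Orb (O.g i) (O.n i) (O.m i) :=
  let := actF O
  (O.φ i).comp (((PresentedGroup.mk R).comp
    (MulAction.stabilizer (FreeGroup ι) i).subtype).codRestrict _ fun y => y.2)

theorem orbCtx (O : OrbFamily (PresentedGroup R)) {s : ℕ} (w : Fin s → FreeGroup ι)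
    (hw : ∀ j, O.IsPeripheral (PresentedGroup.mk R (w j))) :
    letI := actF O
    H252.OrbCtx (ctxOf O w) O.g O.n O.m (phiF O) := by
  let := actF O
  refine ⟨fun i x => ?_, fun i => ?_, fun i x hx => ?_⟩
  · change PresentedGroup.mk R x.1 ∈ O.N i ↔ _
    rw [O.mem_N]
    constructor
    · rintro ⟨h, h1⟩
      exact h1
    · intro h
      exact ⟨x.2, h⟩
  · have h1 : (phiF O i).range = (O.φ i).range := by
      ext y
      constructor
      · rintro ⟨x, rfl⟩
        exact ⟨_, rfl⟩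
      · rintro ⟨x, rfl⟩
        obtain ⟨z, hz⟩ := mk_surj R x.1
        have hz' : z ∈ MulAction.stabilizer (FreeGroup ι) i := by
          have h4 : PresentedGroup.mk R z ∈ MulAction.stabilizer (PresentedGroup R) i := by
            rw [hz]
            exact x.2
          exact h4
        refine ⟨⟨z, hz'⟩, ?_⟩
        change O.φ i _ = O.φ i x
        congr 1
        exact Subtype.ext hz
    rw [h1]
    exact (O.range i).index_ne_zero
  · obtain ⟨u, j, a, hu⟩ := hx
    refine hw j i ⟨PresentedGroup.mk R x.1, x.2⟩ ⟨PresentedGroup.mk R u, a, ?_⟩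
    rw [← map_zpow, ← map_inv, ← map_mul, ← map_mul, ← hu]

/-- the main theorem -/
theorem main_T [Finite ι] (O : OrbFamily (PresentedGroup R)) (r : ℕ) {s : ℕ}
    (w : Fin s → FreeGroup ι) (C₀ : Fin s → SpecialLinearGroup (Fin r) ℂ)
    (hC₀ : ∀ j z, IsEigenvalue (C₀ j) z → ∃ n : ℕ, 0 < n ∧ z ^ n = 1)
    (hw : ∀ j, O.IsPeripheral (PresentedGroup.mk R (w j))) :
    ∃ L : IntermediateField ℚ ℂ, FiniteDimensional ℚ L ∧ IsDenseRep L (YKer R w C₀ O.K) := by
  let := actF O
  obtain ⟨N₀, hN₀, hN⟩ := exists_N C₀ hC₀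
  have := O.fin
  obtain ⟨L₁, hL₁, hb₁⟩ := H377.PC2' (ctxOf O w) w (fun y => Iff.rfl) N₀ r hN₀
  obtain ⟨L₂, hL₂, hb₂⟩ := H252.PC3 (ctxOf O w) O.g O.n O.m (phiF O) (orbCtx O w hw) N₀ r hN₀
  obtain ⟨L₃, hL₃, hb₃⟩ : ∃ L : IntermediateField ℚ ℂ, FiniteDimensional ℚ L ∧
      ∀ k ≤ 2 * r, 0 < k → ∀ z : ℂ, z ^ k = 1 → z ∈ L := by
    have hf : (⋃ k ∈ Finset.Icc 1 (2 * r), {z : ℂ | z ^ k = 1}).Finite := by
      refine Set.Finite.biUnion (Finset.finite_toSet _) fun k hk => ?_
      have hk' : 0 < k := (Finset.mem_Icc.1 hk).1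
      exact (Multiset.finite_toSet (Polynomial.nthRoots k (1 : ℂ))).subset fun z hz =>
        (Polynomial.mem_nthRoots hk').2 hz
    refine ⟨IntermediateField.adjoin ℚ _, H306.exists_nf _ hf fun z hz => ?_,
      fun k hk hk' z hz => IntermediateField.subset_adjoin _ _ ?_⟩
    · obtain ⟨k, hk, hz⟩ := Set.mem_iUnion₂.1 hz
      have hz' : z ^ k = 1 := hz
      exact IsIntegral.of_pow (Finset.mem_Icc.1 hk).1 (by rw [hz']; exact isIntegral_one)
    · exact Set.mem_iUnion₂.2 ⟨k, Finset.mem_Icc.2 ⟨hk', hk⟩, hz⟩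
  have hfd : FiniteDimensional ℚ (L₁ ⊔ L₂ ⊔ L₃ : IntermediateField ℚ ℂ) := by
    have := IntermediateField.finiteDimensional_sup L₁ L₂
    exact IntermediateField.finiteDimensional_sup _ _
  have h1 : BaseVS (ctxOf O w) (L₁ ⊔ L₂ ⊔ L₃) N₀ r := fun H n σ h1 h2 h3 h4 =>
    (hb₁ H n σ h1 h2 h3 h4).mono (le_sup_left.trans le_sup_left)
  have h2 : BaseCurve (ctxOf O w) (L₁ ⊔ L₂ ⊔ L₃) N₀ r := fun H n σ i h1 h2 h3 h4 h5 =>
    (hb₂ H n σ i h1 h2 h3 h4 h5).mono (le_sup_right.trans le_sup_left)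
  obtain ⟨L', hL', hd⟩ := assembly (ctxOf O w) R rfl w (fun y => Iff.rfl) N₀ r hN₀
    (L₁ ⊔ L₂ ⊔ L₃) hfd (fun V _ _ _ ρ hr hA => H627.PA5 (ctxOf O w) _ N₀ r hN₀ h1 h2
      (fun k hk hk' z hz => le_sup_right (a := L₁ ⊔ L₂) (hb₃ k hk hk' z hz)) ⊤ ρ hA (by
        rw [Subgroup.index_top, one_mul]
        exact hr)) C₀ hN
  rw [YK_eq] at hd
  exact ⟨L', hL', hd⟩

/-- if `K` is virtually solvable there is no condition -/
theorem yker_eq {r s : ℕ} (w : Fin s → FreeGroup ι)
    (C₀ : Fin s → SpecialLinearGroup (Fin r) ℂ) (K : Subgroup (PresentedGroup R))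
    (hK : ∃ H : Subgroup K, Group.IsSolvable H ∧ H.FiniteIndex) :
    YKer R w C₀ K = YW R w C₀ := by
  refine Set.Subset.antisymm (fun X hX => hX.1) fun X hX => ⟨hX, ?_⟩
  obtain ⟨H, hH, hHf⟩ := hK
  have hrel : ∀ c ∈ R, FreeGroup.lift X c = 1 := hX.1.1
  obtain ⟨f, hf⟩ : ∃ f : PresentedGroup R →* SpecialLinearGroup (Fin r) ℂ,
      ∀ x, f (PresentedGroup.mk R x) = FreeGroup.lift X x :=
    ⟨PresentedGroup.toGroup hrel, fun x => rfl⟩
  have h1 : (K.comap (PresentedGroup.mk R)).map (FreeGroup.lift X) = K.map f := by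
    ext g
    constructor
    · rintro ⟨x, hx, rfl⟩
      exact ⟨PresentedGroup.mk R x, hx, hf x⟩
    · rintro ⟨y, hy, rfl⟩
      obtain ⟨x, rfl⟩ := mk_surj R y
      exact ⟨x, hy, (hf x).symm⟩
  rw [h1]
  refine ⟨(H.map K.subtype).map f, Subgroup.map_mono (Subgroup.map_subtype_le H), ?_, ?_⟩
  · rw [Subgroup.map_map]
    have := hH
    exact Group.isSolvable_of_surjective (f := (f.comp K.subtype).subgroupMap H)
      ((f.comp K.subtype).subgroupMap_surjective H)
  · rw [← Subgroup.relIndex_comap]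
    intro h2
    have h3 : (H.map K.subtype).relIndex K = 0 :=
      Subgroup.relIndex_eq_zero_of_le_left (Subgroup.le_comap_map f _) h2
    have h4 : (H.map K.subtype).relIndex K = H.index := by
      rw [Subgroup.relIndex, Subgroup.subgroupOf, Subgroup.comap_map_eq_self_of_injective
        (Subgroup.subtype_injective K)]
    rw [h4] at h3
    exact hHf.index_ne_zero h3

end Vale.Agent.P002.H2
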