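import Vale.Agent.P002.H2.TE
import Vale.Agent.P002.H2.N7
import Vale.Agent.P002.H627.U1
import Vale.Agent.P002.H252.Tr9
import Vale.Agent.P002.H377.Torus

/-!
# Representations with a fixed integral restriction to a normal subgroup
-/

namespace Vale.Agent.P002.H2

open Matrix NumberField Module Vale.Agent.P002R.Orb Vale.Agent.P002.H326J Kronecker
  Vale.Agent.P002.H627

section

variable {F : Type} [Group F] {V : Type} [AddCommGroup V] [Module ℂ V]

/-- the embedding of the first factor -/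
theorem exists_emb {Z H H₁ : Subgroup F} {ρ : F → Module.End ℂ V} {a b r : ℕ}
    {e : (Fin a × Fin b → ℂ) →ₗ[ℂ] V}
    {α : F → SpecialLinearGroup (Fin a) ℂ} {β : F → (Matrix (Fin b) (Fin b) ℂ)ˣ}
    (h : Iso Z H ρ H₁ e α β) {R1 : F → Matrix (Fin r) (Fin r) ℂ}
    (hsub : ∃ e : V →ₗ[ℂ] (Fin r → ℂ), Function.Injective e ∧
      ∀ z ∈ Z, ∀ v, e (ρ z v) = R1 z *ᵥ e v) :
    ∃ (c : F → ℂˣ) (e : (Fin a → ℂ) →ₗ[ℂ] (Fin r → ℂ)), Function.Injective e ∧
      ∀ k ∈ Z, ∀ v, R1 k *ᵥ e v = (c k : ℂ) • e ((α k).1 *ᵥ v) := by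
  classical
  obtain ⟨e₂, he₂, hact⟩ := hsub
  have hb := h.irrβ.1
  obtain ⟨w₀, hw₀⟩ := exists_ne (0 : Fin b → ℂ)
  have hc : ∀ z, ∃ c : ℂˣ, z ∈ Z → (β z).1 *ᵥ w₀ = (c : ℂ) • w₀ := by
    intro z
    by_cases hz : z ∈ Z
    · obtain ⟨c, hc⟩ := h.scal z hz
      have h1 : (β z).1 *ᵥ w₀ = c • w₀ := by
        have := congrArg (fun f => f w₀) hc
        exact this
      have hc0 : c ≠ 0 := by
        rintro rfl
        rw [zero_smul] at h1
        refine hw₀ ?_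
        calc w₀ = ((β z)⁻¹).1 *ᵥ ((β z).1 *ᵥ w₀) := by
              rw [Matrix.mulVec_mulVec, Units.inv_mul, Matrix.one_mulVec]
          _ = 0 := by rw [h1, Matrix.mulVec_zero]
      exact ⟨Units.mk0 c hc0, fun _ => h1⟩
    · exact ⟨1, fun h => absurd h hz⟩
  choose c hc using hc
  obtain ⟨f, hf⟩ : ∃ f : (Fin a → ℂ) →ₗ[ℂ] (Fin a × Fin b → ℂ), ∀ u, f u = tp u w₀ :=
    ⟨{ toFun := fun u => tp u w₀
       map_add' := fun u v => by
        funext p
        simp only [tp, Pi.add_apply, add_mul]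
       map_smul' := fun s u => by
        funext p
        simp only [tp, Pi.smul_apply, smul_eq_mul, RingHom.id_apply, mul_assoc] }, fun u => rfl⟩
  refine ⟨c, e₂ ∘ₗ e ∘ₗ f, ?_, fun k hk v => ?_⟩
  · refine he₂.comp (h.inj.comp ?_)
    rw [← LinearMap.ker_eq_bot, LinearMap.ker_eq_bot']
    intro u hu
    by_contra h0
    rw [hf] at hu
    exact tp_ne_zero h0 hw₀ hu
  · change R1 k *ᵥ e₂ (e (f v)) = (c k : ℂ) • e₂ (e (f ((α k).1 *ᵥ v)))
    rw [← hact k hk, hf, hf, h.eq k (h.Zle hk), kron_mulVec, hc k hk, ← map_smul, ← map_smul]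
    congr 2
    funext p
    simp only [tp, Pi.smul_apply, smul_eq_mul]
    ring

end

variable {ι : Type} {R : Set (FreeGroup ι)}

/-- the context with `Z` the preimage of `N` -/
def ctxN (O : OrbFamily (PresentedGroup R)) {s : ℕ} (w : Fin s → FreeGroup ι)
    (N : Subgroup (PresentedGroup R)) (hn : N.Normal) (hN : N ≤ O.K) :
    letI := actF O
    Ctx (FreeGroup ι) O.I :=
  let := actF O
  { ctxOf O w with
    Z := N.comap (PresentedGroup.mk R)
    hZ := fun x y hy => by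
      rw [Subgroup.mem_comap] at hy ⊢
      rw [map_mul, map_mul, map_inv]
      exact hn.conj_mem _ hy _
    hZN := fun i => Subgroup.comap_mono (hN.trans (iInf_le _ i)) }

theorem ctxN_K (O : OrbFamily (PresentedGroup R)) {s : ℕ} (w : Fin s → FreeGroup ι)
    (N : Subgroup (PresentedGroup R)) (hn : N.Normal) (hN : N ≤ O.K) :
    letI := actF O
    (ctxN O w N hn hN).K = O.K.comap (PresentedGroup.mk R) := ctxOf_K O w

theorem orbCtxN (O : OrbFamily (PresentedGroup R)) {s : ℕ} (w : Fin s → FreeGroup ι)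
    (N : Subgroup (PresentedGroup R)) (hn : N.Normal) (hN : N ≤ O.K)
    (hw : ∀ j, O.IsPeripheral (PresentedGroup.mk R (w j))) :
    letI := actF O
    H252.OrbCtx (ctxN O w N hn hN) O.g O.n O.m (phiF O) :=
  let := actF O
  ⟨(orbCtx O w hw).ker, (orbCtx O w hw).fi, (orbCtx O w hw).mer⟩

/-- the main theorem for a fixed restriction to `N` -/
theorem main_N [Finite ι] (O : OrbFamily (PresentedGroup R)) (r : ℕ) {s : ℕ}
    (w : Fin s → FreeGroup ι) (C₀ : Fin s → SpecialLinearGroup (Fin r) ℂ)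
    (hC₀ : ∀ j z, IsEigenvalue (C₀ j) z → ∃ n : ℕ, 0 < n ∧ z ^ n = 1)
    (hw : ∀ j, O.IsPeripheral (PresentedGroup.mk R (w j)))
    (N : Subgroup (PresentedGroup R)) (hn : N.Normal) (hN : N ≤ O.K)
    (R1 : FreeGroup ι → SpecialLinearGroup (Fin r) ℂ)
    (hint : ∀ k ∈ N.comap (PresentedGroup.mk R), ∀ z, (R1 k).1.charpoly.IsRoot z →
      IsIntegral ℤ z ∧ IsIntegral ℤ z⁻¹) :
    ∃ L : IntermediateField ℚ ℂ, FiniteDimensional ℚ L ∧ IsDenseRep L
      (YKA R w C₀ (O.K.comap (PresentedGroup.mk R)) (N.comap (PresentedGroup.mk R)) R1) := by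
  let := actF O
  obtain ⟨N₀, hN₀, hNe⟩ := exists_N C₀ hC₀
  have := O.fin
  obtain ⟨C, hC⟩ : ∃ C : Ctx (FreeGroup ι) O.I, C = ctxN O w N hn hN := ⟨_, rfl⟩
  have hCZ : C.Z = N.comap (PresentedGroup.mk R) := by rw [hC]; rfl
  have hCK : C.K = O.K.comap (PresentedGroup.mk R) := by rw [hC]; exact ctxN_K O w N hn hN
  have hCR : ∀ y, y ∈ C.Rel ↔ ∃ x j, ∃ a : ℤ, y = x * w j ^ a * x⁻¹ := by
    rw [hC]
    exact fun y => Iff.rfl
  obtain ⟨L₁, hL₁, hb₁⟩ := H377.PC2' C w hCR N₀ r hN₀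
  obtain ⟨L₂, hL₂, hb₂⟩ := H252.PC3 C O.g O.n O.m (phiF O)
    (by rw [hC]; exact orbCtxN O w N hn hN hw) N₀ r hN₀
  obtain ⟨L₃, hL₃, hb₃⟩ : ∃ L : IntermediateField ℚ ℂ, FiniteDimensional ℚ L ∧
      ∀ k ≤ 2 * r, 0 < k → ∀ z : ℂ, z ^ k = 1 → z ∈ L := by
    have hf : (⋃ k ∈ Finset.Icc 1 (2 * r), {z : ℂ | z ^ k = 1}).Finite := by
      refine Set.Finite.biUnion (Finset.finite_toSet _) fun k hk => ?_
      have hk' : 0 < k := (Finset.mem_Icc.1 hk).1
      exact (Multiset.finite_toSet (Polynomial.nthRoots k (1 : ℂ))).subset fun z hz =>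
        (Polynomial.mem_nthRoots hk').2 hz
    refine ⟨IntermediateField.adjoin ℚ _, H306.exists_nf _ hf fun z hz => ?_,
      fun k hk hk' z hz => IntermediateField.subset_adjoin _ _ ?_⟩
    · obtain ⟨k, hk, hz⟩ := Set.mem_iUnion₂.1 hz
      have hz' : z ^ k = 1 := hz
      exact IsIntegral.of_pow (Finset.mem_Icc.1 hk).1 (by rw [hz']; exact isIntegral_one)
    · exact Set.mem_iUnion₂.2 ⟨k, Finset.mem_Icc.2 ⟨hk', hk⟩, hz⟩
  have hZn : C.Z.Normal := ⟨fun y hy x => C.hZ x y hy⟩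
  have hint' : ∀ k ∈ C.Z, ∀ z, (R1 k).1.charpoly.IsRoot z →
      IsIntegral ℤ z ∧ IsIntegral ℤ z⁻¹ := by
    rw [hCZ]
    exact hint
  obtain ⟨L₄, hL₄, hb₄⟩ := H252.baseInt C.Z (fun k => (R1 k).1) hint' r
  obtain ⟨U, hU, hUi, hUu⟩ := H252.unitGroup C.Z (fun k => (R1 k).1) hint' r
  obtain ⟨L, hL⟩ : ∃ L : IntermediateField ℚ ℂ, L = L₁ ⊔ L₂ ⊔ L₃ ⊔ L₄ := ⟨_, rfl⟩
  have hfd : FiniteDimensional ℚ L := by
    rw [hL]
    have := IntermediateField.finiteDimensional_sup L₁ L₂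
    have := IntermediateField.finiteDimensional_sup (L₁ ⊔ L₂) L₃
    exact IntermediateField.finiteDimensional_sup _ _
  have hl₁ : L₁ ≤ L := hL ▸ le_sup_left.trans (le_sup_left.trans le_sup_left)
  have hl₂ : L₂ ≤ L := hL ▸ le_sup_right.trans (le_sup_left.trans le_sup_left)
  have hl₃ : L₃ ≤ L := hL ▸ le_sup_right.trans le_sup_left
  have hl₄ : L₄ ≤ L := hL ▸ le_sup_right
  have h1 : BaseVS C L N₀ r := fun H n σ h1 h2 h3 h4 => (hb₁ H n σ h1 h2 h3 h4).mono hl₁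
  have h2 : BaseCurve C L N₀ r := fun H n σ i h1 h2 h3 h4 h5 =>
    (hb₂ H n σ i h1 h2 h3 h4 h5).mono hl₂
  have hgood : ∀ (V : Type) [AddCommGroup V] [Module ℂ V] [FiniteDimensional ℂ V]
      (ρ : FreeGroup ι → Module.End ℂ V), Module.finrank ℂ V ≤ r → AdmA C N₀ R1 ρ →
        GoodA C L ⊤ ρ := by
    intro V _ _ _ ρ hr hA
    have hV := hA.irr.1
    obtain ⟨H', a, b, e, α, β, k1, k2, k3, k4, k5, k6, k7, k8, k9, k10, k11, k12⟩ :=
      H627.S1 ⊤ C.Z le_top (fun x _ y hy => C.hZ x y hy) ρ hA.mul hA.irr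
    have hIso : Iso C.Z ⊤ ρ H' e α β := ⟨k1, k2, k3, k4, k5, k6, k7, k8, k9, k10, k11, k12⟩
    have hV0 : 0 < finrank ℂ V := finrank_pos
    have ha : 0 < a := Nat.pos_of_ne_zero fun h => by
      rw [h, zero_mul, mul_zero] at k12
      omega
    have hb : 0 < b := Nat.pos_of_ne_zero fun h => by
      rw [h, mul_zero, mul_zero] at k12
      omega
    have hne : Nonempty (Fin a) := ⟨⟨0, ha⟩⟩
    have hidx : H'.index = H'.relIndex ⊤ := (Subgroup.relIndex_top_right H').symm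
    have hq : 0 < H'.relIndex ⊤ := Nat.pos_of_ne_zero k3
    have hadm : Adm C N₀ H' (lu β) := hIso.adm (by
      rw [Subgroup.index_top]
      exact one_ne_zero) (fun y hy _ => hA.eig y hy) hA.vs hne
    have hBb : H'.index * finrank ℂ (Fin b → ℂ) ≤ r := by
      rw [Module.finrank_fin_fun, hidx]
      refine le_trans ?_ hr
      rw [k12]
      exact Nat.mul_le_mul_left _ (Nat.le_mul_of_pos_left _ ha)
    have hBi : H'.index ≤ r := by
      rw [hidx]
      refine le_trans ?_ hr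
      rw [k12]
      exact Nat.le_mul_of_pos_right _ (Nat.mul_pos ha hb)
    have hg : Good C L H' (lu β) := H627.PA5 C L N₀ r hN₀ h1 h2
      (fun k hk hk' z hz => hl₃ (hb₃ k hk hk' z hz)) H' (lu β) hadm hBb
    obtain ⟨Q, hQ⟩ := hb₄ H' a α (by rw [hidx]; exact k3) hBi k2 k5 k7
      (exists_emb hIso hA.sub)
    exact goodA_of_iso hA.mul hA.irr hIso ⟨Q, hQ.mono hl₄⟩ hadm.vs hg
  have hfin := assemblyA C R (by
    rw [hCZ]
    intro z hz
    rw [SetLike.mem_coe, Subgroup.mem_comap, (mk_eq_one R z).2 (Subgroup.subset_normalClosure hz)]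
    exact one_mem _) w hCR N₀ r hN₀ L hfd R1 hgood U
    (fun J _ B M hM => H377.torusU M hM B U hU hUi) hUu C₀ hNe
  rw [hCK, hCZ] at hfin
  exact hfin

end Vale.Agent.P002.H2
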