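import Vale.Agent.P002.H2.MD
import Vale.Agent.P002.H2.ME
import Vale.Agent.P002.H2.TF

/-!
# The blocks are good
-/

namespace Vale.Agent.P002.H2

open Matrix NumberField Module Vale.Agent.P002R.Orb Vale.Agent.P002.H326J Kronecker
  Vale.Agent.P002.H627

variable {ι : Type} {I : Type} [MulAction (FreeGroup ι) I]

/-- admissible irreducible representations, the restriction to `Z` embeds into `R1` -/
structure AdmM (C : Ctx (FreeGroup ι) I) (N₀ : ℕ) {d : ℕ}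
    (R1 : FreeGroup ι → Matrix (Fin d) (Fin d) ℂ) {V : Type} [AddCommGroup V] [Module ℂ V]
    (ρ : FreeGroup ι → Module.End ℂ V) : Prop where
  mul : MulOn ⊤ ρ
  irr : Irr ⊤ ρ
  eig : ∀ y ∈ C.Rel, ∀ a b, (ρ y).HasEigenvalue a → (ρ y).HasEigenvalue b → a ^ N₀ = b ^ N₀
  vs : RelVS C.K C.Z ρ
  sub : ∃ e : V →ₗ[ℂ] (Fin d → ℂ), Function.Injective e ∧
    ∀ z ∈ C.Z, ∀ v, e (ρ z v) = R1 z *ᵥ e v

variable {R : Set (FreeGroup ι)}

/-- the blocks are good -/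
theorem good_block [Finite ι] (O : OrbFamily (PresentedGroup R)) (r : ℕ) {s : ℕ}
    (w : Fin s → FreeGroup ι) (hw : ∀ j, O.IsPeripheral (PresentedGroup.mk R (w j)))
    (N : Subgroup (PresentedGroup R)) (hn : N.Normal) (hN : N ≤ O.K) (N₀ : ℕ) (hN₀ : 0 < N₀)
    {d : ℕ} (R1 : FreeGroup ι → Matrix (Fin d) (Fin d) ℂ)
    (hint : ∀ k ∈ N.comap (PresentedGroup.mk R), ∀ z, (R1 k).charpoly.IsRoot z →
      IsIntegral ℤ z ∧ IsIntegral ℤ z⁻¹) :
    letI := actF O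
    ∃ L : IntermediateField ℚ ℂ, FiniteDimensional ℚ L ∧
      ∀ (V : Type) [AddCommGroup V] [Module ℂ V] [FiniteDimensional ℂ V]
      (ρ : FreeGroup ι → Module.End ℂ V), Module.finrank ℂ V ≤ r →
        AdmM (ctxN O w N hn hN) N₀ R1 ρ → GoodA (ctxN O w N hn hN) L ⊤ ρ := by
  let := actF O
  have := O.fin
  obtain ⟨C, hC⟩ : ∃ C : Ctx (FreeGroup ι) O.I, C = ctxN O w N hn hN := ⟨_, rfl⟩
  rw [← hC]
  have hCZ : C.Z = N.comap (PresentedGroup.mk R) := by rw [hC]; rfl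
  have hCR : ∀ y, y ∈ C.Rel ↔ ∃ x j, ∃ a : ℤ, y = x * w j ^ a * x⁻¹ := by
    rw [hC]
    exact fun y => Iff.rfl
  obtain ⟨L₁, hL₁, hb₁⟩ := H377.PC2' C w hCR N₀ r hN₀
  obtain ⟨L₂, hL₂, hb₂⟩ := H252.PC3 C O.g O.n O.m (phiF O)
    (by rw [hC]; exact orbCtxN O w N hn hN hw) N₀ r hN₀
  obtain ⟨L₃, hL₃, hb₃⟩ : ∃ L : IntermediateField ℚ ℂ, FiniteDimensional ℚ L ∧
      ∀ k ≤ 2 * r, 0 < k → ∀ z : ℂ, z ^ k = 1 → z ∈ L := by
    have hf : (⋃ k ∈ Finset.Icc 1 (2 * r), {z : ℂ | z ^ k = 1}).Finite := by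
      refine Set.Finite.biUnion (Finset.finite_toSet _) fun k hk => ?_
      have hk' : 0 < k := (Finset.mem_Icc.1 hk).1
      exact (Multiset.finite_toSet (Polynomial.nthRoots k (1 : ℂ))).subset fun z hz =>
        (Polynomial.mem_nthRoots hk').2 hz
    refine ⟨IntermediateField.adjoin ℚ _, H306.exists_nf _ hf fun z hz => ?_,
      fun k hk hk' z hz => IntermediateField.subset_adjoin _ _ ?_⟩
    · obtain ⟨k, hk, hz⟩ := Set.mem_iUnion₂.1 hz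
      have hz' : z ^ k = 1 := hz
      exact IsIntegral.of_pow (Finset.mem_Icc.1 hk).1 (by rw [hz']; exact isIntegral_one)
    · exact Set.mem_iUnion₂.2 ⟨k, Finset.mem_Icc.2 ⟨hk', hk⟩, hz⟩
  have hZn : C.Z.Normal := ⟨fun y hy x => C.hZ x y hy⟩
  have hint' : ∀ k ∈ C.Z, ∀ z, (R1 k).charpoly.IsRoot z →
      IsIntegral ℤ z ∧ IsIntegral ℤ z⁻¹ := by
    rw [hCZ]
    exact hint
  obtain ⟨L₄, hL₄, hb₄⟩ := H252.baseInt C.Z R1 hint' r
  obtain ⟨L, hL⟩ : ∃ L : IntermediateField ℚ ℂ, L = L₁ ⊔ L₂ ⊔ L₃ ⊔ L₄ := ⟨_, rfl⟩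
  have hfd : FiniteDimensional ℚ L := by
    rw [hL]
    have := IntermediateField.finiteDimensional_sup L₁ L₂
    have := IntermediateField.finiteDimensional_sup (L₁ ⊔ L₂) L₃
    exact IntermediateField.finiteDimensional_sup _ _
  have hl₁ : L₁ ≤ L := hL ▸ le_sup_left.trans (le_sup_left.trans le_sup_left)
  have hl₂ : L₂ ≤ L := hL ▸ le_sup_right.trans (le_sup_left.trans le_sup_left)
  have hl₃ : L₃ ≤ L := hL ▸ le_sup_right.trans le_sup_left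
  have hl₄ : L₄ ≤ L := hL ▸ le_sup_right
  have h1 : BaseVS C L N₀ r := fun H n σ h1 h2 h3 h4 => (hb₁ H n σ h1 h2 h3 h4).mono hl₁
  have h2 : BaseCurve C L N₀ r := fun H n σ i h1 h2 h3 h4 h5 =>
    (hb₂ H n σ i h1 h2 h3 h4 h5).mono hl₂
  refine ⟨L, hfd, ?_⟩
  intro V _ _ _ ρ hr hA
  have hV := hA.irr.1
  obtain ⟨H', a, b, e, α, β, k1, k2, k3, k4, k5, k6, k7, k8, k9, k10, k11, k12⟩ :=
    H627.S1 ⊤ C.Z le_top (fun x _ y hy => C.hZ x y hy) ρ hA.mul hA.irr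
  have hIso : Iso C.Z ⊤ ρ H' e α β := ⟨k1, k2, k3, k4, k5, k6, k7, k8, k9, k10, k11, k12⟩
  have hV0 : 0 < finrank ℂ V := finrank_pos
  have ha : 0 < a := Nat.pos_of_ne_zero fun h => by
    rw [h, zero_mul, mul_zero] at k12
    omega
  have hb : 0 < b := Nat.pos_of_ne_zero fun h => by
    rw [h, mul_zero, mul_zero] at k12
    omega
  have hne : Nonempty (Fin a) := ⟨⟨0, ha⟩⟩
  have hidx : H'.index = H'.relIndex ⊤ := (Subgroup.relIndex_top_right H').symm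
  have hq : 0 < H'.relIndex ⊤ := Nat.pos_of_ne_zero k3
  have hadm : Adm C N₀ H' (lu β) := hIso.adm (by
    rw [Subgroup.index_top]
    exact one_ne_zero) (fun y hy _ => hA.eig y hy) hA.vs hne
  have hBb : H'.index * finrank ℂ (Fin b → ℂ) ≤ r := by
    rw [Module.finrank_fin_fun, hidx]
    refine le_trans ?_ hr
    rw [k12]
    exact Nat.mul_le_mul_left _ (Nat.le_mul_of_pos_left _ ha)
  have hBi : H'.index ≤ r := by
    rw [hidx]
    refine le_trans ?_ hr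
    rw [k12]
    exact Nat.le_mul_of_pos_right _ (Nat.mul_pos ha hb)
  have hg : Good C L H' (lu β) := H627.PA5 C L N₀ r hN₀ h1 h2
    (fun k hk hk' z hz => hl₃ (hb₃ k hk hk' z hz)) H' (lu β) hadm hBb
  obtain ⟨Q, hQ⟩ := hb₄ H' a α (by rw [hidx]; exact k3) hBi k2 k5 k7
    (exists_emb hIso hA.sub)
  exact goodA_of_iso hA.mul hA.irr hIso ⟨Q, hQ.mono hl₄⟩ hadm.vs hg

end Vale.Agent.P002.H2
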