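import Vale.Agent.P002.H2.TF
import Vale.Agent.P002.H2.DefsN

/-!
# Representations with given character on a normal subgroup
-/

namespace Vale.Agent.P002.H2

open Matrix NumberField Module Vale.Agent.P002R.Orb Vale.Agent.P002.H326J Vale.Agent.P002.H306

variable {ι : Type} {R : Set (FreeGroup ι)}

/-- points of `YW` are representations of the presented group -/
theorem exists_hom {r s : ℕ} {w : Fin s → FreeGroup ι} {C₀ : Fin s → SpecialLinearGroup (Fin r) ℂ}
    {X : ι → SpecialLinearGroup (Fin r) ℂ} (hX : X ∈ YW R w C₀) :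
    ∃ f : PresentedGroup R →* SpecialLinearGroup (Fin r) ℂ,
      ∀ x, f (PresentedGroup.mk R x) = FreeGroup.lift X x :=
  ⟨PresentedGroup.toGroup hX.1.1, fun _ => rfl⟩

theorem comap_map_mk (K : Subgroup (PresentedGroup R)) :
    (K.comap (PresentedGroup.mk R)).map (PresentedGroup.mk R) = K :=
  Subgroup.map_comap_eq_self_of_surjective (mk_surj R) K

theorem span_eq {r : ℕ} (N : Subgroup (PresentedGroup R)) (X : ι → SpecialLinearGroup (Fin r) ℂ) :
    {A | ∃ y, PresentedGroup.mk R y ∈ N ∧ A = (FreeGroup.lift X y).1} =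
      (fun x => mh X x) '' (N.comap (PresentedGroup.mk R) : Subgroup (FreeGroup ι)) := by
  ext A
  constructor
  · rintro ⟨y, hy, rfl⟩
    exact ⟨y, hy, rfl⟩
  · rintro ⟨y, hy, rfl⟩
    exact ⟨y, hy, rfl⟩

theorem relVS_iff {r s : ℕ} {w : Fin s → FreeGroup ι} {C₀ : Fin s → SpecialLinearGroup (Fin r) ℂ}
    {X : ι → SpecialLinearGroup (Fin r) ℂ} (hX : X ∈ YW R w C₀)
    (K N : Subgroup (PresentedGroup R)) :
    RelVS (K.comap (PresentedGroup.mk R)) (N.comap (PresentedGroup.mk R)) (fun x => mh X x) ↔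
      ∃ B : Subgroup (PresentedGroup R), B ≤ K ∧ B.relIndex K ≠ 0 ∧
        ∃ m : ℕ, ∀ x : FreeGroup ι, PresentedGroup.mk R x ∈ (derivedSeries B m).map B.subtype →
          (FreeGroup.lift X x).1 ∈ Submodule.span ℂ
            {A | ∃ y, PresentedGroup.mk R y ∈ N ∧ A = (FreeGroup.lift X y).1} := by
  rw [span_eq]
  constructor
  · rintro ⟨B, hB, hi, k, hk⟩
    refine ⟨B.map (PresentedGroup.mk R), ?_, ?_, k, fun x hx => ?_⟩
    · rw [← comap_map_mk K]
      exact Subgroup.map_mono hB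
    · rw [← comap_map_mk K, ← Subgroup.relIndex_comap]
      exact fun h => hi (Subgroup.relIndex_eq_zero_of_le_left (Subgroup.le_comap_map _ B) h)
    · rw [derivedSeries_map_le] at hx
      obtain ⟨y, hy, hyx⟩ := hx
      obtain ⟨f, hf⟩ := exists_hom hX
      rw [← hf x, ← hyx, hf y]
      exact hk y hy
  · rintro ⟨B, hB, hi, k, hk⟩
    refine ⟨B.comap (PresentedGroup.mk R), Subgroup.comap_mono hB, ?_, k, fun x hx => ?_⟩
    · rw [Subgroup.relIndex_comap, comap_map_mk]
      exact hi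
    · refine hk x ?_
      have h1 : PresentedGroup.mk R x ∈
          (dser (B.comap (PresentedGroup.mk R)) k).map (PresentedGroup.mk R) := ⟨x, hx, rfl⟩
      rw [← derivedSeries_map_le, comap_map_mk] at h1
      exact h1

/-- if `K` is virtually solvable modulo `N` there is no condition -/
theorem yrel_eq {r s : ℕ} (w : Fin s → FreeGroup ι) (C₀ : Fin s → SpecialLinearGroup (Fin r) ℂ)
    (K N : Subgroup (PresentedGroup R)) (t : N → ℂ) (hK : VSMod K N) :
    YRel R w C₀ K N t = YTr R w C₀ N t := by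
  refine Set.Subset.antisymm (fun X hX => hX.1) fun X hX => ⟨hX, ?_⟩
  obtain ⟨B, hB, hi, k, hk⟩ := hK
  exact ⟨B, hB, hi, k, fun x hx => Submodule.subset_span ⟨x, hk hx, rfl⟩⟩

end Vale.Agent.P002.H2
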