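import Vale.Agent.P002.H2.MF
import Vale.Agent.P002.H2.DefsM
import Vale.Agent.P002.H2.TG

/-!
# The density theorem for representations with typed constituents
-/

namespace Vale.Agent.P002.H2

open Matrix NumberField Module Vale.Agent.P002R.Orb Vale.Agent.P002.H306

variable {ι : Type} {I : Type} [MulAction (FreeGroup ι) I]

/-- the coordinates of a typed subrepresentation -/
theorem BType.coord {Z K : Subgroup (FreeGroup ι)} {d : ℕ} {t : FreeGroup ι → ℂ} {r : ℕ}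
    {X : ι → SpecialLinearGroup (Fin r) ℂ} {W : Submodule ℂ (Fin r → ℂ)}
    (h : BType Z K d t X W) :
    ∃ (φ : (Fin d → ℂ) ≃ₗ[ℂ] W) (σ : FreeGroup ι →* Matrix (Fin d) (Fin d) ℂ),
      (∀ x v, mh X x *ᵥ (φ v : Fin r → ℂ) = φ (σ x *ᵥ v)) ∧ 0 < d ∧
      (∀ V : Submodule ℂ (Fin d → ℂ), (∀ x, ∀ v ∈ V, σ x *ᵥ v ∈ V) → V = ⊥ ∨ V = ⊤) ∧
      (∀ z ∈ Z, (σ z).trace = t z) ∧ RelVS K Z (fun x => σ x) := by
  obtain ⟨e, σ, he, her, heq, hd, hirr, htr, hrel⟩ := h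
  subst her
  obtain ⟨φ, hφ⟩ : ∃ φ : (Fin d → ℂ) ≃ₗ[ℂ] LinearMap.range e, ∀ v, (φ v : Fin r → ℂ) = e v :=
    ⟨LinearEquiv.ofInjective e he, fun v => rfl⟩
  obtain ⟨M, hM⟩ : ∃ M : FreeGroup ι →* Matrix (Fin d) (Fin d) ℂ, ∀ x, M x = σ x := by
    refine ⟨⟨⟨σ, ?_⟩, fun x y => ?_⟩, fun x => rfl⟩
    · refine Matrix.mulVec_injective (funext fun v => he ?_)
      rw [← heq, map_one, Matrix.one_mulVec, Matrix.one_mulVec]
    · refine Matrix.mulVec_injective (funext fun v => he ?_)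
      change e (σ (x * y) *ᵥ v) = e ((σ x * σ y) *ᵥ v)
      rw [← heq, map_mul, ← Matrix.mulVec_mulVec, ← Matrix.mulVec_mulVec, heq, heq]
  have hM' : (fun x => M x) = σ := funext hM
  refine ⟨φ, M, fun x v => ?_, hd, fun V hV => hirr V fun x v hv => ?_, fun z hz => ?_, ?_⟩
  · rw [hφ, hφ, heq, hM]
  · rw [← hM]
    exact hV x v hv
  · rw [hM, htr z hz]
  · rw [hM']
    exact hrel

theorem admM_sub (C : Ctx (FreeGroup ι) I) {N₀ r d : ℕ} {X : ι → SpecialLinearGroup (Fin r) ℂ}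
    {t : FreeGroup ι → ℂ} {W : Submodule ℂ (Fin r → ℂ)}
    (hW : BType C.Z C.K d t X W) {M₀ : FreeGroup ι →* Matrix (Fin d) (Fin d) ℂ}
    (hss₀ : SSg C.Z M₀) (htr₀ : ∀ z ∈ C.Z, (M₀ z).trace = t z)
    (hXe : ∀ y ∈ C.Rel, ∀ (v : Fin r → ℂ) (c : ℂ), v ≠ 0 → mh X y *ᵥ v = c • v → c ^ N₀ = 1)
    (ρU : FreeGroup ι → Module.End ℂ W)
    (hρU : ∀ x (v : W), ((ρU x v : W) : Fin r → ℂ) = rep X x v) :
    AdmM C N₀ (fun x => M₀ x) ρU ∧
    ∃ f : W →ₗ[ℂ] (Fin d → ℂ), Function.Injective f ∧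
      ∀ z ∈ C.Z, ∀ v, f (ρU z v) = M₀ z *ᵥ f v := by
  have hU := btype_irr hW
  obtain ⟨φ, σ, hφ, hd, hirr, htr, hrel⟩ := hW.coord
  have hZn : C.Z.Normal := ⟨fun y hy x => C.hZ x y hy⟩
  have hρφ : ∀ x v, ρU x (φ v) = φ (σ x *ᵥ v) := by
    intro x v
    apply Subtype.ext
    rw [hρU, rep, Matrix.toLin'_apply, hφ]
  obtain ⟨e₁, he₁⟩ := conj_of_traceM C.Z σ M₀ (ss_normalM C.Z hZn σ fun V hV => by
    rcases hirr V fun x v hv => hV x trivial v hv with h | h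
    · exact ⟨⊤, fun z _ v _ => trivial, by rw [h]; exact isCompl_bot_top⟩
    · refine ⟨⊥, fun z _ v hv => ?_, by rw [h]; exact isCompl_top_bot⟩
      rw [Submodule.mem_bot] at hv ⊢
      rw [hv, Matrix.mulVec_zero]) hss₀ fun z hz => by rw [htr z hz, htr₀ z hz]
  have hf : ∃ f : W →ₗ[ℂ] (Fin d → ℂ), Function.Injective f ∧
      ∀ z ∈ C.Z, ∀ v, f (ρU z v) = M₀ z *ᵥ f v := by
    refine ⟨e₁.toLinearMap ∘ₗ φ.symm.toLinearMap, e₁.injective.comp φ.symm.injective,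
      fun z hz v => ?_⟩
    change e₁ (φ.symm (ρU z v)) = M₀ z *ᵥ e₁ (φ.symm v)
    rw [← he₁ z hz]
    congr 1
    rw [LinearEquiv.symm_apply_eq, ← hρφ, LinearEquiv.apply_symm_apply]
  refine ⟨⟨⟨?_, fun x _ y _ => ?_⟩, ⟨?_, fun V hV => ?_⟩, fun y hy a b ha hb => ?_, ?_, hf⟩, hf⟩
  · refine LinearMap.ext fun v => Subtype.ext ?_
    rw [hρU, (rep_mulOn X).one]
    rfl
  · refine LinearMap.ext fun v => Subtype.ext ?_
    rw [Module.End.mul_apply, hρU, hρU, hρU, (rep_mulOn X).mul x trivial y trivial,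
      Module.End.mul_apply]
  · exact Submodule.nontrivial_iff_ne_bot.2 hU.1
  · have h1 := hU.2.2 (V.map W.subtype) (Submodule.map_subtype_le W V) (by
      rintro x _ ⟨v, hv, rfl⟩
      refine ⟨ρU x v, hV x trivial v hv, ?_⟩
      exact hρU x v)
    rcases h1 with h1 | h1
    · left
      exact (Submodule.map_injective_of_injective W.injective_subtype)
        (h1.trans (Submodule.map_bot _).symm)
    · right
      refine (Submodule.map_injective_of_injective W.injective_subtype) (h1.trans ?_)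
      rw [Submodule.map_top, Submodule.range_subtype]
  · have h1 : ∀ c, (ρU y).HasEigenvalue c → c ^ N₀ = 1 := by
      intro c hc
      obtain ⟨v, hv⟩ := hc.exists_hasEigenvector
      refine hXe y hy v.1 c (fun h => hv.2 (Subtype.ext h)) ?_
      have h2 := congrArg Subtype.val hv.apply_eq_smul
      rw [hρU, rep, Matrix.toLin'_apply] at h2
      exact h2
    rw [h1 a ha, h1 b hb]
  · obtain ⟨g, hg⟩ : ∃ g : Matrix (Fin d) (Fin d) ℂ →ₗ[ℂ] Module.End ℂ W,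
        ∀ M v, g M v = φ (M *ᵥ φ.symm v) :=
      ⟨{ toFun := fun M => φ.toLinearMap ∘ₗ Matrix.toLin' M ∘ₗ φ.symm.toLinearMap
         map_add' := fun M N => by
          rw [map_add, LinearMap.add_comp, LinearMap.comp_add]
         map_smul' := fun c M => by
          rw [map_smul, LinearMap.smul_comp, LinearMap.comp_smul]
          rfl }, fun M v => rfl⟩
    have h1 := RelVS.map (A' := Module.End ℂ W) hrel g
    have h2 : (fun x => g (σ x)) = fun x => ρU x := by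
      funext x
      refine LinearMap.ext fun v => ?_
      rw [hg, ← hρφ, LinearEquiv.apply_symm_apply]
    rw [h2] at h1
    exact h1

theorem unitInM_sub (C : Ctx (FreeGroup ι) I) {r d : ℕ} {X : ι → SpecialLinearGroup (Fin r) ℂ}
    {W : Submodule ℂ (Fin r → ℂ)} {M₀ : FreeGroup ι → Matrix (Fin d) (Fin d) ℂ}
    (hWi : ∀ x, ∀ v ∈ W, rep X x v ∈ W)
    (hf : ∀ ρU : FreeGroup ι → Module.End ℂ W,
      (∀ x (v : W), ((ρU x v : W) : Fin r → ℂ) = rep X x v) →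
      ∃ f : W →ₗ[ℂ] (Fin d → ℂ), Function.Injective f ∧
      ∀ z ∈ C.Z, ∀ v, f (ρU z v) = M₀ z *ᵥ f v) {U : Subgroup ℂˣ}
    (hdU : ∀ (H : Subgroup (FreeGroup ι)) (n : ℕ) (χ : FreeGroup ι → ℂˣ)
      (τ : FreeGroup ι → SpecialLinearGroup (Fin n) ℂ), H.index ≠ 0 → H.index ≤ r → C.Z ≤ H →
      MulOn H χ → (∃ e : (Fin n → ℂ) →ₗ[ℂ] (Fin d → ℂ), Function.Injective e ∧
        ∀ k ∈ C.Z, ∀ v, M₀ k *ᵥ e v = (χ k : ℂ) • e ((τ k).1 *ᵥ v)) →
      ∀ k ∈ C.Z, χ k ^ n ∈ U) : UnitInM C.Z X W U := by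
  intro H n χ τ h1 h2 h3 h4 h5
  obtain ⟨ρU, hρU⟩ : ∃ ρU : FreeGroup ι → Module.End ℂ W,
      ∀ x (v : W), ((ρU x v : W) : Fin r → ℂ) = rep X x v :=
    ⟨fun x => (rep X x).restrict (hWi x), fun x v => rfl⟩
  obtain ⟨f, hfi, hfe⟩ := hf ρU hρU
  obtain ⟨e, he, hee⟩ := h5
  refine hdU H n χ τ h1 h2 h3 h4 ⟨f ∘ₗ e, hfi.comp he, fun k hk v => ?_⟩
  change M₀ k *ᵥ f (e v) = (χ k : ℂ) • f (e ((τ k).1 *ᵥ v))
  rw [← hfe k hk, ← map_smul]
  congr 1
  apply Subtype.ext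
  rw [hρU]
  exact hee k hk v

/-- finitely many groups of units -/
theorem unit_sup {κ : Type} [Finite κ] (U : κ → Subgroup ℂˣ) (hU : ∀ a, (U a).FG)
    (hUi : ∀ a, ∀ u ∈ U a, IsIntegral ℤ (u : ℂ)) :
    ∃ V : Subgroup ℂˣ, V.FG ∧ (∀ u ∈ V, IsIntegral ℤ (u : ℂ)) ∧ ∀ a, U a ≤ V := by
  choose S hS using hU
  refine ⟨Subgroup.closure (⋃ a, (S a : Set ℂˣ)), ?_, ?_, fun a => ?_⟩
  · exact (Subgroup.fg_iff _).2 ⟨_, rfl, Set.finite_iUnion fun a => (S a).finite_toSet⟩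
  · have key : ∀ u ∈ Subgroup.closure (⋃ a, (S a : Set ℂˣ)),
        IsIntegral ℤ (u : ℂ) ∧ IsIntegral ℤ ((u⁻¹ : ℂˣ) : ℂ) := by
      intro u hu
      induction hu using Subgroup.closure_induction with
      | mem u hu =>
        obtain ⟨a, ha⟩ := Set.mem_iUnion.1 hu
        have h1 : u ∈ U a := by
          rw [← hS a]
          exact Subgroup.subset_closure ha
        exact ⟨hUi a u h1, hUi a _ (inv_mem h1)⟩
      | one =>
        rw [inv_one, Units.val_one]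
        exact ⟨isIntegral_one, isIntegral_one⟩
      | mul u v _ _ hu hv =>
        rw [mul_inv, Units.val_mul, Units.val_mul]
        exact ⟨hu.1.mul hv.1, hu.2.mul hv.2⟩
      | inv u _ hu =>
        rw [inv_inv]
        exact ⟨hu.2, hu.1⟩
    exact fun u hu => (key u hu).1
  · rw [← hS a, Subgroup.closure_le]
    exact fun u hu => Subgroup.subset_closure (Set.mem_iUnion.2 ⟨a, hu⟩)

end Vale.Agent.P002.H2
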