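import Vale.Agent.P002.H2.MG

/-!
# The density theorem for representations with typed constituents: the theorem
-/

namespace Vale.Agent.P002.H2

open Matrix NumberField Module Vale.Agent.P002R.Orb Vale.Agent.P002.H326J Vale.Agent.P002.H306

variable {ι : Type} {R : Set (FreeGroup ι)}

theorem relVS_iff' {A : Type} [AddCommGroup A] [Module ℂ A] {σ : FreeGroup ι → A}
    (hσ : ∀ x y, PresentedGroup.mk R x = PresentedGroup.mk R y → σ x = σ y)
    (K N : Subgroup (PresentedGroup R)) :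
    RelVS (K.comap (PresentedGroup.mk R)) (N.comap (PresentedGroup.mk R)) σ ↔
      ∃ B : Subgroup (PresentedGroup R), B ≤ K ∧ B.relIndex K ≠ 0 ∧
        ∃ m : ℕ, ∀ x : FreeGroup ι, PresentedGroup.mk R x ∈ (derivedSeries B m).map B.subtype →
          σ x ∈ Submodule.span ℂ {A | ∃ y, PresentedGroup.mk R y ∈ N ∧ A = σ y} := by
  have hs : {A | ∃ y, PresentedGroup.mk R y ∈ N ∧ A = σ y} =
      σ '' (N.comap (PresentedGroup.mk R) : Subgroup (FreeGroup ι)) := by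
    ext A
    constructor
    · rintro ⟨y, hy, rfl⟩
      exact ⟨y, hy, rfl⟩
    · rintro ⟨y, hy, rfl⟩
      exact ⟨y, hy, rfl⟩
  rw [hs]
  constructor
  · rintro ⟨B, hB, hi, k, hk⟩
    refine ⟨B.map (PresentedGroup.mk R), ?_, ?_, k, fun x hx => ?_⟩
    · rw [← comap_map_mk K]
      exact Subgroup.map_mono hB
    · rw [← comap_map_mk K, ← Subgroup.relIndex_comap]
      exact fun h => hi (Subgroup.relIndex_eq_zero_of_le_left (Subgroup.le_comap_map _ B) h)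
    · rw [derivedSeries_map_le] at hx
      obtain ⟨y, hy, hyx⟩ := hx
      rw [← hσ y x hyx]
      exact hk y hy
  · rintro ⟨B, hB, hi, k, hk⟩
    refine ⟨B.comap (PresentedGroup.mk R), Subgroup.comap_mono hB, ?_, k, fun x hx => ?_⟩
    · rw [Subgroup.relIndex_comap, comap_map_mk]
      exact hi
    · refine hk x ?_
      have h1 : PresentedGroup.mk R x ∈
          (dser (B.comap (PresentedGroup.mk R)) k).map (PresentedGroup.mk R) := ⟨x, hx, rfl⟩
      rw [← derivedSeries_map_le, comap_map_mk] at h1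
      exact h1

theorem hasType_iff {r s : ℕ} {w : Fin s → FreeGroup ι} {C₀ : Fin s → SpecialLinearGroup (Fin r) ℂ}
    {X : ι → SpecialLinearGroup (Fin r) ℂ} (hX : X ∈ YW R w C₀)
    (D : TypeDatum (PresentedGroup R)) (t' : FreeGroup ι → ℂ)
    (ht' : ∀ x (h : PresentedGroup.mk R x ∈ D.N), t' x = D.t ⟨PresentedGroup.mk R x, h⟩)
    (W : Submodule ℂ (Fin r → ℂ)) :
    HasType D X W ↔
      BType (D.N.comap (PresentedGroup.mk R)) (D.K.comap (PresentedGroup.mk R)) D.d t' X W := by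
  have hfac : ∀ (e : (Fin D.d → ℂ) →ₗ[ℂ] (Fin r → ℂ))
      (σ : FreeGroup ι → Matrix (Fin D.d) (Fin D.d) ℂ), Function.Injective e →
      (∀ x v, (FreeGroup.lift X x).1 *ᵥ e v = e (σ x *ᵥ v)) →
      ∀ x y, PresentedGroup.mk R x = PresentedGroup.mk R y → σ x = σ y := by
    intro e σ he h x y hxy
    obtain ⟨f, hf⟩ := exists_hom hX
    refine Matrix.mulVec_injective (funext fun v => he ?_)
    rw [← h, ← h, ← hf, ← hf, hxy]
  constructor
  · rintro ⟨e, σ, he, her, heq, hd, hirr, htr, hrel⟩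
    refine ⟨e, σ, he, her, heq, hd, hirr, fun z hz => ?_,
      (relVS_iff' (hfac e σ he heq) D.K D.N).2 hrel⟩
    rw [htr z hz, ht' z hz]
  · rintro ⟨e, σ, he, her, heq, hd, hirr, htr, hrel⟩
    refine ⟨e, σ, he, her, heq, hd, hirr, fun z hz => ?_,
      (relVS_iff' (hfac e σ he heq) D.K D.N).1 hrel⟩
    rw [htr z hz, ht' z hz]

/-- the shapes with a given number of blocks -/
theorem shapesM_finite (ι : Type) [Finite ι] (k r : ℕ) :
    {q : (Fin k → ℕ) × (Fin k → Subgroup (FreeGroup ι)) | (∀ a, q.1 a ≤ r) ∧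
      ∀ a, (q.2 a).relIndex ⊤ ≠ 0 ∧ (q.2 a).relIndex ⊤ ≤ r}.Finite := by
  have hf : Finite {H : Subgroup (FreeGroup ι) // H.index ≠ 0 ∧ H.index ≤ r} :=
    finite_index_le ι r
  refine (Set.finite_range (fun p : Fin k → Fin (r + 1) ×
    {H : Subgroup (FreeGroup ι) // H.index ≠ 0 ∧ H.index ≤ r} =>
      ((fun a => ((p a).1 : ℕ), fun a => (p a).2.1) :
        (Fin k → ℕ) × (Fin k → Subgroup (FreeGroup ι))))).subset ?_
  rintro ⟨n, H⟩ ⟨h2, h3⟩
  refine ⟨fun a => (⟨n a, Nat.lt_succ_of_le (h2 a)⟩, ⟨H a, ?_⟩), rfl⟩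
  have := h3 a
  rwa [Subgroup.relIndex_top_right] at this

/-- **The density theorem for representations with typed constituents.** -/
theorem main_multi [Finite ι] (r : ℕ) {s : ℕ}
    (w : Fin s → FreeGroup ι) (C₀ : Fin s → SpecialLinearGroup (Fin r) ℂ)
    (hC₀ : ∀ j z, IsEigenvalue (C₀ j) z → ∃ n : ℕ, 0 < n ∧ z ^ n = 1)
    (k : ℕ) (D : Fin k → TypeDatum (PresentedGroup R))
    (hD : ∀ a, (D a).Valid fun j => PresentedGroup.mk R (w j)) :
    ∃ L : IntermediateField ℚ ℂ, FiniteDimensional ℚ L ∧ IsDenseRep L (YMulti R w C₀ k D) := by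
  classical
  rcases Set.eq_empty_or_nonempty (YMulti R w C₀ k D) with h0 | ⟨X₀, hX₀, W₀, hW₀, -, -⟩
  · rw [h0]
    exact ⟨⊥, inferInstance, fun f _ X hX => absurd hX (Set.notMem_empty X)⟩
  obtain ⟨N₀, hN₀, hNe⟩ := exists_N C₀ hC₀
  have h1 := fun a => (hD a).1
  have h2 := fun a => (hD a).2.1
  have h3 := fun a => (hD a).2.2.1
  have h4 := fun a => (hD a).2.2.2
  choose O hOK hO using h3
  have h2' : ∀ a, (D a).N ≤ (O a).K := fun a => by rw [hOK a]; exact h2 a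
  -- the contexts
  obtain ⟨p, hp⟩ : ∃ p : Fin k → Pack (FreeGroup ι), ∀ a, p a =
      @Pack.mk (FreeGroup ι) _ (O a).I (actF (O a)) (ctxN (O a) w (D a).N (h1 a) (h2' a)) :=
    ⟨_, fun a => rfl⟩
  have hpZ : ∀ a, (p a).C.Z = (D a).N.comap (PresentedGroup.mk R) := fun a => by
    rw [hp a]
    rfl
  have hmem : ∀ a, ∀ z ∈ (p a).C.Z, PresentedGroup.mk R z ∈ (D a).N := fun a z hz => by
    rw [hpZ a] at hz
    exact hz
  have hpK : ∀ a, (p a).C.K = (D a).K.comap (PresentedGroup.mk R) := fun a => by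
    rw [hp a, ← hOK a]
    exact ctxN_K (O a) w (D a).N (h1 a) (h2' a)
  have hpR : ∀ a y, y ∈ (p a).C.Rel ↔ ∃ x j, ∃ n : ℤ, y = x * w j ^ n * x⁻¹ := fun a y => by
    rw [hp a]
    exact Iff.rfl
  -- the characters
  obtain ⟨t, ht⟩ : ∃ t : Fin k → FreeGroup ι → ℂ, ∀ a x (h : PresentedGroup.mk R x ∈ (D a).N),
      t a x = (D a).t ⟨PresentedGroup.mk R x, h⟩ :=
    ⟨fun a x => if h : PresentedGroup.mk R x ∈ (D a).N then (D a).t ⟨PresentedGroup.mk R x, h⟩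
      else 0, fun a x h => dif_pos h⟩
  have hty : ∀ a, ∀ X ∈ YW R w C₀, ∀ W, HasType (D a) X W ↔
      BType (p a).C.Z (p a).C.K (D a).d (t a) X W := fun a X hX W => by
    rw [hpZ, hpK]
    exact hasType_iff hX (D a) (t a) (ht a) W
  -- the reference representations
  have href := fun a => ((hty a X₀ hX₀ (W₀ a)).1 (hW₀ a)).coord
  choose φ₀ M₀ hφ₀ hd₀ hirr₀ htr₀ hrel₀ using href
  have hZn : ∀ a, (p a).C.Z.Normal := fun a => ⟨fun y hy x => (p a).C.hZ x y hy⟩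
  have hss₀ : ∀ a, SSg (p a).C.Z (M₀ a) := fun a =>
    ss_normalM _ (hZn a) (M₀ a) fun V hV => by
      rcases hirr₀ a V fun x v hv => hV x trivial v hv with h | h
      · exact ⟨⊤, fun z _ v _ => trivial, by rw [h]; exact isCompl_bot_top⟩
      · refine ⟨⊥, fun z _ v hv => ?_, by rw [h]; exact isCompl_top_bot⟩
        rw [Submodule.mem_bot] at hv ⊢
        rw [hv, Matrix.mulVec_zero]
  have hint₀ : ∀ a, ∀ z ∈ (p a).C.Z, ∀ c, (M₀ a z).charpoly.IsRoot c →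
      IsIntegral ℤ c ∧ IsIntegral ℤ c⁻¹ := by
    intro a z hz c hc
    refine eig_of_traceM ((M₀ a).comp (p a).C.Z.subtype) (fun V hV => ?_) (fun z => ?_)
      ⟨z, hz⟩ c hc
    · obtain ⟨V', h5, h6⟩ := hss₀ a V fun z hz v hv => by
        have h7 := hV ⟨z, hz⟩ v hv
        rwa [Matrix.toLin'_apply] at h7
      refine ⟨V', fun z v hv => ?_, h6⟩
      rw [Matrix.toLin'_apply]
      exact h5 z.1 z.2 v hv
    · have h5 : IsIntegral ℤ (M₀ a z.1).trace := by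
        rw [htr₀ a z.1 z.2]
        rw [ht a z.1 (hmem a z.1 z.2)]
        exact h4 a _
      exact h5
  -- the fields and the units
  have hgb : ∀ a, ∃ L : IntermediateField ℚ ℂ, FiniteDimensional ℚ L ∧
      ∀ (V : Type) [AddCommGroup V] [Module ℂ V] [FiniteDimensional ℂ V]
      (ρ : FreeGroup ι → Module.End ℂ V), Module.finrank ℂ V ≤ r →
        AdmM (p a).C N₀ (fun x => M₀ a x) ρ → GoodA (p a).C L ⊤ ρ := by
    intro a
    have h5 := good_block (O a) r w (hO a) (D a).N (h1 a) (h2' a) N₀ hN₀ (fun x => M₀ a x)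
      (by
        have h6 := hint₀ a
        rw [hpZ a] at h6
        exact h6)
    rw [hp a]
    exact h5
  choose La hLa hLg using hgb
  obtain ⟨L, hL, hLL⟩ := exists_sup (Set.univ : Set (Fin k)) Set.finite_univ
    (fun a L => La a ≤ L) (fun _ _ _ h h' => h'.trans h) (fun a _ => ⟨La a, hLa a, le_rfl⟩)
  have hun := fun a => H252.unitGroup (p a).C.Z (fun x => M₀ a x) (hint₀ a) r
  choose Ua hUa hUai hUau using hun
  obtain ⟨U, hUf, hUi, hUU⟩ := unit_sup Ua hUa hUai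
  obtain ⟨L₂, hL₂, hT⟩ := exists_sup _ (shapesM_finite ι k r)
    (fun q L => ∀ t : (Shape.mk k q.1 q.2 : Shape (FreeGroup ι)).J → ℂˣ,
      (∀ b ∈ consM (Shape.mk k q.1 q.2) p, mono t b ^ (2 * N₀ * r.factorial) ∈ U) →
      ∀ Ψ ∈ LauJ (Shape.mk k q.1 q.2 : Shape (FreeGroup ι)).J, Ψ t ≠ 0 →
      ∃ t' : (Shape.mk k q.1 q.2 : Shape (FreeGroup ι)).J → ℂˣ,
        (∀ b ∈ consM (Shape.mk k q.1 q.2) p, mono t' b = mono t b) ∧
          (∀ j, InO L (t' j : ℂ) ∧ InO L (((t' j)⁻¹ : ℂˣ) : ℂ)) ∧ Ψ t' ≠ 0)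
    (fun q L L' hL h => torusA_mono _ _ U L L' hL h)
    (fun q _ => H377.torusU _ (Nat.mul_pos (Nat.mul_pos two_pos hN₀) (Nat.factorial_pos r)) _ U
      hUf hUi)
  refine ⟨L ⊔ L₂, IntermediateField.finiteDimensional_sup _ _, ?_⟩
  intro f hf X hX
  by_contra hfX
  obtain ⟨hXY, W, hW, hWs, hWd⟩ := hX
  have hWt : ∀ a, BType (p a).C.Z (p a).C.K (D a).d (t a) X (W a) := fun a =>
    (hty a X hXY (W a)).1 (hW a)
  have hXw : ∀ j z, (mh X (w j)).charpoly.IsRoot z → z ^ N₀ = 1 := by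
    intro j z hz
    refine hNe j z ?_
    change (C₀ j).1.charpoly.IsRoot z
    have h1 := charpoly_isConj (hXY.2 j)
    rw [← h1]
    exact hz
  have hXe : ∀ a, ∀ y ∈ (p a).C.Rel, ∀ (v : Fin r → ℂ) (c : ℂ), v ≠ 0 → mh X y *ᵥ v = c • v →
      c ^ N₀ = 1 := fun a y hy v c hv hc => eig_rel w X hXw y ((hpR a y).1 hy) v hv c hc
  have hWi : ∀ a, IrrSub (rep X) (W a) := fun a => btype_irr (hWt a)
  obtain ⟨ρU, hρU⟩ : ∃ ρU : ∀ a, FreeGroup ι → Module.End ℂ (W a),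
      ∀ a x (v : W a), ((ρU a x v : W a) : Fin r → ℂ) = rep X x v :=
    ⟨fun a x => (rep X x).restrict ((hWi a).2.1 x), fun a x v => rfl⟩
  have hWr : ∀ a, finrank ℂ (W a) ≤ r := fun a => by
    have := Submodule.finrank_le (W a)
    rwa [Module.finrank_fin_fun] at this
  have hg : ∀ a, GoodA (p a).C L ⊤ (ρU a) := by
    intro a
    have h5 := hLg a (W a) (ρU a) (hWr a)
      (admM_sub (p a).C (hWt a) (hss₀ a) (htr₀ a) (hXe a) (ρU a) (hρU a)).1
    obtain ⟨H', n, e, χ, σ, g1, g2, g3, g4, g5, g6, g7, g8, g9, g10⟩ := h5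
    exact ⟨H', n, e, χ, σ, g1, g2, g3, g4, g5, g6, g7.mono (hLL a trivial), g8, g9, g10⟩
  obtain ⟨n, H, χ, σ, ε, P, hF⟩ := exists_formM L X p W hWi hWs
    (by rw [hWd, Module.finrank_fin_fun]) ρU hρU hg
  have hXZ : ∀ a, UnitInM (p a).C.Z X (W a) U := by
    intro a
    refine unitInM_sub (p a).C (hWi a).2.1 (M₀ := fun x => M₀ a x) (fun ρ' hρ' =>
      (admM_sub (p a).C (hWt a) (hss₀ a) (htr₀ a) (hXe a) ρ' hρ').2)
      fun H n χ τ g1 g2 g3 g4 g5 k hk => hUU a (hUau a H n χ τ g1 g2 g3 g4 g5 k hk)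
  obtain ⟨X', hX'1, hX'2, hX'3, V', hV'1, hV'2, hV'3⟩ := coreM (R := R) (w := w) (C₀ := C₀)
    (L₂ := L₂) hF (fun a z hz => by
      rw [hpZ a, SetLike.mem_coe, Subgroup.mem_comap,
        (mk_eq_one R z).2 (Subgroup.subset_normalClosure hz)]
      exact one_mem _) hpR U
    (hT (n, H) ⟨hF.nle, fun a => ⟨hF.qne a, hF.qle a⟩⟩) hXY hXZ hXe (fun a => (D a).d) t hWt f hfX
  exact hX'3 (hf X' ⟨hX'1, V', fun a => (hty a X' hX'1 (V' a)).2 (hV'1 a), hV'2, hV'3⟩ hX'2)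

end Vale.Agent.P002.H2
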