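import Vale.Agent.P002.H2.MH
import Vale.Agent.P002.H252.Bb4
import Vale.Agent.P002.Bd3.B14

/-!
# The uniform theorem
-/

namespace Vale.Agent.P002.H2

open Matrix NumberField Vale.Agent.P002R.Orb Vale.Agent.P002.H326J Vale.Agent.P002.H252

variable {ι : Type} {R : Set (FreeGroup ι)}

/-- if `K` is virtually solvable modulo `N` and the traces on `N` are integral then `X` is typed -/
theorem isTyped_of_trace {r s : ℕ} (w : Fin s → FreeGroup ι)
    (C₀ : Fin s → SpecialLinearGroup (Fin r) ℂ)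
    (O : OrbFamily (PresentedGroup R)) (hO : ∀ j, O.IsPeripheral (PresentedGroup.mk R (w j)))
    (N : Subgroup (PresentedGroup R)) (hN : N.Normal) (hNK : N ≤ O.K) (hK : VSMod O.K N)
    (X : ι → SpecialLinearGroup (Fin r) ℂ) (hX : X ∈ YW R w C₀)
    (ht : ∀ x, PresentedGroup.mk R x ∈ N → IsIntegral ℤ (FreeGroup.lift X x).1.trace) :
    IsTyped R w X := by
  obtain ⟨f, hf⟩ := exists_hom hX
  obtain ⟨t, ht'⟩ : ∃ t : N → ℂ, ∀ x, t x = (f x.1).1.trace := ⟨_, fun x => rfl⟩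
  refine isTyped_of_yrel R w C₀ O hO N hN hNK t (fun x => ?_) X ?_
  · obtain ⟨y, hy⟩ := mk_surj R x.1
    rw [ht', ← hy, hf]
    exact ht y (by rw [hy]; exact x.2)
  · rw [yrel_eq w C₀ O.K N t hK]
    refine ⟨hX, fun x hx => ?_⟩
    rw [ht', ← hf]

theorem uniform_open [Finite ι] {r s : ℕ} (w : Fin s → FreeGroup ι)
    (C : Fin s → SpecialLinearGroup (Fin r) ℂ)
    (hC : ∀ j z, IsEigenvalue (C j) z → ∃ n : ℕ, 0 < n ∧ z ^ n = 1)
    (P : Set (MvPolynomial (ι × Fin r × Fin r) ℂ))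
    (B : ℕ → Set (MvPolynomial (ι × Fin r × Fin r) ℂ))
    (hB : ∀ n, IsDenseIn (OpenIn (OpenIn (YW R w C) P) (B n)) (OpenIn (YW R w C) P))
    (hT : ∀ X ∈ OpenIn (YW R w C) P, (∀ n, ∃ F ∈ B n, value F X ≠ 0) → IsTyped R w X) :
    ∃ L : IntermediateField ℚ ℂ, FiniteDimensional ℚ L ∧
      IsDense R L (OpenIn (YW R w C) P) ∧ IsDenseRep L (OpenIn (YW R w C) P) := by
  obtain ⟨L, hL, h⟩ := uniform_type R w C (fun k D hD => main_multi r w C hC k D hD) P B hB hT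
  exact ⟨L, hL, h.isDense, h⟩

theorem uniform_all [Finite ι] {r s : ℕ} (w : Fin s → FreeGroup ι)
    (C : Fin s → SpecialLinearGroup (Fin r) ℂ)
    (hC : ∀ j z, IsEigenvalue (C j) z → ∃ n : ℕ, 0 < n ∧ z ^ n = 1)
    (hT : ∀ X ∈ YW R w C, IsTyped R w X) :
    ∃ L : IntermediateField ℚ ℂ, FiniteDimensional ℚ L ∧
      IsDense R L (YW R w C) ∧ IsDenseRep L (YW R w C) := by
  obtain ⟨L, hL, h⟩ := final_uniform R w C (fun k D hD => main_multi r w C hC k D hD) hT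
  exact ⟨L, hL, h.isDense, h⟩

end Vale.Agent.P002.H2
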