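import Vale.Agent.P002.H627.S4
import Vale.Agent.P002.H2.L6

/-!
# Tensor products of a fixed integral representation with deformable ones
-/

namespace Vale.Agent.P002.H2

open Matrix NumberField Module Vale.Agent.P002R.Orb Kronecker Vale.Agent.P002.H627

variable {F : Type} [Group F] {I : Type} [MulAction F I]

/-- Agreement on a term of the derived series of a subgroup of finite index. -/
def Agr {M : Type*} (A : Subgroup F) (σ σ' : F → M) : Prop :=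
  ∃ B : Subgroup F, B ≤ A ∧ B.relIndex A ≠ 0 ∧ ∃ k, ∀ x ∈ dser B k, σ' x = σ x

/-- `σ'` is an integral deformation of `σ` on `H`, constant on a term of the derived series of a
subgroup of finite index of `C.K ⊓ H`. -/
structure IsDefA (C : Ctx F I) (L : IntermediateField ℚ ℂ) (H : Subgroup F)
    {n : Type} [Fintype n] [DecidableEq n] (σ σ' : F → SpecialLinearGroup n ℂ) : Prop where
  mul : MulOn H σ'
  int : ∃ Q : (Matrix n n ℂ)ˣ, IntOn L H fun x => Q.1 * (σ' x).1 * (Q⁻¹).1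
  z : ∀ x ∈ C.Z, σ' x = σ x
  rel : ∀ y ∈ C.Rel, y ∈ H → IsConj (σ y) (σ' y)
  agr : Agr (C.K ⊓ H) σ σ'

/-- the corresponding density property -/
def DA (C : Ctx F I) (L : IntermediateField ℚ ℂ) (H : Subgroup F)
    {n : Type} [Fintype n] [DecidableEq n] (σ : F → SpecialLinearGroup n ℂ) : Prop :=
  ∀ P ∈ PF H n, P σ ≠ 0 → ∃ σ', IsDefA C L H σ σ' ∧ P σ' ≠ 0

theorem Agr.of_vs {M : Type*} [Monoid M] {A : Subgroup F} {σ σ' : F → M} (h : VS A σ)
    (h' : VS A σ') : Agr A σ σ' := by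
  obtain ⟨B, hB, hi1, k, hk⟩ := h
  obtain ⟨B', hB', hi2, k', hk'⟩ := h'
  refine ⟨B ⊓ B', inf_le_left.trans hB, Subgroup.relIndex_inf_ne_zero hi1 hi2, max k k',
    fun x hx => ?_⟩
  rw [hk x (dser_anti B (le_max_left k k') (dser_mono inf_le_left _ hx)),
    hk' x (dser_anti B' (le_max_right k k') (dser_mono inf_le_right _ hx))]

theorem Agr.map {M M' : Type*} {A : Subgroup F} {σ σ' : F → M} (h : Agr A σ σ')
    (f : F → M → M') : Agr A (fun x => f x (σ x)) (fun x => f x (σ' x)) := by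
  obtain ⟨B, hB, hi, k, hk⟩ := h
  exact ⟨B, hB, hi, k, fun x hx => congrArg (f x) (hk x hx)⟩

theorem IsDef.isDefA {C : Ctx F I} {L : IntermediateField ℚ ℂ} {H : Subgroup F}
    {n : Type} [Fintype n] [DecidableEq n] {σ σ' : F → SpecialLinearGroup n ℂ}
    (h : IsDef C L H σ σ') (hvs : VS (C.K ⊓ H) σ) : IsDefA C L H σ σ' :=
  ⟨h.mul, h.int, h.z, h.rel, Agr.of_vs hvs h.vs⟩

/-- the tensor product of a fixed integral representation and a deformable one -/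
theorem D.kronA {C : Ctx F I} {L : IntermediateField ℚ ℂ} {H : Subgroup F}
    {n m : Type} [Fintype n] [DecidableEq n] [Fintype m] [DecidableEq m]
    {α : F → SpecialLinearGroup m ℂ} {σ : F → SpecialLinearGroup n ℂ}
    (hα : MulOn H α) (hint : ∃ Q : (Matrix m m ℂ)ˣ, IntOn L H fun x => Q.1 * (α x).1 * (Q⁻¹).1)
    (hD : D C L H σ) (hvs : VS (C.K ⊓ H) σ) : DA C L H fun x => kron (α x) (σ x) := by
  intro P hP h0
  have e2 : (fun τ₁ : F → SpecialLinearGroup n ℂ => P fun x => kron (α x) (τ₁ x)) ∈ PF H n := by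
    refine PF_comp (fun τ₁ x => kron (α x) (τ₁ x)) (fun x hx i j => ?_) hP
    exact mul_mem (PF_const H ((α x).1 i.1 j.1)) (PF_entry hx i.2 j.2)
  obtain ⟨τ', hτ', h4⟩ := hD _ e2 h0
  refine ⟨fun x => kron (α x) (τ' x), ⟨⟨?_, fun x hx y hy => ?_⟩, ?_, fun x hx => ?_,
    fun y hy hyH => kron_isConj (IsConj.refl _) (hτ'.rel y hy hyH), ?_⟩, h4⟩
  · rw [hα.one, hτ'.mul.one, kron_one]
  · rw [hα.mul x hx y hy, hτ'.mul.mul x hx y hy, kron_mul]
  · obtain ⟨Q, hQ⟩ := hint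
    obtain ⟨Q', hQ'⟩ := hτ'.int
    refine ⟨kronU Q Q', fun x hx i j => ?_⟩
    have h5 : (kronU Q Q').1 * (kron (α x) (τ' x)).1 * ((kronU Q Q')⁻¹).1 =
        (Q.1 * (α x).1 * (Q⁻¹).1) ⊗ₖ (Q'.1 * (τ' x).1 * (Q'⁻¹).1) := by
      rw [Matrix.mul_kronecker_mul, Matrix.mul_kronecker_mul]
      rfl
    have h6 := OL_mul (hQ x hx i.1 j.1) (hQ' x hx i.2 j.2)
    obtain ⟨a, ha⟩ := h6
    exact ⟨a, (congrFun (congrFun h5 i) j).trans ha⟩
  · rw [hτ'.z x hx]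
  · exact (Agr.of_vs hvs hτ'.vs).map fun x A => kron (α x) A

theorem DA.reidx {n m : Type} [Fintype n] [DecidableEq n] [Fintype m] [DecidableEq m]
    {C : Ctx F I} {L : IntermediateField ℚ ℂ} {H : Subgroup F} (e : n ≃ m)
    {σ : F → SpecialLinearGroup n ℂ} (h : DA C L H σ) :
    DA C L H fun x => reidx e (σ x) := by
  intro P hP h0
  have e1 : (fun σ₁ : F → SpecialLinearGroup n ℂ => P fun x => H2.reidx e (σ₁ x)) ∈ PF H n :=
    PF_comp (fun σ₁ x => H2.reidx e (σ₁ x)) (fun x hx i j => PF_entry hx (e.symm i) (e.symm j)) hP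
  obtain ⟨σ', hσ', h3⟩ := h _ e1 h0
  refine ⟨fun x => H2.reidx e (σ' x), ⟨⟨?_, fun x hx y hy => ?_⟩, ?_, fun x hx => ?_,
    fun y hy hyH => ?_, ?_⟩, h3⟩
  · rw [hσ'.mul.one, reidx_one]
  · rw [hσ'.mul.mul x hx y hy, reidx_mul]
  · obtain ⟨Q, hQ⟩ := hσ'.int
    refine ⟨⟨Matrix.reindex e e Q.1, Matrix.reindex e e (Q⁻¹).1, ?_, ?_⟩, fun x hx i j => ?_⟩
    · simp [Matrix.reindex_apply, Matrix.submatrix_mul_equiv]
    · simp [Matrix.reindex_apply, Matrix.submatrix_mul_equiv]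
    · have h5 : Matrix.reindex e e Q.1 * (H2.reidx e (σ' x)).1 * Matrix.reindex e e (Q⁻¹).1 =
          Matrix.reindex e e (Q.1 * (σ' x).1 * (Q⁻¹).1) := by
        change Matrix.reindex e e Q.1 * Matrix.reindex e e (σ' x).1 * Matrix.reindex e e (Q⁻¹).1 = _
        simp only [Matrix.reindex_apply, Matrix.submatrix_mul_equiv]
      obtain ⟨a, ha⟩ := hQ x hx (e.symm i) (e.symm j)
      exact ⟨a, (congrFun (congrFun h5 i) j).trans ha⟩
  · rw [hσ'.z x hx]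
  · obtain ⟨c, hc⟩ := isConj_iff.1 (hσ'.rel y hy hyH)
    refine isConj_iff.2 ⟨H2.reidx e c, ?_⟩
    rw [mul_inv_eq_iff_eq_mul, ← reidx_mul, ← reidx_mul, ← hc, inv_mul_cancel_right]
  · exact hσ'.agr.map fun x A => H2.reidx e A

theorem DA.mono {C : Ctx F I} {L L' : IntermediateField ℚ ℂ} (h : L ≤ L') {H : Subgroup F}
    {n : Type} [Fintype n] [DecidableEq n] {σ : F → SpecialLinearGroup n ℂ} (hD : DA C L H σ) :
    DA C L' H σ := by
  intro P hP h0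
  obtain ⟨σ', h1, h2⟩ := hD P hP h0
  obtain ⟨Q, hQ⟩ := h1.int
  exact ⟨σ', ⟨h1.mul, ⟨Q, hQ.mono h⟩, h1.z, h1.rel, h1.agr⟩, h2⟩

/-- `ρ` (a representation of `H`) is induced from `χ ⊗ σ` on `H' ≤ H`, and `DA` holds for `σ`. -/
def GoodA (C : Ctx F I) (L : IntermediateField ℚ ℂ) (H : Subgroup F)
    {V : Type} [AddCommGroup V] [Module ℂ V] (ρ : F → Module.End ℂ V) : Prop :=
  ∃ (H' : Subgroup F) (n : ℕ) (e : (Fin n → ℂ) →ₗ[ℂ] V) (χ : F → ℂˣ)
    (σ : F → SpecialLinearGroup (Fin n) ℂ),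
    H' ≤ H ∧ C.Z ≤ H' ∧ H'.relIndex H ≠ 0 ∧ Function.Injective e ∧
    MulOn H' χ ∧ MulOn H' σ ∧ DA C L H' σ ∧
    (∀ x ∈ H', ∀ v, ρ x (e v) = (χ x : ℂ) • e ((σ x).1 *ᵥ v)) ∧
    (⨆ x ∈ H, (LinearMap.range e).map (ρ x)) = ⊤ ∧
    Module.finrank ℂ V = H'.relIndex H * n

/-- The isotypic form of a representation with respect to a normal subgroup `Z`: `ρ` is induced
from `α ⊗ β`, `Z` acts irreducibly on `α` and by scalars on `β`. -/
structure Iso (Z H : Subgroup F) {V : Type} [AddCommGroup V] [Module ℂ V]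
    (ρ : F → Module.End ℂ V) (H' : Subgroup F) {a b : ℕ} (e : (Fin a × Fin b → ℂ) →ₗ[ℂ] V)
    (α : F → SpecialLinearGroup (Fin a) ℂ) (β : F → (Matrix (Fin b) (Fin b) ℂ)ˣ) : Prop where
  hle : H' ≤ H
  Zle : Z ≤ H'
  fi : H'.relIndex H ≠ 0
  inj : Function.Injective e
  mα : MulOn H' α
  mβ : MulOn H' β
  irrα : Irr Z (lin α)
  scal : Scal Z (lu β)
  irrβ : Irr H' (lu β)
  eq : ∀ x ∈ H', ∀ v, ρ x (e v) = e (((α x).1 ⊗ₖ (β x).1) *ᵥ v)
  span : (⨆ x ∈ H, (LinearMap.range e).map (ρ x)) = ⊤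
  dim : Module.finrank ℂ V = H'.relIndex H * (a * b)

end Vale.Agent.P002.H2
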