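import Vale.Agent.P002.H2.TA

/-!
# Representations induced from `α ⊗ β`, `β` good
-/

namespace Vale.Agent.P002.H2

open Matrix NumberField Module Vale.Agent.P002R.Orb Kronecker Vale.Agent.P002.H627

variable {F : Type} [Group F] {I : Type} [MulAction F I]
variable {V : Type} [AddCommGroup V] [Module ℂ V]

theorem vs_sigma {K H : Subgroup F} {b n : ℕ} {β : F → (Matrix (Fin b) (Fin b) ℂ)ˣ}
    {e : (Fin n → ℂ) →ₗ[ℂ] (Fin b → ℂ)} {χ : F → ℂˣ} {σ : F → SpecialLinearGroup (Fin n) ℂ}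
    (he : Function.Injective e) (hσ : MulOn H σ)
    (heq : ∀ x ∈ H, ∀ v, lu β x (e v) = (χ x : ℂ) • e ((σ x).1 *ᵥ v))
    (hvs : VS (K ⊓ H) (lu β)) : VS (K ⊓ H) σ := by
  have h1 : VS (K ⊓ H) (lin σ) := by
    refine vs_of_scal hvs (MulOn.mono (lin_mulOn hσ) inf_le_right) fun x hx h => ?_
    refine ⟨((χ x)⁻¹ : ℂˣ).1, LinearMap.ext fun v => he ?_⟩
    have h2 := heq x hx.2 v
    rw [h, Module.End.one_apply] at h2
    change e ((σ x).1 *ᵥ v) = e (((χ x)⁻¹ : ℂˣ).1 • v)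
    rw [map_smul, h2, smul_smul, ← Units.val_mul, inv_mul_cancel, Units.val_one, one_smul]
  refine h1.of_imp fun x _ hx => ?_
  apply Subtype.ext
  apply Matrix.toLin'.injective
  change lin σ x = Matrix.toLin' 1
  rw [hx, Matrix.toLin'_one]
  rfl

theorem goodA_of_iso [FiniteDimensional ℂ V] {C : Ctx F I} {L : IntermediateField ℚ ℂ}
    {H : Subgroup F} {ρ : F → Module.End ℂ V} (hρ : MulOn H ρ) (hirr : Irr H ρ)
    {H₁ : Subgroup F} {a b : ℕ} {e : (Fin a × Fin b → ℂ) →ₗ[ℂ] V}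
    {α : F → SpecialLinearGroup (Fin a) ℂ} {β : F → (Matrix (Fin b) (Fin b) ℂ)ˣ}
    (h : Iso C.Z H ρ H₁ e α β)
    (hint : ∃ Q : (Matrix (Fin a) (Fin a) ℂ)ˣ, IntOn L H₁ fun x => Q.1 * (α x).1 * (Q⁻¹).1)
    (hvs : VS (C.K ⊓ H₁) (lu β)) (hg : Good C L H₁ (lu β)) : GoodA C L H ρ := by
  obtain ⟨H₂, n₂, e₂, χ₂, σ₂, hH₂, hZ₂, hfi₂, he₂, hχ₂, hσ₂, hD₂, heq₂, -, hdim₂⟩ := hg
  have hVn := hirr.1
  let ε : Fin a × Fin n₂ ≃ Fin (a * n₂) := finProdFinEquiv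
  let E₁ : Matrix (Fin a) (Fin a) ℂ := 1
  let E₂ := LinearMap.toMatrix' e₂
  let f : (Fin (a * n₂) → ℂ) →ₗ[ℂ] V :=
    e ∘ₗ Matrix.toLin' (E₁ ⊗ₖ E₂) ∘ₗ LinearMap.funLeft ℂ ℂ ε
  have hf : ∀ v, f v = e ((E₁ ⊗ₖ E₂) *ᵥ (v ∘ ε)) := fun v => rfl
  have hinj : Function.Injective f := by
    obtain ⟨g₂, hg₂⟩ := LinearMap.exists_leftInverse_of_injective e₂ (LinearMap.ker_eq_bot.2 he₂)
    have h1 : E₁ * E₁ = 1 := Matrix.one_mul _
    have h2 : LinearMap.toMatrix' g₂ * E₂ = 1 := by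
      rw [← LinearMap.toMatrix'_comp, hg₂, LinearMap.toMatrix'_id]
    intro v w hvw
    rw [hf, hf] at hvw
    have h3 := congrArg (fun u => (E₁ ⊗ₖ LinearMap.toMatrix' g₂) *ᵥ u) (h.inj hvw)
    simp only [Matrix.mulVec_mulVec, ← Matrix.mul_kronecker_mul, h1, h2,
      Matrix.one_kronecker_one, Matrix.one_mulVec] at h3
    funext i
    have h4 := congrFun h3 (ε.symm i)
    simpa using h4
  have hdimV : finrank ℂ V = H₂.relIndex H * (a * n₂) := by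
    rw [Module.finrank_fin_fun] at hdim₂
    rw [h.dim, hdim₂, ← Subgroup.relIndex_mul_relIndex _ _ _ hH₂ h.hle]
    ring
  refine ⟨H₂, a * n₂, f, χ₂, fun x => reidx ε (kron (α x) (σ₂ x)),
    hH₂.trans h.hle, hZ₂, Subgroup.relIndex_ne_zero_trans hfi₂ h.fi, hinj, hχ₂, ?_,
    (hD₂.kronA (MulOn.mono h.mα hH₂) ?_ ?_).reidx ε, ?_,
    sup_eq_top hρ hirr (range_ne_bot hinj hdimV), hdimV⟩
  · refine ⟨by rw [h.mα.one, hσ₂.one, kron_one, reidx_one], fun x hx y hy => ?_⟩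
    rw [h.mα.mul x (hH₂ hx) y (hH₂ hy), hσ₂.mul x hx y hy, kron_mul, reidx_mul]
  · obtain ⟨Q, hQ⟩ := hint
    exact ⟨Q, fun x hx => hQ x (hH₂ hx)⟩
  · exact vs_sigma he₂ hσ₂ heq₂ (hvs.mono (inf_le_inf_left _ hH₂))
  · intro x hx v
    have h6 : ∀ v, (α x).1 *ᵥ (LinearMap.id (M := Fin a → ℂ) (R := ℂ) v) =
        (1 : ℂ) • (LinearMap.id (M := Fin a → ℂ) (R := ℂ)) ((α x).1 *ᵥ v) := fun v => by
      rw [one_smul]
      rfl
    have h7 : (α x).1 * E₁ = E₁ * (α x).1 := by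
      change (α x).1 * 1 = 1 * (α x).1
      rw [Matrix.mul_one, Matrix.one_mul]
    rw [hf, h.eq x (hH₂ hx), Matrix.mulVec_mulVec, ← Matrix.mul_kronecker_mul,
      h7, toMatrix'_rel (fun v => heq₂ x hx v),
      Matrix.kronecker_smul, Matrix.mul_kronecker_mul,
      Matrix.smul_mulVec, ← Matrix.mulVec_mulVec, map_smul, hf]
    congr 3
    change _ = (((kron (α x) (σ₂ x)).1.submatrix ε.symm ε.symm) *ᵥ v) ∘ ε
    rw [Matrix.submatrix_mulVec_equiv]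
    funext p
    simp [kron_val]

/-- `β` is admissible -/
theorem Iso.adm {C : Ctx F I} {N₀ : ℕ} {H : Subgroup F} {ρ : F → Module.End ℂ V}
    {H₁ : Subgroup F} {a b : ℕ} {e : (Fin a × Fin b → ℂ) →ₗ[ℂ] V}
    {α : F → SpecialLinearGroup (Fin a) ℂ} {β : F → (Matrix (Fin b) (Fin b) ℂ)ˣ}
    (h : Iso C.Z H ρ H₁ e α β) (hH : H.index ≠ 0)
    (heig : ∀ y ∈ C.Rel, y ∈ H → ∀ a b, (ρ y).HasEigenvalue a → (ρ y).HasEigenvalue b →
      a ^ N₀ = b ^ N₀)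
    (hvs : ∃ B ≤ C.K, B.relIndex C.K ≠ 0 ∧ ∃ k, ∀ x ∈ dser B k,
      ρ x ∈ Submodule.span ℂ (ρ '' C.Z))
    (ha : Nonempty (Fin a)) : Adm C N₀ H₁ (lu β) := by
  have hb := h.irrβ.1
  have hV : ∀ x ∈ H₁, ∀ (s : ℂ) (t : ℂ), (lu (fun x => (⟨(α x).1, ((α x)⁻¹).1,
      congrArg Subtype.val (mul_inv_cancel (α x)), congrArg Subtype.val (inv_mul_cancel (α x))⟩ :
        (Matrix (Fin a) (Fin a) ℂ)ˣ)) x).HasEigenvalue s → (lu β x).HasEigenvalue t →
        (ρ x).HasEigenvalue (s * t) := by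
    intro x hx s t hs ht
    obtain ⟨u, hu⟩ := hs.exists_hasEigenvector
    obtain ⟨w, hw⟩ := ht.exists_hasEigenvector
    have hu1 : (α x).1 *ᵥ u = s • u := hu.apply_eq_smul
    have hw1 : (β x).1 *ᵥ w = t • w := hw.apply_eq_smul
    refine Module.End.hasEigenvalue_of_hasEigenvector (x := e (tp u w))
      ⟨Module.End.mem_eigenspace_iff.2 ?_, fun h0 => tp_ne_zero hu.2 hw.2
        (h.inj (h0.trans (map_zero e).symm))⟩
    rw [h.eq x hx, kron_mulVec, hu1, hw1, ← map_smul]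
    congr 1
    funext p
    simp only [tp, Pi.smul_apply, smul_eq_mul]
    ring
  refine ⟨lu_mulOn h.mβ, h.irrβ, h.Zle, ?_, h.scal, fun y hy hyH s t hs ht => ?_, ?_⟩
  · rw [← Subgroup.relIndex_mul_index h.hle]
    exact mul_ne_zero h.fi hH
  · obtain ⟨c, hc, hc1⟩ := lu_eigen (fun x => (⟨(α x).1, ((α x)⁻¹).1,
      congrArg Subtype.val (mul_inv_cancel (α x)), congrArg Subtype.val (inv_mul_cancel (α x))⟩ :
        (Matrix (Fin a) (Fin a) ℂ)ˣ)) y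
    have h3 := heig y hy (h.hle hyH) _ _ (hV y hyH c s hc1 hs) (hV y hyH c t hc1 ht)
    rw [mul_pow, mul_pow] at h3
    exact mul_left_cancel₀ (pow_ne_zero _ hc) h3
  · obtain ⟨B, hB, hBi, k, hk⟩ := hvs
    have hspan : ∀ T ∈ Submodule.span ℂ (ρ '' C.Z), ∃ A : Matrix (Fin a) (Fin a) ℂ,
        ∀ v, T (e v) = e ((A ⊗ₖ (1 : Matrix (Fin b) (Fin b) ℂ)) *ᵥ v) := by
      intro T hT
      induction hT using Submodule.span_induction with
      | mem T hT =>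
        obtain ⟨z, hz, rfl⟩ := hT
        obtain ⟨c, hc⟩ := h.scal z hz
        have h2 : (β z).1 = c • (1 : Matrix (Fin b) (Fin b) ℂ) := by
          apply Matrix.toLin'.injective
          rw [map_smul, Matrix.toLin'_one]
          exact hc
        refine ⟨c • (α z).1, fun v => ?_⟩
        rw [h.eq z (h.Zle hz), h2, Matrix.kronecker_smul, Matrix.smul_kronecker]
      | zero => exact ⟨0, fun v => by rw [Matrix.zero_kronecker, Matrix.zero_mulVec, map_zero]; rfl⟩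
      | add T T' _ _ hT hT' =>
        obtain ⟨A, hA⟩ := hT
        obtain ⟨A', hA'⟩ := hT'
        refine ⟨A + A', fun v => ?_⟩
        rw [LinearMap.add_apply, hA, hA', ← map_add, Matrix.add_kronecker, Matrix.add_mulVec]
      | smul c T _ hT =>
        obtain ⟨A, hA⟩ := hT
        refine ⟨c • A, fun v => ?_⟩
        rw [LinearMap.smul_apply, hA, Matrix.smul_kronecker, Matrix.smul_mulVec, map_smul]
    have key : ∀ x ∈ dser (B ⊓ H₁) k, ∃ c : ℂ, lu β x = c • (1 : Module.End ℂ (Fin b → ℂ)) := by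
      intro x hx
      have hxH : x ∈ H₁ := (dser_le _ _ hx).2
      obtain ⟨A, hA⟩ := hspan _ (hk x (dser_mono inf_le_left k hx))
      have h1 : (α x).1 ⊗ₖ (β x).1 = A ⊗ₖ (1 : Matrix (Fin b) (Fin b) ℂ) := by
        apply Matrix.toLin'.injective
        refine LinearMap.ext fun v => h.inj ?_
        rw [Matrix.toLin'_apply, Matrix.toLin'_apply, ← h.eq x hxH, hA]
      have h3 : (1 : Matrix (Fin a) (Fin a) ℂ) ⊗ₖ (β x).1 =
          (((α x)⁻¹).1 * A) ⊗ₖ (1 : Matrix (Fin b) (Fin b) ℂ) := by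
        have h4 : (((α x)⁻¹).1 ⊗ₖ (1 : Matrix (Fin b) (Fin b) ℂ)) * ((α x).1 ⊗ₖ (β x).1) =
            (((α x)⁻¹).1 ⊗ₖ (1 : Matrix (Fin b) (Fin b) ℂ)) *
              (A ⊗ₖ (1 : Matrix (Fin b) (Fin b) ℂ)) := by rw [h1]
        rw [← Matrix.mul_kronecker_mul, ← Matrix.mul_kronecker_mul, Matrix.one_mul,
          Matrix.one_mul] at h4
        have h5 : ((α x)⁻¹).1 * (α x).1 = 1 := congrArg Subtype.val (inv_mul_cancel (α x))
        rw [← h4, h5]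
      obtain ⟨i⟩ := ha
      refine ⟨(((α x)⁻¹).1 * A) i i, ?_⟩
      have h6 : (β x).1 = (((α x)⁻¹).1 * A) i i • (1 : Matrix (Fin b) (Fin b) ℂ) := by
        ext j l
        have h7 := congrFun (congrFun h3 (i, j)) (i, l)
        rw [kroneckerMap_apply, kroneckerMap_apply, Matrix.one_apply_eq, one_mul] at h7
        rw [h7, Matrix.smul_apply, smul_eq_mul]
      rw [lu, h6, map_smul, Matrix.toLin'_one]
      rfl
    have hle : B ⊓ H₁ ≤ C.K ⊓ H₁ := inf_le_inf_right _ hB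
    refine ⟨B ⊓ H₁, hle, ?_, k + 1, comm_eq_one (A := H₁) (lu_mulOn h.mβ)
      ((dser_le _ k).trans inf_le_right) ((dser_le _ k).trans inf_le_right)
      fun x hx y _ => scal_comm (key x hx)⟩
    intro h0
    refine hBi ?_
    have h1 : (B ⊓ H₁).relIndex (C.K ⊓ H₁) = B.relIndex (C.K ⊓ H₁) := by
      rw [← Subgroup.inf_relIndex_right B (C.K ⊓ H₁)]
      have h2 : B ⊓ (C.K ⊓ H₁) = B ⊓ H₁ := by
        rw [← inf_assoc, inf_eq_left.2 hB]
      rw [h2]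
    rw [h1] at h0
    exact Subgroup.relIndex_eq_zero_of_le_right inf_le_left h0

end Vale.Agent.P002.H2
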