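import Vale.Agent.P002.H2.TC

/-!
# The constraints on the characters
-/

namespace Vale.Agent.P002.H2

open Matrix NumberField Module Vale.Agent.P002R.Orb Vale.Agent.P002.H377 Vale.Agent.P002.H306

variable {ι : Type} {I : Type} [MulAction (FreeGroup ι) I] {C : Ctx (FreeGroup ι) I}
  {L : IntermediateField ℚ ℂ} {r : ℕ} {X : ι → SpecialLinearGroup (Fin r) ℂ}
  {T : Shape (FreeGroup ι)} {χ : ∀ _ : Fin T.k, FreeGroup ι → ℂˣ}
  {σ : ∀ a : Fin T.k, FreeGroup ι → SpecialLinearGroup (Fin (T.n a)) ℂ}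
  {ε : Fin r ≃ T.Ix} {P : (Matrix (Fin r) (Fin r) ℂ)ˣ}

theorem FormA.det_G (hF : FormA C L X T χ σ ε P) (x : FreeGroup ι) :
    (T.G (fun a => tw (χ a) (σ a)) x).det = 1 := by
  have h1 := congrArg Matrix.det (hF.eq x)
  rw [Matrix.det_mul, Matrix.det_mul, det_mh, one_mul, Matrix.det_submatrix_equiv_self] at h1
  have h2 : P.1.det ≠ 0 := ((Matrix.isUnit_iff_isUnit_det _).1 P.isUnit).ne_zero
  have h3 : P.1.det * 1 = P.1.det * (T.G (fun a => tw (χ a) (σ a)) x).det := by rw [mul_one, ← h1]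
  exact (mul_left_cancel₀ h2 h3).symm

/-- the characters of the constituents `χ ⊗ τ` of `X` satisfy `χ ^ n ∈ U` on `Z` -/
def UnitIn (Z : Subgroup (FreeGroup ι)) (X : ι → SpecialLinearGroup (Fin r) ℂ)
    (U : Subgroup ℂˣ) : Prop :=
  ∀ (H : Subgroup (FreeGroup ι)) (n : ℕ) (χ : FreeGroup ι → ℂˣ)
    (τ : FreeGroup ι → SpecialLinearGroup (Fin n) ℂ), H.index ≠ 0 → H.index ≤ r → Z ≤ H →
    MulOn H χ → (∃ e : (Fin n → ℂ) →ₗ[ℂ] (Fin r → ℂ), Function.Injective e ∧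
      ∀ k ∈ Z, ∀ v, mh X k *ᵥ e v = (χ k : ℂ) • e ((τ k).1 *ᵥ v)) →
    ∀ k ∈ Z, χ k ^ n ∈ U

theorem FormA.chi_Z (hF : FormA C L X T χ σ ε P) {U : Subgroup ℂˣ}
    (hX : UnitIn C.Z X U) (a : Fin T.k) {z : FreeGroup ι} (hz : z ∈ C.Z) :
    χ a z ^ T.n a ∈ U := by
  obtain ⟨e, he, he'⟩ := hF.sub a
  refine hX (T.H a) (T.n a) (χ a) (σ a) ?_ ?_ (hF.Zle a) (hF.hχ a)
    ⟨e, he, fun z hz v => ?_⟩ z hz
  · rw [← Subgroup.relIndex_top_right]
    exact hF.qne a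
  · rw [← Subgroup.relIndex_top_right]
    exact hF.qle a
  · have h1 := he' z (hF.Zle a hz) v
    rw [rep, Matrix.toLin'_apply] at h1
    rw [h1, tw, Matrix.smul_mulVec, map_smul]

theorem FormA.chi_Rel (hF : FormA C L X T χ σ ε P) {N₀ : ℕ}
    (hX : ∀ y ∈ C.Rel, ∀ (v : Fin r → ℂ) (c : ℂ), v ≠ 0 → mh X y *ᵥ v = c • v → c ^ N₀ = 1)
    (a : Fin T.k) {y : FreeGroup ι} (hy : y ∈ C.Rel) (hyH : y ∈ T.H a) :
    χ a y ^ (T.n a * N₀) = 1 := by
  obtain ⟨e, he, he'⟩ := hF.sub a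
  refine chi_pow_of_eig (χ a y) (σ a y) fun v z hv hz => ?_
  refine hX y hy (e v) z (fun h => hv (he (h.trans (map_zero e).symm))) ?_
  have h1 := he' y hyH v
  rw [tw, hz, map_smul, rep, Matrix.toLin'_apply] at h1
  exact h1

theorem FormA.cons_pow [Finite ι] (hF : FormA C L X T χ σ ε P) {N₀ : ℕ} {U : Subgroup ℂˣ}
    (hXZ : UnitIn C.Z X U)
    (hX : ∀ y ∈ C.Rel, ∀ (v : Fin r → ℂ) (c : ℂ), v ≠ 0 → mh X y *ᵥ v = c • v → c ^ N₀ = 1)
    (t : T.J → ℂˣ) (ht : ∀ a i, t ⟨a, i⟩ = χ a ((genP (T.H a)).2 i)) :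
    ∀ b ∈ cons C T, mono t b ^ (2 * N₀ * r.factorial) ∈ U := by
  classical
  have hdvd : ∀ a, T.n a ∣ r.factorial := fun a => Nat.dvd_factorial (hF.npos a) (hF.nle a)
  intro b hb
  unfold cons at hb
  induction hb using AddSubgroup.closure_induction with
  | mem b hb =>
    rcases hb with ⟨a, u, hu, rfl⟩ | ⟨x, rfl⟩
    · have h1 : mono t (T.vec a u) = χ a (FreeGroup.lift (genP (T.H a)).2 u) := by
        rw [T.mono_vec, ← lift_chi (hF.qne a) (hF.hχ a)]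
        simp only [ht]
      rw [h1]
      obtain ⟨d, hd⟩ := hdvd a
      rcases hu with hu | hu | hu
      · rw [hu, (hF.hχ a).one, one_pow]
        exact one_mem U
      · rw [hd, show 2 * N₀ * (T.n a * d) = T.n a * (2 * N₀ * d) by ring, pow_mul]
        exact pow_mem (hF.chi_Z hXZ a hu) _
      · rw [hd, show 2 * N₀ * (T.n a * d) = (T.n a * N₀) * (2 * d) by ring, pow_mul,
          hF.chi_Rel hX a hu (lift_gen_mem (hF.qne a) u), one_pow]
        exact one_mem U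
    · obtain ⟨δ, hδ, hdet⟩ := det_G_eq T hF.qne x
      have h1 := hdet χ σ
      rw [hF.det_G x] at h1
      have h2 : mono t (T.vx x) = (∏ a, (∏ p : Fin (T.q a) × Fin (T.q a),
          if (T.t a p.1)⁻¹ * x * T.t a p.2 ∈ T.H a then
          χ a ((T.t a p.1)⁻¹ * x * T.t a p.2) else 1) ^ T.n a : ℂˣ) := by
        rw [mono_vx]
        refine Finset.prod_congr rfl fun a _ => ?_
        congr 1
        refine Finset.prod_congr rfl fun p _ => ?_
        by_cases h3 : (T.t a p.1)⁻¹ * x * T.t a p.2 ∈ T.H a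
        · rw [if_pos h3, if_pos h3, chi_self T hF.qne χ hF.hχ t ht a h3]
        · rw [if_neg h3, if_neg h3]
      rw [← h2] at h1
      have h3 : mono t (T.vx x) ^ 2 = 1 := by
        apply Units.ext
        rw [Units.val_pow_eq_pow_val, Units.val_one]
        calc ((mono t (T.vx x) : ℂˣ) : ℂ) ^ 2 = (δ * ((mono t (T.vx x) : ℂˣ) : ℂ)) ^ 2 := by
              rw [mul_pow, hδ, one_mul]
          _ = 1 := by rw [← h1, one_pow]
      rw [show 2 * N₀ * r.factorial = 2 * (N₀ * r.factorial) by ring, pow_mul, h3,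
        one_pow]
      exact one_mem U
  | zero =>
    rw [mono_zero, one_pow]
    exact one_mem U
  | add a b _ _ ha hb =>
    rw [mono_add, mul_pow]
    exact mul_mem ha hb
  | neg a _ ha =>
    rw [mono_neg, inv_pow]
    exact inv_mem ha

/-- agreement on `K` -/
theorem agr_X (C : Ctx (FreeGroup ι) I) (T : Shape (FreeGroup ι))
    (τ τ' : ∀ a, FreeGroup ι → Matrix (Fin (T.n a)) (Fin (T.n a)) ℂ)
    (hT : ∀ a, (T.H a).relIndex ⊤ ≠ 0)
    (hKn : ∀ x, ∀ y ∈ C.K, x * y * x⁻¹ ∈ C.K)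
    (hagr : ∀ a, Agr (C.K ⊓ T.H a) (τ a) (τ' a)) :
    Agr C.K (T.G τ) (T.G τ') := by
  choose B hB1 hB2 m hm using hagr
  have hKn' : ∀ x, ∀ y ∈ C.K, x⁻¹ * y * x ∈ C.K := fun x y hy => by
    have := hKn x⁻¹ y hy
    rwa [inv_inv] at this
  -- the intersection of all conjugates
  obtain ⟨D, hD⟩ : ∃ D : Subgroup (FreeGroup ι), D = C.K ⊓ ⨅ p : (a : Fin T.k) × Fin (T.q a),
      (B p.1).map (MulAut.conj (T.t p.1 p.2)).toMonoidHom := ⟨_, rfl⟩
  have hDB : ∀ a c, ∀ j, ∀ x ∈ dser D j, (T.t a c)⁻¹ * x * T.t a c ∈ dser (B a) j := by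
    intro a c j x hx
    have h1 : D ≤ (B a).map (MulAut.conj (T.t a c)).toMonoidHom := by
      rw [hD]
      exact inf_le_right.trans (iInf_le (fun p : (a : Fin T.k) × Fin (T.q a) =>
        (B p.1).map (MulAut.conj (T.t p.1 p.2)).toMonoidHom) ⟨a, c⟩)
    have h2 := dser_mono h1 j hx
    rw [dser_conj] at h2
    obtain ⟨y, hy, hyx⟩ := h2
    have h3 : T.t a c * y * (T.t a c)⁻¹ = x := hyx
    rw [← h3]
    have h4 : (T.t a c)⁻¹ * (T.t a c * y * (T.t a c)⁻¹) * T.t a c = y := by group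
    rw [h4]
    exact hy
  refine ⟨D, by rw [hD]; exact inf_le_left, ?_, Finset.univ.sup m, fun x hx => ?_⟩
  · rw [hD, Subgroup.inf_relIndex_left]
    refine Subgroup.relIndex_iInf_ne_zero fun p => ?_
    refine relIndex_conj _ _ _ (hKn' _) (hKn _) ?_
    have h1 : (C.K ⊓ T.H p.1).relIndex C.K ≠ 0 := by
      rw [Subgroup.inf_relIndex_left]
      refine fun h => hT p.1 (Subgroup.relIndex_eq_zero_of_le_right le_top h)
    exact Subgroup.relIndex_ne_zero_trans (hB2 p.1) h1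
  · unfold Shape.G
    congr 1
    funext a
    have hBH : B a ≤ T.H a := (hB1 a).trans inf_le_right
    have hxa : ∀ c, (T.t a c)⁻¹ * x * T.t a c ∈ dser (B a) (m a) := fun c =>
      dser_anti (B a) (Finset.le_sup (Finset.mem_univ a)) (hDB a c _ x hx)
    have hxH : ∀ c, (T.t a c)⁻¹ * x * T.t a c ∈ T.H a := fun c =>
      hBH (dser_le _ _ (hxa c))
    refine indM_congr fun p q hpq => ?_
    have hpq' : p = q := by
      have h2 : (T.t a p)⁻¹ * T.t a q ∈ T.H a := by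
        have h3 := mul_mem hpq (inv_mem (hxH q))
        have h4 : (T.t a p)⁻¹ * x * T.t a q * ((T.t a q)⁻¹ * x * T.t a q)⁻¹ =
            (T.t a p)⁻¹ * T.t a q := by
          group
        rwa [h4] at h3
      obtain ⟨c, -, hu⟩ := (trv_spec (hT a)).uniq (T.t a q) trivial
      have h5 : p = c := hu _ h2
      have h6 : q = c := hu _ (by
        change (T.t a q)⁻¹ * T.t a q ∈ T.H a
        rw [inv_mul_cancel]
        exact one_mem _)
      exact h5.trans h6.symm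
    subst hpq'
    exact hm a _ (hxa p)

/-- agreement of twists -/
theorem agr_tw {n : ℕ} {K H : Subgroup (FreeGroup ι)} {χ χ' : FreeGroup ι → ℂˣ}
    {σ σ' : FreeGroup ι → SpecialLinearGroup (Fin n) ℂ} (hχ : MulOn H χ) (hχ' : MulOn H χ')
    (h : Agr (K ⊓ H) σ σ') : Agr (K ⊓ H) (tw χ σ) (tw χ' σ') := by
  obtain ⟨B, hB1, hB2, m, hm⟩ := h
  have hBH : B ≤ H := hB1.trans inf_le_right
  have key : ∀ {χ : FreeGroup ι → ℂˣ}, MulOn H χ → ∀ x ∈ dser B (m + 1), χ x = 1 := by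
    intro χ hχ x hx
    exact Vale.Agent.P002.H627.comm_eq_one hχ ((dser_le B m).trans hBH)
      ((dser_le B m).trans hBH) (fun a _ b _ => mul_comm _ _) x hx
  refine ⟨B, hB1, hB2, m + 1, fun x hx => ?_⟩
  unfold tw
  rw [hm x (dser_succ_le B m hx), key hχ x hx, key hχ' x hx]

end Vale.Agent.P002.H2
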