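import Vale.Agent.P002.H2.TG

/-!
# The density theorem for representations with given character on a normal subgroup
-/

namespace Vale.Agent.P002.H2

open Matrix NumberField Module Vale.Agent.P002R.Orb Vale.Agent.P002.H326J Vale.Agent.P002.H306

/-- semisimplicity of the restriction to `Z` -/
def SSOn {F : Type} [Group F] {r : ℕ} (Z : Subgroup F)
    (ρ : F →* SpecialLinearGroup (Fin r) ℂ) : Prop :=
  ∀ W : Submodule ℂ (Fin r → ℂ), (∀ z ∈ Z, ∀ v ∈ W, (ρ z).1 *ᵥ v ∈ W) →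
    ∃ W' : Submodule ℂ (Fin r → ℂ), (∀ z ∈ Z, ∀ v ∈ W', (ρ z).1 *ᵥ v ∈ W') ∧ IsCompl W W'

variable {ι : Type} {R : Set (FreeGroup ι)}

theorem ssOn_top {r s : ℕ} {w : Fin s → FreeGroup ι} {C₀ : Fin s → SpecialLinearGroup (Fin r) ℂ}
    {X : ι → SpecialLinearGroup (Fin r) ℂ} (hX : X ∈ YW R w C₀) :
    SSOn ⊤ (FreeGroup.lift X) := by
  obtain ⟨-, hss⟩ := (mem_YNone_iff R X).1 hX.1
  intro W hW
  obtain ⟨W', h1, h2⟩ := hss W fun x v hv => hW x trivial v hv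
  exact ⟨W', fun z _ v hv => h1 z v hv, h2⟩

/-- density in `YRel` -/
theorem dense_one [Finite ι]
    (conj_of_trace : ∀ (Z : Subgroup (FreeGroup ι)) {r : ℕ}
      (ρ ρ' : FreeGroup ι →* SpecialLinearGroup (Fin r) ℂ), SSOn Z ρ → SSOn Z ρ' →
      (∀ z ∈ Z, (ρ z).1.trace = (ρ' z).1.trace) →
      ∃ g : SpecialLinearGroup (Fin r) ℂ, ∀ z ∈ Z, ρ' z = g * ρ z * g⁻¹)
    (ss_normal : ∀ (Z : Subgroup (FreeGroup ι)) (_ : Z.Normal) {r : ℕ}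
      (ρ : FreeGroup ι →* SpecialLinearGroup (Fin r) ℂ), SSOn ⊤ ρ → SSOn Z ρ)
    (eig_of_trace : ∀ (Z : Subgroup (FreeGroup ι)) {r : ℕ}
      (ρ : FreeGroup ι →* SpecialLinearGroup (Fin r) ℂ), SSOn Z ρ →
      (∀ z ∈ Z, IsIntegral ℤ ((ρ z).1.trace)) →
      ∀ z ∈ Z, ∀ c, (ρ z).1.charpoly.IsRoot c → IsIntegral ℤ c ∧ IsIntegral ℤ c⁻¹)
    (O : OrbFamily (PresentedGroup R)) (r : ℕ) {s : ℕ}
    (w : Fin s → FreeGroup ι) (C₀ : Fin s → SpecialLinearGroup (Fin r) ℂ)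
    (hC₀ : ∀ j z, IsEigenvalue (C₀ j) z → ∃ n : ℕ, 0 < n ∧ z ^ n = 1)
    (hw : ∀ j, O.IsPeripheral (PresentedGroup.mk R (w j)))
    (N : Subgroup (PresentedGroup R)) (hn : N.Normal) (hN : N ≤ O.K) (t : N → ℂ)
    (ht : ∀ x, IsIntegral ℤ (t x)) :
    ∃ L : IntermediateField ℚ ℂ, FiniteDimensional ℚ L ∧
      IsDenseRep L (YRel R w C₀ O.K N t) := by
  rcases Set.eq_empty_or_nonempty (YRel R w C₀ O.K N t) with h0 | ⟨X₀, hX₀⟩
  · rw [h0]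
    exact ⟨⊥, inferInstance, fun f _ X hX => absurd hX (Set.notMem_empty X)⟩
  obtain ⟨Z, hZ⟩ : ∃ Z, Z = N.comap (PresentedGroup.mk R) := ⟨_, rfl⟩
  have hZn : Z.Normal := by
    rw [hZ]
    exact hn.comap _
  have htr : ∀ X, X ∈ YTr R w C₀ N t → ∀ z ∈ Z, (FreeGroup.lift X z).1.trace =
      (FreeGroup.lift X₀ z).1.trace := by
    rintro X ⟨-, h⟩ z hz
    rw [hZ] at hz
    rw [h z hz, hX₀.1.2 z hz]
  have hint : ∀ k ∈ N.comap (PresentedGroup.mk R), ∀ z,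
      (FreeGroup.lift X₀ k).1.charpoly.IsRoot z → IsIntegral ℤ z ∧ IsIntegral ℤ z⁻¹ := by
    rw [← hZ]
    refine eig_of_trace Z _ (ss_normal Z hZn _ (ssOn_top hX₀.1.1)) fun z hz => ?_
    rw [hZ] at hz
    rw [hX₀.1.2 z hz]
    exact ht _
  obtain ⟨L, hL, h⟩ := main_N O r w C₀ hC₀ hw N hn hN (FreeGroup.lift X₀) hint
  refine ⟨L, hL, ?_⟩
  have heq : YRel R w C₀ O.K N t = YKA R w C₀ (O.K.comap (PresentedGroup.mk R))
      (N.comap (PresentedGroup.mk R)) (FreeGroup.lift X₀) := by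
    ext X
    constructor
    · rintro ⟨hX, hv⟩
      refine ⟨hX.1, ?_, (relVS_iff hX.1 _ _).2 hv⟩
      rw [← hZ]
      exact conj_of_trace Z _ _ (ss_normal Z hZn _ (ssOn_top hX₀.1.1))
        (ss_normal Z hZn _ (ssOn_top hX.1)) fun z hz => (htr X hX z hz).symm
    · rintro ⟨hX, ⟨g, hg⟩, hv⟩
      refine ⟨⟨hX, fun x hx => ?_⟩, (relVS_iff hX _ _).1 hv⟩
      rw [hg x hx, ← hX₀.1.2 x hx]
      change (g.1 * (FreeGroup.lift X₀ x).1 * (g⁻¹).1).trace = _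
      rw [Matrix.trace_mul_comm, ← Matrix.mul_assoc]
      have h3 : (g⁻¹).1 * g.1 = 1 := congrArg Subtype.val (inv_mul_cancel g)
      rw [h3, Matrix.one_mul]
  rw [heq]
  exact h

end Vale.Agent.P002.H2
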