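import Vale.Agent.P002.H2.TH
import Vale.Agent.P002.H252.Ba3
import Vale.Agent.P002.H252.Tr2

/-!
# Integral traces imply integral eigenvalues
-/

namespace Vale.Agent.P002.H2

open Matrix NumberField Module Vale.Agent.P002R.Orb Vale.Agent.P002.H252

variable {F : Type} [Group F] {r : ℕ}

/-- the restriction to `Z`, with values in the matrices -/
def resM (Z : Subgroup F) (ρ : F →* SpecialLinearGroup (Fin r) ℂ) :
    Z →* Matrix (Fin r) (Fin r) ℂ where
  toFun z := (ρ z.1).1
  map_one' := by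
    change (ρ 1).1 = 1
    rw [map_one]
    rfl
  map_mul' x y := by
    change (ρ (x.1 * y.1)).1 = (ρ x.1).1 * (ρ y.1).1
    rw [map_mul]
    rfl

theorem ssf_resM {Z : Subgroup F} {ρ : F →* SpecialLinearGroup (Fin r) ℂ} (h : SSOn Z ρ) :
    SSf fun z => Matrix.toLin' (resM Z ρ z) := by
  intro W hW
  obtain ⟨W', h1, h2⟩ := h W fun z hz v hv => hW ⟨z, hz⟩ v hv
  exact ⟨W', fun z w hw => h1 z.1 z.2 w hw, h2⟩

/-- a basis of the span consisting of group elements, with nondegenerate Gram matrix -/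
theorem exists_gram {Z : Subgroup F} {ρ : F →* SpecialLinearGroup (Fin r) ℂ} (h : SSOn Z ρ) :
    ∃ (d : ℕ) (u : Fin d → Z), (gramW (resM Z ρ) u).det ≠ 0 ∧
      LinearIndependent ℂ (fun i => resM Z ρ (u i)) ∧
      ∀ z, resM Z ρ z ∈ Submodule.span ℂ (Set.range fun i => resM Z ρ (u i)) := by
  obtain ⟨d, -, hd, u, hu⟩ := (crit (resM Z ρ)).1 (ssf_resM h)
  have hli : LinearIndependent ℂ (fun i => resM Z ρ (u i)) := by
    rw [Fintype.linearIndependent_iff]
    intro c hc
    have h1 : c ᵥ* gramW (resM Z ρ) u = 0 := by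
      funext j
      rw [vecMul_gramW, hc, zero_mul, Matrix.trace_zero]
      rfl
    have h2 : c = 0 := by
      by_contra h0
      exact hu (Matrix.exists_vecMul_eq_zero_iff.1 ⟨c, h0, h1⟩)
    exact fun i => congrFun h2 i
  refine ⟨d, u, hu, hli, fun z => ?_⟩
  by_contra hz
  refine hd (Fin.cons z u) ?_
  have h1 : (fun i => resM Z ρ ((Fin.cons z u : Fin (d + 1) → Z) i)) =
      Fin.cons (resM Z ρ z) fun i => resM Z ρ (u i) := by
    funext i
    refine Fin.cases ?_ (fun i => ?_) i
    · rfl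
    · rfl
  rw [h1, linearIndependent_finCons]
  exact ⟨hli, hz⟩

theorem eig_of_trace (Z : Subgroup F) (ρ : F →* SpecialLinearGroup (Fin r) ℂ) (hss : SSOn Z ρ)
    (htr : ∀ z ∈ Z, IsIntegral ℤ ((ρ z).1.trace)) :
    ∀ z ∈ Z, ∀ c, (ρ z).1.charpoly.IsRoot c → IsIntegral ℤ c ∧ IsIntegral ℤ c⁻¹ := by
  obtain ⟨d, u, hu, hli, hsp⟩ := exists_gram hss
  obtain ⟨X, hX⟩ : ∃ X : Z →* Matrix (Fin r) (Fin r) ℂ, X = resM Z ρ := ⟨_, rfl⟩
  rw [← hX] at hu hli hsp
  have htr' : ∀ z, IsIntegral ℤ (X z).trace := fun z => by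
    rw [hX]
    exact htr z.1 z.2
  -- the first claim, for all elements
  have key : ∀ (z : Z) (c : ℂ), (X z).charpoly.IsRoot c → IsIntegral ℤ c := by
    intro z c hc
    -- an eigenvector in the algebra
    obtain ⟨a, ha0, hac⟩ : ∃ a ∈ algOf X, a ≠ 0 ∧ X z * a = c • a := by
      by_contra hcon
      push Not at hcon
      obtain ⟨T, hT⟩ : ∃ T : algOf X →ₗ[ℂ] algOf X, ∀ b, (T b).1 = X z * b.1 - c • b.1 :=
        ⟨{ toFun := fun b => ⟨X z * b.1 - c • b.1, Subalgebra.sub_mem _
              (Subalgebra.mul_mem _ (X_mem_algOf X z) b.2) (Subalgebra.smul_mem _ b.2 c)⟩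
           map_add' := fun b b' => by
            apply Subtype.ext
            change X z * (b.1 + b'.1) - c • (b.1 + b'.1) = (X z * b.1 - c • b.1) +
              (X z * b'.1 - c • b'.1)
            rw [mul_add, smul_add]
            abel
           map_smul' := fun s b => by
            apply Subtype.ext
            change X z * (s • b.1) - c • (s • b.1) = s • (X z * b.1 - c • b.1)
            rw [mul_smul_comm, smul_sub, smul_comm] }, fun b => rfl⟩
      have hinj : Function.Injective T := by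
        rw [← LinearMap.ker_eq_bot, LinearMap.ker_eq_bot']
        intro b hb
        by_contra hb0
        refine hcon b.1 b.2 (fun h => hb0 (Subtype.ext h)) ?_
        have h1 := hT b
        rw [hb] at h1
        exact (sub_eq_zero.1 h1.symm)
      have hsurj := LinearMap.surjective_of_injective hinj
      obtain ⟨b, hb⟩ := hsurj 1
      have h1 : X z * b.1 - c • b.1 = 1 := by
        rw [← hT, hb]
        rfl
      obtain ⟨v, hv, hvc⟩ := exists_eigvec' (X z) hc
      have h2 := congrArg (fun M => v ᵥ* M) h1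
      simp only [Matrix.vecMul_sub, Matrix.vecMul_one, ← Matrix.vecMul_vecMul,
        Matrix.vecMul_smul, hvc, Matrix.smul_vecMul, sub_self] at h2
      exact hv h2.symm
    obtain ⟨ha0, hac⟩ := hac
    -- coordinates
    rw [mem_algOf] at *
    have hspan : ∀ g, X g ∈ Submodule.span ℂ (Set.range fun i => X (u i)) := hsp
    have ha' : a ∈ Submodule.span ℂ (Set.range fun i => X (u i)) := by
      have h1 : Submodule.span ℂ (Set.range X) ≤
          Submodule.span ℂ (Set.range fun i => X (u i)) := by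
        rw [Submodule.span_le]
        rintro _ ⟨g, rfl⟩
        exact hspan g
      refine h1 ?_
      assumption
    obtain ⟨b, hb⟩ := (Submodule.mem_span_range_iff_exists_fun ℂ).1 ha'
    have hb0 : b ≠ 0 := by
      rintro rfl
      apply ha0
      rw [← hb]
      simp
    have hM : ∀ (m : ℕ) (j : Fin d), ∃ M : Fin d → ℂ, ∑ i, M i • X (u i) = X (z ^ m * u j) :=
      fun m j => (Submodule.mem_span_range_iff_exists_fun ℂ).1 (hspan _)
    choose M hM using hM
    have hpow : ∀ m : ℕ, X (z ^ m) * a = c ^ m • a := by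
      intro m
      induction m with
      | zero => rw [pow_zero, pow_zero, map_one, one_mul, one_smul]
      | succ m ih =>
        rw [pow_succ, map_mul, mul_assoc, hac, mul_smul_comm, ih, smul_smul, pow_succ, mul_comm]
    obtain ⟨G, hG⟩ : ∃ G, G = gramW X u := ⟨_, rfl⟩
    have hGint : ∀ i j, IsIntegral ℤ (G i j) := fun i j => by
      rw [hG]
      exact htr' _
    refine int_of_almost (d := G.det) (by rw [hG]; exact hu) fun m => ?_
    -- the integral matrix `det G • M m`
    obtain ⟨A, hA⟩ : ∃ A : Matrix (Fin d) (Fin d) ℂ, A = Matrix.of fun i j => M m j i := ⟨_, rfl⟩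
    have hGA : ∀ i j, (G * A) i j = (X (u i * (z ^ m * u j))).trace := by
      intro i j
      rw [Matrix.mul_apply, map_mul, ← hM, Finset.mul_sum, Matrix.trace_sum]
      refine Finset.sum_congr rfl fun l _ => ?_
      rw [hG, hA, mul_smul_comm, Matrix.trace_smul, smul_eq_mul, mul_comm, gramW, map_mul]
      rfl
    have hAint : ∀ i j, IsIntegral ℤ ((G.det • A) i j) := by
      intro i j
      rw [Matrix.smul_apply, smul_eq_mul]
      refine cramer_int G hGint (fun l => A l j) (fun l => ?_) i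
      have h1 : (G *ᵥ fun l => A l j) l = (G * A) l j := rfl
      rw [h1, hGA]
      exact htr' _
    refine eig_int _ hAint hb0 ?_
    rw [Matrix.smul_mulVec, ← smul_smul]
    congr 1
    -- coordinates of `X (z ^ m) a`
    have h1 : ∑ i, (A *ᵥ b) i • X (u i) = ∑ i, (c ^ m • b) i • X (u i) := by
      have h2 : ∑ i, (A *ᵥ b) i • X (u i) = X (z ^ m) * a := by
        rw [← hb, Finset.mul_sum]
        simp only [Matrix.mulVec, dotProduct, Finset.sum_smul]
        rw [Finset.sum_comm]
        refine Finset.sum_congr rfl fun j _ => ?_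
        rw [mul_smul_comm, ← map_mul, ← hM, Finset.smul_sum]
        refine Finset.sum_congr rfl fun i _ => ?_
        rw [smul_smul, hA, mul_comm]
        rfl
      rw [h2, hpow, ← hb, Finset.smul_sum]
      refine Finset.sum_congr rfl fun i _ => ?_
      rw [smul_smul]
      rfl
    have h3 := Fintype.linearIndependent_iff.1 hli (fun i => (A *ᵥ b) i - (c ^ m • b) i) (by
      simp only [sub_smul, Finset.sum_sub_distrib]
      rw [h1, sub_self])
    funext i
    exact sub_eq_zero.1 (h3 i)
  intro z hz c hc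
  have h1 : (X ⟨z, hz⟩).charpoly.IsRoot c := by
    rw [hX]
    exact hc
  refine ⟨key _ c h1, key ⟨z, hz⟩⁻¹ c⁻¹ ?_⟩
  -- the inverse
  have hc0 : c ≠ 0 := root_ne_zero (ρ z) hc
  obtain ⟨v, hv, hvc⟩ := exists_eigvec (X ⟨z, hz⟩) h1
  have h2 : X (⟨z, hz⟩ : Z)⁻¹ *ᵥ v = c⁻¹ • v := by
    have h3 : X (⟨z, hz⟩ : Z)⁻¹ *ᵥ (X ⟨z, hz⟩ *ᵥ v) = v := by
      rw [Matrix.mulVec_mulVec, ← map_mul, inv_mul_cancel, map_one, Matrix.one_mulVec]
    rw [hvc, Matrix.mulVec_smul] at h3
    rw [← h3, smul_smul, inv_mul_cancel₀ hc0, one_smul]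
    conv_rhs => rw [← h3]
  have h4 : Module.End.HasEigenvalue (Matrix.toLin' (X (⟨z, hz⟩ : Z)⁻¹)) c⁻¹ :=
    Module.End.hasEigenvalue_of_hasEigenvector (x := v)
      ⟨Module.End.mem_eigenspace_iff.2 (by rw [Matrix.toLin'_apply]; exact h2), hv⟩
  exact (Matrix.mem_spectrum_iff_isRoot_charpoly.1 (by
    rw [← Matrix.spectrum_toLin']
    exact h4.mem_spectrum))

end Vale.Agent.P002.H2
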