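import Vale.Agent.P002.H2.TI
import Vale.Agent.P002.H2.TJ
import Vale.Agent.P002.H377.Conj

/-!
# The density theorem for representations with given character on a normal subgroup
-/

namespace Vale.Agent.P002.H2

open Matrix NumberField Module Vale.Agent.P002R.Orb Vale.Agent.P002.H326J Vale.Agent.P002.H306

variable {ι : Type} {R : Set (FreeGroup ι)}

/-- T3 -/
theorem main_T3 [Finite ι]
    (O : OrbFamily (PresentedGroup R)) (r : ℕ) {s : ℕ}
    (w : Fin s → FreeGroup ι) (C₀ : Fin s → SpecialLinearGroup (Fin r) ℂ)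
    (hC₀ : ∀ j z, IsEigenvalue (C₀ j) z → ∃ n : ℕ, 0 < n ∧ z ^ n = 1)
    (hw : ∀ j, O.IsPeripheral (PresentedGroup.mk R (w j)))
    (N : Subgroup (PresentedGroup R)) (hn : N.Normal) (hN : N ≤ O.K) (t : N → ℂ)
    (ht : ∀ x, IsIntegral ℤ (t x)) :
    ∃ L : IntermediateField ℚ ℂ, FiniteDimensional ℚ L ∧
      IsDenseRep L (YRel R w C₀ O.K N t) :=
  dense_one (fun Z {_} ρ ρ' h h' htr => H377.conj_of_trace Z ρ ρ' h h' htr) (fun Z hZ _ ρ h => ss_normal Z hZ ρ h)
    (fun Z _ ρ h h' => eig_of_trace Z ρ h h') O r w C₀ hC₀ hw N hn hN t ht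

end Vale.Agent.P002.H2
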