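import Vale.Agent.P002.H2.TK

/-!
# The case of the trivial subgroup
-/

namespace Vale.Agent.P002.H2

open Matrix NumberField Module Vale.Agent.P002R.Orb Vale.Agent.P002.H326J Vale.Agent.P002.H306

variable {ι : Type} {R : Set (FreeGroup ι)}

/-- for `N = 1` the condition is: virtually solvable on `K` -/
theorem yrel_bot {r s : ℕ} (w : Fin s → FreeGroup ι) (C₀ : Fin s → SpecialLinearGroup (Fin r) ℂ)
    (K : Subgroup (PresentedGroup R)) :
    YRel R w C₀ K ⊥ (fun _ => (r : ℂ)) = YKer R w C₀ K := by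
  have htriv : ∀ X ∈ YW R w C₀, ∀ y, PresentedGroup.mk R y ∈ (⊥ : Subgroup (PresentedGroup R)) →
      FreeGroup.lift X y = 1 := by
    intro X hX y hy
    obtain ⟨f, hf⟩ := exists_hom hX
    rw [← hf, Subgroup.mem_bot.1 hy, map_one]
  ext X
  constructor
  · rintro ⟨⟨hX, -⟩, h⟩
    refine ⟨hX, (vs_iff (FreeGroup.lift X) (K.comap (PresentedGroup.mk R))).1 ?_⟩
    obtain ⟨B, hB, hi, k, hk⟩ := (relVS_iff hX K ⊥).2 h
    refine ⟨B, hB, hi, k + 1, fun x hx => ?_⟩
    have hsc : ∀ x ∈ dser B k, ∃ c : ℂ, (FreeGroup.lift X x).1 = c • 1 := by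
      intro x hx
      have h1 := hk x hx
      have h2 : (fun x => mh X x) '' ((⊥ : Subgroup (PresentedGroup R)).comap
          (PresentedGroup.mk R) : Subgroup (FreeGroup ι)) ⊆ {1} := by
        rintro _ ⟨y, hy, rfl⟩
        exact congrArg Subtype.val (htriv X hX y hy)
      obtain ⟨c, hc⟩ := Submodule.mem_span_singleton.1 (Submodule.span_mono h2 h1)
      exact ⟨c, hc.symm⟩
    have h3 : dser B (k + 1) ≤ (FreeGroup.lift X).ker := by
      rw [dser, Subgroup.commutator_le]
      intro x hx y hy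
      obtain ⟨c, hc⟩ := hsc x hx
      obtain ⟨d, hd⟩ := hsc y hy
      rw [MonoidHom.mem_ker, map_commutatorElement, commutatorElement_eq_one_iff_mul_comm]
      apply Subtype.ext
      change (FreeGroup.lift X x).1 * (FreeGroup.lift X y).1 =
        (FreeGroup.lift X y).1 * (FreeGroup.lift X x).1
      rw [hc, hd, smul_mul_smul_comm, smul_mul_smul_comm, mul_comm c d]
    exact h3 hx
  · rintro ⟨hX, h⟩
    obtain ⟨B, hB, hi, k, hk⟩ := (vs_iff (FreeGroup.lift X) (K.comap (PresentedGroup.mk R))).2 h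
    refine ⟨⟨hX, fun x hx => ?_⟩, (relVS_iff hX K ⊥).1 ⟨B, hB, hi, k, fun x hx => ?_⟩⟩
    · rw [htriv X hX x hx]
      change Matrix.trace (1 : Matrix (Fin r) (Fin r) ℂ) = r
      rw [Matrix.trace_one, Fintype.card_fin]
    · refine Submodule.subset_span ⟨1, one_mem _, ?_⟩
      change mh X 1 = (FreeGroup.lift X x).1
      rw [hk x hx, map_one]
      rfl

end Vale.Agent.P002.H2
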