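import Mathlib

/-!
# Integral points from one integral point: a dimension count
-/

namespace Vale.Agent.P002.H2

open Polynomial Module

section core

variable {k B : Type} [Field k] [CommRing B] [IsDomain B] [Algebra k B] [Algebra k[X] B]
  [IsScalarTower k k[X] B] {m : ℕ}

/-- a polynomial with zero constant coefficient after evaluation -/
theorem indep_aux (φ : B →ₐ[k] k) (hφz : φ (algebraMap k[X] B X) = 0)
    (hinj : Function.Injective (algebraMap k[X] B)) (π : B) (hπ : φ π ≠ 0) (n : ℕ) (q : k[X])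
    (hq : q.degree < (n : WithBot ℕ)) (v : B)
    (h : algebraMap k[X] B q * π ^ n = algebraMap k[X] B X ^ n * v) : q = 0 := by
  by_contra hq0
  obtain ⟨q₁, hq₁, h1⟩ := Polynomial.exists_eq_pow_rootMultiplicity_mul_and_not_dvd q hq0 0
  rw [C_0, sub_zero] at hq₁ h1
  obtain ⟨r, hr⟩ : ∃ r, r = rootMultiplicity 0 q := ⟨_, rfl⟩
  rw [← hr] at hq₁
  have hq₁0 : q₁ ≠ 0 := by
    rintro rfl
    exact h1 (dvd_zero _)
  have hrn : r < n := by
    have h2 : q.natDegree < n := (natDegree_lt_iff_degree_lt hq0).2 hq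
    rw [hq₁, natDegree_mul (pow_ne_zero _ X_ne_zero) hq₁0, natDegree_X_pow] at h2
    omega
  have hz : algebraMap k[X] B X ≠ 0 := by
    rw [Ne, ← map_zero (algebraMap k[X] B)]
    exact fun h => X_ne_zero (hinj h)
  have h3 : algebraMap k[X] B q₁ * π ^ n = algebraMap k[X] B X ^ (n - r) * v := by
    apply mul_left_cancel₀ (pow_ne_zero r hz)
    rw [← mul_assoc, ← map_pow, ← map_mul, ← hq₁, h, map_pow, ← mul_assoc, ← pow_add,
      Nat.add_sub_cancel' hrn.le]
  have h4 := congrArg φ h3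
  rw [map_mul, map_mul, map_pow, map_pow, hφz, zero_pow (Nat.sub_ne_zero_of_lt hrn), zero_mul]
    at h4
  have h5 : ∀ q : k[X], φ (algebraMap k[X] B q) = q.eval 0 := by
    intro q
    obtain ⟨ψ, hψ⟩ : ∃ ψ : k[X] →ₐ[k] k, ∀ q, ψ q = φ (algebraMap k[X] B q) :=
      ⟨φ.comp (IsScalarTower.toAlgHom k k[X] B), fun q => rfl⟩
    rw [← hψ, ← Polynomial.coe_aeval_eq_eval]
    congr 1
    apply Polynomial.algHom_ext
    rw [hψ, hφz, aeval_X]
  rw [h5] at h4
  rcases mul_eq_zero.1 h4 with h6 | h6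
  · exact h1 (X_dvd_iff.2 (by rwa [coeff_zero_eq_eval_zero]))
  · exact pow_ne_zero n hπ h6

/-- the dimension count -/
theorem exists_g (b : Basis (Fin m) k[X] B) (φ : B →ₐ[k] k) (hφz : φ (algebraMap k[X] B X) = 0)
    (π : B) (hπ : φ π ≠ 0) (n c : ℕ) (hn : m * c < n) :
    ∃ (p : Fin m → k[X]) (u v : B), ∑ j, p j • b j ≠ 0 ∧ (∀ j, (p j).natDegree + c + 1 ≤ n) ∧
      ∑ j, p j • b j = π ^ n * u + algebraMap k[X] B X ^ n * v := by
  classical
  obtain ⟨z, hz⟩ : ∃ z, z = algebraMap k[X] B X := ⟨_, rfl⟩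
  have hm : 0 < m := by
    rcases Nat.eq_zero_or_pos m with h | h
    · subst h
      have h1 : (1 : B) = 0 := by
        rw [← b.sum_repr 1]
        simp
      exact absurd h1 one_ne_zero
    · exact h
  have hc : c < n := lt_of_le_of_lt (Nat.le_mul_of_pos_left c hm) hn
  have hinj : Function.Injective (algebraMap k[X] B) := by
    rw [injective_iff_map_eq_zero]
    intro q hq
    have h1 : q • b ⟨0, hm⟩ = 0 := by rw [Algebra.smul_def, hq, zero_mul]
    have h2 := congrArg (fun x => b.repr x ⟨0, hm⟩) h1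
    simpa using h2
  -- coordinates
  obtain ⟨ρ, hρ⟩ : ∃ ρ : B →ₗ[k] (Fin n × Fin m → k), ∀ x p, ρ x p = (b.repr x p.2).coeff p.1 :=
    ⟨{ toFun := fun x p => (b.repr x p.2).coeff p.1
       map_add' := fun x y => by
        funext p
        rw [map_add, Finsupp.add_apply, coeff_add]
        rfl
       map_smul' := fun a x => by
        funext p
        rw [← algebraMap_smul k[X] a x, map_smul, Finsupp.smul_apply, smul_eq_mul,
          Polynomial.algebraMap_eq, coeff_C_mul]
        rfl }, fun x p => rfl⟩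
  have hker : ∀ x, ρ x = 0 → ∃ v, x = z ^ n * v := by
    intro x hx
    have h1 : ∀ j, ∃ q : k[X], b.repr x j = X ^ n * q := by
      intro j
      refine (X_pow_dvd_iff.2 fun i hi => ?_)
      have := congrFun hx (⟨i, hi⟩, j)
      rw [hρ] at this
      exact this
    choose q hq using h1
    refine ⟨∑ j, q j • b j, ?_⟩
    conv_lhs => rw [← b.sum_repr x]
    rw [Finset.mul_sum]
    refine Finset.sum_congr rfl fun j _ => ?_
    rw [hq, mul_smul, Algebra.smul_def (X ^ n), map_pow, hz]
  -- the subspace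
  obtain ⟨f, hf⟩ : ∃ f : Fin n → (Fin n × Fin m → k), ∀ i, f i = ρ (z ^ (i : ℕ) * π ^ n) :=
    ⟨_, fun i => rfl⟩
  have hsum : ∀ a : Fin n → k, ∑ i, a i • f i =
      ρ (algebraMap k[X] B (∑ i : Fin n, C (a i) * X ^ (i : ℕ)) * π ^ n) := by
    intro a
    rw [map_sum, Finset.sum_mul, map_sum]
    refine Finset.sum_congr rfl fun i _ => ?_
    rw [hf, ← map_smul]
    congr 1
    rw [map_mul, map_pow, hz, ← Polynomial.algebraMap_eq,
      ← IsScalarTower.algebraMap_apply k k[X] B, ← Algebra.smul_def, smul_mul_assoc]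
  have hdeg : ∀ a : Fin n → k,
      (∑ i : Fin n, C (a i) * X ^ (i : ℕ) : k[X]).degree < (n : WithBot ℕ) := fun a =>
    degree_sum_fin_lt a
  have hcoef : ∀ (a : Fin n → k) (i : Fin n),
      (∑ i : Fin n, C (a i) * X ^ (i : ℕ) : k[X]).coeff i = a i := by
    intro a i
    rw [finsetSum_coeff, Finset.sum_eq_single i]
    · rw [coeff_C_mul, coeff_X_pow, if_pos rfl, mul_one]
    · intro j _ hj
      rw [coeff_C_mul, coeff_X_pow, if_neg (fun h => hj (Fin.ext h.symm)), mul_zero]
    · intro h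
      exact absurd (Finset.mem_univ i) h
  have hli : LinearIndependent k f := by
    rw [Fintype.linearIndependent_iff]
    intro a ha i
    rw [hsum] at ha
    obtain ⟨v, hv⟩ := hker _ ha
    rw [hz] at hv
    have h1 := indep_aux φ hφz hinj π hπ n _ (hdeg a) v hv
    rw [← hcoef a i, h1, coeff_zero]
  -- the map
  obtain ⟨E, hE⟩ : ∃ E : (Fin (n - c) × Fin m → k) →ₗ[k] B,
      ∀ a, E a = ∑ j, (∑ i : Fin (n - c), C (a (i, j)) * X ^ (i : ℕ) : k[X]) • b j :=
    ⟨{ toFun := fun a => ∑ j, (∑ i : Fin (n - c), C (a (i, j)) * X ^ (i : ℕ) : k[X]) • b j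
       map_add' := fun a a' => by
        rw [← Finset.sum_add_distrib]
        refine Finset.sum_congr rfl fun j _ => ?_
        rw [← add_smul, ← Finset.sum_add_distrib]
        congr 1
        refine Finset.sum_congr rfl fun i _ => ?_
        rw [← add_mul, ← C_add]
        rfl
       map_smul' := fun s a => by
        rw [RingHom.id_apply, Finset.smul_sum]
        refine Finset.sum_congr rfl fun j _ => ?_
        rw [← algebraMap_smul k[X] s (_ • b j), smul_smul, Finset.mul_sum]
        congr 1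
        refine Finset.sum_congr rfl fun i _ => ?_
        rw [Polynomial.algebraMap_eq, ← mul_assoc, ← C_mul]
        rfl }, fun a => rfl⟩
  obtain ⟨S, hS⟩ : ∃ S, S = Submodule.span k (Set.range f) := ⟨_, rfl⟩
  have hSf : finrank k S = n := by
    rw [hS, finrank_span_eq_card hli, Fintype.card_fin]
  have hQ : finrank k ((Fin n × Fin m → k) ⧸ S) + n = n * m := by
    have h1 := Submodule.finrank_quotient_add_finrank S
    rw [hSf, Module.finrank_fintype_fun_eq_card, Fintype.card_prod, Fintype.card_fin,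
      Fintype.card_fin] at h1
    exact h1
  have hlt : finrank k ((Fin n × Fin m → k) ⧸ S) < finrank k (Fin (n - c) × Fin m → k) := by
    rw [Module.finrank_fintype_fun_eq_card, Fintype.card_prod, Fintype.card_fin, Fintype.card_fin]
    have h1 : (n - c) * m + c * m = n * m := by
      rw [← Nat.add_mul, Nat.sub_add_cancel hc.le]
    rw [mul_comm m c] at hn
    omega
  have hk := LinearMap.ker_ne_bot_of_finrank_lt (f := S.mkQ ∘ₗ ρ ∘ₗ E) hlt
  obtain ⟨a, ha, ha0⟩ := Submodule.exists_mem_ne_zero_of_ne_bot hk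
  have h1 : ρ (E a) ∈ S := by
    have h2 : S.mkQ (ρ (E a)) = 0 := ha
    rwa [Submodule.mkQ_apply, Submodule.Quotient.mk_eq_zero] at h2
  rw [hS, Submodule.mem_span_range_iff_exists_fun] at h1
  obtain ⟨d, hd⟩ := h1
  rw [hsum] at hd
  obtain ⟨v, hv⟩ := hker (E a - algebraMap k[X] B (∑ i : Fin n, C (d i) * X ^ (i : ℕ)) * π ^ n)
    (by rw [map_sub, hd, sub_self])
  refine ⟨fun j => ∑ i : Fin (n - c), C (a (i, j)) * X ^ (i : ℕ),
    algebraMap k[X] B (∑ i : Fin n, C (d i) * X ^ (i : ℕ)), v, ?_, fun j => ?_, ?_⟩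
  · intro h0
    apply ha0
    funext ⟨i, j⟩
    have h2 : (fun j => (∑ i : Fin (n - c), C (a (i, j)) * X ^ (i : ℕ) : k[X])) = 0 := by
      have h3 := b.linearIndependent
      rw [Fintype.linearIndependent_iff] at h3
      exact funext fun j => h3 _ h0 j
    have h4 := congrArg (fun q : k[X] => q.coeff i) (congrFun h2 j)
    simp only [Pi.zero_apply, coeff_zero] at h4
    refine Eq.trans ?_ h4
    rw [finsetSum_coeff, Finset.sum_eq_single i]
    · rw [coeff_C_mul, coeff_X_pow, if_pos rfl, mul_one]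
    · intro i' _ hi'
      rw [coeff_C_mul, coeff_X_pow, if_neg (fun h => hi' (Fin.ext h.symm)), mul_zero]
    · intro h
      exact absurd (Finset.mem_univ i) h
  · have h2 : (∑ i : Fin (n - c), C (a (i, j)) * X ^ (i : ℕ) : k[X]).natDegree < n - c := by
      have h3 : 0 < n - c := Nat.sub_pos_of_lt hc
      refine lt_of_le_of_lt (natDegree_sum_le_of_forall_le (n := n - c - 1) _ _ fun i _ => ?_)
        (Nat.sub_lt h3 one_pos)
      exact (natDegree_C_mul_X_pow_le _ _).trans (by have := i.2; omega)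
    change (∑ i : Fin (n - c), C (a (i, j)) * X ^ (i : ℕ) : k[X]).natDegree + c + 1 ≤ n
    omega
  · rw [← hE, ← hz, mul_comm (π ^ n), ← hv]
    ring

end core

end Vale.Agent.P002.H2
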