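import Vale.Agent.P002.H2.WA

/-!
# Integrality over polynomial rings in one variable
-/

namespace Vale.Agent.P002.H2

open Polynomial Module

section integral

variable {k F : Type} [Field k] [Field F] [Algebra k F]

/-- a monic equation with coefficients in a subalgebra -/
theorem isIntegral_of_coeffs (S : Subalgebra k F) (Q : F[X]) (hQ : Q.Monic)
    (hc : ∀ i, Q.coeff i ∈ S) {x : F} (hx : Q.eval x = 0) : IsIntegral S x := by
  obtain ⟨P, hP, hd, hPm⟩ := Polynomial.lifts_and_degree_eq_and_monic (f := algebraMap S F) (p := Q)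
    (by
      rw [Polynomial.lifts_iff_coeff_lifts]
      intro i
      exact ⟨⟨Q.coeff i, hc i⟩, rfl⟩) hQ
  refine ⟨P, hPm, ?_⟩
  rw [eval₂_eq_eval_map, hP, hx]

theorem aeval_mul_inv_mem {z : F} (hz : z ≠ 0) (p : k[X]) (M : ℕ) (hM : p.natDegree ≤ M) :
    aeval z p * z⁻¹ ^ M ∈ Algebra.adjoin k {z⁻¹} := by
  rw [aeval_eq_sum_range, Finset.sum_mul]
  refine Subalgebra.sum_mem _ fun r hr => ?_
  have hrM : r ≤ M := (Nat.lt_succ_iff.1 (Finset.mem_range.1 hr)).trans hM
  have h1 : p.coeff r • z ^ r * z⁻¹ ^ M = p.coeff r • z⁻¹ ^ (M - r) := by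
    rw [smul_mul_assoc]
    congr 1
    rw [inv_pow, inv_pow, ← div_eq_mul_inv, div_eq_iff (pow_ne_zero M hz), inv_mul_eq_div,
      eq_div_iff (pow_ne_zero _ hz), ← pow_add, Nat.add_sub_cancel' hrM]
  rw [h1]
  exact Subalgebra.smul_mem _ (Subalgebra.pow_mem _ (Algebra.self_mem_adjoin_singleton k _) _) _

/-- scaling of an integral element at infinity -/
theorem scale_integral {z : F} (hz : z ≠ 0) {x : F} (hx : IsIntegral (Algebra.adjoin k {z}) x) :
    ∃ c₀, ∀ c ≥ c₀, IsIntegral (Algebra.adjoin k {z⁻¹}) (z⁻¹ ^ c * x) := by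
  obtain ⟨P, hP, hPx⟩ := hx
  have h1 : ∀ i, ∃ q : k[X], aeval z q = (P.coeff i : F) := by
    intro i
    exact (Algebra.adjoin_singleton_eq_range_aeval k z).le (P.coeff i).2
  choose q hq using h1
  refine ⟨(Finset.range (P.natDegree + 1)).sup fun i => (q i).natDegree, fun c hc => ?_⟩
  obtain ⟨Q, hQ⟩ : ∃ Q : F[X], Q = (P.map (algebraMap (Algebra.adjoin k {z}) F)).scaleRoots
    (z⁻¹ ^ c) := ⟨_, rfl⟩
  have hPm := hP.map (algebraMap (Algebra.adjoin k {z}) F)
  refine isIntegral_of_coeffs _ Q ?_ (fun i => ?_) ?_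
  · rw [hQ, monic_scaleRoots_iff]
    exact hPm
  · rw [hQ, coeff_scaleRoots, coeff_map, hP.natDegree_map]
    rcases lt_trichotomy i P.natDegree with h | h | h
    · rw [← pow_mul]
      have h2 : (algebraMap (Algebra.adjoin k {z}) F) (P.coeff i) = aeval z (q i) := (hq i).symm
      rw [h2]
      refine aeval_mul_inv_mem hz _ _ ?_
      have h3 : (q i).natDegree ≤ c :=
        (Finset.le_sup (f := fun i => (q i).natDegree) (Finset.mem_range.2 (by omega))).trans hc
      refine h3.trans (Nat.le_mul_of_pos_right c (by omega))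
    · rw [h, Nat.sub_self, pow_zero, mul_one]
      have h2 : P.coeff P.natDegree = 1 := hP
      rw [h2, map_one]
      exact Subalgebra.one_mem _
    · rw [coeff_eq_zero_of_natDegree_lt h, map_zero, zero_mul]
      exact Subalgebra.zero_mem _
  · have h2 := scaleRoots_eval₂_eq_zero (RingHom.id F) (r := x) (s := z⁻¹ ^ c)
      (p := P.map (algebraMap (Algebra.adjoin k {z}) F)) (by rw [eval₂_map]; exact hPx)
    rw [hQ, ← eval₂_id]
    exact h2

/-- an element of `S[z⁻¹]` equal to `z` -/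
theorem integral_of_mem_adjoin_inv (S : Subalgebra k F) {z : F} (hz : z ≠ 0)
    (h : z ∈ Algebra.adjoin S {z⁻¹}) : IsIntegral S z := by
  rw [Algebra.adjoin_singleton_eq_range_aeval] at h
  obtain ⟨p, hp⟩ := h
  obtain ⟨M, hM⟩ : ∃ M, M = p.natDegree := ⟨_, rfl⟩
  obtain ⟨q, hq⟩ : ∃ q : F[X], q = ∑ r ∈ Finset.range (M + 1),
    C ((p.coeff r : S) : F) * X ^ (M - r) := ⟨_, rfl⟩
  have hqd : q.degree < ((M + 1 : ℕ) : WithBot ℕ) := by
    rw [hq]
    refine lt_of_le_of_lt (degree_sum_le _ _) ?_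
    refine lt_of_le_of_lt (b := ((M : ℕ) : WithBot ℕ)) (Finset.sup_le fun r _ => ?_)
      (by exact_mod_cast Nat.lt_succ_self M)
    refine (degree_C_mul_X_pow_le _ _).trans ?_
    exact_mod_cast Nat.sub_le M r
  refine isIntegral_of_coeffs S (X ^ (M + 1) - q) (monic_X_pow_sub hqd) (fun i => ?_) ?_
  · rw [coeff_sub]
    refine Subalgebra.sub_mem _ ?_ ?_
    · rw [coeff_X_pow]
      split_ifs
      · exact Subalgebra.one_mem _
      · exact Subalgebra.zero_mem _
    · rw [hq, finsetSum_coeff]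
      refine Subalgebra.sum_mem _ fun r _ => ?_
      rw [coeff_C_mul, coeff_X_pow]
      split_ifs
      · rw [mul_one]
        exact (p.coeff r).2
      · rw [mul_zero]
        exact Subalgebra.zero_mem _
  · rw [eval_sub, eval_pow, eval_X, sub_eq_zero, hq, eval_finsetSum]
    have hp' : aeval z⁻¹ p = z := hp
    rw [aeval_eq_sum_range, ← hM] at hp'
    rw [pow_succ]
    conv_lhs => rw [← hp']
    conv_lhs => enter [1, 1]; rw [hp']
    rw [Finset.mul_sum]
    refine Finset.sum_congr rfl fun r hr => ?_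
    have hrM : r ≤ M := Nat.lt_succ_iff.1 (Finset.mem_range.1 hr)
    rw [eval_mul, eval_C, eval_pow, eval_X, Algebra.smul_def]
    have h1 : z ^ M * z⁻¹ ^ r = z ^ (M - r) := by
      rw [inv_pow, ← div_eq_mul_inv, div_eq_iff (pow_ne_zero _ hz), ← pow_add,
        Nat.sub_add_cancel hrM]
    rw [← h1]
    change z ^ M * (((p.coeff r : S) : F) * z⁻¹ ^ r) = _
    ring

/-- if `T = 1 / f`, `f = γ / z` with `γ` integral over `k[1 / z]`, then `z` is integral over
`k[T]` -/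
theorem integral_z {z γ : F} (hz : z ≠ 0) (hγ : IsIntegral (Algebra.adjoin k {z⁻¹}) γ)
    (hγ0 : γ ≠ 0) : IsIntegral (Algebra.adjoin k {(z⁻¹ * γ)⁻¹}) z := by
  obtain ⟨T, hT⟩ : ∃ T, T = (z⁻¹ * γ)⁻¹ := ⟨_, rfl⟩
  rw [← hT]
  have hf0 : z⁻¹ * γ ≠ 0 := mul_ne_zero (inv_ne_zero hz) hγ0
  have hTf : T * (z⁻¹ * γ) = 1 := by rw [hT, inv_mul_cancel₀ hf0]
  obtain ⟨P, hP, hPx⟩ := hγ
  obtain ⟨l, hl⟩ : ∃ l, l = P.natDegree := ⟨_, rfl⟩
  apply integral_of_mem_adjoin_inv _ hz
  -- the ring `k[T][1 / z]`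
  obtain ⟨A, hA⟩ : ∃ A, A = Algebra.adjoin (Algebra.adjoin k {T}) {z⁻¹} := ⟨_, rfl⟩
  rw [← hA]
  have hzA : z⁻¹ ∈ A := hA ▸ Algebra.self_mem_adjoin_singleton _ _
  have hTA : T ∈ A := by
    have h1 : algebraMap (Algebra.adjoin k {T}) F ⟨T, Algebra.self_mem_adjoin_singleton k T⟩ ∈ A :=
      A.algebraMap_mem _
    exact h1
  have hkA : ∀ x ∈ Algebra.adjoin k {z⁻¹}, x ∈ A := by
    intro x hx
    induction hx using Algebra.adjoin_induction with
    | mem x hx =>
      rw [Set.mem_singleton_iff.1 hx]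
      exact hzA
    | algebraMap r =>
      have h1 : algebraMap (Algebra.adjoin k {T}) F (algebraMap k _ r) ∈ A := A.algebraMap_mem _
      exact h1
    | add x y _ _ hx hy => exact A.add_mem hx hy
    | mul x y _ _ hx hy => exact A.mul_mem hx hy
  have h1 : ∑ i ∈ Finset.range (l + 1), ((P.coeff i : Algebra.adjoin k {z⁻¹}) : F) * γ ^ i = 0 := by
    rw [← hPx, eval₂_eq_sum_range, hl]
    rfl
  have h2 : ((P.coeff l : Algebra.adjoin k {z⁻¹}) : F) = 1 := by
    have : P.coeff l = 1 := by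
      rw [hl]
      exact hP
    rw [this]
    rfl
  rw [Finset.sum_range_succ, h2, one_mul] at h1
  -- multiply with `z * (z⁻¹ T) ^ l`
  have h3 : (T * z⁻¹) ^ l * γ ^ l = 1 := by
    rw [← mul_pow]
    have : T * z⁻¹ * γ = 1 := by rw [mul_assoc, hTf]
    rw [this, one_pow]
  have h4 : z = -∑ i ∈ Finset.range l, ((P.coeff i : Algebra.adjoin k {z⁻¹}) : F) *
      (T * (T * z⁻¹) ^ (l - i - 1)) := by
    have h5 := congrArg (fun x => z * ((T * z⁻¹) ^ l * x)) h1
    simp only [mul_add, h3, mul_one, mul_zero] at h5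
    have h6 : z = -(z * ((T * z⁻¹) ^ l *
        ∑ i ∈ Finset.range l, ((P.coeff i : Algebra.adjoin k {z⁻¹}) : F) * γ ^ i)) := by
      linear_combination h5
    refine h6.trans ?_
    rw [Finset.mul_sum, Finset.mul_sum]
    congr 1
    refine Finset.sum_congr rfl fun i hi => ?_
    have hil : i < l := Finset.mem_range.1 hi
    have h6 : (T * z⁻¹) ^ l = (T * z⁻¹) ^ (l - i - 1) * (T * z⁻¹) * (T * z⁻¹) ^ i := by
      rw [← pow_succ, ← pow_add]
      congr 1
      omega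
    have h7 : (T * z⁻¹) ^ i * γ ^ i = 1 := by
      rw [← mul_pow]
      have : T * z⁻¹ * γ = 1 := by rw [mul_assoc, hTf]
      rw [this, one_pow]
    rw [h6]
    calc z * ((T * z⁻¹) ^ (l - i - 1) * (T * z⁻¹) * (T * z⁻¹) ^ i *
          (((P.coeff i : Algebra.adjoin k {z⁻¹}) : F) * γ ^ i))
        = ((P.coeff i : Algebra.adjoin k {z⁻¹}) : F) * ((T * z⁻¹) ^ (l - i - 1) * T) *
          (z * z⁻¹) * ((T * z⁻¹) ^ i * γ ^ i) := by ring
      _ = _ := by
        rw [h7, mul_inv_cancel₀ hz]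
        ring
  have h8 : -∑ i ∈ Finset.range l, ((P.coeff i : Algebra.adjoin k {z⁻¹}) : F) *
      (T * (T * z⁻¹) ^ (l - i - 1)) ∈ A := by
    refine A.neg_mem (A.sum_mem fun i _ => A.mul_mem (hkA _ (P.coeff i).2) (A.mul_mem hTA
      (A.pow_mem (A.mul_mem hTA hzA) _)))
  rw [← h4] at h8
  exact h8

end integral

end Vale.Agent.P002.H2
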