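import Vale.Agent.P002.H2.WB

/-!
# The curve lemma
-/

namespace Vale.Agent.P002.H2

open Polynomial Module

section curve

variable {k F : Type} [Field k] [Field F] [Algebra k F]

/-- `π` with `φ π ≠ 0` such that powers of the `y i` times `π` are divisible by `z` -/
theorem exists_pi {B : Type} [CommRing B] [Algebra k B] [Algebra k[X] B] [IsScalarTower k k[X] B]
    (hint : ∀ x : B, IsIntegral k[X] x) (φ : B →ₐ[k] k)
    {n : ℕ} (y : Fin n → B) (hφy : ∀ i, φ (y i) = 0) :
    ∃ (π : B) (a : ℕ), 0 < a ∧ φ π ≠ 0 ∧ ∀ i, ∃ t, y i ^ a * π = algebraMap k[X] B X * t := by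
  have h1 : ∀ i, ∃ (a : ℕ) (q : k[X]) (t : B), q.eval 0 ≠ 0 ∧
      y i ^ a * aeval (y i) q = algebraMap k[X] B X * t := by
    intro i
    obtain ⟨P, hP, hPy⟩ := hint (y i)
    obtain ⟨P₀, hP₀⟩ : ∃ P₀, P₀ = P.map (evalRingHom (0 : k)) := ⟨_, rfl⟩
    have hP₀m : P₀.Monic := hP₀ ▸ hP.map _
    -- reduction modulo `z`
    have h2 : ∃ t : B, aeval (y i) P₀ = algebraMap k[X] B X * t := by
      have h3 : ∀ r, ∃ s : B, algebraMap k B ((P.coeff r).eval 0) =
          algebraMap k[X] B (P.coeff r) - algebraMap k[X] B X * s := by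
        intro r
        refine ⟨algebraMap k[X] B (P.coeff r).divX, ?_⟩
        have h4 := congrArg (algebraMap k[X] B) (Polynomial.X_mul_divX_add (P.coeff r))
        rw [map_add, map_mul, ← Polynomial.algebraMap_eq,
          ← IsScalarTower.algebraMap_apply k k[X] B, coeff_zero_eq_eval_zero] at h4
        rw [← h4]
        ring
      choose s hs using h3
      refine ⟨-∑ r ∈ Finset.range (P.natDegree + 1), s r * y i ^ r, ?_⟩
      have h5 : aeval (y i) P₀ = ∑ r ∈ Finset.range (P.natDegree + 1),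
          algebraMap k B ((P.coeff r).eval 0) * y i ^ r := by
        rw [aeval_eq_sum_range' (n := P.natDegree + 1)]
        · refine Finset.sum_congr rfl fun r _ => ?_
          rw [Algebra.smul_def, hP₀, coeff_map]
          rfl
        · rw [hP₀]
          exact Nat.lt_succ_of_le natDegree_map_le
      rw [eval₂_eq_sum_range] at hPy
      rw [h5]
      simp only [hs, sub_mul, Finset.sum_sub_distrib, hPy, zero_sub]
      rw [mul_neg, Finset.mul_sum]
      congr 1
      refine Finset.sum_congr rfl fun r _ => ?_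
      ring
    obtain ⟨t, ht⟩ := h2
    obtain ⟨q, hq, hq0⟩ := Polynomial.exists_eq_pow_rootMultiplicity_mul_and_not_dvd P₀
      hP₀m.ne_zero 0
    rw [C_0, sub_zero] at hq hq0
    refine ⟨rootMultiplicity 0 P₀, q, t, ?_, ?_⟩
    · intro h0
      exact hq0 (X_dvd_iff.2 (by rwa [coeff_zero_eq_eval_zero]))
    · rw [← ht]
      conv_rhs => rw [hq]
      rw [map_mul, map_pow, aeval_X]
  choose a q t hq0 hqt using h1
  refine ⟨∏ i, aeval (y i) (q i), (Finset.univ.sup a) + 1, Nat.succ_pos _, ?_, fun i => ?_⟩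
  · rw [map_prod]
    refine Finset.prod_ne_zero_iff.2 fun i _ => ?_
    rw [← Polynomial.aeval_algHom_apply, hφy, Polynomial.coe_aeval_eq_eval]
    exact hq0 i
  · obtain ⟨b, hb⟩ : ∃ b, Finset.univ.sup a + 1 = b + a i :=
      ⟨Finset.univ.sup a + 1 - a i, by
        have := Finset.le_sup (f := a) (Finset.mem_univ i)
        omega⟩
    refine ⟨t i * (y i ^ b * ∏ j ∈ Finset.univ.erase i, aeval (y j) (q j)), ?_⟩
    rw [← Finset.mul_prod_erase _ _ (Finset.mem_univ i), hb, pow_add]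
    calc y i ^ b * y i ^ a i * (aeval (y i) (q i) * ∏ j ∈ Finset.univ.erase i, aeval (y j) (q j))
        = (y i ^ a i * aeval (y i) (q i)) *
          (y i ^ b * ∏ j ∈ Finset.univ.erase i, aeval (y j) (q j)) := by ring
      _ = _ := by
        rw [hqt]
        ring

/-- **The curve lemma.** -/
theorem curve (B : Subalgebra k F) (hfg : B.FG) (z : B) (hzt : Transcendental k z)
    (hint : ∀ x : B, IsIntegral (Algebra.adjoin k {(z : F)}) (x : F)) (φ : B →ₐ[k] k)
    (hφz : φ z = 0) {n : ℕ} (y : Fin n → B) (hφy : ∀ i, φ (y i) = 0) :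
    ∃ (T : F) (e : ℕ), 0 < e ∧ T ≠ 0 ∧ IsIntegral (Algebra.adjoin k {T}) (z : F) ∧
      ∀ i, ∃ β : B, (y i : F) ^ e = T * β := by
  classical
  let : Algebra k[X] B := (aeval (R := k) z).toAlgebra
  have hmapz : algebraMap k[X] B X = z := aeval_X z
  have hmap : ∀ p : k[X], algebraMap k[X] B p = aeval z p := fun p => rfl
  have htower : IsScalarTower k k[X] B := IsScalarTower.of_algebraMap_eq fun r => by
    rw [hmap, Polynomial.algebraMap_eq, aeval_C]
  have hinj : Function.Injective (algebraMap k[X] B) := transcendental_iff_injective.1 hzt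
  -- integrality over `k[X]`
  have hintX : ∀ x : B, IsIntegral k[X] x := by
    intro x
    obtain ⟨P, hP, hPx⟩ := hint x
    have h1 : ∀ i, ∃ q : k[X], aeval (z : F) q = ((P.coeff i : Algebra.adjoin k {(z : F)}) : F) :=
      fun i => (Algebra.adjoin_singleton_eq_range_aeval k (z : F)).le (P.coeff i).2
    choose q hq using h1
    obtain ⟨Q, hQ⟩ : ∃ Q : k[X][X], Q = X ^ P.natDegree + ∑ i ∈ Finset.range P.natDegree,
      C (q i) * X ^ i := ⟨_, rfl⟩
    refine ⟨Q, ?_, ?_⟩
    · rw [hQ]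
      refine monic_X_pow_add ?_
      refine lt_of_le_of_lt (degree_sum_le _ _) ?_
      refine (Finset.sup_lt_iff (WithBot.bot_lt_coe _)).2 fun i hi => ?_
      refine lt_of_le_of_lt (degree_C_mul_X_pow_le _ _) ?_
      exact_mod_cast Finset.mem_range.1 hi
    · apply Subtype.val_injective
      rw [hQ, eval₂_add, eval₂_X_pow, eval₂_finsetSum]
      have h2 := hPx
      rw [eval₂_eq_sum_range, Finset.sum_range_succ] at h2
      have h3 : P.coeff P.natDegree = 1 := hP
      rw [h3, map_one, one_mul] at h2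
      have h4 : ∀ i, ((algebraMap k[X] B (q i) : B) : F) =
          algebraMap (Algebra.adjoin k {(z : F)}) F (P.coeff i) := by
        intro i
        rw [hmap]
        have h5 : ((aeval z (q i) : B) : F) = aeval (z : F) (q i) :=
          (Polynomial.aeval_algHom_apply B.val z (q i)).symm
        rw [h5, hq]
        rfl
      have h6 : ((x ^ P.natDegree + ∑ i ∈ Finset.range P.natDegree,
          eval₂ (algebraMap k[X] B) x (C (q i) * X ^ i) : B) : F) =
          (x : F) ^ P.natDegree + ∑ i ∈ Finset.range P.natDegree,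
            algebraMap (Algebra.adjoin k {(z : F)}) F (P.coeff i) * (x : F) ^ i := by
        push_cast
        congr 1
        refine Finset.sum_congr rfl fun i _ => ?_
        rw [eval₂_mul, eval₂_C, eval₂_X_pow]
        push_cast
        rw [h4]
      rw [h6, add_comm, h2]
      rfl
  have hII : Algebra.IsIntegral k[X] B := ⟨hintX⟩
  have hft : Algebra.FiniteType k B := B.fg_iff_finiteType.1 hfg
  have hft' : Algebra.FiniteType k[X] B := Algebra.FiniteType.of_restrictScalars_finiteType k k[X] B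
  have hfin : Module.Finite k[X] B := Algebra.IsIntegral.finite
  have htf : Module.IsTorsionFree k[X] B := Module.isTorsionFree_iff_algebraMap_injective.2 hinj
  obtain ⟨m, ⟨b⟩⟩ : ∃ m : ℕ, Nonempty (Basis (Fin m) k[X] B) :=
    ⟨_, ⟨Module.finBasis k[X] B⟩⟩
  obtain ⟨π, a, ha, hπ, hyπ⟩ := exists_pi hintX φ y hφy
  rw [hmapz] at hyπ
  choose t ht using hyπ
  have hz0 : (z : F) ≠ 0 := by
    intro h
    have h1 : z = 0 := Subtype.ext h
    rw [h1] at hzt
    exact hzt isAlgebraic_zero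
  -- the poles at infinity
  have hc : ∀ j, ∃ c₀, ∀ c ≥ c₀,
      IsIntegral (Algebra.adjoin k {(z : F)⁻¹}) ((z : F)⁻¹ ^ c * (b j : F)) := fun j =>
    scale_integral hz0 (hint (b j))
  choose c₀ hc₀ using hc
  obtain ⟨c, hcdef⟩ : ∃ c, c = Finset.univ.sup c₀ := ⟨_, rfl⟩
  have hcj : ∀ j, IsIntegral (Algebra.adjoin k {(z : F)⁻¹}) ((z : F)⁻¹ ^ c * (b j : F)) := fun j =>
    hc₀ j c (hcdef ▸ Finset.le_sup (Finset.mem_univ j))
  obtain ⟨N, hN⟩ : ∃ N, N = m * c + 1 := ⟨_, rfl⟩
  obtain ⟨p, u, v, hg0, hpd, hpg⟩ := exists_g b φ (by rw [hmapz, hφz]) π hπ N c (by omega)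
  rw [hmapz] at hpg
  obtain ⟨g, hg⟩ : ∃ g, g = ∑ j, p j • b j := ⟨_, rfl⟩
  rw [← hg] at hg0 hpg
  have hgF : (g : F) ≠ 0 := fun h => hg0 (Subtype.ext h)
  -- `γ = g / z ^ (N - 1)` is integral over `k[1 / z]`
  have hγ : IsIntegral (Algebra.adjoin k {(z : F)⁻¹}) ((z : F)⁻¹ ^ (N - 1) * (g : F)) := by
    have h1 : (z : F)⁻¹ ^ (N - 1) * (g : F) = ∑ j, (aeval (z : F) (p j) *
        (z : F)⁻¹ ^ (N - 1 - c)) * ((z : F)⁻¹ ^ c * (b j : F)) := by
      have h2 : (g : F) = ∑ j, aeval (z : F) (p j) * (b j : F) := by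
        rw [hg]
        push_cast
        refine Finset.sum_congr rfl fun j _ => ?_
        rw [Algebra.smul_def, hmap]
        push_cast
        rfl
      rw [h2, Finset.mul_sum]
      refine Finset.sum_congr rfl fun j _ => ?_
      have h3 : c ≤ N - 1 := by
        have := hpd j
        omega
      have h4 : (z : F)⁻¹ ^ (N - 1) = (z : F)⁻¹ ^ (N - 1 - c) * (z : F)⁻¹ ^ c := by
        rw [← pow_add, Nat.sub_add_cancel h3]
      rw [h4]
      ring
    rw [h1]
    refine IsIntegral.sum _ fun j _ => IsIntegral.mul ?_ (hcj j)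
    have h5 := aeval_mul_inv_mem hz0 (p j) (N - 1 - c) (by
      have := hpd j
      omega)
    exact isIntegral_algebraMap (R := Algebra.adjoin k {(z : F)⁻¹}) (x := ⟨_, h5⟩)
  have hγ0 : (z : F)⁻¹ ^ (N - 1) * (g : F) ≠ 0 :=
    mul_ne_zero (pow_ne_zero _ (inv_ne_zero hz0)) hgF
  have hT := integral_z hz0 hγ hγ0
  obtain ⟨T, hTdef⟩ : ∃ T, T = ((z : F)⁻¹ * ((z : F)⁻¹ ^ (N - 1) * (g : F)))⁻¹ := ⟨_, rfl⟩
  rw [← hTdef] at hT
  have hTg : T * g = (z : F) ^ N := by
    have h1 : (z : F)⁻¹ * ((z : F)⁻¹ ^ (N - 1) * (g : F)) = (z : F)⁻¹ ^ N * g := by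
      rw [← mul_assoc, ← pow_succ']
      congr 2
      omega
    rw [hTdef, h1, mul_inv, inv_pow, inv_inv, mul_assoc, inv_mul_cancel₀ hgF, mul_one]
  have hT0 : T ≠ 0 := by
    rw [hTdef]
    exact inv_ne_zero (mul_ne_zero (inv_ne_zero hz0) hγ0)
  refine ⟨T, a * N, Nat.mul_pos ha (by omega), hT0, hT, fun i => ?_⟩
  refine ⟨t i ^ N * u + y i ^ (a * N) * v, ?_⟩
  have h1 : y i ^ (a * N) * g = z ^ N * (t i ^ N * u + y i ^ (a * N) * v) := by
    have h2 : (y i ^ a * π) ^ N = z ^ N * t i ^ N := by rw [ht, mul_pow]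
    rw [mul_pow, ← pow_mul] at h2
    rw [hpg, mul_add, ← mul_assoc, h2]
    ring
  have h2 := congrArg (fun x : B => (x : F)) h1
  push_cast at h2
  rw [← hTg] at h2
  have h3 : ((y i : F) ^ (a * N)) * g =
      (T * ((t i : F) ^ N * (u : F) + (y i : F) ^ (a * N) * (v : F))) * g := by
    rw [h2]
    ring
  have h4 := mul_right_cancel₀ hgF h3
  rw [h4]
  push_cast
  rfl

end curve

end Vale.Agent.P002.H2
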