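import Vale.Agent.P002.H2.WC

/-!
# The generic line through a point
-/

namespace Vale.Agent.P002.H2

open Polynomial Module

section line

variable {K F : Type} [Field K] [Field F] [Algebra K F]

/-- the coordinates `z_j / z_0` and `z_0` are algebraically independent -/
theorem line_indep {ι : Type} [Finite ι] (z : Option ι → F) (hz : AlgebraicIndependent K z)
    [halg : Algebra.IsAlgebraic (Algebra.adjoin K (Set.range z)) F] :
    AlgebraicIndependent K (fun o : Option ι => o.elim (z none)
      (fun j => z (some j) / z none)) := by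
  obtain ⟨w, hw⟩ : ∃ w : Option ι → F, w = fun o : Option ι => o.elim (z none)
      (fun j => z (some j) / z none) := ⟨_, rfl⟩
  rw [← hw]
  have hz0 : z none ≠ 0 := hz.ne_zero none
  have hle : Algebra.adjoin K (Set.range z) ≤ Algebra.adjoin K (Set.range w) := by
    rw [Algebra.adjoin_le_iff]
    rintro _ ⟨o, rfl⟩
    have h0 : w none ∈ Algebra.adjoin K (Set.range w) := Algebra.subset_adjoin ⟨none, rfl⟩
    cases o with
    | none =>
      have h1 : w none = z none := by rw [hw]; rfl
      rw [← h1]
      exact h0
    | some j =>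
      have h1 : w (some j) = z (some j) / z none := by rw [hw]; rfl
      have h2 : z (some j) = w (some j) * w none := by
        rw [h1, hw]
        exact (div_mul_cancel₀ _ hz0).symm
      rw [h2]
      exact Subalgebra.mul_mem _ (Algebra.subset_adjoin ⟨some j, rfl⟩) h0
  have hb : IsTranscendenceBasis K z := hz.isTranscendenceBasis_iff_isAlgebraic.2 halg
  have hc := hb.lift_cardinalMk_eq_trdeg
  have h1 : Algebra.IsAlgebraic (Algebra.adjoin K (Set.range w)) F := by
    refine ⟨fun x => ?_⟩
    obtain ⟨p, hp0, hp⟩ := halg.isAlgebraic x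
    refine ⟨p.map (Subalgebra.inclusion hle).toRingHom, ?_, ?_⟩
    · rwa [Ne, Polynomial.map_eq_zero_iff (Subalgebra.inclusion_injective hle)]
    · rw [aeval_def, eval₂_map]
      exact hp
  exact (Algebra.IsAlgebraic.isTranscendenceBasis_of_lift_le_trdeg_of_finite K w hc.le).1

/-- the constant coefficient -/
theorem const_zero {ι : Type} (z : Option ι → F) (hz0 : z none ≠ 0) (k : IntermediateField K F)
    (hk : ∀ j, z (some j) / z none ∈ k) (ht : Transcendental k (z none))
    (c : MvPolynomial (Option ι) K) (q : k[X]) (n : ℕ) (hn : n ≠ 0)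
    (h : MvPolynomial.aeval z c = z none ^ n * aeval (z none) q) :
    MvPolynomial.constantCoeff c = 0 := by
  obtain ⟨α, hα⟩ : ∃ α : MvPolynomial (Option ι) K →ₐ[K] k[X],
      α = MvPolynomial.aeval (fun o : Option ι => o.elim X
        (fun j => C (⟨z (some j) / z none, hk j⟩ : k) * X)) := ⟨_, rfl⟩
  have h1 : ((aeval (z none) : k[X] →ₐ[k] F).restrictScalars K).comp α = MvPolynomial.aeval z := by
    apply MvPolynomial.algHom_ext
    intro o
    rw [AlgHom.comp_apply, hα, MvPolynomial.aeval_X, MvPolynomial.aeval_X]
    cases o with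
    | none => exact aeval_X _
    | some j =>
      change aeval (z none) (C (⟨z (some j) / z none, hk j⟩ : k) * X) = _
      rw [map_mul, aeval_C, aeval_X]
      exact div_mul_cancel₀ _ hz0
  have h2 : aeval (z none) (α c) = aeval (z none) (X ^ n * q) := by
    have h3 : aeval (z none) (α c) = MvPolynomial.aeval z c := by
      rw [← h1]
      rfl
    rw [h3, h, map_mul, map_pow, aeval_X]
  have h3 : α c = X ^ n * q := transcendental_iff_injective.1 ht h2
  have h4 : ((aeval (0 : k) : k[X] →ₐ[k] k).restrictScalars K).comp α =
      (Algebra.ofId K k).comp (MvPolynomial.aeval (fun _ => (0 : K))) := by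
    apply MvPolynomial.algHom_ext
    intro o
    rw [AlgHom.comp_apply, AlgHom.comp_apply, hα, MvPolynomial.aeval_X, MvPolynomial.aeval_X,
      map_zero]
    cases o with
    | none => exact aeval_X _
    | some j =>
      change aeval (0 : k) (C (⟨z (some j) / z none, hk j⟩ : k) * X) = _
      rw [map_mul, aeval_X, mul_zero]
  have h5 : aeval (0 : k) (α c) = algebraMap K k (MvPolynomial.constantCoeff c) := by
    have h6 : aeval (0 : k) (α c) =
        ((Algebra.ofId K k).comp (MvPolynomial.aeval (fun _ => (0 : K)))) c := by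
      rw [← h4]
      rfl
    rw [h6, AlgHom.comp_apply]
    change algebraMap K k (MvPolynomial.aeval (fun _ => (0 : K)) c) = _
    congr 1
    have h7 : (fun _ : Option ι => (0 : K)) = 0 := rfl
    rw [h7, MvPolynomial.aeval_zero]
    rfl
  rw [h3, map_mul, map_pow, aeval_X, zero_pow hn, zero_mul] at h5
  exact (map_eq_zero _).1 h5.symm

end line

end Vale.Agent.P002.H2
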