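import Vale.Agent.P002.H2.WD

/-!
# The generic line through a point: minimal polynomials
-/

namespace Vale.Agent.P002.H2

open Polynomial Module

/-- comparison of the minimal polynomials of `x = z b` and `b` -/
theorem coeff_rel {A R M F : Type} [CommRing A] [IsDomain A] [IsIntegrallyClosed A] [CommRing R]
    [IsDomain R] [IsIntegrallyClosed R] [Field M] [Field F] [Algebra A M] [IsFractionRing A M]
    [Algebra R M] [IsFractionRing R M] [Algebra M F] [Algebra A F] [Algebra R F]
    [IsScalarTower A M F] [IsScalarTower R M F] (z : M) (hz : z ≠ 0) (x b : F)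
    (hx : IsIntegral A x) (hb : IsIntegral R b) (hxb : x = algebraMap M F z * b) (r : ℕ) :
    algebraMap A F ((minpoly A x).coeff r) =
      algebraMap M F z ^ ((minpoly A x).natDegree - r) * algebraMap R F ((minpoly R b).coeff r) := by
  have h1 : minpoly M x = (minpoly A x).map (algebraMap A M) :=
    minpoly.isIntegrallyClosed_eq_field_fractions' M hx
  have h2 : minpoly M b = (minpoly R b).map (algebraMap R M) :=
    minpoly.isIntegrallyClosed_eq_field_fractions' M hb
  have hxM : IsIntegral M x := hx.tower_top
  have hbM : IsIntegral M b := hb.tower_top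
  have hzF : algebraMap M F z ≠ 0 := (_root_.map_ne_zero _).2 hz
  have h3 : minpoly M x ∣ scaleRoots (minpoly M b) z := by
    apply minpoly.dvd
    rw [hxb]
    exact scaleRoots_aeval_eq_zero (minpoly.aeval M b)
  have h4 : minpoly M b ∣ scaleRoots (minpoly M x) z⁻¹ := by
    apply minpoly.dvd
    have h5 : b = algebraMap M F z⁻¹ * x := by
      rw [hxb, map_inv₀, ← mul_assoc, inv_mul_cancel₀ hzF, one_mul]
    conv_lhs => rw [h5]
    exact scaleRoots_aeval_eq_zero (minpoly.aeval M x)
  have h5 : (minpoly M b).natDegree ≤ (minpoly M x).natDegree := by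
    have h6 := natDegree_le_of_dvd h4
      ((monic_scaleRoots_iff _).2 (minpoly.monic hxM)).ne_zero
    rwa [natDegree_scaleRoots] at h6
  have h6 : minpoly M x = scaleRoots (minpoly M b) z := by
    symm
    refine eq_of_monic_of_dvd_of_natDegree_le (minpoly.monic hxM)
      ((monic_scaleRoots_iff _).2 (minpoly.monic hbM)) h3 ?_
    rwa [natDegree_scaleRoots]
  have h7 : (minpoly M b).natDegree = (minpoly A x).natDegree := by
    have h8 := congrArg natDegree h6
    rw [natDegree_scaleRoots, h1, (minpoly.monic hx).natDegree_map] at h8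
    exact h8.symm
  have h8 : algebraMap M F ((minpoly M x).coeff r) =
      algebraMap M F ((scaleRoots (minpoly M b) z).coeff r) := by rw [← h6]
  rw [coeff_scaleRoots, h1, h7, coeff_map, map_mul, map_pow, h2, coeff_map,
    ← IsScalarTower.algebraMap_apply, ← IsScalarTower.algebraMap_apply] at h8
  rw [h8, mul_comm]

section line

variable {K F : Type} [Field K] [Field F] [Algebra K F]

/-- `k[z]` is integrally closed -/
theorem closed_adjoin {k F : Type} [Field k] [Field F] [Algebra k F] (z : F)
    (ht : Transcendental k z) : IsIntegrallyClosed (Algebra.adjoin k {z}) := by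
  have e : k[X] ≃ₐ[k] Algebra.adjoin k {z} :=
    (AlgEquiv.ofInjective (aeval z) (transcendental_iff_injective.1 ht)).trans
      (Subalgebra.equivOfEq _ _ (Algebra.adjoin_singleton_eq_range_aeval k z).symm)
  exact IsIntegrallyClosed.of_equiv e.toRingEquiv

open scoped IntermediateField.algebraAdjoinAdjoin in
/-- an element of `B₀` divisible by `z_0` over the generic line vanishes at the point -/
theorem phi_zero {ι : Type} [Finite ι] (z : Option ι → F) (hz : AlgebraicIndependent K z)
    (k : IntermediateField K F)
    (hk : k = IntermediateField.adjoin K (Set.range fun j => z (some j) / z none))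
    (ht : Transcendental k (z none)) (B₀ : Subalgebra K F)
    (g : MvPolynomial (Option ι) K →ₐ[K] B₀) (hgz : ∀ o, (g (MvPolynomial.X o) : F) = z o)
    (hg : g.IsIntegral) (φ₀ : B₀ →ₐ[K] K) (hφ₀ : ∀ o, φ₀ (g (MvPolynomial.X o)) = 0)
    (x : B₀) (b : F) (hb : IsIntegral (Algebra.adjoin k {z none}) b)
    (hx : (x : F) = z none * b) : φ₀ x = 0 := by
  have hz0 : z none ≠ 0 := hz.ne_zero none
  have hkj : ∀ j, z (some j) / z none ∈ k := fun j => by
    rw [hk]
    exact IntermediateField.subset_adjoin _ _ ⟨j, rfl⟩
  obtain ⟨M, hM⟩ : ∃ M : IntermediateField k F, M = IntermediateField.adjoin k {z none} :=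
    ⟨_, rfl⟩
  have hgF : ∀ c, (g c : F) = MvPolynomial.aeval z c := by
    intro c
    have h1 : B₀.val.comp g = MvPolynomial.aeval z := by
      apply MvPolynomial.algHom_ext
      intro o
      rw [AlgHom.comp_apply, MvPolynomial.aeval_X]
      exact hgz o
    rw [← h1]
    rfl
  have hφg : ∀ c, φ₀ (g c) = MvPolynomial.constantCoeff c := by
    intro c
    have h1 : φ₀.comp g = MvPolynomial.aeval (fun _ => (0 : K)) := by
      apply MvPolynomial.algHom_ext
      intro o
      rw [AlgHom.comp_apply, MvPolynomial.aeval_X]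
      exact hφ₀ o
    have h2 : φ₀ (g c) = MvPolynomial.aeval (fun _ => (0 : K)) c := by
      rw [← h1]
      rfl
    rw [h2]
    have h7 : (fun _ : Option ι => (0 : K)) = 0 := rfl
    rw [h7, MvPolynomial.aeval_zero]
    rfl
  have hkM : ∀ a ∈ k, a ∈ M := fun a ha => M.algebraMap_mem (⟨a, ha⟩ : k)
  have hz0M : z none ∈ M := hM ▸ IntermediateField.mem_adjoin_simple_self k _
  have hzM : ∀ o, z o ∈ M := by
    intro o
    cases o with
    | none => exact hz0M
    | some j =>
      have h1 : z (some j) = z (some j) / z none * z none := (div_mul_cancel₀ _ hz0).symm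
      rw [h1]
      exact M.mul_mem (hkM _ (hkj j)) hz0M
  have haM : ∀ c : MvPolynomial (Option ι) K, MvPolynomial.aeval z c ∈ M := by
    intro c
    induction c using MvPolynomial.induction_on with
    | C a =>
      rw [MvPolynomial.aeval_C]
      exact hkM _ (k.algebraMap_mem a)
    | add p q hp hq =>
      rw [map_add]
      exact M.add_mem hp hq
    | mul_X p o hp =>
      rw [map_mul, MvPolynomial.aeval_X]
      exact M.mul_mem hp (hzM o)
  let : Algebra (MvPolynomial (Option ι) K) M :=
    (RingHom.codRestrict (MvPolynomial.aeval z : MvPolynomial (Option ι) K →ₐ[K] F).toRingHom M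
      haM).toAlgebra
  let : Algebra (MvPolynomial (Option ι) K) F :=
    (MvPolynomial.aeval z : MvPolynomial (Option ι) K →ₐ[K] F).toRingHom.toAlgebra
  have hAF : ∀ c, algebraMap (MvPolynomial (Option ι) K) F c = MvPolynomial.aeval z c :=
    fun c => rfl
  have hAM : ∀ c, ((algebraMap (MvPolynomial (Option ι) K) M c : M) : F) =
      MvPolynomial.aeval z c := fun c => rfl
  have ht1 : IsScalarTower (MvPolynomial (Option ι) K) M F :=
    IsScalarTower.of_algebraMap_eq fun c => rfl
  have hinj : Function.Injective (MvPolynomial.aeval z : MvPolynomial (Option ι) K →ₐ[K] F) := hz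
  have hfs : FaithfulSMul (MvPolynomial (Option ι) K) M := by
    rw [faithfulSMul_iff_algebraMap_injective]
    intro c c' h
    apply hinj
    have := congrArg (fun x : M => (x : F)) h
    exact this
  have hfr : IsFractionRing (MvPolynomial (Option ι) K) M := by
    apply IsFractionRing.of_field
    rintro ⟨a, ha⟩
    have h1 : M.restrictScalars K ≤ IntermediateField.adjoin K (Set.range z) := by
      have h2 : (IntermediateField.adjoin
          (IntermediateField.adjoin K (Set.range fun j => z (some j) / z none))
          {z none}).restrictScalars K ≤ IntermediateField.adjoin K (Set.range z) := by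
        rw [IntermediateField.adjoin_adjoin_left, IntermediateField.adjoin_le_iff]
        rintro a (⟨j, rfl⟩ | ha)
        · exact IntermediateField.div_mem _ (IntermediateField.subset_adjoin _ _ ⟨_, rfl⟩)
            (IntermediateField.subset_adjoin _ _ ⟨_, rfl⟩)
        · rw [Set.mem_singleton_iff.1 ha]
          exact IntermediateField.subset_adjoin _ _ ⟨_, rfl⟩
      subst hk
      rw [hM]
      exact h2
    obtain ⟨p, q, hpq⟩ := (IntermediateField.mem_adjoin_range_iff K z a).1 (h1 ha)
    refine ⟨p, q, Subtype.ext ?_⟩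
    exact hpq
  subst hM
  have hR := closed_adjoin (z none) ht
  have hxA : IsIntegral (MvPolynomial (Option ι) K) (x : F) := by
    obtain ⟨P, hP, hPx⟩ := hg x
    refine ⟨P, hP, ?_⟩
    have h1 : ((eval₂ (g : MvPolynomial (Option ι) K →+* B₀) x P : B₀) : F) = ((0 : B₀) : F) :=
      congrArg (fun a : B₀ => (a : F)) hPx
    have h2 : ((eval₂ (g : MvPolynomial (Option ι) K →+* B₀) x P : B₀) : F) =
        B₀.val.toRingHom (eval₂ (g : MvPolynomial (Option ι) K →+* B₀) x P) := rfl
    rw [h2, Polynomial.hom_eval₂] at h1
    have h4 : B₀.val.toRingHom.comp (g : MvPolynomial (Option ι) K →+* B₀) =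
        algebraMap (MvPolynomial (Option ι) K) F := RingHom.ext fun c => hgF c
    rw [h4] at h1
    exact h1
  have hrel := coeff_rel (A := MvPolynomial (Option ι) K) (R := Algebra.adjoin k {z none})
    (M := IntermediateField.adjoin k {z none}) (F := F) ⟨z none, hz0M⟩
    (fun h => hz0 (congrArg Subtype.val h)) (x : F) b hxA hb hx
  obtain ⟨p, hp⟩ : ∃ p, p = minpoly (MvPolynomial (Option ι) K) (x : F) := ⟨_, rfl⟩
  have hpm : p.Monic := hp ▸ minpoly.monic hxA
  rw [← hp] at hrel
  have hc : ∀ r < p.natDegree, MvPolynomial.constantCoeff (p.coeff r) = 0 := by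
    intro r hr
    obtain ⟨q, hq⟩ : ∃ q : k[X], aeval (z none) q =
        (((minpoly (Algebra.adjoin k {z none}) b).coeff r : Algebra.adjoin k {z none}) : F) :=
      (Algebra.adjoin_singleton_eq_range_aeval k (z none)).le
        ((minpoly (Algebra.adjoin k {z none}) b).coeff r).2
    refine const_zero z hz0 k hkj ht (p.coeff r) q (p.natDegree - r) (by omega) ?_
    rw [← hAF, hrel r, hq]
    rfl
  have h0 : aeval (x : F) p = 0 := hp ▸ minpoly.aeval _ _
  have h1 : ∑ r ∈ Finset.range (p.natDegree + 1), g (p.coeff r) * x ^ r = 0 := by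
    apply Subtype.val_injective
    rw [aeval_eq_sum_range] at h0
    push_cast
    refine Eq.trans ?_ h0
    refine Finset.sum_congr rfl fun r _ => ?_
    rw [Algebra.smul_def, hAF, hgF]
  have h2 := congrArg φ₀ h1
  rw [map_sum, map_zero, Finset.sum_range_succ, Finset.sum_eq_zero, zero_add, map_mul, map_pow,
    hφg] at h2
  · have h3 : p.coeff p.natDegree = 1 := hpm
    rw [h3, map_one, one_mul] at h2
    exact eq_zero_of_pow_eq_zero h2
  · intro r hr
    rw [map_mul, hφg, hc r (Finset.mem_range.1 hr), zero_mul]

end line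

end Vale.Agent.P002.H2
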