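import Vale.Agent.P002.H2.WE

/-!
# The generic line through a point: the point of the curve
-/

namespace Vale.Agent.P002.H2

open Polynomial Module

/-- `π` with `φ₀ π ≠ 0` such that powers of the `y i` times `π` lie in the ideal of the origin
of the base -/
theorem exists_pi0 {K A B₀ : Type} [Field K] [CommRing A] [CommRing B₀] [Algebra K A]
    [Algebra K B₀] (g : A →ₐ[K] B₀) (hg : g.IsIntegral) (ε : A →ₐ[K] K) (φ₀ : B₀ →ₐ[K] K)
    (J : Ideal B₀) (hJ : ∀ c, ε c = 0 → g c ∈ J) {n : ℕ} (y : Fin n → B₀)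
    (hφy : ∀ i, φ₀ (y i) = 0) :
    ∃ (π : B₀) (a : ℕ), φ₀ π ≠ 0 ∧ ∀ i, y i ^ a * π ∈ J := by
  have h1 : ∀ i, ∃ (a : ℕ) (q : K[X]), q.eval 0 ≠ 0 ∧ y i ^ a * aeval (y i) q ∈ J := by
    intro i
    obtain ⟨P, hP, hPy⟩ := hg (y i)
    obtain ⟨P₀, hP₀⟩ : ∃ P₀, P₀ = P.map (ε : A →+* K) := ⟨_, rfl⟩
    have hP₀m : P₀.Monic := hP₀ ▸ hP.map _
    have h2 : aeval (y i) P₀ ∈ J := by
      have h3 : ∀ r, algebraMap K B₀ (ε (P.coeff r)) - g (P.coeff r) ∈ J := by
        intro r
        have h4 := hJ (algebraMap K A (ε (P.coeff r)) - P.coeff r) (by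
          rw [map_sub, AlgHom.commutes, Algebra.algebraMap_self_apply, sub_self])
        rwa [map_sub, AlgHom.commutes] at h4
      have h5 : aeval (y i) P₀ = ∑ r ∈ Finset.range (P.natDegree + 1),
          (algebraMap K B₀ (ε (P.coeff r)) - g (P.coeff r)) * y i ^ r := by
        have h6 : aeval (y i) P₀ = ∑ r ∈ Finset.range (P.natDegree + 1),
            algebraMap K B₀ (ε (P.coeff r)) * y i ^ r := by
          rw [aeval_eq_sum_range' (n := P.natDegree + 1)]
          · refine Finset.sum_congr rfl fun r _ => ?_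
            rw [Algebra.smul_def, hP₀, coeff_map]
            rfl
          · rw [hP₀]
            exact Nat.lt_succ_of_le natDegree_map_le
        rw [eval₂_eq_sum_range] at hPy
        have hPy' : ∑ r ∈ Finset.range (P.natDegree + 1), g (P.coeff r) * y i ^ r = 0 := hPy
        rw [h6]
        simp only [sub_mul, Finset.sum_sub_distrib]
        rw [hPy', sub_zero]
      rw [h5]
      exact J.sum_mem fun r _ => J.mul_mem_right _ (h3 r)
    obtain ⟨q, hq, hq0⟩ := Polynomial.exists_eq_pow_rootMultiplicity_mul_and_not_dvd P₀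
      hP₀m.ne_zero 0
    rw [C_0, sub_zero] at hq hq0
    refine ⟨rootMultiplicity 0 P₀, q, ?_, ?_⟩
    · intro h0
      exact hq0 (X_dvd_iff.2 (by rwa [coeff_zero_eq_eval_zero]))
    · have h3 : y i ^ rootMultiplicity 0 P₀ * aeval (y i) q = aeval (y i) P₀ := by
        conv_rhs => rw [hq]
        rw [map_mul, map_pow, aeval_X]
      rw [h3]
      exact h2
  choose a q hq0 hqt using h1
  refine ⟨∏ i, aeval (y i) (q i), Finset.univ.sup a, ?_, fun i => ?_⟩
  · rw [map_prod]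
    refine Finset.prod_ne_zero_iff.2 fun i _ => ?_
    rw [← Polynomial.aeval_algHom_apply, hφy, Polynomial.coe_aeval_eq_eval]
    exact hq0 i
  · obtain ⟨b, hb⟩ : ∃ b, Finset.univ.sup a = b + a i :=
      ⟨Finset.univ.sup a - a i, by
        have := Finset.le_sup (f := a) (Finset.mem_univ i)
        omega⟩
    rw [← Finset.mul_prod_erase _ _ (Finset.mem_univ i), hb, pow_add]
    have h2 : y i ^ b * y i ^ a i *
        (aeval (y i) (q i) * ∏ j ∈ Finset.univ.erase i, aeval (y j) (q j)) =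
        (y i ^ a i * aeval (y i) (q i)) *
          (y i ^ b * ∏ j ∈ Finset.univ.erase i, aeval (y j) (q j)) := by ring
    rw [h2]
    exact J.mul_mem_right _ (hqt i)

/-- the `k`-point of `k[y]` given by a proper ideal `(y)` -/
theorem exists_point {k B : Type} [Field k] [CommRing B] [Algebra k B] {n : ℕ} (y : Fin n → B)
    (hy : Algebra.adjoin k (Set.range y) = ⊤) (hI : (1 : B) ∉ Ideal.span (Set.range y)) :
    ∃ φ : B →ₐ[k] k, ∀ i, φ (y i) = 0 := by
  obtain ⟨I, hIdef⟩ : ∃ I, I = Ideal.span (Set.range y) := ⟨_, rfl⟩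
  rw [← hIdef] at hI
  have hIt : I ≠ ⊤ := fun h => hI (h ▸ Submodule.mem_top)
  have hnt : Nontrivial (B ⧸ I) := Ideal.Quotient.nontrivial_iff.2 hIt
  have hsurj : Function.Surjective (algebraMap k (B ⧸ I)) := by
    intro x
    obtain ⟨b, rfl⟩ := Ideal.Quotient.mk_surjective x
    have hb : b ∈ Algebra.adjoin k (Set.range y) := hy ▸ Algebra.mem_top
    induction hb using Algebra.adjoin_induction with
    | mem x hx =>
      refine ⟨0, ?_⟩
      rw [map_zero, eq_comm, Ideal.Quotient.eq_zero_iff_mem, hIdef]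
      exact Ideal.subset_span hx
    | algebraMap r => exact ⟨r, rfl⟩
    | add x y _ _ hx hy =>
      obtain ⟨c, hc⟩ := hx
      obtain ⟨c', hc'⟩ := hy
      exact ⟨c + c', by rw [map_add, map_add, hc, hc']⟩
    | mul x y _ _ hx hy =>
      obtain ⟨c, hc⟩ := hx
      obtain ⟨c', hc'⟩ := hy
      exact ⟨c * c', by rw [map_mul, map_mul, hc, hc']⟩
  obtain ⟨e, he⟩ : ∃ e : k ≃ₐ[k] (B ⧸ I), ∀ x, e x = algebraMap k (B ⧸ I) x :=
    ⟨AlgEquiv.ofBijective (Algebra.ofId k (B ⧸ I))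
      ⟨(algebraMap k (B ⧸ I)).injective, hsurj⟩, fun x => rfl⟩
  refine ⟨(e.symm : (B ⧸ I) →ₐ[k] k).comp (Ideal.Quotient.mkₐ k I), fun i => ?_⟩
  have h1 : Ideal.Quotient.mkₐ k I (y i) = 0 := by
    rw [Ideal.Quotient.mkₐ_eq_mk, Ideal.Quotient.eq_zero_iff_mem, hIdef]
    exact Ideal.subset_span ⟨i, rfl⟩
  rw [AlgHom.comp_apply, h1, map_zero]

end Vale.Agent.P002.H2
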