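import Vale.Agent.P002.H2.WF

/-!
# The generic line through a point: assembly
-/

namespace Vale.Agent.P002.H2

open Polynomial Module

section line

variable {K F : Type} [Field K] [Field F] [Algebra K F]

open scoped IntermediateField.algebraAdjoinAdjoin in
/-- the generic line, for coordinates `z` which vanish at the point -/
theorem generic_line_aux {ι : Type} [Finite ι] (z : Option ι → F) (hz : AlgebraicIndependent K z)
    {n : ℕ} (y : Fin n → F) (B₀ : Subalgebra K F) (hB₀ : B₀ = Algebra.adjoin K (Set.range y))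
    [halg : Algebra.IsAlgebraic B₀ F]
    (g : MvPolynomial (Option ι) K →ₐ[K] B₀) (hgz : ∀ o, (g (MvPolynomial.X o) : F) = z o)
    (hg : g.IsIntegral) (φ₀ : B₀ →ₐ[K] K) (hφ₀ : ∀ o, φ₀ (g (MvPolynomial.X o)) = 0)
    (hφy : ∀ (x : B₀), (x : F) ∈ Set.range y → φ₀ x = 0) :
    ∃ s : ι → F, AlgebraicIndependent K s ∧
      ∃ (B : Subalgebra (IntermediateField.adjoin K (Set.range s)) F)
        (_ : B = Algebra.adjoin (IntermediateField.adjoin K (Set.range s)) (Set.range y)) (z₀ : B),
        Transcendental (IntermediateField.adjoin K (Set.range s)) z₀ ∧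
        (∀ x : B, IsIntegral (Algebra.adjoin (IntermediateField.adjoin K (Set.range s))
          {(z₀ : F)}) (x : F)) ∧
        ∃ φ : B →ₐ[IntermediateField.adjoin K (Set.range s)]
            (IntermediateField.adjoin K (Set.range s)),
          φ z₀ = 0 ∧ ∀ x : B, (x : F) ∈ Set.range y → φ x = 0 := by
  have hz0 : z none ≠ 0 := hz.ne_zero none
  have hzB : ∀ o, z o ∈ B₀ := fun o => hgz o ▸ (g (MvPolynomial.X o)).2
  have hgF : ∀ c, (g c : F) = MvPolynomial.aeval z c := by
    intro c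
    have h1 : B₀.val.comp g = MvPolynomial.aeval z := by
      apply MvPolynomial.algHom_ext
      intro o
      rw [AlgHom.comp_apply, MvPolynomial.aeval_X]
      exact hgz o
    rw [← h1]
    rfl
  have hle : Algebra.adjoin K (Set.range z) ≤ B₀ := by
    rw [Algebra.adjoin_le_iff]
    rintro _ ⟨o, rfl⟩
    exact hzB o
  -- `F` is algebraic over `K[z]`
  have halg1 : Algebra.IsAlgebraic (Algebra.adjoin K (Set.range z)) F := by
    let : Algebra (Algebra.adjoin K (Set.range z)) B₀ := (Subalgebra.inclusion hle).toAlgebra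
    have : IsScalarTower (Algebra.adjoin K (Set.range z)) B₀ F :=
      IsScalarTower.of_algebraMap_eq fun x => rfl
    have hB : Algebra.IsIntegral (Algebra.adjoin K (Set.range z)) B₀ := by
      refine ⟨fun x => ?_⟩
      obtain ⟨P, hP, hPx⟩ := hg x
      have hmem : ∀ c, MvPolynomial.aeval z c ∈ Algebra.adjoin K (Set.range z) := fun c => by
        rw [Algebra.adjoin_range_eq_range_aeval]
        exact ⟨c, rfl⟩
      obtain ⟨γ, hγ⟩ : ∃ γ : MvPolynomial (Option ι) K →+* Algebra.adjoin K (Set.range z),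
          ∀ c, ((γ c : Algebra.adjoin K (Set.range z)) : F) = MvPolynomial.aeval z c :=
        ⟨RingHom.codRestrict (MvPolynomial.aeval z : MvPolynomial (Option ι) K →ₐ[K] F).toRingHom
          _ hmem, fun c => rfl⟩
      refine ⟨P.map γ, hP.map _, ?_⟩
      rw [eval₂_map]
      have h1 : (algebraMap (Algebra.adjoin K (Set.range z)) B₀).comp γ =
          (g : MvPolynomial (Option ι) K →+* B₀) := by
        refine RingHom.ext fun c => Subtype.ext ?_
        have h2 : (((algebraMap (Algebra.adjoin K (Set.range z)) B₀).comp γ) c : F) =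
            (γ c : F) := rfl
        rw [h2, hγ]
        exact (hgF c).symm
      rw [h1]
      exact hPx
    exact Algebra.IsAlgebraic.trans (Algebra.adjoin K (Set.range z)) B₀ F
  have hw := line_indep z hz
  obtain ⟨s, hs⟩ : ∃ s : ι → F, s = fun j => z (some j) / z none := ⟨_, rfl⟩
  rw [← hs] at hw
  obtain ⟨hsi, ht0⟩ := AlgebraicIndependent.option_iff.1 hw
  refine ⟨s, hsi, ?_⟩
  obtain ⟨k, hk⟩ : ∃ k, k = IntermediateField.adjoin K (Set.range s) := ⟨_, rfl⟩
  have ht : Transcendental k (z none) := by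
    rw [hk]
    intro h
    exact ht0 (IsAlgebraic.restrictScalars _ h)
  rw [← hk]
  have hkj : ∀ j, z (some j) / z none ∈ k := fun j => by
    rw [hk]
    exact IntermediateField.subset_adjoin _ _ ⟨j, by rw [hs]⟩
  obtain ⟨B, hB⟩ : ∃ B, B = Algebra.adjoin k (Set.range y) := ⟨_, rfl⟩
  have hyB : ∀ i, y i ∈ B := fun i => hB ▸ Algebra.subset_adjoin ⟨i, rfl⟩
  have hB₀B : ∀ x ∈ B₀, x ∈ B := by
    intro x hx
    rw [hB₀] at hx
    induction hx using Algebra.adjoin_induction with
    | mem x hx =>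
      obtain ⟨i, rfl⟩ := hx
      exact hyB i
    | algebraMap r => exact B.algebraMap_mem (algebraMap K k r)
    | add x y _ _ hx hy => exact B.add_mem hx hy
    | mul x y _ _ hx hy => exact B.mul_mem hx hy
  obtain ⟨z₀, hz₀⟩ : ∃ z₀ : B, (z₀ : F) = z none := ⟨⟨z none, hB₀B _ (hzB none)⟩, rfl⟩
  -- integrality
  have hzo : ∀ o, z o ∈ Algebra.adjoin k {z none} := by
    intro o
    cases o with
    | none => exact Algebra.self_mem_adjoin_singleton _ _
    | some j =>
      have h1 : z (some j) = algebraMap k F ⟨_, hkj j⟩ * z none := (div_mul_cancel₀ _ hz0).symm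
      rw [h1]
      exact Subalgebra.mul_mem _ (Subalgebra.algebraMap_mem _ _)
        (Algebra.self_mem_adjoin_singleton _ _)
  have haz : ∀ c : MvPolynomial (Option ι) K, MvPolynomial.aeval z c ∈
      Algebra.adjoin k {z none} := by
    intro c
    induction c using MvPolynomial.induction_on with
    | C a =>
      rw [MvPolynomial.aeval_C]
      exact Subalgebra.algebraMap_mem _ (algebraMap K k a)
    | add p q hp hq =>
      rw [map_add]
      exact Subalgebra.add_mem _ hp hq
    | mul_X p o hp =>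
      rw [map_mul, MvPolynomial.aeval_X]
      exact Subalgebra.mul_mem _ hp (hzo o)
  have hint0 : ∀ x ∈ B₀, IsIntegral (Algebra.adjoin k {z none}) x := by
    intro x hx
    obtain ⟨P, hP, hPx⟩ := hg ⟨x, hx⟩
    refine isIntegral_of_coeffs _ (P.map
      (MvPolynomial.aeval z : MvPolynomial (Option ι) K →ₐ[K] F).toRingHom) (hP.map _)
      (fun i => ?_) ?_
    · rw [coeff_map]
      exact haz _
    · rw [eval_map]
      have h1 : ((eval₂ (g : MvPolynomial (Option ι) K →+* B₀) ⟨x, hx⟩ P : B₀) : F) =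
        ((0 : B₀) : F) := congrArg (fun a : B₀ => (a : F)) hPx
      have h2 : ((eval₂ (g : MvPolynomial (Option ι) K →+* B₀) ⟨x, hx⟩ P : B₀) : F) =
          B₀.val.toRingHom (eval₂ (g : MvPolynomial (Option ι) K →+* B₀) ⟨x, hx⟩ P) := rfl
      rw [h2, Polynomial.hom_eval₂] at h1
      have h4 : B₀.val.toRingHom.comp (g : MvPolynomial (Option ι) K →+* B₀) =
          (MvPolynomial.aeval z : MvPolynomial (Option ι) K →ₐ[K] F).toRingHom :=
        RingHom.ext fun c => hgF c
      rw [h4] at h1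
      exact h1
  have hint : ∀ x ∈ B, IsIntegral (Algebra.adjoin k {z none}) x := by
    intro x hx
    rw [hB] at hx
    induction hx using Algebra.adjoin_induction with
    | mem x hx =>
      obtain ⟨i, rfl⟩ := hx
      exact hint0 _ (hB₀ ▸ Algebra.subset_adjoin ⟨i, rfl⟩)
    | algebraMap r =>
      exact isIntegral_algebraMap (R := Algebra.adjoin k {z none})
        (x := ⟨_, Subalgebra.algebraMap_mem _ r⟩)
    | add x y _ _ hx hy => exact hx.add hy
    | mul x y _ _ hx hy => exact hx.mul hy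
  -- divisibility by `z₀`
  obtain ⟨J, hJ⟩ : ∃ J : Ideal B₀, ∀ x, x ∈ J ↔ ∃ t : B, (x : F) = z none * t :=
    ⟨{ carrier := {x | ∃ t : B, (x : F) = z none * t}
       add_mem' := by
        rintro a b ⟨t, ht⟩ ⟨t', ht'⟩
        exact ⟨t + t', by push_cast; rw [ht, ht']; ring⟩
       zero_mem' := ⟨0, by push_cast; ring⟩
       smul_mem' := by
        rintro c x ⟨t, ht⟩
        refine ⟨⟨(c : F), hB₀B _ c.2⟩ * t, ?_⟩
        rw [smul_eq_mul]
        push_cast
        rw [ht]
        ring }, fun x => Iff.rfl⟩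
  have hJc : ∀ c : MvPolynomial (Option ι) K, MvPolynomial.aeval (fun _ => (0 : K)) c = 0 →
      g c ∈ J := by
    have h1 : ∀ c : MvPolynomial (Option ι) K,
        g (c - MvPolynomial.C (MvPolynomial.aeval (fun _ => (0 : K)) c)) ∈ J := by
      intro c
      induction c using MvPolynomial.induction_on with
      | C a =>
        rw [MvPolynomial.aeval_C, Algebra.algebraMap_self_apply, sub_self, map_zero]
        exact J.zero_mem
      | add p q hp hq =>
        have h2 : p + q - MvPolynomial.C (MvPolynomial.aeval (fun _ => (0 : K)) (p + q)) =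
            (p - MvPolynomial.C (MvPolynomial.aeval (fun _ => (0 : K)) p)) +
            (q - MvPolynomial.C (MvPolynomial.aeval (fun _ => (0 : K)) q)) := by
          rw [map_add, map_add]
          ring
        rw [h2, map_add]
        exact J.add_mem hp hq
      | mul_X p o hp =>
        rw [map_mul, MvPolynomial.aeval_X, mul_zero, map_zero, sub_zero, map_mul]
        refine J.mul_mem_left _ ((hJ _).2 ?_)
        cases o with
        | none => exact ⟨1, by rw [hgz]; push_cast; ring⟩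
        | some j =>
          refine ⟨algebraMap k B ⟨_, hkj j⟩, ?_⟩
          rw [hgz]
          have h3 : z (some j) = z none * (z (some j) / z none) := (mul_div_cancel₀ _ hz0).symm
          exact h3
    intro c hc
    have h2 := h1 c
    rwa [hc, map_zero, sub_zero] at h2
  -- the element `π`
  obtain ⟨y₀, hy₀⟩ : ∃ y₀ : Fin n → B₀, ∀ i, (y₀ i : F) = y i :=
    ⟨fun i => ⟨y i, hB₀ ▸ Algebra.subset_adjoin ⟨i, rfl⟩⟩, fun i => rfl⟩
  obtain ⟨yB, hyB'⟩ : ∃ yB : Fin n → B, ∀ i, (yB i : F) = y i :=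
    ⟨fun i => ⟨y i, hyB i⟩, fun i => rfl⟩
  obtain ⟨π, a, hπ, hπJ⟩ := exists_pi0 g hg (MvPolynomial.aeval (fun _ => (0 : K))) φ₀ J hJc y₀
    (fun i => hφy _ ⟨i, (hy₀ i).symm⟩)
  have hproper : (1 : B) ∉ Ideal.span (Set.range yB) := by
    intro h
    have h1 : Ideal.span (Set.range yB) = ⊤ := (Ideal.eq_top_iff_one _).2 h
    have h2 := Ideal.span_pow_eq_top _ h1 a
    -- the ideal of `b` with `b π ∈ z₀ B`
    obtain ⟨I, hI⟩ : ∃ I : Ideal B, ∀ b, b ∈ I ↔ ∃ t : B, (b : F) * (π : F) = z none * t :=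
      ⟨{ carrier := {b | ∃ t : B, (b : F) * (π : F) = z none * t}
         add_mem' := by
          rintro b b' ⟨t, ht⟩ ⟨t', ht'⟩
          exact ⟨t + t', by push_cast; rw [add_mul, ht, ht']; ring⟩
         zero_mem' := ⟨0, by push_cast; ring⟩
         smul_mem' := by
          rintro c x ⟨t, ht⟩
          refine ⟨c * t, ?_⟩
          rw [smul_eq_mul]
          push_cast
          rw [mul_assoc, ht]
          ring }, fun x => Iff.rfl⟩
    have h3 : Ideal.span ((fun x => x ^ a) '' (Set.range yB)) ≤ I := by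
      rw [Ideal.span_le]
      rintro _ ⟨_, ⟨i, rfl⟩, rfl⟩
      obtain ⟨t, ht⟩ := (hJ _).1 (hπJ i)
      refine (hI _).2 ⟨t, ?_⟩
      rw [← ht]
      push_cast
      rw [hyB', hy₀]
    have h4 : (1 : B) ∈ I := h3 (h2 ▸ Submodule.mem_top)
    obtain ⟨t, ht1⟩ := (hI _).1 h4
    refine hπ (phi_zero z hz k ?_ ht B₀ g hgz hg φ₀ hφ₀ π t (hint _ t.2) ?_)
    · rw [hk, hs]
    · rw [← ht1]
      push_cast
      ring
  have htop : Algebra.adjoin k (Set.range yB) = ⊤ := by
    rw [eq_top_iff]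
    rintro ⟨x, hx⟩ -
    have h1 : x ∈ Algebra.adjoin k (Set.range y) := hB ▸ hx
    induction h1 using Algebra.adjoin_induction with
    | mem x hx' =>
      obtain ⟨i, rfl⟩ := hx'
      exact Algebra.subset_adjoin ⟨i, Subtype.ext (hyB' i)⟩
    | algebraMap r => exact Subalgebra.algebraMap_mem _ r
    | add x y hx' hy' hx1 hy1 =>
      exact Subalgebra.add_mem _ (hx1 (hB ▸ hx')) (hy1 (hB ▸ hy'))
    | mul x y hx' hy' hx1 hy1 =>
      exact Subalgebra.mul_mem _ (hx1 (hB ▸ hx')) (hy1 (hB ▸ hy'))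
  obtain ⟨φ, hφ⟩ := exists_point yB htop hproper
  have hφx : ∀ x : B, (x : F) ∈ Set.range y → φ x = 0 := by
    rintro x ⟨i, hi⟩
    have h1 : x = yB i := Subtype.ext (by rw [hyB', hi])
    rw [h1, hφ]
  refine ⟨B, hB, z₀, ?_, ?_, φ, ?_, hφx⟩
  · intro h
    apply ht
    obtain ⟨p, hp0, hp⟩ := h
    refine ⟨p, hp0, ?_⟩
    have h1 := congrArg (fun x : B => (x : F)) hp
    have h2 : ((aeval z₀ p : B) : F) = aeval (z₀ : F) p :=
      (Polynomial.aeval_algHom_apply B.val z₀ p).symm
    rw [← hz₀, ← h2]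
    exact h1
  · rintro ⟨x, hx⟩
    rw [hz₀]
    exact hint x hx
  · -- `φ` and `φ₀` agree on `B₀`
    have h1 : ∀ x (hx : x ∈ B₀), φ ⟨x, hB₀B x hx⟩ = algebraMap K k (φ₀ ⟨x, hx⟩) := by
      intro x hx
      have h2 : x ∈ Algebra.adjoin K (Set.range y) := hB₀ ▸ hx
      induction h2 using Algebra.adjoin_induction with
      | mem x hx' =>
        rw [hφx _ hx', hφy ⟨x, hx⟩ hx', map_zero]
      | algebraMap r =>
        have h3 : (⟨algebraMap K F r, hB₀B _ hx⟩ : B) = algebraMap k B (algebraMap K k r) := rfl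
        have h4 : (⟨algebraMap K F r, hx⟩ : B₀) = algebraMap K B₀ r := rfl
        rw [h3, h4, AlgHom.commutes, AlgHom.commutes]
        rfl
      | add x y hx' hy' hx1 hy1 =>
        have hx2 : x ∈ B₀ := hB₀ ▸ hx'
        have hy2 : y ∈ B₀ := hB₀ ▸ hy'
        have h3 : (⟨x + y, hB₀B _ hx⟩ : B) = ⟨x, hB₀B _ hx2⟩ + ⟨y, hB₀B _ hy2⟩ := rfl
        have h4 : (⟨x + y, hx⟩ : B₀) = ⟨x, hx2⟩ + ⟨y, hy2⟩ := rfl
        rw [h3, h4, map_add, map_add, hx1 hx2, hy1 hy2, map_add]
      | mul x y hx' hy' hx1 hy1 =>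
        have hx2 : x ∈ B₀ := hB₀ ▸ hx'
        have hy2 : y ∈ B₀ := hB₀ ▸ hy'
        have h3 : (⟨x * y, hB₀B _ hx⟩ : B) = ⟨x, hB₀B _ hx2⟩ * ⟨y, hB₀B _ hy2⟩ := rfl
        have h4 : (⟨x * y, hx⟩ : B₀) = ⟨x, hx2⟩ * ⟨y, hy2⟩ := rfl
        rw [h3, h4, map_mul, map_mul, hx1 hx2, hy1 hy2, map_mul]
    have h2 : z₀ = ⟨z none, hB₀B _ (hzB none)⟩ := Subtype.ext hz₀
    have h3 : (⟨z none, hzB none⟩ : B₀) = g (MvPolynomial.X none) := Subtype.ext (hgz none).symm
    rw [h2, h1 _ (hzB none), h3, hφ₀, map_zero]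

end line

end Vale.Agent.P002.H2
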