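import Vale.Agent.P002.H2.WG

/-!
# The generic line through a point: Noether normalisation
-/

namespace Vale.Agent.P002.H2

open Polynomial Module

section line

variable {K F : Type} [Field K] [Field F] [Algebra K F]

/-- the generic line -/
theorem generic_line {n : ℕ} (y : Fin n → F) (B₀ : Subalgebra K F)
    (hB₀ : B₀ = Algebra.adjoin K (Set.range y)) [halg : Algebra.IsAlgebraic B₀ F]
    (φ₀ : B₀ →ₐ[K] K) (hφy : ∀ (x : B₀), (x : F) ∈ Set.range y → φ₀ x = 0) :
    (∀ i, y i = 0) ∨ ∃ (d : ℕ) (s : Fin d → F), AlgebraicIndependent K s ∧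
      ∃ (B : Subalgebra (IntermediateField.adjoin K (Set.range s)) F)
        (_ : B = Algebra.adjoin (IntermediateField.adjoin K (Set.range s)) (Set.range y)) (z₀ : B),
        Transcendental (IntermediateField.adjoin K (Set.range s)) z₀ ∧
        (∀ x : B, IsIntegral (Algebra.adjoin (IntermediateField.adjoin K (Set.range s))
          {(z₀ : F)}) (x : F)) ∧
        ∃ φ : B →ₐ[IntermediateField.adjoin K (Set.range s)]
            (IntermediateField.adjoin K (Set.range s)),
          φ z₀ = 0 ∧ ∀ x : B, (x : F) ∈ Set.range y → φ x = 0 := by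
  have hfg : B₀.FG := by
    rw [hB₀]
    exact Subalgebra.fg_def.2 ⟨Set.range y, Set.finite_range y, rfl⟩
  have hft : Algebra.FiniteType K B₀ := B₀.fg_iff_finiteType.1 hfg
  obtain ⟨m, g, hginj, hg⟩ := exists_integral_inj_algHom_of_fg K B₀
  rcases m with _ | d
  · left
    intro i
    have h1 : Algebra.IsIntegral K B₀ := by
      refine ⟨fun x => ?_⟩
      have h2 : (algebraMap K (MvPolynomial (Fin 0) K)).IsIntegral :=
        RingHom.isIntegral_of_surjective _ (MvPolynomial.isEmptyAlgEquiv K (Fin 0)).symm.surjective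
      have h3 : ((g : MvPolynomial (Fin 0) K →+* B₀).comp
          (algebraMap K (MvPolynomial (Fin 0) K))).IsIntegral := h2.trans _ _ hg
      have h4 : (g : MvPolynomial (Fin 0) K →+* B₀).comp
          (algebraMap K (MvPolynomial (Fin 0) K)) = algebraMap K B₀ := g.comp_algebraMap
      rw [h4] at h3
      exact h3 x
    have h2 : IsField B₀ := isField_of_isIntegral_of_isField' (Field.toIsField K)
    let := h2.toField
    have h3 : (⟨y i, hB₀ ▸ Algebra.subset_adjoin ⟨i, rfl⟩⟩ : B₀) = 0 := by
      apply (φ₀ : B₀ →+* K).injective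
      rw [map_zero]
      exact hφy _ ⟨i, rfl⟩
    exact congrArg Subtype.val h3
  · right
    obtain ⟨e⟩ : Nonempty (Option (Fin d) ≃ Fin (d + 1)) := ⟨(finSuccEquiv d).symm⟩
    obtain ⟨a, ha⟩ : ∃ a : Option (Fin d) → K, ∀ o, a o = φ₀ (g (MvPolynomial.X (e o))) :=
      ⟨_, fun o => rfl⟩
    obtain ⟨τ, hτ⟩ : ∃ τ : MvPolynomial (Fin (d + 1)) K →ₐ[K] MvPolynomial (Option (Fin d)) K,
        τ = MvPolynomial.aeval (fun i => MvPolynomial.X (e.symm i) +
          MvPolynomial.C (a (e.symm i))) := ⟨_, rfl⟩
    obtain ⟨τ', hτ'⟩ : ∃ τ' : MvPolynomial (Option (Fin d)) K →ₐ[K] MvPolynomial (Fin (d + 1)) K,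
        τ' = MvPolynomial.aeval (fun o => MvPolynomial.X (e o) - MvPolynomial.C (a o)) :=
      ⟨_, rfl⟩
    have hττ' : τ.comp τ' = AlgHom.id K _ := by
      apply MvPolynomial.algHom_ext
      intro o
      have hC : ∀ x : K, τ (MvPolynomial.C x) = MvPolynomial.C x := fun x => τ.commutes x
      rw [AlgHom.comp_apply, hτ', MvPolynomial.aeval_X, map_sub, hC, hτ, MvPolynomial.aeval_X,
        e.symm_apply_apply, add_sub_cancel_right]
      rfl
    have hτ'τ : τ'.comp τ = AlgHom.id K _ := by
      apply MvPolynomial.algHom_ext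
      intro o
      have hC : ∀ x : K, τ' (MvPolynomial.C x) = MvPolynomial.C x := fun x => τ'.commutes x
      rw [AlgHom.comp_apply, hτ, MvPolynomial.aeval_X, map_add, hC, hτ', MvPolynomial.aeval_X,
        e.apply_symm_apply, sub_add_cancel]
      rfl
    have hinj' : Function.Injective (g.comp τ') := by
      refine hginj.comp ?_
      intro p q h
      have h1 : τ.comp τ' p = τ.comp τ' q := congrArg τ h
      rwa [hττ'] at h1
    have hgX : ∀ o, (g.comp τ') (MvPolynomial.X o) =
        g (MvPolynomial.X (e o)) - algebraMap K B₀ (a o) := by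
      intro o
      have hC : ∀ x : K, g (MvPolynomial.C x) = algebraMap K B₀ x := fun x => g.commutes x
      rw [AlgHom.comp_apply, hτ', MvPolynomial.aeval_X, map_sub, hC]
    have hint' : (g.comp τ').IsIntegral := by
      intro x
      obtain ⟨P, hP, hPx⟩ := hg x
      refine ⟨P.map (τ : MvPolynomial (Fin (d + 1)) K →+* _), hP.map _, ?_⟩
      rw [eval₂_map]
      have h1 : ((g.comp τ' : MvPolynomial (Option (Fin d)) K →ₐ[K] B₀) :
          MvPolynomial (Option (Fin d)) K →+* B₀).comp
            (τ : MvPolynomial (Fin (d + 1)) K →+* _) = (g : MvPolynomial (Fin (d + 1)) K →+* B₀) := by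
        refine RingHom.ext fun p => ?_
        have h2 : τ' (τ p) = p := by
          have := congrArg (fun f => f p) hτ'τ
          exact this
        change g (τ' (τ p)) = g p
        rw [h2]
      have h3 : eval₂ ((g.comp τ').toRingHom.comp
          (τ : MvPolynomial (Fin (d + 1)) K →+* MvPolynomial (Option (Fin d)) K)) x P = 0 := by
        have h4 : (g.comp τ').toRingHom.comp
          (τ : MvPolynomial (Fin (d + 1)) K →+* MvPolynomial (Option (Fin d)) K) =
            (g : MvPolynomial (Fin (d + 1)) K →+* B₀) := h1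
        rw [h4]
        exact hPx
      exact h3
    have hzi : AlgebraicIndependent K
        (fun o => ((g.comp τ' (MvPolynomial.X o) : B₀) : F)) := by
      rw [algebraicIndependent_iff_injective_aeval]
      have h1 : (MvPolynomial.aeval (fun o => ((g.comp τ' (MvPolynomial.X o) : B₀) : F)) :
          MvPolynomial (Option (Fin d)) K →ₐ[K] F) = B₀.val.comp (g.comp τ') := by
        apply MvPolynomial.algHom_ext
        intro o
        rw [MvPolynomial.aeval_X]
        rfl
      rw [h1]
      exact Subtype.val_injective.comp hinj'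
    obtain ⟨s, hs⟩ := generic_line_aux _ hzi y B₀ hB₀ (g.comp τ') (fun o => rfl) hint' φ₀
      (fun o => by rw [hgX, map_sub, AlgHom.commutes, ha, Algebra.algebraMap_self_apply, sub_self])
      hφy
    exact ⟨d, s, hs⟩

end line

end Vale.Agent.P002.H2
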