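import Vale.Agent.P002.H2.WH

/-!
# Integral coordinates: a domain with a rational point is integral over a polynomial ring over
the algebraic integers
-/

namespace Vale.Agent.P002.H2

open Polynomial Module

/-- a monic equation with coefficients in a subalgebra -/
theorem isIntegral_of_coeffs' {O F : Type} [CommRing O] [Field F] [Algebra O F]
    (S : Subalgebra O F) (Q : F[X]) (hQ : Q.Monic)
    (hc : ∀ i, Q.coeff i ∈ S) {x : F} (hx : Q.eval x = 0) : IsIntegral S x := by
  obtain ⟨P, hP, hd, hPm⟩ := Polynomial.lifts_and_degree_eq_and_monic (f := algebraMap S F) (p := Q)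
    (by
      rw [Polynomial.lifts_iff_coeff_lifts]
      intro i
      exact ⟨⟨Q.coeff i, hc i⟩, rfl⟩) hQ
  refine ⟨P, hPm, ?_⟩
  rw [eval₂_eq_eval_map, hP, hx]

section ev

variable {K F : Type} [Field K] [CharZero K] [Field F] [Algebra K F] {ι : Type} (s : ι → F)

/-- elements of `K(s)` are quotients of elements of `O[s]` -/
theorem quot_of_mem (hK : ∀ a : K, ∃ N : ℤ, N ≠ 0 ∧ IsIntegral ℤ ((N : K) * a)) (κ : F)
    (hκ : κ ∈ IntermediateField.adjoin K (Set.range s)) :
    ∃ P ∈ Algebra.adjoin (integralClosure ℤ K) (Set.range s),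
      ∃ Q ∈ Algebra.adjoin (integralClosure ℤ K) (Set.range s), Q ≠ 0 ∧ κ = P / Q := by
  have h1 : ∀ r : MvPolynomial ι K, ∃ N : ℤ, N ≠ 0 ∧ (N : F) * MvPolynomial.aeval s r ∈
      Algebra.adjoin (integralClosure ℤ K) (Set.range s) := by
    intro r
    induction r using MvPolynomial.induction_on with
    | C a =>
      obtain ⟨N, hN, hNa⟩ := hK a
      refine ⟨N, hN, ?_⟩
      rw [MvPolynomial.aeval_C]
      have h2 : (N : F) * algebraMap K F a =
          algebraMap (integralClosure ℤ K) F ⟨(N : K) * a, hNa⟩ := by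
        have h3 : algebraMap (integralClosure ℤ K) F ⟨(N : K) * a, hNa⟩ =
            algebraMap K F ((N : K) * a) := rfl
        rw [h3, map_mul, map_intCast]
      rw [h2]
      exact Subalgebra.algebraMap_mem _ _
    | add p q hp hq =>
      obtain ⟨N, hN, h2⟩ := hp
      obtain ⟨N', hN', h3⟩ := hq
      refine ⟨N * N', mul_ne_zero hN hN', ?_⟩
      have h4 : ((N * N' : ℤ) : F) * MvPolynomial.aeval s (p + q) =
          (N' : F) * ((N : F) * MvPolynomial.aeval s p) +
          (N : F) * ((N' : F) * MvPolynomial.aeval s q) := by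
        rw [map_add]
        push_cast
        ring
      rw [h4]
      exact Subalgebra.add_mem _ (Subalgebra.mul_mem _ (intCast_mem _ _) h2)
        (Subalgebra.mul_mem _ (intCast_mem _ _) h3)
    | mul_X p o hp =>
      obtain ⟨N, hN, h2⟩ := hp
      refine ⟨N, hN, ?_⟩
      rw [map_mul, MvPolynomial.aeval_X, ← mul_assoc]
      exact Subalgebra.mul_mem _ h2 (Algebra.subset_adjoin ⟨o, rfl⟩)
  obtain ⟨r, t, hrt⟩ := (IntermediateField.mem_adjoin_range_iff K s κ).1 hκ
  by_cases ht : MvPolynomial.aeval s t = 0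
  · refine ⟨0, Subalgebra.zero_mem _, 1, Subalgebra.one_mem _, one_ne_zero, ?_⟩
    rw [hrt, ht, div_zero, zero_div]
  · obtain ⟨N, hN, h2⟩ := h1 r
    obtain ⟨N', hN', h3⟩ := h1 t
    have hc : CharZero F := charZero_of_injective_algebraMap (algebraMap K F).injective
    have hNF : (N : F) ≠ 0 := Int.cast_ne_zero.2 hN
    have hNF' : (N' : F) ≠ 0 := Int.cast_ne_zero.2 hN'
    refine ⟨(N' : F) * ((N : F) * MvPolynomial.aeval s r),
      Subalgebra.mul_mem _ (intCast_mem _ _) h2, (N : F) * ((N' : F) * MvPolynomial.aeval s t),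
      Subalgebra.mul_mem _ (intCast_mem _ _) h3,
      mul_ne_zero hNF (mul_ne_zero hNF' ht), ?_⟩
    rw [hrt]
    field_simp

/-- `x` lies in `O[s, T / (Q E)]` for a `Q ≠ 0` in `O[s]` and all `E ≠ 0` in `O[s]` -/
def Ev (O : Subalgebra ℤ K) (T x : F) : Prop :=
  ∃ Q ∈ Algebra.adjoin O (Set.range s), Q ≠ 0 ∧ ∀ E ∈ Algebra.adjoin O (Set.range s), E ≠ 0 →
    x ∈ Algebra.adjoin O (insert (T / (Q * E)) (Set.range s))

omit [CharZero K] in
theorem Ev.add {O : Subalgebra ℤ K} {T x y : F} (hx : Ev s O T x) (hy : Ev s O T y) :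
    Ev s O T (x + y) := by
  obtain ⟨Q, hQ, hQ0, h⟩ := hx
  obtain ⟨Q', hQ', hQ0', h'⟩ := hy
  refine ⟨Q * Q', Subalgebra.mul_mem _ hQ hQ', mul_ne_zero hQ0 hQ0', fun E hE hE0 => ?_⟩
  have h1 := h (Q' * E) (Subalgebra.mul_mem _ hQ' hE) (mul_ne_zero hQ0' hE0)
  have h2 := h' (Q * E) (Subalgebra.mul_mem _ hQ hE) (mul_ne_zero hQ0 hE0)
  rw [← mul_assoc] at h1 h2
  rw [mul_comm Q' Q] at h2
  exact Subalgebra.add_mem _ h1 h2

omit [CharZero K] in
theorem Ev.zero (O : Subalgebra ℤ K) (T : F) : Ev s O T 0 :=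
  ⟨1, Subalgebra.one_mem _, one_ne_zero, fun _ _ _ => Subalgebra.zero_mem _⟩

omit [CharZero K] in
theorem Ev.sum {O : Subalgebra ℤ K} {T : F} {α : Type} (t : Finset α) (f : α → F)
    (h : ∀ a ∈ t, Ev s O T (f a)) : Ev s O T (∑ a ∈ t, f a) := by
  classical
  induction t using Finset.induction_on with
  | empty =>
    rw [Finset.sum_empty]
    exact Ev.zero s O T
  | insert a t hat ih =>
    rw [Finset.sum_insert hat]
    exact (h a (Finset.mem_insert_self a t)).add s
      (ih fun b hb => h b (Finset.mem_insert_of_mem hb))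

/-- monomials -/
theorem Ev.mon (hK : ∀ a : K, ∃ N : ℤ, N ≠ 0 ∧ IsIntegral ℤ ((N : K) * a)) (T κ : F)
    (hκ : κ ∈ IntermediateField.adjoin K (Set.range s)) (r : ℕ) :
    Ev s (integralClosure ℤ K) T (κ * T ^ (r + 1)) := by
  obtain ⟨P, hP, Q, hQ, hQ0, hκ⟩ := quot_of_mem s hK κ hκ
  refine ⟨Q, hQ, hQ0, fun E hE hE0 => ?_⟩
  have hle : Algebra.adjoin (integralClosure ℤ K) (Set.range s) ≤
      Algebra.adjoin (integralClosure ℤ K) (insert (T / (Q * E)) (Set.range s)) :=
    Algebra.adjoin_mono (Set.subset_insert _ _)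
  have h1 : κ * T ^ (r + 1) = P * Q ^ r * E ^ (r + 1) * (T / (Q * E)) ^ (r + 1) := by
    rw [hκ, div_pow, mul_pow]
    field_simp
    ring
  rw [h1]
  exact Subalgebra.mul_mem _ (Subalgebra.mul_mem _ (Subalgebra.mul_mem _ (hle hP)
    (Subalgebra.pow_mem _ (hle hQ) _)) (Subalgebra.pow_mem _ (hle hE) _))
    (Subalgebra.pow_mem _ (Algebra.subset_adjoin (Set.mem_insert _ _)) _)

/-- polynomials without constant coefficient -/
theorem Ev.poly (hK : ∀ a : K, ∃ N : ℤ, N ≠ 0 ∧ IsIntegral ℤ ((N : K) * a)) (T : F)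
    (q : (IntermediateField.adjoin K (Set.range s))[X]) (j : ℕ) :
    Ev s (integralClosure ℤ K) T (aeval T q * T ^ (j + 1)) := by
  rw [aeval_eq_sum_range, Finset.sum_mul]
  refine Ev.sum s _ _ fun r _ => ?_
  have h1 : q.coeff r • T ^ r * T ^ (j + 1) = ((q.coeff r : IntermediateField.adjoin K
      (Set.range s)) : F) * T ^ ((r + j) + 1) := by
    rw [Algebra.smul_def, mul_assoc, ← pow_add, ← add_assoc]
    rfl
  rw [h1]
  exact Ev.mon s hK T _ (q.coeff r).2 _

/-- `T β` is integral over `O[s, T / (Q E)]` -/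
theorem ev_int (hK : ∀ a : K, ∃ N : ℤ, N ≠ 0 ∧ IsIntegral ℤ ((N : K) * a)) (T β : F)
    (hβ : IsIntegral (Algebra.adjoin (IntermediateField.adjoin K (Set.range s)) {T}) β) :
    ∃ Q ∈ Algebra.adjoin (integralClosure ℤ K) (Set.range s), Q ≠ 0 ∧
      ∀ E ∈ Algebra.adjoin (integralClosure ℤ K) (Set.range s), E ≠ 0 →
        IsIntegral (Algebra.adjoin (integralClosure ℤ K) (insert (T / (Q * E)) (Set.range s)))
          (T * β) := by
  classical
  obtain ⟨P, hP, hPx⟩ := hβ
  obtain ⟨k, hk⟩ : ∃ k, k = IntermediateField.adjoin K (Set.range s) := ⟨_, rfl⟩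
  obtain ⟨Q, hQ⟩ : ∃ Q : F[X], Q = (P.map (algebraMap (Algebra.adjoin
    (IntermediateField.adjoin K (Set.range s)) {T}) F)).scaleRoots T := ⟨_, rfl⟩
  have hPm := hP.map (algebraMap (Algebra.adjoin
    (IntermediateField.adjoin K (Set.range s)) {T}) F)
  have hQm : Q.Monic := by
    rw [hQ, monic_scaleRoots_iff]
    exact hPm
  have hQx : Q.eval (T * β) = 0 := by
    have h2 := scaleRoots_eval₂_eq_zero (RingHom.id F) (r := β) (s := T)
      (p := P.map (algebraMap (Algebra.adjoin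
        (IntermediateField.adjoin K (Set.range s)) {T}) F)) (by rw [eval₂_map]; exact hPx)
    rw [hQ, ← eval₂_id]
    exact h2
  have hQc : ∀ i < P.natDegree, Ev s (integralClosure ℤ K) T (Q.coeff i) := by
    intro i hi
    obtain ⟨q, hq⟩ : ∃ q : (IntermediateField.adjoin K (Set.range s))[X], aeval T q =
        ((P.coeff i : Algebra.adjoin (IntermediateField.adjoin K (Set.range s)) {T}) : F) :=
      (Algebra.adjoin_singleton_eq_range_aeval (IntermediateField.adjoin K (Set.range s)) T).le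
        (P.coeff i).2
    rw [hQ, coeff_scaleRoots, coeff_map, hP.natDegree_map]
    have h2 : (algebraMap (Algebra.adjoin (IntermediateField.adjoin K (Set.range s)) {T}) F)
        (P.coeff i) = aeval T q := hq.symm
    have h3 : P.natDegree - i = (P.natDegree - i - 1) + 1 := by omega
    rw [h2, h3]
    exact Ev.poly s hK T q _
  have hQd : Q.natDegree = P.natDegree := by
    rw [hQ, natDegree_scaleRoots, hP.natDegree_map]
  choose! D hD hD0 hDE using hQc
  refine ⟨∏ i ∈ Finset.range P.natDegree, D i,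
    Subalgebra.prod_mem _ fun i hi => hD i (Finset.mem_range.1 hi),
    Finset.prod_ne_zero_iff.2 fun i hi => hD0 i (Finset.mem_range.1 hi), fun E hE hE0 => ?_⟩
  refine isIntegral_of_coeffs' _ Q hQm (fun i => ?_) hQx
  rcases lt_trichotomy i P.natDegree with h | h | h
  · have h2 := hDE i h ((∏ j ∈ (Finset.range P.natDegree).erase i, D j) * E)
      (Subalgebra.mul_mem _ (Subalgebra.prod_mem _ fun j hj =>
        hD j (Finset.mem_range.1 (Finset.mem_of_mem_erase hj))) hE)
      (mul_ne_zero (Finset.prod_ne_zero_iff.2 fun j hj =>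
        hD0 j (Finset.mem_range.1 (Finset.mem_of_mem_erase hj))) hE0)
    rwa [← mul_assoc, Finset.mul_prod_erase _ _ (Finset.mem_range.2 h)] at h2
  · rw [h, ← hQd]
    have h2 : Q.coeff Q.natDegree = 1 := hQm
    rw [h2]
    exact Subalgebra.one_mem _
  · rw [coeff_eq_zero_of_natDegree_lt (by rw [hQd]; exact h)]
    exact Subalgebra.zero_mem _

end ev

end Vale.Agent.P002.H2
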