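import Vale.Agent.P002.H2.WI

/-!
# Integral coordinates: assembly
-/

namespace Vale.Agent.P002.H2

open Polynomial Module

section

variable {K F : Type} [Field K] [CharZero K] [Field F] [Algebra K F]

/-- elements integral over `k[z]`, `z` integral over `k[T]` -/
theorem integral_trans_adjoin {k F : Type} [Field k] [Field F] [Algebra k F] (T z β : F)
    (hz : IsIntegral (Algebra.adjoin k {T}) z) (hβ : IsIntegral (Algebra.adjoin k {z}) β) :
    IsIntegral (Algebra.adjoin k {T}) β := by
  obtain ⟨S, hS⟩ : ∃ S : Subalgebra (Algebra.adjoin k {T}) F,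
      S = integralClosure (Algebra.adjoin k {T}) F := ⟨_, rfl⟩
  obtain ⟨P, hP, hPx⟩ := hβ
  have h1 : ∀ x ∈ Algebra.adjoin k {z}, x ∈ S := by
    intro x hx
    induction hx using Algebra.adjoin_induction with
    | mem x hx =>
      rw [Set.mem_singleton_iff.1 hx, hS]
      exact hz
    | algebraMap r => exact S.algebraMap_mem (algebraMap k (Algebra.adjoin k {T}) r)
    | add x y _ _ hx hy => exact S.add_mem hx hy
    | mul x y _ _ hx hy => exact S.mul_mem hx hy
  have h2 : IsIntegral S β := by
    refine isIntegral_of_coeffs' S (P.map (algebraMap (Algebra.adjoin k {z}) F)) (hP.map _)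
      (fun i => ?_) ?_
    · rw [coeff_map]
      exact h1 _ (P.coeff i).2
    · rw [eval_map]
      exact hPx
  have hI : Algebra.IsIntegral (Algebra.adjoin k {T}) S := by
    subst hS
    infer_instance
  exact isIntegral_trans (R := Algebra.adjoin k {T}) (A := S) β h2

/-- **Integral coordinates.** A finitely generated domain `K[y]` with a `K`-point `y = 0` is
integral over a polynomial ring over the algebraic integers. -/
theorem exists_w (hK : ∀ a : K, ∃ N : ℤ, N ≠ 0 ∧ IsIntegral ℤ ((N : K) * a)) {n : ℕ}
    (y : Fin n → F) (B₀ : Subalgebra K F)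
    (hB₀ : B₀ = Algebra.adjoin K (Set.range y)) [halg : Algebra.IsAlgebraic B₀ F]
    (φ₀ : B₀ →ₐ[K] K) (hφy : ∀ (x : B₀), (x : F) ∈ Set.range y → φ₀ x = 0) :
    ∃ (ι : Type) (_ : Finite ι) (w : ι → F), AlgebraicIndependent K w ∧
      ∀ i, IsIntegral (Algebra.adjoin (integralClosure ℤ K) (Set.range w)) (y i) := by
  classical
  rcases generic_line y B₀ hB₀ φ₀ hφy with h0 | ⟨d, s, hs, B, hB, z₀, ht, hint, φ, hφz, hφy'⟩
  · refine ⟨Empty, inferInstance, fun e => e.elim, ?_, fun i => ?_⟩
    · rw [algebraicIndependent_empty_type_iff]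
      exact (algebraMap K F).injective
    · rw [h0]
      exact isIntegral_zero
  obtain ⟨k, hk⟩ : ∃ k, k = IntermediateField.adjoin K (Set.range s) := ⟨_, rfl⟩
  have hyB : ∀ i, y i ∈ B := fun i => hB ▸ Algebra.subset_adjoin ⟨i, rfl⟩
  obtain ⟨yB, hyB'⟩ : ∃ yB : Fin n → B, ∀ i, (yB i : F) = y i :=
    ⟨fun i => ⟨y i, hyB i⟩, fun i => rfl⟩
  have hfg : B.FG := by
    rw [hB]
    exact Subalgebra.fg_def.2 ⟨Set.range y, Set.finite_range y, rfl⟩
  obtain ⟨T, e, he, hT0, hzT, hβ⟩ := curve B hfg z₀ ht hint φ hφz yB
    (fun i => hφy' _ ⟨i, (hyB' i).symm⟩)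
  choose β hβ using hβ
  have hβi : ∀ i, IsIntegral (Algebra.adjoin (IntermediateField.adjoin K (Set.range s)) {T})
      (β i : F) := fun i => integral_trans_adjoin T (z₀ : F) (β i : F) hzT (hint (β i))
  have h1 := fun i => ev_int s hK T (β i : F) (hβi i)
  choose Q hQ hQ0 hQE using h1
  obtain ⟨D, hD⟩ : ∃ D, D = ∏ i, Q i := ⟨_, rfl⟩
  have hDs : D ∈ Algebra.adjoin (integralClosure ℤ K) (Set.range s) := by
    rw [hD]
    exact Subalgebra.prod_mem _ fun i _ => hQ i
  have hD0 : D ≠ 0 := by
    rw [hD]
    exact Finset.prod_ne_zero_iff.2 fun i _ => hQ0 i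
  refine ⟨Option (Fin d), inferInstance, fun o => o.elim (T / D) s, ?_, fun i => ?_⟩
  · rw [AlgebraicIndependent.option_iff]
    refine ⟨hs, fun h => ht ?_⟩
    -- `T / D` is algebraic over `k`
    have hkle : ∀ x ∈ Algebra.adjoin K (Set.range s),
        x ∈ IntermediateField.adjoin K (Set.range s) := fun x hx =>
      IntermediateField.algebra_adjoin_le_adjoin K (Set.range s) hx
    have h2 : IsAlgebraic (IntermediateField.adjoin K (Set.range s)) (T / D) := by
      obtain ⟨p, hp0, hp⟩ := h
      refine ⟨p.map (Subalgebra.inclusion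
        (IntermediateField.algebra_adjoin_le_adjoin K (Set.range s))).toRingHom, ?_, ?_⟩
      · rwa [Ne, Polynomial.map_eq_zero_iff (Subalgebra.inclusion_injective _)]
      · rw [aeval_def, eval₂_map]
        exact hp
    have hDk : D ∈ IntermediateField.adjoin K (Set.range s) := by
      have h3 : ∀ x ∈ Algebra.adjoin (integralClosure ℤ K) (Set.range s),
          x ∈ IntermediateField.adjoin K (Set.range s) := by
        intro x hx
        induction hx using Algebra.adjoin_induction with
        | mem x hx => exact IntermediateField.subset_adjoin _ _ hx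
        | algebraMap r =>
          exact (IntermediateField.adjoin K (Set.range s)).algebraMap_mem (r : K)
        | add x y _ _ hx hy => exact IntermediateField.add_mem _ hx hy
        | mul x y _ _ hx hy => exact IntermediateField.mul_mem _ hx hy
      exact h3 D hDs
    have h3 : IsAlgebraic (IntermediateField.adjoin K (Set.range s)) T := by
      have h4 : T = algebraMap (IntermediateField.adjoin K (Set.range s)) F ⟨D, hDk⟩ * (T / D) :=
        (mul_div_cancel₀ _ hD0).symm
      rw [h4]
      exact (isAlgebraic_algebraMap _).mul h2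
    have h4 : IsIntegral (IntermediateField.adjoin K (Set.range s)) T := h3.isIntegral
    have h5 : Algebra.IsIntegral (IntermediateField.adjoin K (Set.range s))
        (Algebra.adjoin (IntermediateField.adjoin K (Set.range s)) {T}) :=
      Algebra.IsIntegral.adjoin (by
        intro x hx
        rw [Set.mem_singleton_iff.1 hx]
        exact h4)
    have h6 : IsIntegral (IntermediateField.adjoin K (Set.range s)) (z₀ : F) :=
      isIntegral_trans (R := IntermediateField.adjoin K (Set.range s))
        (A := Algebra.adjoin (IntermediateField.adjoin K (Set.range s)) {T}) (z₀ : F) hzT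
    obtain ⟨p, hp0, hp⟩ := h6.isAlgebraic
    refine ⟨p, hp0, Subtype.ext ?_⟩
    have h7 : ((aeval z₀ p : B) : F) = aeval (z₀ : F) p :=
      (Polynomial.aeval_algHom_apply B.val z₀ p).symm
    rw [h7, hp]
    rfl
  · have h2 := hQE i (∏ j ∈ Finset.univ.erase i, Q j) (Subalgebra.prod_mem _ fun j _ => hQ j)
      (Finset.prod_ne_zero_iff.2 fun j _ => hQ0 j)
    rw [Finset.mul_prod_erase _ _ (Finset.mem_univ i), ← hD, ← hβ, hyB'] at h2
    have h3 : Set.range (fun o : Option (Fin d) => o.elim (T / D) s) =
        insert (T / D) (Set.range s) := by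
      ext x
      constructor
      · rintro ⟨o, rfl⟩
        cases o with
        | none => exact Or.inl rfl
        | some j => exact Or.inr ⟨j, rfl⟩
      · rintro (rfl | ⟨j, rfl⟩)
        · exact ⟨none, rfl⟩
        · exact ⟨some j, rfl⟩
    rw [h3]
    exact IsIntegral.of_pow he h2

end

end Vale.Agent.P002.H2
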