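import Vale.Agent.P002.H2.WJ

/-!
# Specialisation of integral coordinates
-/

namespace Vale.Agent.P002.H2

open Polynomial Module

/-- extension of homomorphisms to an algebraically closed field along an integral extension -/
theorem ext_hom {K A S : Type} [Field K] [IsAlgClosed K] [CommRing A] [CommRing S] [Algebra K A]
    [Algebra K S] [Algebra A S] [IsScalarTower K A S] [Algebra.IsIntegral A S]
    (hinj : Function.Injective (algebraMap A S)) (f : A →ₐ[K] K) :
    ∃ ψ : S →ₐ[K] K, ∀ a, ψ (algebraMap A S a) = f a := by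
  have hsurj : Function.Surjective f := fun x => ⟨algebraMap K A x, by
    rw [AlgHom.commutes, Algebra.algebraMap_self_apply]⟩
  have hmax : (RingHom.ker (f : A →+* K)).IsMaximal := RingHom.ker_isMaximal_of_surjective _ hsurj
  obtain ⟨Q, hQ, hQA⟩ := Ideal.exists_ideal_over_maximal_of_isIntegral (S := S)
    (RingHom.ker (f : A →+* K)) (by
      rw [(RingHom.injective_iff_ker_eq_bot _).1 hinj]
      exact bot_le)
  let := Ideal.Quotient.field Q
  have hmem : ∀ a : A, Ideal.Quotient.mk Q (algebraMap A S a) = algebraMap K (S ⧸ Q) (f a) := by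
    intro a
    have h1 : a - algebraMap K A (f a) ∈ RingHom.ker (f : A →+* K) := by
      rw [RingHom.mem_ker]
      change f (a - algebraMap K A (f a)) = 0
      rw [map_sub, AlgHom.commutes, Algebra.algebraMap_self_apply, sub_self]
    rw [← hQA, Ideal.mem_comap, map_sub, ← Ideal.Quotient.eq_zero_iff_mem, map_sub, sub_eq_zero,
      ← IsScalarTower.algebraMap_apply] at h1
    exact h1
  have hint : Algebra.IsIntegral K (S ⧸ Q) := by
    refine ⟨fun x => ?_⟩
    obtain ⟨s, rfl⟩ := Ideal.Quotient.mk_surjective x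
    obtain ⟨P, hP, hPs⟩ := Algebra.IsIntegral.isIntegral (R := A) s
    refine ⟨P.map (f : A →+* K), hP.map _, ?_⟩
    rw [eval₂_map]
    have h1 : (algebraMap K (S ⧸ Q)).comp (f : A →+* K) =
        (Ideal.Quotient.mk Q).comp (algebraMap A S) := RingHom.ext fun a => (hmem a).symm
    rw [h1, ← Polynomial.hom_eval₂, hPs, map_zero]
  have hbij : Function.Bijective (algebraMap K (S ⧸ Q)) :=
    IsAlgClosed.algebraMap_bijective_of_isIntegral
  obtain ⟨e, he⟩ : ∃ e : K ≃ₐ[K] (S ⧸ Q), ∀ x, e x = algebraMap K (S ⧸ Q) x :=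
    ⟨AlgEquiv.ofBijective (Algebra.ofId K (S ⧸ Q)) hbij, fun x => rfl⟩
  refine ⟨(e.symm : (S ⧸ Q) →ₐ[K] K).comp (Ideal.Quotient.mkₐ K Q), fun a => ?_⟩
  have h1 : e.symm (Ideal.Quotient.mk Q (algebraMap A S a)) = f a := by
    rw [hmem, ← he, e.symm_apply_apply]
  exact h1

section special

variable {K F : Type} [Field K] [CharZero K] [IsAlgClosed K] [Field F] [Algebra K F]

/-- specialisation of `w` to integers -/
theorem specialise {ι : Type} (w : ι → F) (hw : AlgebraicIndependent K w)
    {n : ℕ} (x : Fin n → F) (Pt : Fin n → (MvPolynomial ι (integralClosure ℤ K))[X])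
    (hPm : ∀ i, (Pt i).Monic)
    (hPx : ∀ i, eval₂ (MvPolynomial.aeval w :
      MvPolynomial ι (integralClosure ℤ K) →ₐ[integralClosure ℤ K] F).toRingHom (x i) (Pt i) = 0)
    (f : MvPolynomial (Fin n) K) (hf : MvPolynomial.aeval x f ≠ 0) :
    ∃ (c : ι → ℤ) (P : Fin n → K),
      (∀ g : MvPolynomial (Fin n) K, MvPolynomial.aeval x g = 0 → MvPolynomial.eval P g = 0) ∧
      MvPolynomial.eval P f ≠ 0 ∧
      ∀ i, eval₂ (algebraMap (integralClosure ℤ K) K) (P i)
        ((Pt i).map (MvPolynomial.eval (fun j => (c j : integralClosure ℤ K)))) = 0 := by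
  classical
  obtain ⟨γ, hγ⟩ : ∃ γ : MvPolynomial ι (integralClosure ℤ K) →+* F,
      γ = (MvPolynomial.aeval w :
      MvPolynomial ι (integralClosure ℤ K) →ₐ[integralClosure ℤ K] F).toRingHom := ⟨_, rfl⟩
  rw [← hγ] at hPx
  have hγ' : ∀ a, γ a = MvPolynomial.aeval w (MvPolynomial.map
      (algebraMap (integralClosure ℤ K) K) a) := by
    intro a
    rw [hγ, MvPolynomial.aeval_map_algebraMap]
    rfl
  obtain ⟨A, hA⟩ : ∃ A, A = Algebra.adjoin K (Set.range w) := ⟨_, rfl⟩
  have hwA : ∀ r : MvPolynomial ι K, MvPolynomial.aeval w r ∈ A := fun r => by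
    rw [hA, Algebra.adjoin_range_eq_range_aeval]
    exact ⟨r, rfl⟩
  obtain ⟨S, hS⟩ : ∃ S : Subalgebra A F, S = integralClosure A F := ⟨_, rfl⟩
  have hxS : ∀ i, x i ∈ S := by
    intro i
    rw [hS]
    refine isIntegral_of_coeffs' A ((Pt i).map γ) ((hPm i).map _) (fun r => ?_) ?_
    · rw [coeff_map, hγ']
      exact hwA _
    · rw [eval_map]
      exact hPx i
  have hSI : Algebra.IsIntegral A S := by
    subst hS
    infer_instance
  obtain ⟨xS, hxS'⟩ : ∃ xS : Fin n → S, ∀ i, (xS i : F) = x i :=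
    ⟨fun i => ⟨x i, hxS i⟩, fun i => rfl⟩
  have hev : ∀ g : MvPolynomial (Fin n) K,
      ((MvPolynomial.aeval xS g : S) : F) = MvPolynomial.aeval x g := by
    intro g
    have h1 : (S.val.restrictScalars K).comp (MvPolynomial.aeval xS) =
        (MvPolynomial.aeval x : MvPolynomial (Fin n) K →ₐ[K] F) := by
      apply MvPolynomial.algHom_ext
      intro i
      rw [AlgHom.comp_apply, MvPolynomial.aeval_X, MvPolynomial.aeval_X]
      exact hxS' i
    rw [← h1]
    rfl
  obtain ⟨af, haf⟩ : ∃ af, af = MvPolynomial.aeval xS f := ⟨_, rfl⟩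
  have haf0 : af ≠ 0 := by
    intro h
    apply hf
    rw [← hev, ← haf, h]
    rfl
  obtain ⟨b, hb0, t, hbt⟩ : ∃ b : A, b ≠ 0 ∧ ∃ t, algebraMap A S b = af * t := by
    have h1 := Ideal.comap_ne_bot_of_integral_mem (R := A) (I := Ideal.span {af}) haf0
      (Ideal.subset_span rfl) (Algebra.IsIntegral.isIntegral af)
    obtain ⟨b, hb, hb0⟩ := Submodule.exists_mem_ne_zero_of_ne_bot h1
    refine ⟨b, hb0, ?_⟩
    obtain ⟨t, ht⟩ := Ideal.mem_span_singleton'.1 (Ideal.mem_comap.1 hb)
    exact ⟨t, by rw [← ht, mul_comm]⟩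
  obtain ⟨Bt, hBt⟩ : ∃ Bt : MvPolynomial ι K, MvPolynomial.aeval w Bt = (b : F) := by
    have h1 : (b : F) ∈ Algebra.adjoin K (Set.range w) := hA ▸ b.2
    rw [Algebra.adjoin_range_eq_range_aeval] at h1
    exact h1
  have hBt0 : Bt ≠ 0 := by
    rintro rfl
    rw [map_zero] at hBt
    exact hb0 (Subtype.ext hBt.symm)
  obtain ⟨c, hc⟩ : ∃ c : ι → ℤ, MvPolynomial.eval (fun j => (c j : K)) Bt ≠ 0 := by
    by_contra h
    push Not at h
    apply hBt0
    refine MvPolynomial.funext_set (fun _ => Set.range (Int.cast : ℤ → K))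
      (fun _ => Set.infinite_range_of_injective Int.cast_injective) fun u hu => ?_
    rw [map_zero]
    have h1 : ∀ j, ∃ m : ℤ, (m : K) = u j := fun j => hu j (Set.mem_univ j)
    choose c hc using h1
    have h2 : u = fun j => (c j : K) := funext fun j => (hc j).symm
    rw [h2]
    exact h c
  obtain ⟨fA, hfA⟩ : ∃ fA : A →ₐ[K] K, ∀ r : MvPolynomial ι K,
      fA ⟨MvPolynomial.aeval w r, hwA r⟩ = MvPolynomial.eval (fun j => (c j : K)) r := by
    subst hA
    refine ⟨(MvPolynomial.aeval (fun j => (c j : K))).comp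
      (hw.aevalEquiv.symm : _ →ₐ[K] MvPolynomial ι K), fun r => ?_⟩
    have h1 : hw.aevalEquiv.symm ⟨MvPolynomial.aeval w r, hwA r⟩ = r := by
      rw [AlgEquiv.symm_apply_eq]
      apply Subtype.ext
      exact (hw.algebraMap_aevalEquiv r).symm
    rw [AlgHom.comp_apply]
    change MvPolynomial.aeval (fun j => (c j : K))
      (hw.aevalEquiv.symm ⟨MvPolynomial.aeval w r, hwA r⟩) = _
    rw [h1]
    rfl
  have hinjAS : Function.Injective (algebraMap A S) := by
    intro a a' h
    have h1 := congrArg (fun s : S => (s : F)) h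
    exact Subtype.ext h1
  obtain ⟨ψ, hψ⟩ := ext_hom hinjAS fA
  have hψx : ∀ g : MvPolynomial (Fin n) K,
      ψ (MvPolynomial.aeval xS g) = MvPolynomial.eval (fun i => ψ (xS i)) g := by
    intro g
    have h1 : ψ.comp (MvPolynomial.aeval xS) =
        (MvPolynomial.aeval (fun i => ψ (xS i)) : MvPolynomial (Fin n) K →ₐ[K] K) := by
      apply MvPolynomial.algHom_ext
      intro i
      rw [AlgHom.comp_apply, MvPolynomial.aeval_X, MvPolynomial.aeval_X]
    have h2 : ψ (MvPolynomial.aeval xS g) = (ψ.comp (MvPolynomial.aeval xS)) g := rfl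
    rw [h2, h1]
    rfl
  refine ⟨c, fun i => ψ (xS i), fun g hg => ?_, ?_, fun i => ?_⟩
  · rw [← hψx]
    have h1 : MvPolynomial.aeval xS g = 0 := Subtype.ext (by rw [hev, hg]; rfl)
    rw [h1, map_zero]
  · rw [← hψx, ← haf]
    intro h
    apply hc
    have h1 := congrArg ψ hbt
    rw [map_mul, h, zero_mul, hψ] at h1
    rw [← hfA, ← h1]
    congr 1
    exact Subtype.ext hBt
  · -- apply `ψ` to the equation of `x i`
    obtain ⟨γS, hγS⟩ : ∃ γS : MvPolynomial ι (integralClosure ℤ K) →+* S,
        ∀ a, γS a = algebraMap A S ⟨MvPolynomial.aeval w (MvPolynomial.map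
          (algebraMap (integralClosure ℤ K) K) a), hwA _⟩ := by
      refine ⟨(algebraMap A S).comp (RingHom.codRestrict ((MvPolynomial.aeval w :
        MvPolynomial ι K →ₐ[K] F).toRingHom.comp
          (MvPolynomial.map (algebraMap (integralClosure ℤ K) K))) A fun a => hwA _), fun a => rfl⟩
    have h1 : eval₂ γS (xS i) (Pt i) = 0 := by
      apply Subtype.val_injective
      have h2 : ((eval₂ γS (xS i) (Pt i) : S) : F) = S.val.toRingHom (eval₂ γS (xS i) (Pt i)) :=
        rfl
      rw [h2, Polynomial.hom_eval₂]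
      have h3 : S.val.toRingHom.comp γS = γ := by
        refine RingHom.ext fun a => ?_
        rw [hγ', RingHom.comp_apply, hγS]
        rfl
      rw [h3]
      have h4 : S.val.toRingHom (xS i) = x i := hxS' i
      rw [h4, hPx]
      rfl
    have h2 := congrArg (ψ : S →+* K) h1
    rw [Polynomial.hom_eval₂, map_zero] at h2
    rw [eval₂_map]
    have h3 : (ψ : S →+* K).comp γS = (algebraMap (integralClosure ℤ K) K).comp
        (MvPolynomial.eval (fun j => (c j : integralClosure ℤ K))) := by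
      refine RingHom.ext fun a => ?_
      rw [RingHom.comp_apply, hγS]
      change ψ (algebraMap A S _) = _
      rw [hψ, hfA, MvPolynomial.eval_map, RingHom.comp_apply]
      have h4 : (algebraMap (integralClosure ℤ K) K)
          (MvPolynomial.eval (fun j => (c j : integralClosure ℤ K)) a) =
          MvPolynomial.eval₂ (algebraMap (integralClosure ℤ K) K)
            (fun j => (algebraMap (integralClosure ℤ K) K) (c j : integralClosure ℤ K)) a := by
        have h5 : MvPolynomial.eval (fun j => (c j : integralClosure ℤ K)) a =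
            MvPolynomial.eval₂ (RingHom.id _) (fun j => (c j : integralClosure ℤ K)) a := rfl
        rw [h5, MvPolynomial.eval₂_comp_left]
        rfl
      rw [h4]
      congr 1
    rw [← h3]
    exact h2

end special

end Vale.Agent.P002.H2
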