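import Vale.Agent.P002.H2.WK

/-!
# A variety with one integral point has a dense set of integral points of bounded degree
-/

namespace Vale.Agent.P002.H2

open Polynomial Module

/-- degree bound for a compositum -/
theorem finrank_sup_bound {α : Type} (s : Finset α) (L : α → IntermediateField ℚ ℂ) (d : α → ℕ)
    (hfd : ∀ i, FiniteDimensional ℚ (L i)) (h : ∀ i, finrank ℚ (L i) ≤ d i) :
    FiniteDimensional ℚ (s.sup L : IntermediateField ℚ ℂ) ∧
      finrank ℚ (s.sup L : IntermediateField ℚ ℂ) ≤ ∏ i ∈ s, d i := by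
  classical
  induction s using Finset.induction_on with
  | empty =>
    rw [Finset.sup_empty, Finset.prod_empty]
    exact ⟨inferInstance, (IntermediateField.finrank_bot).le⟩
  | insert a s has ih =>
    rw [Finset.sup_insert, Finset.prod_insert has]
    have h1 := hfd a
    have h2 := ih.1
    exact ⟨IntermediateField.finiteDimensional_sup _ _,
      (IntermediateField.finrank_sup_le _ _).trans (Nat.mul_le_mul (h a) ih.2)⟩

/-- degree bound for a root -/
theorem finrank_root_bound (L₁ : IntermediateField ℚ ℂ) [FiniteDimensional ℚ L₁] (x : ℂ) (q : ℂ[X])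
    (hq : q.Monic) (hc : ∀ r, q.coeff r ∈ L₁) (hx : q.eval x = 0) :
    FiniteDimensional ℚ (IntermediateField.adjoin ℚ {x}) ∧
      finrank ℚ (IntermediateField.adjoin ℚ {x}) ≤ finrank ℚ L₁ * q.natDegree := by
  obtain ⟨P, hP, hd, hPm⟩ := Polynomial.lifts_and_natDegree_eq_and_monic (f := algebraMap L₁ ℂ)
    (p := q) (by
      rw [Polynomial.lifts_iff_coeff_lifts]
      intro i
      exact ⟨⟨q.coeff i, hc i⟩, rfl⟩) hq
  have h0 : aeval x P = 0 := by
    rw [aeval_def, eval₂_eq_eval_map, hP, hx]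
  have hint : IsIntegral L₁ x := ⟨P, hPm, h0⟩
  obtain ⟨E, hE⟩ : ∃ E : IntermediateField L₁ ℂ, E = IntermediateField.adjoin L₁ {x} := ⟨_, rfl⟩
  have hfE : FiniteDimensional L₁ E := by
    rw [hE]
    exact IntermediateField.adjoin.finiteDimensional hint
  have hEd : finrank L₁ E ≤ q.natDegree := by
    rw [hE, IntermediateField.adjoin.finrank hint, ← hd]
    exact natDegree_le_natDegree (minpoly.min L₁ x hPm h0)
  have hfQ : FiniteDimensional ℚ E := FiniteDimensional.trans ℚ L₁ E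
  have hfin : finrank ℚ E = finrank ℚ L₁ * finrank L₁ E := (finrank_mul_finrank ℚ L₁ E).symm
  have hfQ' : FiniteDimensional ℚ (E.restrictScalars ℚ) := hfQ
  have hle : IntermediateField.adjoin ℚ {x} ≤ E.restrictScalars ℚ := by
    rw [IntermediateField.adjoin_simple_le_iff, IntermediateField.mem_restrictScalars, hE]
    exact IntermediateField.mem_adjoin_simple_self _ _
  have hxQ : IsIntegral ℚ x := by
    have h1 : Algebra.IsIntegral ℚ E := Algebra.IsIntegral.of_finite ℚ E
    have h2 : x ∈ E := hE ▸ IntermediateField.mem_adjoin_simple_self _ _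
    have h3 := h1.isIntegral (⟨x, h2⟩ : E)
    exact h3.map (E.val.restrictScalars ℚ)
  refine ⟨IntermediateField.adjoin.finiteDimensional hxQ, ?_⟩
  refine (IntermediateField.finrank_le_of_le_right hle).trans ?_
  change finrank ℚ E ≤ _
  rw [hfin]
  exact Nat.mul_le_mul_left _ hEd

/-- the values at integers of a polynomial with algebraic integer coefficients lie in a number
field -/
theorem values_field {ι : Type} (A : MvPolynomial ι (integralClosure ℤ (algebraicClosure ℚ ℂ))) :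
    ∃ L : IntermediateField ℚ ℂ, FiniteDimensional ℚ L ∧ ∀ c : ι → ℤ,
      (((MvPolynomial.eval (fun j => (c j : integralClosure ℤ (algebraicClosure ℚ ℂ))) A :
        integralClosure ℤ (algebraicClosure ℚ ℂ)) : algebraicClosure ℚ ℂ) : ℂ) ∈ L := by
  induction A using MvPolynomial.induction_on with
  | C a =>
    have h1 : IsIntegral ℚ (((a : integralClosure ℤ (algebraicClosure ℚ ℂ)) :
        algebraicClosure ℚ ℂ) : ℂ) :=
      (mem_algebraicClosure_iff.1 (a : algebraicClosure ℚ ℂ).2).isIntegral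
    refine ⟨IntermediateField.adjoin ℚ {((a : algebraicClosure ℚ ℂ) : ℂ)},
      IntermediateField.adjoin.finiteDimensional h1, fun c => ?_⟩
    rw [MvPolynomial.eval_C]
    exact IntermediateField.mem_adjoin_simple_self _ _
  | add p q hp hq =>
    obtain ⟨L, hL, h⟩ := hp
    obtain ⟨L', hL', h'⟩ := hq
    refine ⟨L ⊔ L', IntermediateField.finiteDimensional_sup _ _, fun c => ?_⟩
    rw [map_add]
    push_cast
    exact (L ⊔ L').add_mem ((le_sup_left : L ≤ L ⊔ L') (h c))
      ((le_sup_right : L' ≤ L ⊔ L') (h' c))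
  | mul_X p o hp =>
    obtain ⟨L, hL, h⟩ := hp
    refine ⟨L, hL, fun c => ?_⟩
    rw [map_mul, MvPolynomial.eval_X]
    push_cast
    exact L.mul_mem (h c) (intCast_mem L (c o))

/-- the coordinate ring -/
theorem coord_ring {K : Type} [Field K] {n : ℕ} (p : Ideal (MvPolynomial (Fin n) K)) [p.IsPrime] :
    ∃ (F : Type) (_ : Field F) (_ : Algebra K F) (x : Fin n → F),
      (∀ g : MvPolynomial (Fin n) K, MvPolynomial.aeval x g = 0 ↔ g ∈ p) ∧
        Algebra.IsAlgebraic (Algebra.adjoin K (Set.range x)) F := by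
  obtain ⟨x, hx⟩ : ∃ x : Fin n → FractionRing (MvPolynomial (Fin n) K ⧸ p),
      x = fun i => algebraMap (MvPolynomial (Fin n) K ⧸ p) _
        (Ideal.Quotient.mk p (MvPolynomial.X i)) := ⟨_, rfl⟩
  have hev : ∀ g : MvPolynomial (Fin n) K, MvPolynomial.aeval x g =
      algebraMap (MvPolynomial (Fin n) K ⧸ p) (FractionRing (MvPolynomial (Fin n) K ⧸ p))
        (Ideal.Quotient.mk p g) := by
    intro g
    have h1 : (MvPolynomial.aeval x :
        MvPolynomial (Fin n) K →ₐ[K] FractionRing (MvPolynomial (Fin n) K ⧸ p)) =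
        (IsScalarTower.toAlgHom K (MvPolynomial (Fin n) K ⧸ p)
          (FractionRing (MvPolynomial (Fin n) K ⧸ p))).comp (Ideal.Quotient.mkₐ K p) := by
      apply MvPolynomial.algHom_ext
      intro i
      rw [MvPolynomial.aeval_X, hx]
      rfl
    rw [h1]
    rfl
  refine ⟨FractionRing (MvPolynomial (Fin n) K ⧸ p), inferInstance, inferInstance, x, ?_, ?_⟩
  · intro g
    rw [hev]
    constructor
    · intro h
      rw [← Ideal.Quotient.eq_zero_iff_mem]
      exact (IsFractionRing.injective (MvPolynomial (Fin n) K ⧸ p) _) (by rw [h, map_zero])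
    · intro h
      rw [Ideal.Quotient.eq_zero_iff_mem.2 h, map_zero]
  · refine ⟨fun a => ?_⟩
    obtain ⟨u, v, hv, rfl⟩ := IsFractionRing.div_surjective (A := MvPolynomial (Fin n) K ⧸ p) a
    have h1 : ∀ u : MvPolynomial (Fin n) K ⧸ p,
        algebraMap _ (FractionRing (MvPolynomial (Fin n) K ⧸ p)) u ∈
          Algebra.adjoin K (Set.range x) := by
      intro u
      obtain ⟨g, rfl⟩ := Ideal.Quotient.mk_surjective u
      rw [← hev, Algebra.adjoin_range_eq_range_aeval]
      exact ⟨g, rfl⟩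
    rw [div_eq_mul_inv]
    exact (isAlgebraic_algebraMap (⟨_, h1 u⟩ : Algebra.adjoin K (Set.range x))).mul
      (isAlgebraic_algebraMap (⟨_, h1 v⟩ : Algebra.adjoin K (Set.range x))).inv

/-- the point `P0` as a homomorphism -/
theorem phi0_exists {K F : Type} [Field K] [Field F] [Algebra K F] {n : ℕ} (x : Fin n → F)
    (B₀ : Subalgebra K F) (hB₀ : B₀ = Algebra.adjoin K (Set.range x)) (P0 : Fin n → K)
    (h0 : ∀ g : MvPolynomial (Fin n) K, MvPolynomial.aeval x g = 0 → MvPolynomial.eval P0 g = 0) :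
    ∃ φ₀ : B₀ →ₐ[K] K, ∀ (g : MvPolynomial (Fin n) K) (b : B₀), (b : F) = MvPolynomial.aeval x g →
      φ₀ b = MvPolynomial.eval P0 g := by
  obtain ⟨xB, hxB'⟩ : ∃ xB : Fin n → B₀, ∀ i, (xB i : F) = x i :=
    ⟨fun i => ⟨x i, hB₀ ▸ Algebra.subset_adjoin ⟨i, rfl⟩⟩, fun i => rfl⟩
  have hev : ∀ g : MvPolynomial (Fin n) K,
      ((MvPolynomial.aeval xB g : B₀) : F) = MvPolynomial.aeval x g := by
    intro g
    have h1 : B₀.val.comp (MvPolynomial.aeval xB) =
        (MvPolynomial.aeval x : MvPolynomial (Fin n) K →ₐ[K] F) := by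
      apply MvPolynomial.algHom_ext
      intro i
      rw [AlgHom.comp_apply, MvPolynomial.aeval_X, MvPolynomial.aeval_X]
      exact hxB' i
    rw [← h1]
    rfl
  obtain ⟨π, hπ⟩ : ∃ π : MvPolynomial (Fin n) K →ₐ[K] B₀, π = MvPolynomial.aeval xB := ⟨_, rfl⟩
  have hsurj : Function.Surjective π := by
    rintro ⟨b, hb⟩
    have h1 : b ∈ Algebra.adjoin K (Set.range x) := hB₀ ▸ hb
    rw [Algebra.adjoin_range_eq_range_aeval] at h1
    obtain ⟨g, hg⟩ := h1
    exact ⟨g, Subtype.ext (by rw [hπ, hev]; exact hg)⟩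
  obtain ⟨e, he⟩ : ∃ e : (MvPolynomial (Fin n) K ⧸ RingHom.ker π) ≃ₐ[K] B₀,
      ∀ g, e (Ideal.Quotient.mk _ g) = π g :=
    ⟨Ideal.quotientKerAlgEquivOfSurjective hsurj, fun g => rfl⟩
  obtain ⟨lift, hlift⟩ : ∃ lift : (MvPolynomial (Fin n) K ⧸ RingHom.ker π) →ₐ[K] K,
      ∀ g, lift (Ideal.Quotient.mk _ g) = MvPolynomial.eval P0 g :=
    ⟨Ideal.Quotient.liftₐ (RingHom.ker π)
      (MvPolynomial.aeval P0 : MvPolynomial (Fin n) K →ₐ[K] K) (fun g hg => h0 g (by
        have h1 : π g = 0 := hg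
        rw [← hev, ← hπ, h1]
        rfl)), fun g => rfl⟩
  refine ⟨lift.comp (e.symm : B₀ →ₐ[K] _), fun g b hb => ?_⟩
  have h1 : b = e (Ideal.Quotient.mk _ g) := by
    rw [he, hπ]
    exact Subtype.ext (by rw [hev]; exact hb)
  rw [AlgHom.comp_apply, h1]
  have h2 : (e.symm : B₀ →ₐ[K] (MvPolynomial (Fin n) K ⧸ RingHom.ker π))
      (e (Ideal.Quotient.mk (RingHom.ker π) g)) = Ideal.Quotient.mk (RingHom.ker π) g :=
    e.symm_apply_apply _
  rw [h2, hlift]

/-- integral coordinates for a variety with an integral point -/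
theorem coords {K : Type} [Field K] [CharZero K]
    (hK : ∀ a : K, ∃ N : ℤ, N ≠ 0 ∧ IsIntegral ℤ ((N : K) * a)) {n : ℕ}
    (p : Ideal (MvPolynomial (Fin n) K)) [p.IsPrime] (P0 : Fin n → K)
    (hP0 : ∀ i, IsIntegral ℤ (P0 i)) (hp0 : ∀ g ∈ p, MvPolynomial.eval P0 g = 0) :
    ∃ (F : Type) (_ : Field F) (_ : Algebra K F) (x : Fin n → F) (ι : Type) (w : ι → F)
      (Pt : Fin n → (MvPolynomial ι (integralClosure ℤ K))[X]),
      (∀ g : MvPolynomial (Fin n) K, MvPolynomial.aeval x g = 0 ↔ g ∈ p) ∧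
      AlgebraicIndependent K w ∧ (∀ i, (Pt i).Monic) ∧
      ∀ i, eval₂ (MvPolynomial.aeval w :
        MvPolynomial ι (integralClosure ℤ K) →ₐ[integralClosure ℤ K] F).toRingHom
          (x i) (Pt i) = 0 := by
  classical
  obtain ⟨F, instF, instA, x, hx, halg⟩ := coord_ring p
  obtain ⟨B₀, hB₀⟩ : ∃ B₀ : Subalgebra K F, B₀ = Algebra.adjoin K (Set.range x) := ⟨_, rfl⟩
  rw [← hB₀] at halg
  obtain ⟨φ₀, hφ₀⟩ := phi0_exists x B₀ hB₀ P0 (fun g hg => hp0 g ((hx g).1 hg))
  obtain ⟨y, hy⟩ : ∃ y : Fin n → F, ∀ i, y i = x i - algebraMap K F (P0 i) := ⟨_, fun i => rfl⟩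
  have hB₀' : B₀ = Algebra.adjoin K (Set.range y) := by
    rw [hB₀]
    apply le_antisymm
    · rw [Algebra.adjoin_le_iff]
      rintro _ ⟨i, rfl⟩
      have h1 : x i = y i + algebraMap K F (P0 i) := by rw [hy]; ring
      rw [h1]
      exact Subalgebra.add_mem _ (Algebra.subset_adjoin ⟨i, rfl⟩) (Subalgebra.algebraMap_mem _ _)
    · rw [Algebra.adjoin_le_iff]
      rintro _ ⟨i, rfl⟩
      rw [hy]
      exact Subalgebra.sub_mem _ (Algebra.subset_adjoin ⟨i, rfl⟩) (Subalgebra.algebraMap_mem _ _)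
  obtain ⟨ι, hι, w, hw, hyw⟩ := exists_w hK y B₀ hB₀' φ₀ (by
    rintro v ⟨i, hi⟩
    have h1 : (v : F) = MvPolynomial.aeval x (MvPolynomial.X i - MvPolynomial.C (P0 i)) := by
      rw [← hi, hy, map_sub, MvPolynomial.aeval_X, MvPolynomial.aeval_C]
    rw [hφ₀ _ v h1, map_sub, MvPolynomial.eval_X, MvPolynomial.eval_C, sub_self])
  have hxw : ∀ i, IsIntegral (Algebra.adjoin (integralClosure ℤ K) (Set.range w)) (x i) := by
    intro i
    have h1 : x i = y i + algebraMap (integralClosure ℤ K) F ⟨P0 i, hP0 i⟩ := by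
      rw [hy]
      exact (sub_add_cancel _ _).symm
    rw [h1]
    refine (hyw i).add ?_
    exact isIntegral_algebraMap (R := Algebra.adjoin (integralClosure ℤ K)
      (Set.range w)) (x := ⟨_, Subalgebra.algebraMap_mem _ _⟩)
  have hPt : ∀ i, ∃ Q : (MvPolynomial ι (integralClosure ℤ K))[X],
      Q.Monic ∧ eval₂ (MvPolynomial.aeval w : MvPolynomial ι
        (integralClosure ℤ K) →ₐ[integralClosure ℤ K] F).toRingHom (x i) Q = 0 := by
    intro i
    obtain ⟨P, hP, hPx⟩ := hxw i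
    have hPm := hP.map (algebraMap (Algebra.adjoin (integralClosure ℤ K) (Set.range w)) F)
    obtain ⟨Q, hQ, hQd, hQm⟩ := Polynomial.lifts_and_natDegree_eq_and_monic
      (f := (MvPolynomial.aeval w : MvPolynomial ι
        (integralClosure ℤ K) →ₐ[integralClosure ℤ K] F).toRingHom)
      (p := P.map (algebraMap (Algebra.adjoin (integralClosure ℤ K) (Set.range w)) F)) (by
        rw [Polynomial.lifts_iff_coeff_lifts]
        intro r
        rw [coeff_map]
        exact (Algebra.adjoin_range_eq_range_aeval (integralClosure ℤ K) w).le (P.coeff r).2) hPm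
    refine ⟨Q, hQm, ?_⟩
    rw [eval₂_eq_eval_map, hQ, eval_map]
    exact hPx
  choose Pt hPm hPx using hPt
  exact ⟨F, instF, instA, x, ι, w, Pt, hx, hw, hPm, hPx⟩

/-- the number field of the coefficients -/
theorem coeff_field {ι : Type} {n : ℕ}
    (Pt : Fin n → (MvPolynomial ι (integralClosure ℤ (algebraicClosure ℚ ℂ)))[X]) :
    ∃ L : IntermediateField ℚ ℂ, FiniteDimensional ℚ L ∧ ∀ (i : Fin n) (r : ℕ)
      (c : ι → ℤ), (((MvPolynomial.eval
        (fun j => (c j : integralClosure ℤ (algebraicClosure ℚ ℂ))) ((Pt i).coeff r) :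
        integralClosure ℤ (algebraicClosure ℚ ℂ)) : algebraicClosure ℚ ℂ) : ℂ) ∈ L := by
  have h1 := fun (i : Fin n) (r : ℕ) => values_field ((Pt i).coeff r)
  choose L hL hLc using h1
  obtain ⟨N, hN⟩ : ∃ N, ∀ i, (Pt i).natDegree < N :=
    ⟨Finset.univ.sup (fun i => (Pt i).natDegree) + 1, fun i => Nat.lt_succ_of_le
      (Finset.le_sup (f := fun i => (Pt i).natDegree) (Finset.mem_univ i))⟩
  refine ⟨(Finset.univ ×ˢ Finset.range N).sup (fun a : Fin n × ℕ => L a.1 a.2), ?_,
    fun i r c => ?_⟩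
  · exact (finrank_sup_bound _ _ (fun a => finrank ℚ (L a.1 a.2)) (fun a => hL a.1 a.2)
      fun a => le_rfl).1
  · by_cases hr : r < N
    · have h2 : L i r ≤ (Finset.univ ×ˢ Finset.range N).sup (fun a : Fin n × ℕ => L a.1 a.2) :=
        Finset.le_sup (f := fun a : Fin n × ℕ => L a.1 a.2) (b := (i, r))
          (Finset.mem_product.2 ⟨Finset.mem_univ i, Finset.mem_range.2 hr⟩)
      exact h2 (hLc i r c)
    · rw [coeff_eq_zero_of_natDegree_lt (lt_of_lt_of_le (hN i) (not_lt.1 hr)), map_zero]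
      exact IntermediateField.zero_mem _

/-- **One integral point suffices.** A variety over the algebraic numbers with one integral point
has a Zariski dense set of integral points of bounded degree. -/
theorem dense_int_fin {n : ℕ} (p : Ideal (MvPolynomial (Fin n) (algebraicClosure ℚ ℂ)))
    [p.IsPrime] (P0 : Fin n → algebraicClosure ℚ ℂ) (hP0 : ∀ i, IsIntegral ℤ (P0 i))
    (hp0 : ∀ g ∈ p, MvPolynomial.eval P0 g = 0) :
    ∃ d : ℕ, ∀ f ∉ p, ∃ P : Fin n → algebraicClosure ℚ ℂ, (∀ i, IsIntegral ℤ (P i)) ∧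
      (∃ L : IntermediateField ℚ ℂ, FiniteDimensional ℚ L ∧ finrank ℚ L ≤ d ∧
        ∀ i, (P i : ℂ) ∈ L) ∧
      (∀ g ∈ p, MvPolynomial.eval P g = 0) ∧ MvPolynomial.eval P f ≠ 0 := by
  classical
  have hclosed : IsAlgClosed (algebraicClosure ℚ ℂ) := (algebraicClosure.isAlgClosure ℚ ℂ).1
  have halgQ : Algebra.IsAlgebraic ℚ (algebraicClosure ℚ ℂ) :=
    (algebraicClosure.isAlgClosure ℚ ℂ).2
  have hK : ∀ a : algebraicClosure ℚ ℂ, ∃ N : ℤ, N ≠ 0 ∧
      IsIntegral ℤ ((N : algebraicClosure ℚ ℂ) * a) := by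
    intro a
    have h1 : IsAlgebraic ℚ a := Algebra.IsAlgebraic.isAlgebraic a
    have h2 : IsAlgebraic ℤ a := (IsFractionRing.isAlgebraic_iff ℤ ℚ _).2 h1
    obtain ⟨N, hN, h3⟩ := h2.exists_integral_multiple
    refine ⟨N, hN, ?_⟩
    rwa [zsmul_eq_mul] at h3
  obtain ⟨F, instF, instA, x, ι, w, Pt, hx, hw, hPm, hPx⟩ := coords hK p P0 hP0 hp0
  obtain ⟨L₁, hL₁, hL₁c⟩ := coeff_field Pt
  refine ⟨∏ i, (finrank ℚ L₁ * (Pt i).natDegree), fun f hf => ?_⟩
  obtain ⟨c, P, hPp, hPf, hPi⟩ := specialise w hw x Pt hPm hPx f (fun h => hf ((hx f).1 h))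
  refine ⟨P, fun i => ?_, ?_, fun g hg => hPp g ((hx g).2 hg), hPf⟩
  · have h1 : IsIntegral (integralClosure ℤ (algebraicClosure ℚ ℂ)) (P i) :=
      ⟨_, (hPm i).map _, hPi i⟩
    exact isIntegral_trans (R := ℤ) (A := integralClosure ℤ (algebraicClosure ℚ ℂ)) (P i) h1
  · have h1 := fun i => finrank_root_bound L₁ (P i : ℂ)
      (((Pt i).map (MvPolynomial.eval
        (fun j => (c j : integralClosure ℤ (algebraicClosure ℚ ℂ))))).map
          ((algebraMap (algebraicClosure ℚ ℂ) ℂ).comp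
            (algebraMap (integralClosure ℤ (algebraicClosure ℚ ℂ)) (algebraicClosure ℚ ℂ))))
      (((hPm i).map _).map _) (fun r => by
        rw [coeff_map, coeff_map]
        exact hL₁c i r c) (by
        rw [eval_map]
        have h1 := congrArg (algebraMap (algebraicClosure ℚ ℂ) ℂ) (hPi i)
        rw [Polynomial.hom_eval₂, map_zero] at h1
        exact h1)
    have h2 := fun i => (h1 i).2
    have h3 : ∀ i, (((Pt i).map (MvPolynomial.eval
        (fun j => (c j : integralClosure ℤ (algebraicClosure ℚ ℂ))))).map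
          ((algebraMap (algebraicClosure ℚ ℂ) ℂ).comp
            (algebraMap (integralClosure ℤ (algebraicClosure ℚ ℂ))
              (algebraicClosure ℚ ℂ)))).natDegree ≤ (Pt i).natDegree := fun i =>
      natDegree_map_le.trans natDegree_map_le
    obtain ⟨h4, h5⟩ := finrank_sup_bound Finset.univ
      (fun i => IntermediateField.adjoin ℚ {(P i : ℂ)})
      (fun i => finrank ℚ L₁ * (Pt i).natDegree) (fun i => (h1 i).1)
      (fun i => (h2 i).trans (Nat.mul_le_mul_left _ (h3 i)))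
    refine ⟨_, h4, h5, fun i => ?_⟩
    have h6 : IntermediateField.adjoin ℚ {(P i : ℂ)} ≤ Finset.univ.sup
        (fun i => IntermediateField.adjoin ℚ {(P i : ℂ)}) :=
      Finset.le_sup (f := fun i => IntermediateField.adjoin ℚ {(P i : ℂ)}) (Finset.mem_univ i)
    exact h6 (IntermediateField.mem_adjoin_simple_self _ _)

end Vale.Agent.P002.H2
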