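import Vale.Agent.P002.H2.WL

/-!
# A variety with one integral point: arbitrary finite index sets
-/

namespace Vale.Agent.P002.H2

open Module

/-- **One integral point suffices.** A variety over the algebraic numbers with one integral point
has a Zariski dense set of integral points of bounded degree. -/
theorem dense_int {σ : Type} [Finite σ] (p : Ideal (MvPolynomial σ (algebraicClosure ℚ ℂ)))
    [hp : p.IsPrime] (P0 : σ → algebraicClosure ℚ ℂ) (hP0 : ∀ i, IsIntegral ℤ (P0 i))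
    (hp0 : ∀ g ∈ p, MvPolynomial.eval P0 g = 0) :
    ∃ d : ℕ, ∀ f ∉ p, ∃ P : σ → algebraicClosure ℚ ℂ, (∀ i, IsIntegral ℤ (P i)) ∧
      (∃ L : IntermediateField ℚ ℂ, FiniteDimensional ℚ L ∧ finrank ℚ L ≤ d ∧
        ∀ i, (P i : ℂ) ∈ L) ∧
      (∀ g ∈ p, MvPolynomial.eval P g = 0) ∧ MvPolynomial.eval P f ≠ 0 := by
  obtain ⟨n, ⟨e⟩⟩ : ∃ n, Nonempty (σ ≃ Fin n) := ⟨_, ⟨Finite.equivFin σ⟩⟩
  have hq : (p.comap (MvPolynomial.rename e.symm :
      MvPolynomial (Fin n) (algebraicClosure ℚ ℂ) →ₐ[algebraicClosure ℚ ℂ] _)).IsPrime :=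
    Ideal.comap_isPrime _ _
  obtain ⟨d, hd⟩ := dense_int_fin (p.comap (MvPolynomial.rename e.symm :
      MvPolynomial (Fin n) (algebraicClosure ℚ ℂ) →ₐ[algebraicClosure ℚ ℂ] _))
    (fun i => P0 (e.symm i)) (fun i => hP0 _) (fun g hg => by
      have h1 := hp0 _ (Ideal.mem_comap.1 hg)
      rw [MvPolynomial.eval_rename] at h1
      exact h1)
  refine ⟨d, fun f hf => ?_⟩
  have hr : ∀ g : MvPolynomial σ (algebraicClosure ℚ ℂ),
      MvPolynomial.rename e.symm (MvPolynomial.rename e g) = g := by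
    intro g
    rw [MvPolynomial.rename_rename, Equiv.symm_comp_self, MvPolynomial.rename_id_apply]
  obtain ⟨P, h1, h2, h3, h4⟩ := hd (MvPolynomial.rename e f) (fun h => hf (by
    have h5 := Ideal.mem_comap.1 h
    change MvPolynomial.rename e.symm (MvPolynomial.rename e f) ∈ p at h5
    rwa [hr] at h5))
  obtain ⟨L, hL1, hL2, hL3⟩ := h2
  refine ⟨fun i => P (e i), fun i => h1 _, ⟨L, hL1, hL2, fun i => hL3 _⟩, fun g hg => ?_, ?_⟩
  · have h5 := h3 (MvPolynomial.rename e g) (Ideal.mem_comap.2 (by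
      rwa [hr]))
    rw [MvPolynomial.eval_rename] at h5
    exact h5
  · rw [MvPolynomial.eval_rename] at h4
    exact h4

end Vale.Agent.P002.H2
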