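import Vale.Agent.P002.H2.WM
import Vale.Agent.P002.H2.TK
import Vale.Agent.P002.H252.Ba6
import Vale.Agent.P002.Bd3.B14

/-!
# Classes with algebraic eigenvalues, integral forms
-/

namespace Vale.Agent.P002.H2

open Matrix Module Vale.Agent.P002R.Orb Vale.Agent.P002.H326J Vale.Agent.P002.H252

/-- a class with algebraic eigenvalues contains a matrix with algebraic entries -/
theorem exists_algForm {r : ℕ} (C : SpecialLinearGroup (Fin r) ℂ)
    (hC : ∀ z, IsEigenvalue C z → ∃ n : ℕ, 0 < n ∧ z ^ n = 1) :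
    ∃ C' : SpecialLinearGroup (Fin r) ℂ, IsConj C C' ∧
      ∀ i j, C'.1 i j ∈ algebraicClosure ℚ ℂ := by
  obtain ⟨d, hd, h⟩ := Vale.Agent.P002R.exists_jordan_permE C.1
  obtain ⟨ν, hν, h⟩ := h 1
  obtain ⟨P, hP⟩ := h 1 one_ne_zero
  obtain ⟨M, hM⟩ : ∃ M : Matrix (Fin r) (Fin r) ℂ, M =
      diagonal (fun i => d ((1 : Equiv.Perm (Fin r)) i)) + (1 : ℂ) • ν.map (Int.castRingHom ℂ) :=
    ⟨_, rfl⟩
  rw [← hM] at hP
  have hPP : P.1 * (P⁻¹).1 = 1 := P.mul_inv
  have hPP' : (P⁻¹).1 * P.1 = 1 := P.inv_mul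
  have hdet : M.det = 1 := by
    have h1 := C.2
    have h2 := congrArg Matrix.det hP
    rw [Matrix.det_mul, Matrix.det_mul, mul_comm P.1.det, mul_assoc, ← Matrix.det_mul, hPP,
      Matrix.det_one, mul_one] at h2
    rw [← h2]
    exact C.2
  refine ⟨⟨M, hdet⟩, isConj_of_units (P⁻¹) ?_, fun i j => ?_⟩
  · change (P⁻¹).1 * C.1 = M * (P⁻¹).1
    rw [hP, ← mul_assoc, ← mul_assoc, hPP', one_mul]
  · change M i j ∈ _
    rw [hM, one_smul, Matrix.add_apply, Matrix.map_apply]
    refine add_mem ?_ (intCast_mem _ _)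
    rw [Matrix.diagonal_apply]
    split_ifs
    · obtain ⟨n, hn, hz⟩ := hC _ (hd ((1 : Equiv.Perm (Fin r)) i))
      rw [mem_algebraicClosure_iff]
      have h1 : IsIntegral ℚ (d ((1 : Equiv.Perm (Fin r)) i)) :=
        IsIntegral.of_pow hn (by rw [hz]; exact isIntegral_one)
      exact h1.isAlgebraic
    · exact zero_mem _

/-- `YW` depends only on the classes -/
theorem YW_congr {ι : Type} {r s : ℕ} (R : Set (FreeGroup ι)) (w : Fin s → FreeGroup ι)
    (C C' : Fin s → SpecialLinearGroup (Fin r) ℂ) (h : ∀ j, IsConj (C j) (C' j)) :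
    YW R w C = YW R w C' := by
  ext X
  constructor
  · rintro ⟨h1, h2⟩
    exact ⟨h1, fun j => (h j).symm.trans (h2 j)⟩
  · rintro ⟨h1, h2⟩
    exact ⟨h1, fun j => (h j).trans (h2 j)⟩

/-- the empty family -/
def emptyFamily (Γ : Type) [Group Γ] : OrbFamily Γ where
  I := Empty
  fin := inferInstance
  act :=
    { smul := fun _ i => i
      one_smul := fun i => i.elim
      mul_smul := fun _ _ i => i.elim }
  g := fun i => i.elim
  n := fun i => i.elim
  m := fun i => i.elim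
  φ := fun i => i.elim
  range := fun i => i.elim
  conj := fun _ i => i.elim
  dist := fun i => i.elim

theorem emptyFamily_K (Γ : Type) [Group Γ] : (emptyFamily Γ).K = ⊤ := by
  unfold OrbFamily.K
  have : IsEmpty (emptyFamily Γ).I := inferInstanceAs (IsEmpty Empty)
  exact iInf_of_empty _

/-- **Integral forms.** A semisimple representation of a finitely generated group with integral
traces is conjugate to a representation over the ring of integers of a number field. -/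
theorem integral_form {ι : Type} [Finite ι] {r : ℕ} (R : Set (FreeGroup ι))
    (X : ι → SpecialLinearGroup (Fin r) ℂ) (hX : X ∈ YNone R r)
    (ht : ∀ x, IsIntegral ℤ (FreeGroup.lift X x).1.trace) :
    ∃ (L : IntermediateField ℚ ℂ) (X' : ι → SpecialLinearGroup (Fin r) ℂ),
      FiniteDimensional ℚ L ∧ IsIntegralRep L X' ∧
      ∃ g : SpecialLinearGroup (Fin r) ℂ, ∀ p, X' p = g * X p * g⁻¹ := by
  obtain ⟨π, hπ⟩ : ∃ π : PresentedGroup R →* SpecialLinearGroup (Fin r) ℂ,
      ∀ x, π (PresentedGroup.mk R x) = FreeGroup.lift X x :=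
    ⟨PresentedGroup.toGroup hX.1, fun x => rfl⟩
  obtain ⟨t, ht'⟩ : ∃ t : (⊤ : Subgroup (PresentedGroup R)) → ℂ, ∀ y, t y = (π y.1).1.trace :=
    ⟨_, fun y => rfl⟩
  obtain ⟨L, hL, hd⟩ := main_T3 (R := R) (emptyFamily (PresentedGroup R)) r (s := 0)
    (fun j => j.elim0) (fun j => j.elim0) (fun j => j.elim0) (fun j => j.elim0) ⊤ inferInstance
    (by rw [emptyFamily_K]) t (by
      rintro ⟨y, hy⟩
      obtain ⟨x, rfl⟩ := PresentedGroup.mk_surjective R y
      rw [ht', hπ]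
      exact ht x)
  have hXT : X ∈ YRel R (fun j : Fin 0 => j.elim0) (fun j : Fin 0 => j.elim0)
      (emptyFamily (PresentedGroup R)).K ⊤ t := by
    refine ⟨⟨⟨hX, fun j => j.elim0⟩, fun x hx => ?_⟩, (emptyFamily (PresentedGroup R)).K, le_rfl,
      ?_, 0, fun x _ => ?_⟩
    · rw [ht', hπ]
    · rw [Subgroup.relIndex_self]
      exact one_ne_zero
    · exact Submodule.subset_span ⟨x, Subgroup.mem_top _, rfl⟩
  obtain ⟨X', hX', hint⟩ : ∃ X' ∈ YRel R (fun j : Fin 0 => j.elim0) (fun j : Fin 0 => j.elim0)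
      (emptyFamily (PresentedGroup R)).K ⊤ t, IsIntegralRep L X' := by
    by_contra h
    push Not at h
    have h1 := hd 1 (fun X' hX' hX'' => absurd hX'' (h X' hX')) X hXT
    have h2 : value (1 : MvPolynomial (ι × Fin r × Fin r) ℂ) X = 1 := by
      unfold value
      exact MvPolynomial.eval₂_one _ _
    rw [h2] at h1
    exact one_ne_zero h1
  have hss : ∀ X : ι → SpecialLinearGroup (Fin r) ℂ, X ∈ YNone R r →
      ∀ W : Submodule ℂ (Fin r → ℂ), (∀ z ∈ (⊤ : Subgroup (FreeGroup ι)), ∀ v ∈ W,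
        (FreeGroup.lift X z).1.mulVec v ∈ W) → ∃ W' : Submodule ℂ (Fin r → ℂ),
          (∀ z ∈ (⊤ : Subgroup (FreeGroup ι)), ∀ v ∈ W', (FreeGroup.lift X z).1.mulVec v ∈ W') ∧
            IsCompl W W' := by
    intro X hX W hW
    obtain ⟨W', h1, h2⟩ := hX.2 W ((isInv_iff X W).2 fun z v hv => hW z (Subgroup.mem_top z) v hv)
    exact ⟨W', fun z _ v hv => (isInv_iff X W').1 h1 z v hv, h2⟩
  obtain ⟨g, hg⟩ := H377.conj_of_trace (⊤ : Subgroup (FreeGroup ι)) (FreeGroup.lift X)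
    (FreeGroup.lift X') (hss X hX) (hss X' hX'.1.1.1) (fun x _ => by
      have h1 := hX'.1.2 x (Subgroup.mem_top _)
      have h2 := hXT.1.2 x (Subgroup.mem_top _)
      rw [h1, h2])
  refine ⟨L, X', hL, hint, g, fun p => ?_⟩
  have h1 := hg (FreeGroup.of p) (Subgroup.mem_top _)
  rwa [FreeGroup.lift_apply_of, FreeGroup.lift_apply_of] at h1

end Vale.Agent.P002.H2
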