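import Vale.Agent.P002.H2.XA

/-!
# Closed subsets of the set of semisimple representations with given classes: countable coverings
-/

namespace Vale.Agent.P002.H2

open Matrix Module Vale.Agent.P002R.Orb Vale.Agent.P002.H326J Vale.Agent.P002.H252

variable {ι : Type} {r : ℕ}

theorem BPT_YWc [Finite ι] (R : Set (FreeGroup ι)) {s : ℕ} (w : Fin s → FreeGroup ι)
    (C : Fin s → SpecialLinearGroup (Fin r) ℂ)
    (A : Set (MvPolynomial (ι × Fin r × Fin r) ℂ)) :
    BPT {X ∈ YW R w C | ∀ F ∈ A, value F X = 0} := by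
  -- words in the variables
  obtain ⟨e, he⟩ : ∃ e : FreeGroup ι → FreeGroup (ι ⊕ Fin s), e = FreeGroup.map Sum.inl :=
    ⟨_, rfl⟩
  have hword : ∀ (x : FreeGroup ι) (X : ι ⊕ Fin s → SpecialLinearGroup (Fin r) ℂ),
      FreeGroup.lift (fun p => X (Sum.inl p)) x = FreeGroup.lift X (e x) := fun x X => by
    rw [he, lift_comp_inl]
  have hw : ∀ x i j, PFn fun X : ι ⊕ Fin s → SpecialLinearGroup (Fin r) ℂ =>
      (FreeGroup.lift (fun p => X (Sum.inl p)) x).1 i j := by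
    intro x i j
    obtain ⟨F, hF⟩ := PFn.word (ι := ι ⊕ Fin s) (r := r) (e x) i j
    refine ⟨F, fun X => ?_⟩
    rw [← hF]
    change (FreeGroup.lift (fun p => X (Sum.inl p)) x).1 i j = _
    rw [hword]
  have hA : ∀ F : MvPolynomial (ι × Fin r × Fin r) ℂ,
      PFn fun X : ι ⊕ Fin s → SpecialLinearGroup (Fin r) ℂ => value F (fun p => X (Sum.inl p)) := by
    intro F
    refine ⟨MvPolynomial.rename (fun p => (Sum.inl p.1, p.2)) F, fun X => ?_⟩
    rw [H252.value_eq, MvPolynomial.eval_rename]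
    rfl
  -- the closed conditions
  obtain ⟨J, hJ⟩ : ∃ J : ℕ → Set ((ι ⊕ Fin s → SpecialLinearGroup (Fin r) ℂ) → ℂ),
      ∀ d, J d = ({f | ∃ x ∈ R, ∃ i j, f = fun X =>
          (FreeGroup.lift (fun p => X (Sum.inl p)) x).1 i j - (1 : Matrix (Fin r) (Fin r) ℂ) i j} ∪
        {f | ∃ k i j, f = fun X => (∑ l, (FreeGroup.lift (fun p => X (Sum.inl p)) (w k)).1 i l *
          (X (Sum.inr k)).1 l j) - ∑ l, (X (Sum.inr k)).1 i l * (C k).1 l j}) ∪
        ({f | ∃ (v : Fin (d + 1) → FreeGroup ι) (c : Fin (d + 1) → Fin r × Fin r), f = fun X =>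
          (Matrix.of fun a b => (FreeGroup.lift (fun p => X (Sum.inl p)) (v a)).1
            (c b).1 (c b).2).det} ∪
        {f | ∃ F ∈ A, f = fun X => value F (fun p => X (Sum.inl p))}) := ⟨_, fun d => rfl⟩
  have hJP : ∀ d, ∀ f ∈ J d, PFn f := by
    intro d f hf
    rw [hJ] at hf
    rcases hf with (⟨x, -, i, j, rfl⟩ | ⟨k, i, j, rfl⟩) | (⟨v, c, rfl⟩ | ⟨F, -, rfl⟩)
    · exact (hw x i j).sub (PFn.const _)
    · have h1 : ∀ i j, PFn fun X : ι ⊕ Fin s → SpecialLinearGroup (Fin r) ℂ =>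
          (X (Sum.inr k)).1 i j := fun i j => ⟨MvPolynomial.X (Sum.inr k, i, j), fun X => by
        rw [H252.value_eq, MvPolynomial.eval_X]
        rfl⟩
      exact (PFn.sum _ fun l => (hw _ i l).mul (h1 l j)).sub
        (PFn.sum _ fun l => (h1 i l).mul (PFn.const _))
    · exact PFn.det fun a b => hw _ _ _
    · exact hA F
  -- the open conditions
  obtain ⟨Q, hQ⟩ : ∃ Q : ℕ → Set ((ι ⊕ Fin s → SpecialLinearGroup (Fin r) ℂ) → ℂ),
      ∀ d, Q d = {f | ∃ u : Fin d → FreeGroup ι, f = fun X =>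
        (gramW (matHom fun p => X (Sum.inl p)) u).det} :=
    ⟨_, fun d => rfl⟩
  have hQP : ∀ d, ∀ f ∈ Q d, PFn f := by
    intro d f hf
    rw [hQ] at hf
    obtain ⟨u, rfl⟩ := hf
    refine PFn.det (M := fun i j (X : ι ⊕ Fin s → SpecialLinearGroup (Fin r) ℂ) =>
      (FreeGroup.lift (fun p => X (Sum.inl p)) (u i * u j)).1.trace) fun i j => ?_
    exact PFn.sum _ fun k => hw _ k k
  have key : {X ∈ YW R w C | ∀ F ∈ A, value F X = 0} =
      ⋃ d : Fin (r * r + 1), (fun (X : ι ⊕ Fin s → SpecialLinearGroup (Fin r) ℂ) (p : ι) =>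
        X (Sum.inl p)) '' {X ∈ {X | ∀ f ∈ J d, f X = 0} | ∃ f ∈ Q d, f X ≠ 0} := by
    ext X
    rw [Set.mem_iUnion]
    constructor
    · rintro ⟨⟨⟨hrel, hss⟩, hc⟩, hFX⟩
      obtain ⟨d, hd, hE, u, hu⟩ := (crit (matHom X)).1 ((ss_iff X).1 hss)
      have hc' : ∀ k, ∃ g : SpecialLinearGroup (Fin r) ℂ,
          FreeGroup.lift X (w k) * g = g * C k := by
        intro k
        obtain ⟨g, hg⟩ := isConj_iff.1 (hc k)
        exact ⟨g, by rw [← hg]; group⟩
      choose g hg using hc'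
      refine ⟨⟨d, by omega⟩, Sum.elim X g, ⟨?_, ?_⟩, ?_⟩
      · intro f hf
        rw [hJ] at hf
        rcases hf with (⟨x, hx, i, j, rfl⟩ | ⟨k, i, j, rfl⟩) | (⟨v, c, rfl⟩ | ⟨F, hF, rfl⟩)
        · have h1 := hrel x hx
          change (FreeGroup.lift X x).1 i j - _ = 0
          rw [h1]
          exact sub_self _
        · have h1 := congrArg (fun M : SpecialLinearGroup (Fin r) ℂ => M.1 i j) (hg k)
          exact sub_eq_zero.2 h1
        · have h1 := hE v
          rw [indep_iff_minor'] at h1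
          by_contra hne
          exact h1 ⟨c, hne⟩
        · exact hFX F hF
      · refine ⟨fun X => (gramW (matHom fun p => X (Sum.inl p)) u).det, ?_, hu⟩
        rw [hQ]
        exact ⟨u, rfl⟩
      · rfl
    · rintro ⟨⟨d, hd⟩, X', ⟨hX1, hX2⟩, rfl⟩
      obtain ⟨f, hf, hfX⟩ := hX2
      rw [hQ] at hf
      obtain ⟨u, rfl⟩ := hf
      have hX1' : ∀ f ∈ J d, f X' = 0 := hX1
      rw [hJ] at hX1'
      refine ⟨⟨⟨fun x hx => ?_, ?_⟩, fun k => ?_⟩, fun F hF =>
        hX1' _ (Or.inr (Or.inr ⟨F, hF, rfl⟩))⟩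
      · ext i j
        exact sub_eq_zero.1 (hX1' _ (Or.inl (Or.inl ⟨x, hx, i, j, rfl⟩)))
      · rw [ss_iff, crit]
        refine ⟨d, by omega, fun v hv => ?_, u, hfX⟩
        rw [indep_iff_minor'] at hv
        obtain ⟨c, hc⟩ := hv
        exact hc (hX1' _ (Or.inr (Or.inl ⟨v, c, rfl⟩)))
      · have h1 : FreeGroup.lift (fun p => X' (Sum.inl p)) (w k) * X' (Sum.inr k) =
            X' (Sum.inr k) * C k := by
          ext i j
          exact sub_eq_zero.1 (hX1' _ (Or.inl (Or.inr ⟨k, i, j, rfl⟩)))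
        exact isConj_iff.2 ⟨X' (Sum.inr k), by rw [← h1]; group⟩
  rw [key]
  exact BPT.iUnion fun d => ((BPT_closed (J d) (hJP d)).inter_open (Q d) (hQP d)).restr Sum.inl

/-- an irreducible set -/
def IsIrredSet (Z : Set (ι → SpecialLinearGroup (Fin r) ℂ)) : Prop :=
  Z.Nonempty ∧ ∀ F G : MvPolynomial (ι × Fin r × Fin r) ℂ,
    (∀ X ∈ Z, value F X = 0 ∨ value G X = 0) →
      (∀ X ∈ Z, value F X = 0) ∨ ∀ X ∈ Z, value G X = 0

/-- generic points -/
theorem exists_generic {Z : Set (ι → SpecialLinearGroup (Fin r) ℂ)} (hB : BPT Z)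
    (hZ : IsIrredSet Z) (S : ℕ → MvPolynomial (ι × Fin r × Fin r) ℂ)
    (hS : ∀ n, ∃ X ∈ Z, value (S n) X ≠ 0) : ∃ X ∈ Z, ∀ n, value (S n) X ≠ 0 := by
  classical
  by_contra hcon
  push Not at hcon
  obtain ⟨T, hT⟩ := hB (fun n => {S n}) (by
    rintro _ ⟨X, hX, rfl⟩
    obtain ⟨n, hn⟩ := hcon X hX
    refine ⟨n, fun f hf => ?_⟩
    rw [Set.mem_singleton_iff.1 hf, ← H252.value_eq]
    exact hn)
  have hval : ∀ (t : Finset ℕ) (X : ι → SpecialLinearGroup (Fin r) ℂ),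
      value (∏ n ∈ t, S n) X = ∏ n ∈ t, value (S n) X := by
    intro t X
    rw [H252.value_eq, map_prod]
    exact Finset.prod_congr rfl fun n _ => (H252.value_eq _ _).symm
  have h1 : ∀ t : Finset ℕ, ∃ X ∈ Z, value (∏ n ∈ t, S n) X ≠ 0 := by
    intro t
    induction t using Finset.induction_on with
    | empty =>
      obtain ⟨X, hX⟩ := hZ.1
      refine ⟨X, hX, ?_⟩
      rw [hval, Finset.prod_empty]
      exact one_ne_zero
    | insert a t hat ih =>
      by_contra hall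
      push Not at hall
      rcases hZ.2 (S a) (∏ n ∈ t, S n) (fun X hX => by
        have h2 := hall X hX
        rw [hval, Finset.prod_insert hat, ← hval] at h2
        exact mul_eq_zero.1 h2) with h2 | h2
      · obtain ⟨X, hX, h3⟩ := hS a
        exact h3 (h2 X hX)
      · obtain ⟨X, hX, h3⟩ := ih
        exact h3 (h2 X hX)
  obtain ⟨X, hX, h2⟩ := h1 T
  obtain ⟨n, hn, h3⟩ := hT _ ⟨X, hX, rfl⟩
  rw [hval] at h2
  refine Finset.prod_ne_zero_iff.1 h2 n hn ?_
  rw [H252.value_eq]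
  exact h3 _ rfl

end Vale.Agent.P002.H2
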