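import Vale.Agent.P002.H2.XB

/-!
# Polynomial functions over the algebraic numbers; descent of conjugating matrices
-/

namespace Vale.Agent.P002.H2

open Matrix Module Vale.Agent.P002R.Orb Vale.Agent.P002.H326J Vale.Agent.P002.H252

variable {ι : Type} {r : ℕ}

/-- the algebraic numbers -/
abbrev Kb : Type := algebraicClosure ℚ ℂ

/-- evaluation at the coordinates of `X` -/
noncomputable def evK (X : ι → SpecialLinearGroup (Fin r) ℂ) :
    MvPolynomial (ι × Fin r × Fin r) Kb →+* ℂ :=
  MvPolynomial.eval₂Hom (algebraMap Kb ℂ) (H252.coords X)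

theorem value_evK (F : MvPolynomial (ι × Fin r × Fin r) Kb)
    (X : ι → SpecialLinearGroup (Fin r) ℂ) : value F X = evK X F := rfl

/-- polynomial functions over the algebraic numbers -/
def PFK (f : (ι → SpecialLinearGroup (Fin r) ℂ) → ℂ) : Prop :=
  ∃ F : MvPolynomial (ι × Fin r × Fin r) Kb, ∀ X, f X = value F X

theorem PFK.const (c : Kb) : PFK (ι := ι) (r := r) fun _ => (c : ℂ) :=
  ⟨MvPolynomial.C c, fun X => by
    rw [value_evK, evK, MvPolynomial.eval₂Hom_C]
    rfl⟩

theorem PFK.one (i j : Fin r) :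
    PFK (ι := ι) (r := r) fun _ => (1 : Matrix (Fin r) (Fin r) ℂ) i j := by
  obtain ⟨F, hF⟩ := PFK.const (ι := ι) (r := r) ((1 : Matrix (Fin r) (Fin r) Kb) i j)
  refine ⟨F, fun X => ?_⟩
  rw [← hF X, Matrix.one_apply, Matrix.one_apply]
  split_ifs
  · rfl
  · rfl

theorem PFK.add {f g : (ι → SpecialLinearGroup (Fin r) ℂ) → ℂ} (hf : PFK f) (hg : PFK g) :
    PFK fun X => f X + g X := by
  obtain ⟨F, hF⟩ := hf
  obtain ⟨G, hG⟩ := hg
  exact ⟨F + G, fun X => by
    rw [value_evK, map_add, ← value_evK, ← value_evK, ← hF, ← hG]⟩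

theorem PFK.mul {f g : (ι → SpecialLinearGroup (Fin r) ℂ) → ℂ} (hf : PFK f) (hg : PFK g) :
    PFK fun X => f X * g X := by
  obtain ⟨F, hF⟩ := hf
  obtain ⟨G, hG⟩ := hg
  exact ⟨F * G, fun X => by
    rw [value_evK, map_mul, ← value_evK, ← value_evK, ← hF, ← hG]⟩

theorem PFK.sub {f g : (ι → SpecialLinearGroup (Fin r) ℂ) → ℂ} (hf : PFK f) (hg : PFK g) :
    PFK fun X => f X - g X := by
  obtain ⟨F, hF⟩ := hf
  obtain ⟨G, hG⟩ := hg
  exact ⟨F - G, fun X => by
    rw [value_evK, map_sub, ← value_evK, ← value_evK, ← hF, ← hG]⟩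

theorem PFK.sum {J : Type*} (s : Finset J) {f : J → (ι → SpecialLinearGroup (Fin r) ℂ) → ℂ}
    (hf : ∀ j, PFK (f j)) : PFK fun X => ∑ j ∈ s, f j X := by
  choose F hF using hf
  exact ⟨∑ j ∈ s, F j, fun X => by
    rw [value_evK, map_sum]
    exact Finset.sum_congr rfl fun j _ => hF j X⟩

theorem PFK.prod {J : Type*} (s : Finset J) {f : J → (ι → SpecialLinearGroup (Fin r) ℂ) → ℂ}
    (hf : ∀ j, PFK (f j)) : PFK fun X => ∏ j ∈ s, f j X := by
  choose F hF using hf
  exact ⟨∏ j ∈ s, F j, fun X => by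
    rw [value_evK, map_prod]
    exact Finset.prod_congr rfl fun j _ => hF j X⟩

theorem PFK.det {J : Type*} [Fintype J] [DecidableEq J]
    {M : J → J → (ι → SpecialLinearGroup (Fin r) ℂ) → ℂ} (hM : ∀ i j, PFK (M i j)) :
    PFK fun X => (Matrix.of fun i j => M i j X).det := by
  choose F hF using hM
  refine ⟨(Matrix.of F).det, fun X => ?_⟩
  have h : (Matrix.of fun i j => M i j X) = (evK X).mapMatrix (Matrix.of F) := by
    ext i j
    exact hF i j X
  rw [value_evK, RingHom.map_det, ← h]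

/-- the entries of the value of a word are polynomials -/
theorem PFK.word (w : FreeGroup ι) :
    ∀ i j, PFK (ι := ι) (r := r) fun X => (FreeGroup.lift X w).1 i j := by
  induction w using FreeGroup.induction_on with
  | C1 =>
    intro i j
    have h : (fun X : ι → SpecialLinearGroup (Fin r) ℂ => (FreeGroup.lift X 1).1 i j) =
        fun _ => (1 : Matrix (Fin r) (Fin r) ℂ) i j := by
      funext X
      rw [map_one]
      rfl
    rw [h]
    exact PFK.one i j
  | of p =>
    intro i j
    refine ⟨MvPolynomial.X (p, i, j), fun X => ?_⟩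
    have h : FreeGroup.lift X (FreeGroup.of p) = X p := FreeGroup.lift_apply_of
    rw [value_evK, evK, MvPolynomial.eval₂Hom_X']
    change (FreeGroup.lift X (FreeGroup.of p)).1 i j = _
    rw [h]
    rfl
  | inv_of p _ =>
    intro i j
    refine ⟨(Matrix.adjugate (Matrix.of fun a b => MvPolynomial.X (p, a, b))) i j, fun X => ?_⟩
    have h1 : (FreeGroup.lift X (FreeGroup.of p)⁻¹).1 = (X p).1.adjugate := by
      rw [map_inv, FreeGroup.lift_apply_of]
      rfl
    change (FreeGroup.lift X (FreeGroup.of p)⁻¹).1 i j = _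
    rw [h1, value_evK]
    have h2 := RingHom.map_adjugate (evK X)
      (Matrix.of fun a b : Fin r => (MvPolynomial.X (p, a, b) : MvPolynomial (ι × Fin r × Fin r) Kb))
    have h3 := congrFun (congrFun h2 i) j
    have h4 : (evK X).mapMatrix (Matrix.of fun a b : Fin r =>
        (MvPolynomial.X (p, a, b) : MvPolynomial (ι × Fin r × Fin r) Kb)) = (X p).1 := by
      ext a b
      simp only [RingHom.mapMatrix_apply, Matrix.map_apply, Matrix.of_apply, evK,
        MvPolynomial.eval₂Hom_X']
      rfl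
    rw [h4] at h3
    rw [← h3]
    rfl
  | mul x y hx hy =>
    intro i j
    have h : (fun X : ι → SpecialLinearGroup (Fin r) ℂ => (FreeGroup.lift X (x * y)).1 i j) =
        fun X => ∑ k, (FreeGroup.lift X x).1 i k * (FreeGroup.lift X y).1 k j := by
      funext X
      rw [map_mul]
      rfl
    rw [h]
    exact PFK.sum _ fun k => (hx i k).mul (hy k j)

/-- descent of a conjugating matrix to the field of the entries -/
theorem lin_descent (E : Subfield ℂ) (A C g : Matrix (Fin r) (Fin r) ℂ) (hA : ∀ i j, A i j ∈ E)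
    (hC : ∀ i j, C i j ∈ E) (hg : A * g = g * C) (hdet : g.det ≠ 0) :
    ∃ g₁ : Matrix (Fin r) (Fin r) ℂ, (∀ i j, g₁ i j ∈ E) ∧ A * g₁ = g₁ * C ∧ g₁.det ≠ 0 := by
  classical
  obtain ⟨J, b⟩ : ∃ J : Type, Nonempty (Basis J E ℂ) :=
    ⟨_, ⟨Module.Basis.ofVectorSpace E ℂ⟩⟩
  obtain ⟨b⟩ := b
  obtain ⟨S, hS⟩ : ∃ S : Finset J, ∀ i j, (b.repr (g i j)).support ⊆ S :=
    ⟨Finset.univ.biUnion fun p : Fin r × Fin r => (b.repr (g p.1 p.2)).support, fun i j =>
      Finset.subset_biUnion_of_mem (fun p : Fin r × Fin r => (b.repr (g p.1 p.2)).support)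
        (Finset.mem_univ (i, j))⟩
  obtain ⟨G, hG⟩ : ∃ G : J → Matrix (Fin r) (Fin r) ℂ, ∀ k i j,
      G k i j = ((b.repr (g i j) k : E) : ℂ) := ⟨fun k => Matrix.of fun i j => _, fun k i j => rfl⟩
  have hsum : g = ∑ k : S, b k.1 • G k.1 := by
    ext i j
    rw [Matrix.sum_apply]
    have h1 : g i j = ∑ k ∈ S, (b.repr (g i j) k) • b k := by
      conv_lhs => rw [← b.linearCombination_repr (g i j), Finsupp.linearCombination_apply]
      exact Finsupp.sum_of_support_subset _ (hS i j) (fun k (a : E) => a • b k)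
        (fun k _ => zero_smul _ _)
    rw [h1, ← Finset.sum_coe_sort]
    refine Finset.sum_congr rfl fun k _ => ?_
    rw [Matrix.smul_apply, hG, smul_eq_mul, Algebra.smul_def, mul_comm]
    rfl
  have hGE : ∀ k i j, G k i j ∈ E := fun k i j => hG k i j ▸ (b.repr (g i j) k).2
  have hGA : ∀ k, A * G k = G k * C := by
    intro k
    ext i j
    have h1 : (A * g) i j = (g * C) i j := by rw [hg]
    rw [Matrix.mul_apply, Matrix.mul_apply] at h1
    have h2 := congrArg (fun x => ((b.repr x k : E) : ℂ)) h1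
    simp only [map_sum, Finsupp.finsetSum_apply] at h2
    push_cast at h2
    rw [Matrix.mul_apply, Matrix.mul_apply]
    refine Eq.trans ?_ (h2.trans ?_)
    · refine Finset.sum_congr rfl fun l _ => ?_
      have h3 : A i l * g l j = (⟨A i l, hA i l⟩ : E) • g l j := rfl
      rw [h3, map_smul, Finsupp.smul_apply, smul_eq_mul, hG]
      rfl
    · refine Finset.sum_congr rfl fun l _ => ?_
      have h3 : g i l * C l j = (⟨C l j, hC l j⟩ : E) • g i l := by
        rw [mul_comm]
        rfl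
      rw [h3, map_smul, Finsupp.smul_apply, smul_eq_mul, hG, mul_comm]
      rfl
  -- the determinant as a polynomial
  obtain ⟨D, hD⟩ : ∃ D : MvPolynomial S ℂ, ∀ t : S → ℂ,
      MvPolynomial.eval t D = (∑ k : S, t k • G k.1).det := by
    refine ⟨(∑ k : S, (MvPolynomial.X k : MvPolynomial S ℂ) • (G k.1).map MvPolynomial.C).det,
      fun t => ?_⟩
    rw [RingHom.map_det, map_sum]
    congr 1
    refine Finset.sum_congr rfl fun k _ => ?_
    ext i j
    rw [RingHom.mapMatrix_apply, Matrix.map_apply, Matrix.smul_apply, Matrix.map_apply,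
      smul_eq_mul, map_mul, MvPolynomial.eval_X, MvPolynomial.eval_C]
    rfl
  have hD0 : D ≠ 0 := by
    rintro rfl
    have h1 := hD fun k => b k.1
    rw [← hsum, map_zero] at h1
    exact hdet h1.symm
  obtain ⟨c, hc⟩ : ∃ c : S → ℤ, MvPolynomial.eval (fun j => (c j : ℂ)) D ≠ 0 := by
    by_contra h
    push Not at h
    apply hD0
    refine MvPolynomial.funext_set (fun _ => Set.range (Int.cast : ℤ → ℂ))
      (fun _ => Set.infinite_range_of_injective Int.cast_injective) fun u hu => ?_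
    rw [map_zero]
    have h1 : ∀ j, ∃ m : ℤ, (m : ℂ) = u j := fun j => hu j (Set.mem_univ j)
    choose c hc using h1
    have h2 : u = fun j => (c j : ℂ) := funext fun j => (hc j).symm
    rw [h2]
    exact h c
  refine ⟨∑ k : S, (c k : ℂ) • G k.1, fun i j => ?_, ?_, ?_⟩
  · rw [Matrix.sum_apply]
    refine sum_mem fun k _ => ?_
    rw [Matrix.smul_apply, smul_eq_mul]
    exact mul_mem (intCast_mem E _) (hGE _ _ _)
  · rw [Finset.mul_sum, Finset.sum_mul]
    refine Finset.sum_congr rfl fun k _ => ?_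
    rw [mul_smul_comm, hGA, smul_mul_assoc]
  · rw [← hD]
    exact hc

end Vale.Agent.P002.H2
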