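import Vale.Agent.P002.H2.XC

/-!
# The conditions on a generic point hold on an open set
-/

namespace Vale.Agent.P002.H2

open Matrix Module Vale.Agent.P002R.Orb Vale.Agent.P002.H326J Vale.Agent.P002.H252

variable {ι : Type} {r : ℕ}

/-- common denominators -/
theorem common_denK (X : ι → SpecialLinearGroup (Fin r) ℂ) {J : Type} [Fintype J] [DecidableEq J]
    (x : J → ℂ) (hx : ∀ a, x a ∈ IntermediateField.adjoin Kb (Set.range (H252.coords X))) :
    ∃ (D : MvPolynomial (ι × Fin r × Fin r) Kb) (F : J → MvPolynomial (ι × Fin r × Fin r) Kb),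
      value D X ≠ 0 ∧ ∀ a, value (F a) X = value D X * x a := by
  have h1 : ∀ a, ∃ P Q : MvPolynomial (ι × Fin r × Fin r) Kb, value Q X ≠ 0 ∧
      value P X = value Q X * x a := by
    intro a
    obtain ⟨P, Q, h⟩ := (IntermediateField.mem_adjoin_range_iff Kb (H252.coords X) (x a)).1 (hx a)
    have h' : x a = value P X / value Q X := h
    by_cases hQ : value Q X = 0
    · refine ⟨0, 1, ?_, ?_⟩
      · rw [value_evK, map_one]
        exact one_ne_zero
      · rw [h', hQ, div_zero, mul_zero, value_evK, map_zero]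
    · exact ⟨P, Q, hQ, by rw [h', mul_div_cancel₀ _ hQ]⟩
  choose P Q hQ hPQ using h1
  refine ⟨∏ a, Q a, fun a => P a * ∏ b ∈ Finset.univ.erase a, Q b, ?_, fun a => ?_⟩
  · rw [value_evK, map_prod]
    exact Finset.prod_ne_zero_iff.2 fun a _ => hQ a
  · have h2 := hPQ a
    rw [value_evK, value_evK] at h2
    rw [value_evK, value_evK, map_mul, ← Finset.mul_prod_erase _ _ (Finset.mem_univ a), map_mul,
      h2]
    ring

/-- descent of a conjugating matrix to polynomials -/
theorem poly_descent (X : ι → SpecialLinearGroup (Fin r) ℂ) (A C g : Matrix (Fin r) (Fin r) ℂ)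
    (hA : ∀ i j, ∃ F : MvPolynomial (ι × Fin r × Fin r) Kb, A i j = value F X)
    (hC : ∀ i j, C i j ∈ algebraicClosure ℚ ℂ) (hg : A * g = g * C) (hdet : g.det ≠ 0) :
    ∃ F : Fin r → Fin r → MvPolynomial (ι × Fin r × Fin r) Kb,
      A * (Matrix.of fun i j => value (F i j) X) = (Matrix.of fun i j => value (F i j) X) * C ∧
      (Matrix.of fun i j => value (F i j) X).det ≠ 0 := by
  classical
  obtain ⟨g₁, h1, h2, h3⟩ := lin_descent
    (IntermediateField.adjoin Kb (Set.range (H252.coords X))).toSubfield A C g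
    (fun i j => by
      obtain ⟨F, hF⟩ := hA i j
      rw [hF]
      have h4 : value F X ∈ Algebra.adjoin Kb (Set.range (H252.coords X)) := by
        rw [Algebra.adjoin_range_eq_range_aeval]
        exact ⟨F, rfl⟩
      exact IntermediateField.algebra_adjoin_le_adjoin _ _ h4)
    (fun i j => (IntermediateField.adjoin Kb (Set.range (H252.coords X))).algebraMap_mem
      (⟨C i j, hC i j⟩ : Kb)) hg hdet
  obtain ⟨D, F, hD, hF⟩ := common_denK X (fun p : Fin r × Fin r => g₁ p.1 p.2)
    (fun p => h1 p.1 p.2)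
  have h4 : (Matrix.of fun i j => value (F (i, j)) X) = value D X • g₁ := by
    ext i j
    rw [Matrix.of_apply, hF, Matrix.smul_apply, smul_eq_mul]
  refine ⟨fun i j => F (i, j), ?_, ?_⟩
  · rw [h4, mul_smul_comm, h2, smul_mul_assoc]
  · rw [h4, Matrix.det_smul]
    exact mul_ne_zero (pow_ne_zero _ hD) h3

/-- the polynomials over the algebraic numbers which vanish on `Z` -/
def idK (Z : Set (ι → SpecialLinearGroup (Fin r) ℂ)) :
    Ideal (MvPolynomial (ι × Fin r × Fin r) Kb) where
  carrier := {F | ∀ X ∈ Z, value F X = 0}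
  add_mem' := by
    intro F G hF hG X hX
    rw [value_evK, map_add, ← value_evK, ← value_evK, hF X hX, hG X hX, add_zero]
  zero_mem' := by
    intro X _
    rw [value_evK, map_zero]
  smul_mem' := by
    intro F G hG X hX
    rw [smul_eq_mul, value_evK, map_mul, ← value_evK, ← value_evK, hG X hX, mul_zero]

theorem mem_idK {Z : Set (ι → SpecialLinearGroup (Fin r) ℂ)}
    {F : MvPolynomial (ι × Fin r × Fin r) Kb} : F ∈ idK Z ↔ ∀ X ∈ Z, value F X = 0 := Iff.rfl

/-- the conditions defining `YW` hold on an open set -/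
theorem open_cond {s : ℕ} (R : Set (FreeGroup ι)) (w : Fin s → FreeGroup ι)
    (C : Fin s → SpecialLinearGroup (Fin r) ℂ) (hC : ∀ k i j, (C k).1 i j ∈ algebraicClosure ℚ ℂ)
    (Z : Set (ι → SpecialLinearGroup (Fin r) ℂ)) (hZ : Z ⊆ YW R w C)
    (X : ι → SpecialLinearGroup (Fin r) ℂ) (hX : X ∈ Z)
    (hgen : ∀ F : MvPolynomial (ι × Fin r × Fin r) Kb, value F X = 0 → F ∈ idK Z) :
    ∃ f : MvPolynomial (ι × Fin r × Fin r) Kb, value f X ≠ 0 ∧
      ∀ Q : ι → SpecialLinearGroup (Fin r) ℂ, (∀ F ∈ idK Z, value F Q = 0) → value f Q ≠ 0 →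
        Q ∈ YW R w C := by
  classical
  obtain ⟨⟨hrel, hss⟩, hc⟩ := hZ hX
  obtain ⟨d, hd, hE, u, hu⟩ := (crit (matHom X)).1 ((ss_iff X).1 hss)
  -- the Gram determinant
  obtain ⟨f₀, hf₀⟩ : PFK fun X : ι → SpecialLinearGroup (Fin r) ℂ => (gramW (matHom X) u).det :=
    PFK.det (M := fun i j (X : ι → SpecialLinearGroup (Fin r) ℂ) =>
      (FreeGroup.lift X (u i * u j)).1.trace) fun i j => PFK.sum _ fun k => PFK.word _ k k
  -- the conjugating matrices
  have h1 : ∀ k, ∃ F : Fin r → Fin r → MvPolynomial (ι × Fin r × Fin r) Kb,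
      (FreeGroup.lift X (w k)).1 * (Matrix.of fun i j => value (F i j) X) =
        (Matrix.of fun i j => value (F i j) X) * (C k).1 ∧
      (Matrix.of fun i j => value (F i j) X).det ≠ 0 := by
    intro k
    obtain ⟨g, hg⟩ := isConj_iff.1 (hc k)
    refine poly_descent X _ _ g.1 (fun i j => ?_) (hC k) ?_ ?_
    · obtain ⟨F, hF⟩ := PFK.word (ι := ι) (r := r) (w k) i j
      exact ⟨F, hF X⟩
    · have h2 : FreeGroup.lift X (w k) * g = g * C k := by rw [← hg]; group
      exact congrArg Subtype.val h2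
    · rw [g.2]
      exact one_ne_zero
  choose G hG hGd using h1
  have h2 : ∀ k, PFK fun X : ι → SpecialLinearGroup (Fin r) ℂ =>
      (Matrix.of fun i j => value (G k i j) X).det := fun k =>
    PFK.det fun i j => ⟨G k i j, fun X => rfl⟩
  choose f hf using h2
  refine ⟨f₀ * ∏ k, f k, ?_, fun Q hQ hQf => ?_⟩
  · rw [value_evK, map_mul, map_prod, ← value_evK, ← hf₀]
    refine mul_ne_zero hu (Finset.prod_ne_zero_iff.2 fun k _ => ?_)
    rw [← value_evK, ← hf]
    exact hGd k
  · have h0 : ∀ g : (ι → SpecialLinearGroup (Fin r) ℂ) → ℂ, PFK g → g X = 0 → g Q = 0 := by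
      intro g hg hgX
      obtain ⟨F, hF⟩ := hg
      rw [hF]
      refine hQ F (hgen F ?_)
      rw [← hF, hgX]
    have h0Z : ∀ g : (ι → SpecialLinearGroup (Fin r) ℂ) → ℂ, PFK g → g X = 0 → g Q = 0 := h0
    rw [value_evK, map_mul, map_prod, ← value_evK, ← hf₀] at hQf
    have hQ0 : (gramW (matHom Q) u).det ≠ 0 := left_ne_zero_of_mul hQf
    have hQk : ∀ k, (Matrix.of fun i j => value (G k i j) Q).det ≠ 0 := by
      intro k
      have h3 := Finset.prod_ne_zero_iff.1 (right_ne_zero_of_mul hQf) k (Finset.mem_univ k)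
      rwa [← value_evK, ← hf] at h3
    refine ⟨⟨fun x hx => ?_, ?_⟩, fun k => ?_⟩
    · ext i j
      refine sub_eq_zero.1 (h0 (fun X => (FreeGroup.lift X x).1 i j -
        (1 : Matrix (Fin r) (Fin r) ℂ) i j) ((PFK.word x i j).sub (PFK.one i j)) ?_)
      rw [sub_eq_zero, hrel x hx]
      rfl
    · rw [ss_iff, crit]
      refine ⟨d, hd, fun v hv => ?_, u, hQ0⟩
      rw [indep_iff_minor'] at hv
      obtain ⟨c, hc⟩ := hv
      refine hc (h0 (fun X => (Matrix.of fun a b => (FreeGroup.lift X (v a)).1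
        (c b).1 (c b).2).det) (PFK.det fun a b => PFK.word _ _ _) ?_)
      have h3 := hE v
      rw [indep_iff_minor'] at h3
      by_contra hne
      exact h3 ⟨c, hne⟩
    · have h3 : (FreeGroup.lift Q (w k)).1 * (Matrix.of fun i j => value (G k i j) Q) =
          (Matrix.of fun i j => value (G k i j) Q) * (C k).1 := by
        ext i j
        refine sub_eq_zero.1 (h0 (fun X => (∑ l, (FreeGroup.lift X (w k)).1 i l *
          value (G k l j) X) - ∑ l, value (G k i l) X * (C k).1 l j) ?_ ?_)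
        · exact (PFK.sum _ fun l => (PFK.word _ i l).mul ⟨G k l j, fun X => rfl⟩).sub
            (PFK.sum _ fun l => PFK.mul ⟨G k i l, fun X => rfl⟩
              (PFK.const (⟨(C k).1 l j, hC k l j⟩ : Kb)))
        · exact sub_eq_zero.2 (congrFun (congrFun (hG k) i) j)
      obtain ⟨U, hU⟩ := (Matrix.isUnit_iff_isUnit_det _).2 (isUnit_iff_ne_zero.2 (hQk k))
      refine isConj_of_units U ?_
      rw [hU]
      exact h3.symm

end Vale.Agent.P002.H2
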