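import Vale.Agent.P002.H2.XD
import Vale.Agent.P002.H2.DefsComp

/-!
# Components with one integral point: density
-/

namespace Vale.Agent.P002.H2

open Matrix Module NumberField Vale.Agent.P002R.Orb Vale.Agent.P002.H326J Vale.Agent.P002.H252

variable {ι : Type} {r : ℕ}

/-- an irreducible component of `Y` -/
def IsComponent (Z Y : Set (ι → SpecialLinearGroup (Fin r) ℂ)) : Prop :=
  Z ⊆ Y ∧ IsIrredSet Z ∧ ∀ Z' ⊆ Y, IsIrredSet Z' → Z ⊆ Z' → Z' = Z

/-- decomposition of a polynomial along a basis of `ℂ` over the algebraic numbers -/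
theorem decomp {J : Type} (b : Basis J Kb ℂ) (F : MvPolynomial (ι × Fin r × Fin r) ℂ) :
    ∃ (S : Finset J) (G : J → MvPolynomial (ι × Fin r × Fin r) Kb),
      ∀ X : ι → SpecialLinearGroup (Fin r) ℂ, value F X = ∑ k ∈ S, b k * value (G k) X := by
  classical
  refine ⟨F.support.biUnion fun m => (b.repr (F.coeff m)).support,
    fun k => ∑ m ∈ F.support, MvPolynomial.monomial m (b.repr (F.coeff m) k), fun X => ?_⟩
  have h1 : ∀ m ∈ F.support, F.coeff m =
      ∑ k ∈ F.support.biUnion fun m => (b.repr (F.coeff m)).support,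
        (b.repr (F.coeff m) k) • b k := by
    intro m hm
    conv_lhs => rw [← b.linearCombination_repr (F.coeff m), Finsupp.linearCombination_apply]
    exact Finsupp.sum_of_support_subset _
      (Finset.subset_biUnion_of_mem (fun m => (b.repr (F.coeff m)).support) hm)
      (fun k (a : Kb) => a • b k) (fun k _ => zero_smul _ _)
  have h2 : value F X = ∑ m ∈ F.support, F.coeff m * ∏ i ∈ m.support, H252.coords X i ^ m i := by
    rw [H252.value_eq, MvPolynomial.eval_eq]
  have h3 : ∀ k, value (∑ m ∈ F.support, MvPolynomial.monomial m (b.repr (F.coeff m) k) :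
      MvPolynomial (ι × Fin r × Fin r) Kb) X =
      ∑ m ∈ F.support, ((b.repr (F.coeff m) k : Kb) : ℂ) *
        ∏ i ∈ m.support, H252.coords X i ^ m i := by
    intro k
    rw [value_evK, map_sum]
    refine Finset.sum_congr rfl fun m _ => ?_
    rw [evK, MvPolynomial.eval₂Hom_monomial]
    rfl
  rw [h2]
  simp only [h3, Finset.mul_sum]
  rw [Finset.sum_comm]
  refine Finset.sum_congr rfl fun m hm => ?_
  conv_lhs => rw [h1 m hm]
  rw [Finset.sum_mul]
  refine Finset.sum_congr rfl fun k _ => ?_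
  rw [Algebra.smul_def]
  change ((b.repr (F.coeff m) k : Kb) : ℂ) * b k * _ = _
  ring

/-- at a point with algebraic coordinates the parts vanish separately -/
theorem parts_zero {J : Type} (b : Basis J Kb ℂ) (S : Finset J)
    (G : J → MvPolynomial (ι × Fin r × Fin r) Kb) (X : ι → SpecialLinearGroup (Fin r) ℂ)
    (hX : ∀ p i j, (X p).1 i j ∈ algebraicClosure ℚ ℂ)
    (h0 : ∑ k ∈ S, b k * value (G k) X = 0) : ∀ k ∈ S, value (G k) X = 0 := by
  have h1 : ∀ F : MvPolynomial (ι × Fin r × Fin r) Kb, value F X ∈ algebraicClosure ℚ ℂ := by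
    intro F
    induction F using MvPolynomial.induction_on with
    | C a =>
      rw [value_evK, evK, MvPolynomial.eval₂Hom_C]
      exact a.2
    | add p q hp hq =>
      rw [value_evK, map_add, ← value_evK, ← value_evK]
      exact add_mem hp hq
    | mul_X p i hp =>
      rw [value_evK, map_mul, ← value_evK]
      refine mul_mem hp ?_
      rw [evK, MvPolynomial.eval₂Hom_X']
      exact hX _ _ _
  have h2 := (linearIndependent_iff'.1 b.linearIndependent) S (fun k => ⟨value (G k) X, h1 _⟩) (by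
    rw [← h0]
    refine Finset.sum_congr rfl fun k _ => ?_
    rw [Algebra.smul_def, mul_comm]
    rfl)
  intro k hk
  exact congrArg (fun a : Kb => (a : ℂ)) (h2 k hk)

theorem value_map (F : MvPolynomial (ι × Fin r × Fin r) Kb)
    (X : ι → SpecialLinearGroup (Fin r) ℂ) :
    value (MvPolynomial.map (algebraMap Kb ℂ) F) X = value F X := by
  rw [H252.value_eq, MvPolynomial.eval_map]
  rfl

theorem idK_prime {Z : Set (ι → SpecialLinearGroup (Fin r) ℂ)} (hZ : IsIrredSet Z) :
    (idK Z).IsPrime := by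
  refine ⟨fun h => ?_, fun {F G} hFG => ?_⟩
  · have h1 : (1 : MvPolynomial (ι × Fin r × Fin r) Kb) ∈ idK Z := h ▸ Submodule.mem_top
    obtain ⟨X, hX⟩ := hZ.1
    have h2 := h1 X hX
    rw [value_evK, map_one] at h2
    exact one_ne_zero h2
  · rcases hZ.2 (MvPolynomial.map (algebraMap Kb ℂ) F) (MvPolynomial.map (algebraMap Kb ℂ) G)
      (fun X hX => by
        rw [value_map, value_map]
        have h1 := hFG X hX
        rw [value_evK, map_mul] at h1
        exact mul_eq_zero.1 h1) with h | h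
    · exact Or.inl fun X hX => by rw [← value_map]; exact h X hX
    · exact Or.inr fun X hX => by rw [← value_map]; exact h X hX

/-- a component is closed in `Y` -/
theorem component_closed {Z Y : Set (ι → SpecialLinearGroup (Fin r) ℂ)} (hZ : IsComponent Z Y) :
    {X ∈ Y | ∀ F ∈ {F : MvPolynomial (ι × Fin r × Fin r) ℂ | ∀ X ∈ Z, value F X = 0},
      value F X = 0} = Z := by
  refine hZ.2.2 _ (fun X hX => hX.1) ⟨?_, fun F G h => ?_⟩ fun X hX => ⟨hZ.1 hX, fun F hF => hF X hX⟩
  · obtain ⟨X, hX⟩ := hZ.2.1.1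
    exact ⟨X, hZ.1 hX, fun F hF => hF X hX⟩
  · rcases hZ.2.1.2 F G fun X hX => h X ⟨hZ.1 hX, fun F hF => hF X hX⟩ with h1 | h1
    · exact Or.inl fun X hX => hX.2 F h1
    · exact Or.inr fun X hX => hX.2 G h1

theorem countable_Kb : Countable Kb := by
  have h1 : {x : ℂ | IsAlgebraic ℚ x}.Countable := Algebraic.countable ℚ ℂ
  have h2 : (algebraicClosure ℚ ℂ : Set ℂ) = {x : ℂ | IsAlgebraic ℚ x} := by
    ext x
    exact mem_algebraicClosure_iff
  have h3 : (algebraicClosure ℚ ℂ : Set ℂ).Countable := h2 ▸ h1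
  exact h3.to_subtype

/-- a component has a generic point over the algebraic numbers -/
theorem component_generic [Finite ι] {s : ℕ} (R : Set (FreeGroup ι)) (w : Fin s → FreeGroup ι)
    (C : Fin s → SpecialLinearGroup (Fin r) ℂ) {Z : Set (ι → SpecialLinearGroup (Fin r) ℂ)}
    (hZ : IsComponent Z (YW R w C)) :
    ∃ X ∈ Z, ∀ F : MvPolynomial (ι × Fin r × Fin r) Kb, value F X = 0 → F ∈ idK Z := by
  have hB : BPT Z := by
    have h1 := BPT_YWc R w C {F : MvPolynomial (ι × Fin r × Fin r) ℂ | ∀ X ∈ Z, value F X = 0}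
    rwa [component_closed hZ] at h1
  have hK := countable_Kb
  have hc : Countable (MvPolynomial (ι × Fin r × Fin r) Kb) := by
    rw [← Cardinal.mk_le_aleph0_iff]
    refine MvPolynomial.cardinalMk_le_max.trans ?_
    simp only [max_le_iff, le_refl, and_true]
    exact ⟨Cardinal.mk_le_aleph0_iff.2 inferInstance, Cardinal.mk_le_aleph0_iff.2 inferInstance⟩
  have hp := idK_prime hZ.2.1
  have hne : {F : MvPolynomial (ι × Fin r × Fin r) Kb | F ∉ idK Z}.Nonempty :=
    ⟨1, (Ideal.ne_top_iff_one _).1 hp.ne_top⟩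
  obtain ⟨S, hS⟩ := (Set.to_countable {F : MvPolynomial (ι × Fin r × Fin r) Kb |
    F ∉ idK Z}).exists_eq_range hne
  obtain ⟨X, hX, h⟩ := exists_generic hB hZ.2.1 (fun n => MvPolynomial.map (algebraMap Kb ℂ) (S n))
    (fun n => by
      have h1 : S n ∉ idK Z := by
        have : S n ∈ {F : MvPolynomial (ι × Fin r × Fin r) Kb | F ∉ idK Z} := hS ▸ ⟨n, rfl⟩
        exact this
      rw [mem_idK] at h1
      push Not at h1
      obtain ⟨X, hX, h2⟩ := h1
      exact ⟨X, hX, by rwa [value_map]⟩)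
  refine ⟨X, hX, fun F hF => ?_⟩
  by_contra hFn
  have h1 : F ∈ {F : MvPolynomial (ι × Fin r × Fin r) Kb | F ∉ idK Z} := hFn
  rw [hS] at h1
  obtain ⟨n, rfl⟩ := h1
  have h2 := h n
  rw [value_map] at h2
  exact h2 hF

end Vale.Agent.P002.H2
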