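import Vale.Agent.P002.H2.XE

/-!
# Components with one integral point: the density theorem
-/

namespace Vale.Agent.P002.H2

open Matrix Module NumberField Vale.Agent.P002R.Orb Vale.Agent.P002.H326J Vale.Agent.P002.H252

variable {ι : Type} {r : ℕ}

/-- points of the closure -/
theorem exists_points [Finite ι] {Z : Set (ι → SpecialLinearGroup (Fin r) ℂ)} (hZ : IsIrredSet Z)
    (X₁ : ι → SpecialLinearGroup (Fin r) ℂ) (L₁ : IntermediateField ℚ ℂ)
    (hL₁ : FiniteDimensional ℚ L₁) (hX₁ : IsIntegralRep L₁ X₁)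
    (h1Z : ∀ F ∈ idK Z, value F X₁ = 0) :
    ∃ d : ℕ, ∀ f ∉ idK Z, ∃ Q : ι → SpecialLinearGroup (Fin r) ℂ,
      (∀ F ∈ idK Z, value F Q = 0) ∧ value f Q ≠ 0 ∧
      (∀ p i j, (Q p).1 i j ∈ algebraicClosure ℚ ℂ) ∧
      ∃ L : IntermediateField ℚ ℂ, FiniteDimensional ℚ L ∧ finrank ℚ L ≤ d ∧
        IsIntegralRep L Q := by
  have hp := idK_prime hZ
  have hint : ∀ p i j, IsIntegral ℤ ((X₁ p).1 i j) := by
    intro p i j
    obtain ⟨a, ha⟩ := hX₁ p i j
    rw [ha]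
    exact a.2.map (L₁.val.restrictScalars ℤ)
  have halg : ∀ p i j, (X₁ p).1 i j ∈ algebraicClosure ℚ ℂ := by
    intro p i j
    rw [mem_algebraicClosure_iff]
    have h1 : IsIntegral ℚ ((X₁ p).1 i j) := (hint p i j).tower_top
    exact h1.isAlgebraic
  obtain ⟨P0, hP0⟩ : ∃ P0 : ι × Fin r × Fin r → Kb, ∀ q, (P0 q : ℂ) = (X₁ q.1).1 q.2.1 q.2.2 :=
    ⟨fun q => ⟨_, halg q.1 q.2.1 q.2.2⟩, fun q => rfl⟩
  have hP0i : ∀ q, IsIntegral ℤ (P0 q) := by
    intro q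
    have h1 := hint q.1 q.2.1 q.2.2
    rw [← hP0 q] at h1
    exact (isIntegral_algebraMap_iff (A := Kb) (B := ℂ) (FaithfulSMul.algebraMap_injective Kb ℂ)).1 h1
  have hev : ∀ (P : ι × Fin r × Fin r → Kb) (X : ι → SpecialLinearGroup (Fin r) ℂ),
      (∀ q, (P q : ℂ) = (X q.1).1 q.2.1 q.2.2) →
      ∀ F : MvPolynomial (ι × Fin r × Fin r) Kb, ((MvPolynomial.eval P F : Kb) : ℂ) = value F X := by
    intro P X hPX F
    have h1 : (algebraMap Kb ℂ) (MvPolynomial.eval₂ (RingHom.id Kb) P F) =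
        MvPolynomial.eval₂ ((algebraMap Kb ℂ).comp (RingHom.id Kb)) ((algebraMap Kb ℂ) ∘ P) F :=
      MvPolynomial.eval₂_comp_left _ _ _ _
    have h2 : (algebraMap Kb ℂ) ∘ P = H252.coords X := funext fun q => hPX q
    rw [h2] at h1
    exact h1
  obtain ⟨d, hd⟩ := dense_int (idK Z) P0 hP0i (fun g hg => by
    have h1 := hev P0 X₁ hP0 g
    rw [h1Z g hg] at h1
    exact Subtype.ext h1)
  refine ⟨d, fun f hf => ?_⟩
  obtain ⟨P, hPi, ⟨L, hL, hLd, hPL⟩, hPp, hPf⟩ := hd f hf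
  -- the matrices
  have hdet : ∀ p, (Matrix.of fun i j => (P (p, i, j) : ℂ)).det = 1 := by
    intro p
    obtain ⟨D, hD⟩ : ∃ D : MvPolynomial (ι × Fin r × Fin r) Kb,
        D = (Matrix.of fun i j => (MvPolynomial.X (p, i, j) :
          MvPolynomial (ι × Fin r × Fin r) Kb)).det - 1 := ⟨_, rfl⟩
    have h1 : D ∈ idK Z := by
      intro X _
      have h2 : (evK X).mapMatrix (Matrix.of fun i j => (MvPolynomial.X (p, i, j) :
          MvPolynomial (ι × Fin r × Fin r) Kb)) = (X p).1 := by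
        ext a b
        simp only [RingHom.mapMatrix_apply, Matrix.map_apply, Matrix.of_apply, evK,
          MvPolynomial.eval₂Hom_X']
        rfl
      rw [value_evK, hD, map_sub, map_one, RingHom.map_det, h2, (X p).2, sub_self]
    have h2 := hPp D h1
    rw [hD, map_sub, map_one, RingHom.map_det, sub_eq_zero] at h2
    have h3 := congrArg (algebraMap Kb ℂ) h2
    rw [RingHom.map_det, map_one] at h3
    have h4 : (algebraMap Kb ℂ).mapMatrix ((MvPolynomial.eval P).mapMatrix (Matrix.of fun i j =>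
        (MvPolynomial.X (p, i, j) : MvPolynomial (ι × Fin r × Fin r) Kb))) =
        Matrix.of fun i j => (P (p, i, j) : ℂ) := by
      ext a b
      simp only [RingHom.mapMatrix_apply, Matrix.map_apply, Matrix.of_apply, MvPolynomial.eval_X]
      rfl
    rwa [h4] at h3
  obtain ⟨Q, hQ⟩ : ∃ Q : ι → SpecialLinearGroup (Fin r) ℂ, ∀ q, (P q : ℂ) = (Q q.1).1 q.2.1 q.2.2 :=
    ⟨fun p => ⟨_, hdet p⟩, fun q => rfl⟩
  refine ⟨Q, fun F hF => ?_, ?_, fun p i j => ?_, L, hL, hLd, fun p i j => ?_⟩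
  · rw [← hev P Q hQ, hPp F hF]
    rfl
  · rw [← hev P Q hQ]
    intro h
    exact hPf (Subtype.ext h)
  · rw [← hQ (p, i, j)]
    exact (P (p, i, j)).2
  · have h1 : IsIntegral ℤ ((Q p).1 i j) := by
      rw [← hQ (p, i, j)]
      exact (hPi (p, i, j)).map (IsScalarTower.toAlgHom ℤ Kb ℂ)
    have h2 : (Q p).1 i j ∈ L := by
      rw [← hQ (p, i, j)]
      exact hPL (p, i, j)
    obtain ⟨a, ha⟩ := exists_O_of_int h2 h1
    exact ⟨a, ha.symm⟩

/-- **One integral point suffices**, for a component `Z` of `YW`, if the classes `C k` are given by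
matrices with algebraic entries. -/
theorem dense_component [Finite ι] {s : ℕ} (R : Set (FreeGroup ι)) (w : Fin s → FreeGroup ι)
    (C : Fin s → SpecialLinearGroup (Fin r) ℂ) (hC : ∀ k i j, (C k).1 i j ∈ algebraicClosure ℚ ℂ)
    {Z : Set (ι → SpecialLinearGroup (Fin r) ℂ)} (hZ : IsComponent Z (YW R w C))
    (X₁ : ι → SpecialLinearGroup (Fin r) ℂ) (L₁ : IntermediateField ℚ ℂ)
    (hL₁ : FiniteDimensional ℚ L₁) (hX₁ : IsIntegralRep L₁ X₁)
    (h1Z : ∀ F ∈ idK Z, value F X₁ = 0) :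
    ∃ d : ℕ, IsDenseRepDeg d Z := by
  have hp := idK_prime hZ.2.1
  obtain ⟨J, b⟩ : ∃ J : Type, Nonempty (Basis J Kb ℂ) :=
    ⟨_, ⟨Module.Basis.ofVectorSpace Kb ℂ⟩⟩
  obtain ⟨b⟩ := b
  obtain ⟨X, hX, hgen⟩ := component_generic R w C hZ
  obtain ⟨f, hfX, hf⟩ := open_cond R w C hC Z hZ.1 X hX hgen
  have hfZ : f ∉ idK Z := fun h => hfX (h X hX)
  obtain ⟨d, hd⟩ := exists_points hZ.2.1 X₁ L₁ hL₁ hX₁ h1Z
  -- `Z` is the set of points of `YW` in the closure of `Z` over the algebraic numbers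
  have hW : {X ∈ YW R w C | ∀ F ∈ idK Z, value F X = 0} = Z := by
    refine hZ.2.2 _ (fun X hX => hX.1) ⟨⟨X, hZ.1 hX, fun F hF => hF X hX⟩, fun F G h => ?_⟩
      fun X hX => ⟨hZ.1 hX, fun F hF => hF X hX⟩
    obtain ⟨S, F', hF'⟩ := decomp b F
    obtain ⟨T, G', hG'⟩ := decomp b G
    by_cases h1 : ∀ k ∈ S, F' k ∈ idK Z
    · left
      rintro X ⟨-, hX⟩
      rw [hF']
      exact Finset.sum_eq_zero fun k hk => by rw [hX _ (h1 k hk), mul_zero]
    by_cases h2 : ∀ k ∈ T, G' k ∈ idK Z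
    · right
      rintro X ⟨-, hX⟩
      rw [hG']
      exact Finset.sum_eq_zero fun k hk => by rw [hX _ (h2 k hk), mul_zero]
    push Not at h1 h2
    obtain ⟨k, hk, hFk⟩ := h1
    obtain ⟨l, hl, hGl⟩ := h2
    exfalso
    obtain ⟨Q, hQZ, hQf, hQa, -⟩ := hd (f * (F' k * G' l)) (fun h => by
      rcases hp.mem_or_mem h with h | h
      · exact hfZ h
      · rcases hp.mem_or_mem h with h | h
        · exact hFk h
        · exact hGl h)
    rw [value_evK, map_mul, map_mul] at hQf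
    have hQ1 : value f Q ≠ 0 := left_ne_zero_of_mul hQf
    have hQ2 : value (F' k) Q ≠ 0 := left_ne_zero_of_mul (right_ne_zero_of_mul hQf)
    have hQ3 : value (G' l) Q ≠ 0 := right_ne_zero_of_mul (right_ne_zero_of_mul hQf)
    rcases h Q ⟨hf Q hQZ hQ1, hQZ⟩ with h3 | h3
    · rw [hF'] at h3
      exact hQ2 (parts_zero b S F' Q hQa h3 k hk)
    · rw [hG'] at h3
      exact hQ3 (parts_zero b T G' Q hQa h3 l hl)
  refine ⟨d, fun F hF => ?_⟩
  obtain ⟨S, F', hF'⟩ := decomp b F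
  have h1 : ∀ k ∈ S, F' k ∈ idK Z := by
    intro k hk
    by_contra hFk
    obtain ⟨Q, hQZ, hQf, hQa, L, hL, hLd, hQL⟩ := hd (f * F' k) (fun h => by
      rcases hp.mem_or_mem h with h | h
      · exact hfZ h
      · exact hFk h)
    rw [value_evK, map_mul] at hQf
    have hQ1 : value f Q ≠ 0 := left_ne_zero_of_mul hQf
    have hQ2 : value (F' k) Q ≠ 0 := right_ne_zero_of_mul hQf
    have hQ : Q ∈ Z := hW ▸ ⟨hf Q hQZ hQ1, hQZ⟩
    have h3 := hF Q hQ ⟨L, hL, hLd, hQL⟩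
    rw [hF'] at h3
    exact hQ2 (parts_zero b S F' Q hQa h3 k hk)
  intro X hX
  rw [hF']
  exact Finset.sum_eq_zero fun k hk => by rw [h1 k hk X hX, mul_zero]

end Vale.Agent.P002.H2
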