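import Vale.Agent.P002.H2.XF

/-!
# Components are invariant under conjugation
-/

namespace Vale.Agent.P002.H2

open Matrix Module NumberField Vale.Agent.P002R.Orb Vale.Agent.P002.H326J Vale.Agent.P002.H252

variable {ι : Type} {r : ℕ}

/-- conjugation of the variables -/
theorem exists_conj_poly (g : SpecialLinearGroup (Fin r) ℂ)
    (F : MvPolynomial (ι × Fin r × Fin r) ℂ) :
    ∃ G : MvPolynomial (ι × Fin r × Fin r) ℂ, ∀ X : ι → SpecialLinearGroup (Fin r) ℂ,
      value G X = value F fun p => g * X p * g⁻¹ := by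
  have h1 : PFn (ι := ι) (r := r) fun X => value F fun p => g * X p * g⁻¹ := by
    induction F using MvPolynomial.induction_on with
    | C a =>
      have h2 : (fun X : ι → SpecialLinearGroup (Fin r) ℂ =>
          value (MvPolynomial.C a : MvPolynomial (ι × Fin r × Fin r) ℂ) fun p => g * X p * g⁻¹) =
          fun _ => a := by
        funext X
        rw [H252.value_eq, MvPolynomial.eval_C]
      rw [h2]
      exact PFn.const a
    | add p q hp hq =>
      have h2 : (fun X : ι → SpecialLinearGroup (Fin r) ℂ =>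
          value (p + q) fun p => g * X p * g⁻¹) = fun X =>
          (value p fun p => g * X p * g⁻¹) + value q fun p => g * X p * g⁻¹ := by
        funext X
        rw [H252.value_eq, map_add]
        rfl
      rw [h2]
      exact hp.add hq
    | mul_X p o hp =>
      have h2 : (fun X : ι → SpecialLinearGroup (Fin r) ℂ =>
          value (p * MvPolynomial.X o) fun p => g * X p * g⁻¹) = fun X =>
          (value p fun p => g * X p * g⁻¹) *
            ∑ l, (∑ k, g.1 o.2.1 k * (X o.1).1 k l) * (g⁻¹).1 l o.2.2 := by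
        funext X
        rw [H252.value_eq, map_mul, MvPolynomial.eval_X]
        rfl
      rw [h2]
      exact hp.mul (PFn.sum _ fun l => (PFn.sum _ fun k => (PFn.const _).mul
        ⟨MvPolynomial.X (o.1, k, l), fun X => by
          rw [H252.value_eq, MvPolynomial.eval_X]
          rfl⟩).mul (PFn.const _))
  obtain ⟨G, hG⟩ := h1
  exact ⟨G, fun X => (hG X).symm⟩

/-- conjugation by a line of matrices -/
theorem line_poly (A : Matrix (Fin r) (Fin r) (Polynomial ℂ))
    (X : ι → SpecialLinearGroup (Fin r) ℂ) (F : MvPolynomial (ι × Fin r × Fin r) ℂ) :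
    ∃ (N : ℕ) (Φ : Polynomial ℂ), ∀ (t : ℂ) (h : SpecialLinearGroup (Fin r) ℂ) (c : ℂ),
      h.1 = c • A.map (Polynomial.eval t) → A.det.eval t ≠ 0 →
      Φ.eval t = A.det.eval t ^ N * value F fun p => h * X p * h⁻¹ := by
  induction F using MvPolynomial.induction_on with
  | C a =>
    refine ⟨0, Polynomial.C a, fun t h c _ _ => ?_⟩
    rw [H252.value_eq, MvPolynomial.eval_C, pow_zero, one_mul, Polynomial.eval_C]
  | add p q hp hq =>
    obtain ⟨N, Φ, hΦ⟩ := hp
    obtain ⟨N', Φ', hΦ'⟩ := hq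
    refine ⟨N + N', A.det ^ N' * Φ + A.det ^ N * Φ', fun t h c hc hd => ?_⟩
    rw [Polynomial.eval_add, Polynomial.eval_mul, Polynomial.eval_mul, Polynomial.eval_pow,
      Polynomial.eval_pow, hΦ t h c hc hd, hΦ' t h c hc hd, H252.value_eq, H252.value_eq,
      H252.value_eq, map_add]
    ring
  | mul_X p o hp =>
    obtain ⟨N, Φ, hΦ⟩ := hp
    refine ⟨N + 1, Φ * (A * ((X o.1).1.map Polynomial.C) * A.adjugate) o.2.1 o.2.2,
      fun t h c hc hd => ?_⟩
    rw [Polynomial.eval_mul, hΦ t h c hc hd, H252.value_eq, H252.value_eq, map_mul,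
      MvPolynomial.eval_X]
    obtain ⟨B, hB⟩ : ∃ B : Matrix (Fin r) (Fin r) ℂ, B = A.map (Polynomial.eval t) := ⟨_, rfl⟩
    have hev : ∀ M : Matrix (Fin r) (Fin r) (Polynomial ℂ),
        M.map (Polynomial.eval t) = (Polynomial.evalRingHom t).mapMatrix M := fun M => rfl
    have hBd : B.det = A.det.eval t := by
      rw [hB, hev, ← RingHom.map_det]
      rfl
    have h1 : (A * ((X o.1).1.map Polynomial.C) * A.adjugate).map (Polynomial.eval t) =
        B * (X o.1).1 * B.adjugate := by
      rw [hev, map_mul, map_mul, RingHom.map_adjugate, hB]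
      congr 2
      ext i j
      simp
    have h2 : Polynomial.eval t ((A * ((X o.1).1.map Polynomial.C) * A.adjugate) o.2.1 o.2.2) =
        (B * (X o.1).1 * B.adjugate) o.2.1 o.2.2 := by
      rw [← h1]
      rfl
    -- `h X h⁻¹ = B X adj B / det B`
    have h3 : h.1 = c • B := by rw [hc, hB]
    have h4 : A.det.eval t • (h.1 * (X o.1).1 * (h⁻¹).1) = B * (X o.1).1 * B.adjugate := by
      have h5 : h.1 * (h⁻¹).1 = 1 := congrArg Subtype.val (mul_inv_cancel h)
      have h5' : (h⁻¹).1 * h.1 = 1 := congrArg Subtype.val (inv_mul_cancel h)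
      have h6 : B.adjugate = A.det.eval t • (c • (h⁻¹).1) := by
        have h7 : (h⁻¹).1 * (c • B) = 1 := by rw [← h3]; exact h5'
        have h8 : (c • (h⁻¹).1) * B = 1 := by
          rw [smul_mul_assoc, ← mul_smul_comm]
          exact h7
        have h9 : B * B.adjugate = B.det • 1 := Matrix.mul_adjugate B
        have h10 : (c • (h⁻¹).1) * (B * B.adjugate) = B.adjugate := by
          rw [← mul_assoc, h8, one_mul]
        rw [h9, mul_smul_comm, mul_one, hBd] at h10
        exact h10.symm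
      rw [h6, h3]
      simp only [smul_mul_assoc, mul_smul_comm]
    have h5 := congrFun (congrFun h4 o.2.1) o.2.2
    rw [h2, ← h5, Matrix.smul_apply, smul_eq_mul]
    change _ = A.det.eval t ^ (N + 1) * (_ * (h.1 * (X o.1).1 * (h⁻¹).1) o.2.1 o.2.2)
    rw [pow_succ]
    ring

/-- components are invariant under conjugation -/
theorem component_conj {Z Y : Set (ι → SpecialLinearGroup (Fin r) ℂ)} (hZ : IsComponent Z Y)
    (hY : ∀ X ∈ Y, ∀ g : SpecialLinearGroup (Fin r) ℂ, (fun p => g * X p * g⁻¹) ∈ Y)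
    (X : ι → SpecialLinearGroup (Fin r) ℂ) (hX : X ∈ Z) (g : SpecialLinearGroup (Fin r) ℂ) :
    (fun p => g * X p * g⁻¹) ∈ Z := by
  obtain ⟨Z', hZ'⟩ : ∃ Z' : Set (ι → SpecialLinearGroup (Fin r) ℂ),
      Z' = {X | ∃ X' ∈ Z, ∃ g : SpecialLinearGroup (Fin r) ℂ, X = fun p => g * X' p * g⁻¹} :=
    ⟨_, rfl⟩
  have hsub : Z ⊆ Z' := by
    intro X hX
    rw [hZ']
    refine ⟨X, hX, 1, ?_⟩
    funext p
    rw [one_mul, inv_one, mul_one]
  have h1 : Z' = Z := by
    refine hZ.2.2 Z' ?_ ⟨hZ.2.1.1.mono hsub, fun F G hFG => ?_⟩ hsub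
    · rw [hZ']
      rintro _ ⟨X', hX', g, rfl⟩
      exact hY X' (hZ.1 hX') g
    · by_contra hcon
      push Not at hcon
      obtain ⟨⟨Y₁, hY₁, hF⟩, Y₂, hY₂, hG⟩ := hcon
      rw [hZ'] at hY₁ hY₂
      obtain ⟨X₁, hX₁, g₁, rfl⟩ := hY₁
      obtain ⟨X₂, hX₂, g₂, rfl⟩ := hY₂
      have key : ∀ g : SpecialLinearGroup (Fin r) ℂ, (value F fun p => g * X₁ p * g⁻¹) = 0 ∨
          (value G fun p => g * X₂ p * g⁻¹) = 0 := by
        intro g
        obtain ⟨Fg, hFg⟩ := exists_conj_poly g F
        obtain ⟨Gg, hGg⟩ := exists_conj_poly g G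
        rcases hZ.2.1.2 Fg Gg (fun X hX => by
          rw [hFg, hGg]
          refine hFG _ ?_
          rw [hZ']
          exact ⟨X, hX, g, rfl⟩) with h | h
        · left
          rw [← hFg]
          exact h X₁ hX₁
        · right
          rw [← hGg]
          exact h X₂ hX₂
      obtain ⟨A, hA⟩ : ∃ A : Matrix (Fin r) (Fin r) (Polynomial ℂ), ∀ t : ℂ,
          A.map (Polynomial.eval t) = g₁.1 + t • (g₂.1 - g₁.1) := by
        refine ⟨Matrix.of fun i j => Polynomial.C (g₁.1 i j) +
          Polynomial.X * Polynomial.C (g₂.1 i j - g₁.1 i j), fun t => ?_⟩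
        ext i j
        simp [Matrix.map_apply, Polynomial.eval_mul]
      have hev : ∀ (t : ℂ), A.det.eval t = (A.map (Polynomial.eval t)).det := by
        intro t
        have h2 : A.map (Polynomial.eval t) = (Polynomial.evalRingHom t).mapMatrix A := rfl
        rw [h2, ← RingHom.map_det]
        rfl
      have hA0 : A.map (Polynomial.eval 0) = g₁.1 := by rw [hA, zero_smul, add_zero]
      have hA1 : A.map (Polynomial.eval 1) = g₂.1 := by
        rw [hA, one_smul, add_sub_cancel]
      have hd0 : A.det.eval 0 = 1 := by rw [hev, hA0, g₁.2]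
      have hd1 : A.det.eval 1 = 1 := by rw [hev, hA1, g₂.2]
      obtain ⟨N, Φ, hΦ⟩ := line_poly A X₁ F
      obtain ⟨N', Φ', hΦ'⟩ := line_poly A X₂ G
      have hΦ0 : Φ.eval 0 ≠ 0 := by
        rw [hΦ 0 g₁ 1 (by rw [hA0, one_smul]) (by rw [hd0]; exact one_ne_zero), hd0, one_pow,
          one_mul]
        exact hF
      have hΦ1 : Φ'.eval 1 ≠ 0 := by
        rw [hΦ' 1 g₂ 1 (by rw [hA1, one_smul]) (by rw [hd1]; exact one_ne_zero), hd1, one_pow,
          one_mul]
        exact hG
      have hprod : A.det * (Φ * Φ') = 0 := by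
        apply Polynomial.funext
        intro t
        rw [Polynomial.eval_zero, Polynomial.eval_mul, Polynomial.eval_mul]
        by_cases hd : A.det.eval t = 0
        · rw [hd, zero_mul]
        · obtain ⟨c, hc⟩ : ∃ c : ℂ, (c • A.map (Polynomial.eval t)).det = 1 := by
            rcases Nat.eq_zero_or_pos r with hr | hr
            · subst hr
              exact ⟨1, Matrix.det_fin_zero⟩
            · obtain ⟨c, hc⟩ := IsAlgClosed.exists_pow_nat_eq ((A.det.eval t)⁻¹) hr
              refine ⟨c, ?_⟩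
              rw [Matrix.det_smul, Fintype.card_fin, hc, ← hev, inv_mul_cancel₀ hd]
          have h2 := hΦ t ⟨_, hc⟩ c rfl hd
          have h3 := hΦ' t ⟨_, hc⟩ c rfl hd
          rcases key ⟨_, hc⟩ with h4 | h4
          · rw [h2, h4, mul_zero, zero_mul, mul_zero]
          · rw [h3, h4, mul_zero, mul_zero, mul_zero]
      rcases mul_eq_zero.1 hprod with h2 | h2
      · rw [h2, Polynomial.eval_zero] at hd0
        exact zero_ne_one hd0
      · rcases mul_eq_zero.1 h2 with h3 | h3
        · rw [h3, Polynomial.eval_zero] at hΦ0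
          exact hΦ0 rfl
        · rw [h3, Polynomial.eval_zero] at hΦ1
          exact hΦ1 rfl
  rw [← h1, hZ']
  exact ⟨X, hX, g, rfl⟩

/-- `YW` is invariant under conjugation -/
theorem YW_conj {s : ℕ} (R : Set (FreeGroup ι)) (w : Fin s → FreeGroup ι)
    (C : Fin s → SpecialLinearGroup (Fin r) ℂ) (X : ι → SpecialLinearGroup (Fin r) ℂ)
    (hX : X ∈ YW R w C) (g : SpecialLinearGroup (Fin r) ℂ) :
    (fun p => g * X p * g⁻¹) ∈ YW R w C := by
  have hlift : ∀ x, FreeGroup.lift (fun p => g * X p * g⁻¹) x = g * FreeGroup.lift X x * g⁻¹ := by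
    intro x
    have h1 : FreeGroup.lift (fun p => g * X p * g⁻¹) =
        (MulAut.conj g).toMonoidHom.comp (FreeGroup.lift X) := by
      apply FreeGroup.ext_hom
      intro p
      rw [FreeGroup.lift_apply_of, MonoidHom.comp_apply, FreeGroup.lift_apply_of]
      rfl
    rw [h1]
    rfl
  obtain ⟨⟨hrel, hss⟩, hc⟩ := hX
  refine ⟨⟨fun x hx => ?_, ?_⟩, fun k => ?_⟩
  · rw [hlift, hrel x hx, mul_one, mul_inv_cancel]
  · intro W hW
    obtain ⟨e, he⟩ : ∃ e : (Fin r → ℂ) ≃ₗ[ℂ] (Fin r → ℂ), ∀ v, e v = g.1 *ᵥ v := by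
      refine ⟨LinearEquiv.ofLinearMap (Matrix.toLin' g.1) (Matrix.toLin' (g⁻¹).1) ?_ ?_, fun v => ?_⟩
      · rw [← Matrix.toLin'_mul]
        have h5 : g.1 * (g⁻¹).1 = 1 := congrArg Subtype.val (mul_inv_cancel g)
        rw [h5, Matrix.toLin'_one]
      · rw [← Matrix.toLin'_mul]
        have h5 : (g⁻¹).1 * g.1 = 1 := congrArg Subtype.val (inv_mul_cancel g)
        rw [h5, Matrix.toLin'_one]
      · exact Matrix.toLin'_apply _ _
    have hinv : ∀ W : Submodule ℂ (Fin r → ℂ), IsInv (fun p => g * X p * g⁻¹) W ↔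
        IsInv X (W.comap e.toLinearMap) := by
      intro W
      have hg : (g⁻¹).1 * g.1 = 1 := congrArg Subtype.val (inv_mul_cancel g)
      have h2 : ∀ p v, (g * X p * g⁻¹).1 *ᵥ (e v) = e ((X p).1 *ᵥ v) := by
        intro p v
        rw [he, he]
        change (g.1 * (X p).1 * (g⁻¹).1) *ᵥ (g.1 *ᵥ v) = _
        rw [Matrix.mulVec_mulVec, Matrix.mul_assoc, hg, Matrix.mul_one, Matrix.mulVec_mulVec]
      constructor
      · intro h p v hv
        have h3 := h p (e v) hv
        rw [h2] at h3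
        exact h3
      · intro h p v hv
        have h3 := h p (e.symm v) (by
          change e (e.symm v) ∈ W
          rwa [e.apply_symm_apply])
        have h4 := h2 p (e.symm v)
        rw [e.apply_symm_apply] at h4
        rw [h4]
        exact h3
    obtain ⟨W', h1, h2⟩ := hss _ ((hinv W).1 hW)
    refine ⟨W'.map e.toLinearMap, (hinv _).2 ?_, ?_⟩
    · rw [Submodule.comap_map_eq_of_injective e.injective]
      exact h1
    · have h3 : W = (W.comap e.toLinearMap).map e.toLinearMap :=
        (Submodule.map_comap_eq_of_surjective e.surjective W).symm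
      rw [h3]
      exact h2.map (Submodule.orderIsoMapComap e)
  · rw [hlift]
    exact (hc k).trans (isConj_iff.2 ⟨g, rfl⟩)

end Vale.Agent.P002.H2
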