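import Mathlib

/-!
# Averaging without integration: separation of invariant closed sets
-/

namespace Vale.Agent.P002.H2

open Module

section poly

variable {σ : Type} [Fintype σ] [DecidableEq σ]

/-- the noncommutative polynomial with coefficients `T`, evaluated at commuting variables -/
noncomputable def evT {A : Type*} [CommRing A] [Algebra ℂ A] (n : ℕ) (T : ∀ k : ℕ, (Fin k → σ) → ℂ)
    (x : σ → A) : A :=
  ∑ k ∈ Finset.range (n + 1), ∑ s : Fin k → σ, algebraMap ℂ A (T k s) * ∏ i, x (s i)

/-- every polynomial is given by a noncommutative polynomial -/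
theorem exists_T (a : MvPolynomial σ ℂ) :
    ∃ (n : ℕ) (T : ∀ k : ℕ, (Fin k → σ) → ℂ), (∀ k, n < k → T k = 0) ∧
      ∀ x : σ → ℂ, MvPolynomial.eval x a = evT n T x := by
  have hext : ∀ (n m : ℕ) (T : ∀ k : ℕ, (Fin k → σ) → ℂ), (∀ k, n < k → T k = 0) → n ≤ m →
      ∀ x : σ → ℂ, evT n T x = evT m T x := by
    intro n m T hT hnm x
    unfold evT
    refine Finset.sum_subset (Finset.range_mono (by omega)) fun k _ hk => ?_
    rw [Finset.mem_range, not_lt] at hk
    rw [hT k (by omega)]
    simp
  induction a using MvPolynomial.induction_on with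
  | C c =>
    refine ⟨0, fun k s => if k = 0 then c else 0, fun k hk => ?_, fun x => ?_⟩
    · funext s
      have h0 : k ≠ 0 := by omega
      change (if k = 0 then c else 0) = 0
      rw [if_neg h0]
    · simp [evT]
  | add p q hp hq =>
    obtain ⟨n, T, hT, h⟩ := hp
    obtain ⟨m, T', hT', h'⟩ := hq
    refine ⟨max n m, fun k s => T k s + T' k s, fun k hk => ?_, fun x => ?_⟩
    · funext s
      change T k s + T' k s = 0
      rw [hT k (lt_of_le_of_lt (le_max_left _ _) hk), hT' k (lt_of_le_of_lt (le_max_right _ _) hk)]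
      simp
    · rw [map_add, h, h', hext n (max n m) T hT (le_max_left _ _) x,
        hext m (max n m) T' hT' (le_max_right _ _) x]
      unfold evT
      rw [← Finset.sum_add_distrib]
      refine Finset.sum_congr rfl fun k _ => ?_
      rw [← Finset.sum_add_distrib]
      refine Finset.sum_congr rfl fun s _ => ?_
      rw [map_add]
      ring
  | mul_X p o hp =>
    obtain ⟨n, T, hT, h⟩ := hp
    obtain ⟨T', hT'0, hT's⟩ : ∃ T' : ∀ k : ℕ, (Fin k → σ) → ℂ, (∀ s, T' 0 s = 0) ∧
        ∀ k s, T' (k + 1) s = if s 0 = o then T k (Fin.tail s) else 0 :=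
      ⟨fun k => Nat.casesOn k (fun _ => 0) fun k s => if s 0 = o then T k (Fin.tail s) else 0,
        fun s => rfl, fun k s => rfl⟩
    refine ⟨n + 1, T', fun k hk => ?_, fun x => ?_⟩
    · obtain ⟨k, rfl⟩ : ∃ k', k = k' + 1 := ⟨k - 1, by omega⟩
      funext s
      rw [hT's, hT k (by omega)]
      simp
    · rw [map_mul, MvPolynomial.eval_X, h]
      unfold evT
      rw [Finset.sum_range_succ' _ (n + 1)]
      have h0 : ∑ s : Fin 0 → σ, algebraMap ℂ ℂ (T' 0 s) * ∏ i, x (s i) = 0 :=
        Finset.sum_eq_zero fun s _ => by rw [hT'0, map_zero, zero_mul]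
      rw [h0, add_zero, Finset.sum_mul]
      refine Finset.sum_congr rfl fun k _ => ?_
      rw [← (Fin.consEquiv fun _ : Fin (k + 1) => σ).sum_comp, Fintype.sum_prod_type,
        Finset.sum_eq_single o]
      · rw [Finset.sum_mul]
        refine Finset.sum_congr rfl fun s _ => ?_
        have h1 : (Fin.consEquiv fun _ : Fin (k + 1) => σ) (o, s) = Fin.cons o s := rfl
        rw [h1, hT's, Fin.cons_zero, if_pos rfl, Fin.tail_cons, Fin.prod_univ_succ, Fin.cons_zero]
        simp only [Fin.cons_succ]
        ring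
      · intro o' _ ho'
        refine Finset.sum_eq_zero fun s _ => ?_
        have h1 : (Fin.consEquiv fun _ : Fin (k + 1) => σ) (o', s) = Fin.cons o' s := rfl
        rw [h1, hT's, Fin.cons_zero, if_neg ho', map_zero, zero_mul]
      · intro h1
        exact absurd (Finset.mem_univ o) h1

/-- substitution in noncommutative polynomials -/
noncomputable def actT {A : Type*} [CommRing A] [Algebra ℂ A] (T : ∀ k : ℕ, (Fin k → σ) → ℂ)
    (M : Matrix σ σ A) (k : ℕ) (s : Fin k → σ) : A :=
  ∑ s' : Fin k → σ, algebraMap ℂ A (T k s') * ∏ i, M (s' i) (s i)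

omit [DecidableEq σ] in
theorem evT_act {A : Type*} [CommRing A] [Algebra ℂ A] (n : ℕ) (T : ∀ k : ℕ, (Fin k → σ) → ℂ)
    (M : Matrix σ σ A) (x : σ → A) :
    evT n T (M.mulVec x) = ∑ k ∈ Finset.range (n + 1), ∑ s : Fin k → σ,
      actT T M k s * ∏ i, x (s i) := by
  unfold evT actT
  refine Finset.sum_congr rfl fun k _ => ?_
  simp only [Finset.sum_mul]
  rw [Finset.sum_comm]
  refine Finset.sum_congr rfl fun s' _ => ?_
  have h1 : ∏ i, M.mulVec x (s' i) = ∑ s : Fin k → σ, ∏ i, (M (s' i) (s i) * x (s i)) := by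
    simp only [Matrix.mulVec, dotProduct]
    rw [Finset.prod_univ_sum, Fintype.piFinset_univ]
  rw [h1, Finset.mul_sum]
  refine Finset.sum_congr rfl fun s _ => ?_
  rw [Finset.prod_mul_distrib]
  ring

end poly

end Vale.Agent.P002.H2
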