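import Vale.Agent.P002.H2.YA

/-!
# Averaging without integration
-/

namespace Vale.Agent.P002.H2

open Module Matrix

section

variable {σ : Type} [Fintype σ]

/-- the index set -/
abbrev IxT (σ : Type) (n : ℕ) : Type := (k : Fin (n + 1)) × (Fin k.1 → σ)

/-- evaluation, linear in the coefficients -/
noncomputable def evV (n : ℕ) (v : EuclideanSpace ℂ (IxT σ n)) (x : σ → ℂ) : ℂ :=
  ∑ p : IxT σ n, v p * ∏ i, x (p.2 i)

/-- coefficients as a family -/
noncomputable def famV (n : ℕ) (v : EuclideanSpace ℂ (IxT σ n)) (k : ℕ) (s : Fin k → σ) : ℂ :=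
  if h : k < n + 1 then v ⟨⟨k, h⟩, s⟩ else 0

theorem evT_fam (n : ℕ) (v : EuclideanSpace ℂ (IxT σ n)) (x : σ → ℂ) :
    evT n (famV n v) x = evV n v x := by
  unfold evT evV
  rw [Fintype.sum_sigma, Finset.sum_range]
  refine Finset.sum_congr rfl fun k _ => ?_
  refine Finset.sum_congr rfl fun s _ => ?_
  unfold famV
  rw [dif_pos k.2]
  rfl

theorem evV_add (n : ℕ) (v u : EuclideanSpace ℂ (IxT σ n)) (x : σ → ℂ) :
    evV n (v + u) x = evV n v x + evV n u x := by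
  unfold evV
  rw [← Finset.sum_add_distrib]
  refine Finset.sum_congr rfl fun p _ => ?_
  rw [PiLp.add_apply]
  ring

theorem evV_smul (n : ℕ) (c : ℂ) (v : EuclideanSpace ℂ (IxT σ n)) (x : σ → ℂ) :
    evV n (c • v) x = c * evV n v x := by
  unfold evV
  rw [Finset.mul_sum]
  refine Finset.sum_congr rfl fun p _ => ?_
  rw [PiLp.smul_apply, smul_eq_mul]
  ring

/-- the action -/
noncomputable def actV (n : ℕ) (M : Matrix σ σ ℂ) (v : EuclideanSpace ℂ (IxT σ n)) :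
    EuclideanSpace ℂ (IxT σ n) :=
  WithLp.toLp 2 fun p => ∑ s' : Fin p.1.1 → σ, v ⟨p.1, s'⟩ * ∏ i, M (s' i) (p.2 i)

theorem actV_apply (n : ℕ) (M : Matrix σ σ ℂ) (v : EuclideanSpace ℂ (IxT σ n)) (k : Fin (n + 1))
    (s : Fin k.1 → σ) :
    actV n M v ⟨k, s⟩ = ∑ s' : Fin k.1 → σ, v ⟨k, s'⟩ * ∏ i, M (s' i) (s i) := rfl

theorem evV_act (n : ℕ) (M : Matrix σ σ ℂ) (v : EuclideanSpace ℂ (IxT σ n)) (x : σ → ℂ) :
    evV n (actV n M v) x = evV n v (M.mulVec x) := by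
  rw [← evT_fam n v, evT_act]
  unfold evV
  rw [Fintype.sum_sigma, Finset.sum_range]
  refine Finset.sum_congr rfl fun k _ => ?_
  refine Finset.sum_congr rfl fun s _ => ?_
  rw [actV_apply]
  congr 1
  unfold actT famV
  refine Finset.sum_congr rfl fun s' _ => ?_
  rw [dif_pos k.2]
  rfl

theorem inner_act (n : ℕ) (M : Matrix σ σ ℂ) (v u : EuclideanSpace ℂ (IxT σ n)) :
    inner ℂ (actV n M v) u = inner ℂ v (actV n Mᴴ u) := by
  rw [PiLp.inner_apply, PiLp.inner_apply, Fintype.sum_sigma, Fintype.sum_sigma]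
  refine Finset.sum_congr rfl fun k _ => ?_
  have h1 : ∀ s, inner ℂ (actV n M v ⟨k, s⟩) (u ⟨k, s⟩) = ∑ s' : Fin k.1 → σ,
      u ⟨k, s⟩ * (starRingEnd ℂ (v ⟨k, s'⟩) * ∏ i, starRingEnd ℂ (M (s' i) (s i))) := by
    intro s
    rw [RCLike.inner_apply, actV_apply, map_sum, Finset.mul_sum]
    refine Finset.sum_congr rfl fun s' _ => ?_
    rw [map_mul, map_prod]
  have h2 : ∀ s', inner ℂ (v ⟨k, s'⟩) (actV n Mᴴ u ⟨k, s'⟩) = ∑ s : Fin k.1 → σ,
      u ⟨k, s⟩ * (starRingEnd ℂ (v ⟨k, s'⟩) * ∏ i, starRingEnd ℂ (M (s' i) (s i))) := by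
    intro s'
    rw [RCLike.inner_apply, actV_apply, Finset.sum_mul]
    refine Finset.sum_congr rfl fun s _ => ?_
    have h3 : ∏ i, Mᴴ (s i) (s' i) = ∏ i, starRingEnd ℂ (M (s' i) (s i)) :=
      Finset.prod_congr rfl fun i _ => rfl
    rw [h3]
    ring
  simp only [h1, h2]
  exact Finset.sum_comm

/-- **Averaging.** -/
theorem averaging [DecidableEq σ] {G : Type} (M : G → Matrix σ σ ℂ) (hstar : ∀ g, ∃ g', M g' = (M g)ᴴ)
    (W O : Set (σ → ℂ)) (hW : ∀ g, ∀ x ∈ W, (M g).mulVec x ∈ W)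
    (hO : ∀ g, ∀ x ∈ O, (M g).mulVec x ∈ O) (a : MvPolynomial σ ℂ)
    (haW : ∀ x ∈ W, MvPolynomial.eval x a = 0) (haO : ∀ x ∈ O, MvPolynomial.eval x a = 1) :
    ∃ (n : ℕ) (T : ∀ k : ℕ, (Fin k → σ) → ℂ), (∀ x ∈ W, evT n T x = 0) ∧
      (∀ x ∈ O, evT n T x = 1) ∧ ∀ g, ∀ k ≤ n, ∀ s, actT T (M g) k s = T k s := by
  obtain ⟨n, T, hT, hTa⟩ := exists_T a
  obtain ⟨va, hva⟩ : ∃ va : EuclideanSpace ℂ (IxT σ n), ∀ x, evV n va x =
      MvPolynomial.eval x a := by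
    refine ⟨WithLp.toLp 2 fun p => T p.1 p.2, fun x => ?_⟩
    rw [hTa]
    unfold evV evT
    rw [Fintype.sum_sigma, Finset.sum_range]
    rfl
  obtain ⟨U, hU⟩ : ∃ U : Submodule ℂ (EuclideanSpace ℂ (IxT σ n)), ∀ v, v ∈ U ↔
      (∀ x ∈ W, evV n v x = 0) ∧ ∀ x ∈ O, evV n v x = 0 :=
    ⟨{ carrier := {v | (∀ x ∈ W, evV n v x = 0) ∧ ∀ x ∈ O, evV n v x = 0}
       add_mem' := by
        rintro v u ⟨h1, h2⟩ ⟨h3, h4⟩
        exact ⟨fun x hx => by rw [evV_add, h1 x hx, h3 x hx, add_zero],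
          fun x hx => by rw [evV_add, h2 x hx, h4 x hx, add_zero]⟩
       zero_mem' := by
        have h0 : ∀ x : σ → ℂ, evV n (0 : EuclideanSpace ℂ (IxT σ n)) x = 0 := fun x => by
          have := evV_smul n 0 (0 : EuclideanSpace ℂ (IxT σ n)) x
          rwa [zero_mul, smul_zero] at this
        exact ⟨fun x _ => h0 x, fun x _ => h0 x⟩
       smul_mem' := by
        rintro c v ⟨h1, h2⟩
        exact ⟨fun x hx => by rw [evV_smul, h1 x hx, mul_zero],
          fun x hx => by rw [evV_smul, h2 x hx, mul_zero]⟩ }, fun v => Iff.rfl⟩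
  obtain ⟨y, hy, z, hz, hyz⟩ := U.exists_add_mem_mem_orthogonal va
  have hzW : ∀ x ∈ W, evV n z x = 0 := by
    intro x hx
    have h1 := hva x
    rw [hyz, evV_add, ((hU y).1 hy).1 x hx, zero_add, haW x hx] at h1
    exact h1
  have hzO : ∀ x ∈ O, evV n z x = 1 := by
    intro x hx
    have h1 := hva x
    rw [hyz, evV_add, ((hU y).1 hy).2 x hx, zero_add, haO x hx] at h1
    exact h1
  have hact : ∀ g, actV n (M g) z = z := by
    intro g
    have h1 : actV n (M g) z - z ∈ U := by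
      have hsub : ∀ x : σ → ℂ, evV n (actV n (M g) z - z) x =
          evV n (actV n (M g) z) x - evV n z x := by
        intro x
        rw [sub_eq_add_neg, evV_add, ← neg_one_smul ℂ z, evV_smul]
        ring
      refine (hU _).2 ⟨fun x hx => ?_, fun x hx => ?_⟩
      · rw [hsub, evV_act, hzW _ (hW g x hx), hzW x hx, sub_zero]
      · rw [hsub, evV_act, hzO _ (hO g x hx), hzO x hx, sub_self]
    have h2 : actV n (M g) z ∈ Uᗮ := by
      rw [Submodule.mem_orthogonal']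
      intro u hu
      obtain ⟨g', hg'⟩ := hstar g
      rw [inner_act, ← hg']
      refine (Submodule.mem_orthogonal' U z).1 hz _ ((hU _).2 ⟨fun x hx => ?_, fun x hx => ?_⟩)
      · rw [evV_act]
        exact ((hU u).1 hu).1 _ (hW g' x hx)
      · rw [evV_act]
        exact ((hU u).1 hu).2 _ (hO g' x hx)
    have h3 : actV n (M g) z - z ∈ U ⊓ Uᗮ := ⟨h1, Uᗮ.sub_mem h2 hz⟩
    rw [Submodule.inf_orthogonal_eq_bot, Submodule.mem_bot, sub_eq_zero] at h3
    exact h3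
  refine ⟨n, famV n z, fun x hx => ?_, fun x hx => ?_, fun g k hk s => ?_⟩
  · rw [evT_fam]
    exact hzW x hx
  · rw [evT_fam]
    exact hzO x hx
  · have h1 : k < n + 1 := Nat.lt_succ_of_le hk
    have h2 := congrArg (fun v : EuclideanSpace ℂ (IxT σ n) => v ⟨⟨k, h1⟩, s⟩) (hact g)
    simp only [actV_apply] at h2
    unfold actT famV
    simp only [dif_pos h1]
    exact h2

end

end Vale.Agent.P002.H2
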