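import Vale.Agent.P002.H2.YB
import Vale.Agent.P002.H2.XG

/-!
# Invariant polynomials from averaging
-/

namespace Vale.Agent.P002.H2

open Module Matrix Vale.Agent.P002R.Orb Vale.Agent.P002.H326J Vale.Agent.P002.H252

section

variable {ι : Type} [DecidableEq ι] {r : ℕ}

/-- the matrix of `X ↦ P X Q` -/
def cm {A : Type*} [CommRing A] (P Q : Matrix (Fin r) (Fin r) A) :
    Matrix (ι × Fin r × Fin r) (ι × Fin r × Fin r) A :=
  fun p q => if p.1 = q.1 then P p.2.1 q.2.1 * Q q.2.2 p.2.2 else 0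

theorem cm_mulVec [Fintype ι] {A : Type*} [CommRing A] (P Q : Matrix (Fin r) (Fin r) A)
    (x : ι × Fin r × Fin r → A) (p : ι × Fin r × Fin r) :
    (cm P Q).mulVec x p = (P * (Matrix.of fun i j => x (p.1, i, j)) * Q) p.2.1 p.2.2 := by
  rw [Matrix.mulVec, dotProduct, Fintype.sum_prod_type, Finset.sum_eq_single p.1]
  · rw [Fintype.sum_prod_type, Matrix.mul_apply]
    simp only [Matrix.mul_apply, Finset.sum_mul]
    rw [Finset.sum_comm]
    refine Finset.sum_congr rfl fun b _ => ?_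
    refine Finset.sum_congr rfl fun a _ => ?_
    rw [cm, if_pos rfl, Matrix.of_apply]
    ring
  · intro q _ hq
    refine Finset.sum_eq_zero fun a _ => ?_
    rw [cm, if_neg (fun h => hq h.symm), zero_mul]
  · intro h
    exact absurd (Finset.mem_univ _) h

theorem cm_conj (P Q : Matrix (Fin r) (Fin r) ℂ) :
    (cm P Q : Matrix (ι × Fin r × Fin r) (ι × Fin r × Fin r) ℂ)ᴴ = cm Pᴴ Qᴴ := by
  ext p q
  rw [Matrix.conjTranspose_apply, cm, cm]
  by_cases h : q.1 = p.1
  · rw [if_pos h, if_pos h.symm, star_mul', Matrix.conjTranspose_apply, Matrix.conjTranspose_apply]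
  · rw [if_neg h, if_neg (fun h' => h h'.symm), star_zero]

theorem cm_smul {A : Type*} [CommRing A] (P Q : Matrix (Fin r) (Fin r) A) (c : A) :
    (cm P (c • Q) : Matrix (ι × Fin r × Fin r) (ι × Fin r × Fin r) A) = c • cm P Q := by
  ext p q
  rw [Matrix.smul_apply, cm, cm, Matrix.smul_apply, smul_eq_mul, smul_eq_mul]
  split_ifs
  · ring
  · rw [mul_zero]

theorem cm_map {A B : Type*} [CommRing A] [CommRing B] (φ : A →+* B)
    (P Q : Matrix (Fin r) (Fin r) A) :
    (cm P Q : Matrix (ι × Fin r × Fin r) (ι × Fin r × Fin r) A).map φ =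
      cm (P.map φ) (Q.map φ) := by
  ext p q
  rw [Matrix.map_apply, cm, cm, Matrix.map_apply, Matrix.map_apply]
  split_ifs
  · rw [map_mul]
  · rw [map_zero]

variable [Fintype ι]

theorem actT_smul {σ : Type} [Fintype σ] {A : Type*} [CommRing A] [Algebra ℂ A]
    (T : ∀ k : ℕ, (Fin k → σ) → ℂ) (M : Matrix σ σ A) (c : A) (k : ℕ) (s : Fin k → σ) :
    actT T (c • M) k s = c ^ k * actT T M k s := by
  unfold actT
  rw [Finset.mul_sum]
  refine Finset.sum_congr rfl fun s' _ => ?_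
  simp only [Matrix.smul_apply, smul_eq_mul]
  rw [Finset.prod_mul_distrib, Finset.prod_const, Finset.card_univ, Fintype.card_fin]
  ring

theorem actT_map {σ : Type} [Fintype σ] {A B : Type*} [CommRing A] [Algebra ℂ A] [CommRing B]
    [Algebra ℂ B] (φ : A →ₐ[ℂ] B) (T : ∀ k : ℕ, (Fin k → σ) → ℂ) (M : Matrix σ σ A) (k : ℕ)
    (s : Fin k → σ) : φ (actT T M k s) = actT T (M.map φ) k s := by
  unfold actT
  rw [map_sum]
  refine Finset.sum_congr rfl fun s' _ => ?_
  rw [map_mul, map_prod, AlgHom.commutes]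
  rfl

/-- invariance under `GL_r(ℂ)` implies invariance over all rings -/
theorem actT_SL (T : ∀ k : ℕ, (Fin k → ι × Fin r × Fin r) → ℂ) (k : ℕ)
    (s : Fin k → ι × Fin r × Fin r)
    (hT : ∀ U : (Matrix (Fin r) (Fin r) ℂ)ˣ, actT T (cm U.1 (U⁻¹).1) k s = T k s)
    {A : Type} [CommRing A] [Algebra ℂ A] (P : SpecialLinearGroup (Fin r) A) :
    actT T (cm P.1 (P⁻¹).1) k s = algebraMap ℂ A (T k s) := by
  obtain ⟨G, hG⟩ : ∃ G : Matrix (Fin r) (Fin r) (MvPolynomial (Fin r × Fin r) ℂ),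
      G = Matrix.mvPolynomialX (Fin r) (Fin r) ℂ := ⟨_, rfl⟩
  have hGd : G.det ≠ 0 := by
    rw [hG]
    exact Matrix.det_mvPolynomialX_ne_zero (Fin r) ℂ
  obtain ⟨E, hE⟩ : ∃ E : MvPolynomial (Fin r × Fin r) ℂ,
      E = actT T (cm G G.adjugate) k s - G.det ^ k * MvPolynomial.C (T k s) := ⟨_, rfl⟩
  have hφ : ∀ {B : Type} [CommRing B] [Algebra ℂ B] (M : Matrix (Fin r) (Fin r) B),
      MvPolynomial.aeval (fun p : Fin r × Fin r => M p.1 p.2) E =
        actT T (cm M M.adjugate) k s - M.det ^ k * algebraMap ℂ B (T k s) := by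
    intro B _ _ M
    obtain ⟨φ, hφ⟩ : ∃ φ : MvPolynomial (Fin r × Fin r) ℂ →ₐ[ℂ] B,
        φ = MvPolynomial.aeval (fun p : Fin r × Fin r => M p.1 p.2) := ⟨_, rfl⟩
    rw [← hφ]
    have h1 : G.map φ = M := by
      ext i j
      rw [hG, Matrix.map_apply, Matrix.mvPolynomialX_apply, hφ, MvPolynomial.aeval_X]
    have h1' : (φ : MvPolynomial (Fin r × Fin r) ℂ →+* B).mapMatrix G = M := h1
    have h2 : G.adjugate.map φ = M.adjugate := by
      have h3 := RingHom.map_adjugate (φ : MvPolynomial (Fin r × Fin r) ℂ →+* B) G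
      rw [h1'] at h3
      exact h3
    have h3 : φ G.det = M.det := by
      have h4 := RingHom.map_det (φ : MvPolynomial (Fin r × Fin r) ℂ →+* B) G
      rw [h1'] at h4
      exact h4
    have h4 : (cm G G.adjugate : Matrix (ι × Fin r × Fin r) (ι × Fin r × Fin r) _).map φ =
        cm M M.adjugate := by
      have h5 := cm_map (ι := ι) (φ : MvPolynomial (Fin r × Fin r) ℂ →+* B) G G.adjugate
      have h6 : G.map (φ : MvPolynomial (Fin r × Fin r) ℂ →+* B) = M := h1
      have h7 : G.adjugate.map (φ : MvPolynomial (Fin r × Fin r) ℂ →+* B) = M.adjugate := h2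
      rw [h6, h7] at h5
      exact h5
    rw [hE, map_sub, actT_map, h4, map_mul, map_pow, h3]
    congr 2
    exact φ.commutes (T k s)
  have hE0 : E = 0 := by
    have h1 : G.det * E = 0 := by
      apply MvPolynomial.funext
      intro b
      rw [map_mul, map_zero]
      obtain ⟨M, hM⟩ : ∃ M : Matrix (Fin r) (Fin r) ℂ, M = Matrix.of fun i j => b (i, j) :=
        ⟨_, rfl⟩
      have hb : (fun p : Fin r × Fin r => M p.1 p.2) = b := by
        funext p
        rw [hM]
        rfl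
      have h2 := hφ M
      rw [hb] at h2
      have h3 : MvPolynomial.eval b E = MvPolynomial.aeval b E := rfl
      have h4 : MvPolynomial.eval b G.det = M.det := by
        rw [RingHom.map_det]
        congr 1
        ext i j
        rw [hG, RingHom.mapMatrix_apply, Matrix.map_apply, Matrix.mvPolynomialX_apply,
          MvPolynomial.eval_X, hM]
        rfl
      rw [h3, h2, h4]
      by_cases hd : M.det = 0
      · rw [hd, zero_mul]
      · obtain ⟨U, hU⟩ := (Matrix.isUnit_iff_isUnit_det M).2 (isUnit_iff_ne_zero.2 hd)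
        have h5 : M.adjugate = M.det • (U⁻¹).1 := by
          have h6 : (U⁻¹).1 * M = 1 := by rw [← hU]; exact U.inv_mul
          have h7 : (U⁻¹).1 * (M * M.adjugate) = M.adjugate := by
            rw [← mul_assoc, h6, one_mul]
          rw [Matrix.mul_adjugate, mul_smul_comm, mul_one] at h7
          exact h7.symm
        have h6 := hT U
        rw [hU] at h6
        rw [h5, cm_smul, actT_smul, h6]
        have h7 : algebraMap ℂ ℂ (T k s) = T k s := rfl
        rw [h7, sub_self, mul_zero]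
    exact (mul_eq_zero.1 h1).resolve_left hGd
  have h1 := hφ P.1
  rw [hE0, map_zero, P.2, one_pow, one_mul] at h1
  exact (sub_eq_zero.1 h1.symm)

/-- the polynomial defined by `T` -/
noncomputable def polT (n : ℕ) (T : ∀ k : ℕ, (Fin k → ι × Fin r × Fin r) → ℂ) :
    MvPolynomial (ι × Fin r × Fin r) ℂ :=
  evT n T MvPolynomial.X

omit [DecidableEq ι] in
theorem value_polT {A : Type} [CommRing A] [Algebra ℂ A] (n : ℕ)
    (T : ∀ k : ℕ, (Fin k → ι × Fin r × Fin r) → ℂ) (X : ι → SpecialLinearGroup (Fin r) A) :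
    value (polT n T) X = evT n T (fun p : ι × Fin r × Fin r => (X p.1).1 p.2.1 p.2.2) := by
  obtain ⟨φ, hφ⟩ : ∃ φ : MvPolynomial (ι × Fin r × Fin r) ℂ →ₐ[ℂ] A,
      φ = MvPolynomial.aeval (fun p : ι × Fin r × Fin r => (X p.1).1 p.2.1 p.2.2) := ⟨_, rfl⟩
  have h1 : value (polT n T) X = φ (polT n T) := by
    rw [hφ]
    rfl
  rw [h1]
  unfold polT evT
  rw [map_sum]
  refine Finset.sum_congr rfl fun k _ => ?_
  rw [map_sum]
  refine Finset.sum_congr rfl fun s _ => ?_
  rw [map_mul, map_prod, AlgHom.commutes]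
  congr 1
  refine Finset.prod_congr rfl fun i _ => ?_
  rw [hφ, MvPolynomial.aeval_X]

/-- `polT` is invariant -/
theorem isInvariant_polT (R : Set (FreeGroup ι)) (n : ℕ)
    (T : ∀ k : ℕ, (Fin k → ι × Fin r × Fin r) → ℂ)
    (hT : ∀ U : (Matrix (Fin r) (Fin r) ℂ)ˣ, ∀ k ≤ n, ∀ s,
      actT T (cm U.1 (U⁻¹).1) k s = T k s) :
    IsInvariant R (polT n T) := by
  intro A _ _ X P _
  rw [value_polT, value_polT]
  have h1 : (fun p : ι × Fin r × Fin r => (P * X p.1 * P⁻¹).1 p.2.1 p.2.2) =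
      (cm P.1 (P⁻¹).1).mulVec (fun p : ι × Fin r × Fin r => (X p.1).1 p.2.1 p.2.2) := by
    funext p
    rw [cm_mulVec]
    rfl
  have h2 : evT n T (fun p : ι × Fin r × Fin r => (P * X p.1 * P⁻¹).1 p.2.1 p.2.2) =
      evT n T ((cm P.1 (P⁻¹).1).mulVec (fun p : ι × Fin r × Fin r => (X p.1).1 p.2.1 p.2.2)) := by
    rw [h1]
  refine h2.trans ?_
  rw [evT_act]
  unfold evT
  refine Finset.sum_congr rfl fun k hk => ?_
  refine Finset.sum_congr rfl fun s _ => ?_
  rw [actT_SL T k s (fun U => hT U k (Nat.lt_succ_iff.1 (Finset.mem_range.1 hk)) s)]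

end

end Vale.Agent.P002.H2
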