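import Vale.Agent.P002.H2.YC
import Vale.Agent.P002.H252.Ba1

/-!
# Separation of a semisimple representation from an invariant closed set
-/

namespace Vale.Agent.P002.H2

open Module Matrix Vale.Agent.P002R.Orb Vale.Agent.P002.H326J Vale.Agent.P002.H252

variable {ι : Type} {r : ℕ}

theorem lift_conj (X : ι → SpecialLinearGroup (Fin r) ℂ) (g : SpecialLinearGroup (Fin r) ℂ)
    (x : FreeGroup ι) : FreeGroup.lift (fun p => g * X p * g⁻¹) x =
      g * FreeGroup.lift X x * g⁻¹ := by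
  have h1 : FreeGroup.lift (fun p => g * X p * g⁻¹) =
      (MulAut.conj g).toMonoidHom.comp (FreeGroup.lift X) := by
    apply FreeGroup.ext_hom
    intro p
    rw [FreeGroup.lift_apply_of, MonoidHom.comp_apply, FreeGroup.lift_apply_of]
    rfl
  rw [h1]
  rfl

/-- the orbit of a semisimple representation is closed -/
theorem orbit_closed (X : ι → SpecialLinearGroup (Fin r) ℂ)
    (hss : ∀ W, IsInv X W → ∃ W', IsInv X W' ∧ IsCompl W W') (Y : ι → SpecialLinearGroup (Fin r) ℂ)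
    (hY : ∀ F : MvPolynomial (ι × Fin r × Fin r) ℂ,
      (∀ g : SpecialLinearGroup (Fin r) ℂ, (value F fun p => g * X p * g⁻¹) = 0) → value F Y = 0) :
    ∃ g : SpecialLinearGroup (Fin r) ℂ, ∀ p, Y p = g * X p * g⁻¹ := by
  classical
  have h0 : ∀ f : (ι → SpecialLinearGroup (Fin r) ℂ) → ℂ, PFn f →
      (∀ g : SpecialLinearGroup (Fin r) ℂ, f (fun p => g * X p * g⁻¹) = 0) → f Y = 0 := by
    rintro f ⟨F, hF⟩ hf
    rw [hF]
    exact hY F fun g => by rw [← hF, hf]
  have htr : ∀ x, (FreeGroup.lift Y x).1.trace = (FreeGroup.lift X x).1.trace := by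
    intro x
    refine sub_eq_zero.1 (h0 (fun Y => (FreeGroup.lift Y x).1.trace -
      (FreeGroup.lift X x).1.trace) ((PFn.trace x).sub (PFn.const _)) fun g => ?_)
    have hg : (g⁻¹).1 * g.1 = 1 := congrArg Subtype.val (inv_mul_cancel g)
    change (FreeGroup.lift (fun p => g * X p * g⁻¹) x).1.trace - _ = 0
    rw [lift_conj, sub_eq_zero]
    change (g.1 * (FreeGroup.lift X x).1 * (g⁻¹).1).trace = _
    rw [Matrix.trace_mul_comm, ← Matrix.mul_assoc, hg, Matrix.one_mul]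
  obtain ⟨d, hd, hE, u, hu⟩ := (crit (matHom X)).1 ((ss_iff X).1 hss)
  have hssY : ∀ W, IsInv Y W → ∃ W', IsInv Y W' ∧ IsCompl W W' := by
    rw [ss_iff, crit]
    refine ⟨d, hd, fun v hv => ?_, u, ?_⟩
    · rw [indep_iff_minor'] at hv
      obtain ⟨c, hc⟩ := hv
      refine hc (h0 (fun X => (Matrix.of fun a b => (FreeGroup.lift X (v a)).1
        (c b).1 (c b).2).det) (PFn.det fun a b => PFn.word _ _ _) fun g => ?_)
      by_contra hne
      -- the conjugates satisfy the same dependencies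
      have h1 : LinearIndependent ℂ fun i => matHom (fun p => g * X p * g⁻¹) (v i) := by
        rw [indep_iff_minor']
        exact ⟨c, hne⟩
      refine hE v ?_
      rw [Fintype.linearIndependent_iff] at h1 ⊢
      intro a ha i
      refine h1 a ?_ i
      have h2 : ∀ i, matHom (fun p => g * X p * g⁻¹) (v i) = g.1 * matHom X (v i) * (g⁻¹).1 := by
        intro i
        rw [matHom_apply, lift_conj]
        rfl
      simp only [h2]
      have h3 : ∑ i, a i • (g.1 * matHom X (v i) * (g⁻¹).1) =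
          g.1 * (∑ i, a i • matHom X (v i)) * (g⁻¹).1 := by
        rw [Finset.mul_sum, Finset.sum_mul]
        refine Finset.sum_congr rfl fun i _ => ?_
        rw [mul_smul_comm, smul_mul_assoc]
      rw [h3, ha, mul_zero, zero_mul]
    · have h1 : gramW (matHom Y) u = gramW (matHom X) u := by
        ext i j
        exact htr (u i * u j)
      rw [h1]
      exact hu
  have hss' : ∀ X : ι → SpecialLinearGroup (Fin r) ℂ,
      (∀ W, IsInv X W → ∃ W', IsInv X W' ∧ IsCompl W W') →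
      ∀ W : Submodule ℂ (Fin r → ℂ), (∀ z ∈ (⊤ : Subgroup (FreeGroup ι)), ∀ v ∈ W,
        (FreeGroup.lift X z).1.mulVec v ∈ W) → ∃ W' : Submodule ℂ (Fin r → ℂ),
          (∀ z ∈ (⊤ : Subgroup (FreeGroup ι)), ∀ v ∈ W', (FreeGroup.lift X z).1.mulVec v ∈ W') ∧
            IsCompl W W' := by
    intro X hX W hW
    obtain ⟨W', h1, h2⟩ := hX W ((isInv_iff X W).2 fun z v hv => hW z (Subgroup.mem_top z) v hv)
    exact ⟨W', fun z _ v hv => (isInv_iff X W').1 h1 z v hv, h2⟩
  obtain ⟨g, hg⟩ := H377.conj_of_trace (⊤ : Subgroup (FreeGroup ι)) (FreeGroup.lift X)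
    (FreeGroup.lift Y) (hss' X hss) (hss' Y hssY) (fun x _ => (htr x).symm)
  refine ⟨g, fun p => ?_⟩
  have h1 := hg (FreeGroup.of p) (Subgroup.mem_top _)
  rwa [FreeGroup.lift_apply_of, FreeGroup.lift_apply_of] at h1

/-- conjugation by an invertible matrix is conjugation by a matrix of determinant one -/
theorem conj_unit (U : (Matrix (Fin r) (Fin r) ℂ)ˣ) :
    ∃ V : SpecialLinearGroup (Fin r) ℂ, ∀ A : Matrix (Fin r) (Fin r) ℂ,
      U.1 * A * (U⁻¹).1 = V.1 * A * (V⁻¹).1 := by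
  rcases Nat.eq_zero_or_pos r with hr | hr
  · subst hr
    exact ⟨1, fun A => Matrix.ext fun i => i.elim0⟩
  · have hdet : U.1.det ≠ 0 := ((Matrix.isUnit_iff_isUnit_det _).1 U.isUnit).ne_zero
    obtain ⟨c, hc⟩ := IsAlgClosed.exists_pow_nat_eq (U.1.det) hr
    have hc0 : c ≠ 0 := by
      rintro rfl
      rw [zero_pow hr.ne'] at hc
      exact hdet hc.symm
    have h1 : (c⁻¹ • U.1).det = 1 := by
      rw [Matrix.det_smul, Fintype.card_fin, inv_pow, hc, inv_mul_cancel₀ hdet]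
    obtain ⟨V, hV⟩ : ∃ V : SpecialLinearGroup (Fin r) ℂ, V.1 = c⁻¹ • U.1 := ⟨⟨_, h1⟩, rfl⟩
    refine ⟨V, fun A => ?_⟩
    have h2 : (V⁻¹).1 = c • (U⁻¹).1 := by
      have h3 : V.1 * (V⁻¹).1 = 1 := congrArg Subtype.val (mul_inv_cancel V)
      have h4 : (c • (U⁻¹).1) * V.1 = 1 := by
        rw [hV, smul_mul_smul_comm, U.inv_mul, mul_inv_cancel₀ hc0, one_smul]
      calc (V⁻¹).1 = ((c • (U⁻¹).1) * V.1) * (V⁻¹).1 := by rw [h4, one_mul]
        _ = c • (U⁻¹).1 := by rw [mul_assoc, h3, mul_one]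
    rw [h2, hV, smul_mul_assoc, smul_mul_smul_comm, inv_mul_cancel₀ hc0, one_smul]

/-- **Separation.** A semisimple representation outside of an invariant closed set is separated
from it by an invariant function. -/
theorem separation [Finite ι] (R : Set (FreeGroup ι))
    (J : Set (MvPolynomial (ι × Fin r × Fin r) ℂ))
    (hJ : ∀ Y : ι → SpecialLinearGroup (Fin r) ℂ, (∀ F ∈ J, value F Y = 0) →
      ∀ g : SpecialLinearGroup (Fin r) ℂ, ∀ F ∈ J, (value F fun p => g * Y p * g⁻¹) = 0)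
    (X : ι → SpecialLinearGroup (Fin r) ℂ)
    (hss : ∀ W, IsInv X W → ∃ W', IsInv X W' ∧ IsCompl W W')
    (hX : ¬ ∀ F ∈ J, value F X = 0) :
    ∃ F : MvPolynomial (ι × Fin r × Fin r) ℂ, IsInvariant R F ∧
      (∀ Y : ι → SpecialLinearGroup (Fin r) ℂ, (∀ G ∈ J, value G Y = 0) → value F Y = 0) ∧
      value F X ≠ 0 := by
  classical
  have := Fintype.ofFinite ι
  obtain ⟨idl, hidl⟩ : ∃ idl : Set (ι → SpecialLinearGroup (Fin r) ℂ) →
      Ideal (MvPolynomial (ι × Fin r × Fin r) ℂ), ∀ S F, F ∈ idl S ↔ ∀ Y ∈ S, value F Y = 0 :=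
    ⟨fun S =>
      { carrier := {F | ∀ Y ∈ S, value F Y = 0}
        add_mem' := by
          intro F G hF hG Y hY
          rw [H252.value_eq, map_add, ← H252.value_eq, ← H252.value_eq, hF Y hY, hG Y hY, add_zero]
        zero_mem' := by
          intro Y _
          rw [H252.value_eq, map_zero]
        smul_mem' := by
          intro F G hG Y hY
          rw [smul_eq_mul, H252.value_eq, map_mul, ← H252.value_eq, ← H252.value_eq, hG Y hY,
            mul_zero] }, fun S F => Iff.rfl⟩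
  obtain ⟨W, hW⟩ : ∃ W : Set (ι → SpecialLinearGroup (Fin r) ℂ),
      W = {Y | ∀ F ∈ J, value F Y = 0} := ⟨_, rfl⟩
  obtain ⟨O, hO⟩ : ∃ O : Set (ι → SpecialLinearGroup (Fin r) ℂ),
      O = {Y | ∃ g : SpecialLinearGroup (Fin r) ℂ, Y = fun p => g * X p * g⁻¹} := ⟨_, rfl⟩
  have htop : idl W ⊔ idl O = ⊤ := by
    by_contra hne
    obtain ⟨m, hm, hle⟩ := Ideal.exists_le_maximal _ hne
    have hmp := hm.isPrime
    obtain ⟨x, hx, -⟩ := H252.exists_point m (fun _ => 1) (fun _ =>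
      (Ideal.ne_top_iff_one m).1 hm.ne_top)
    have hxW : ∀ F ∈ idl W, MvPolynomial.eval x F = 0 := fun F hF => hx F (hle (Ideal.mem_sup_left hF))
    have hxO : ∀ F ∈ idl O, MvPolynomial.eval x F = 0 := fun F hF => hx F (hle (Ideal.mem_sup_right hF))
    obtain ⟨D, hD⟩ : ∃ D : ι → MvPolynomial (ι × Fin r × Fin r) ℂ, ∀ x p,
        MvPolynomial.eval x (D p) = (Matrix.of fun i j => x (p, i, j)).det - 1 := by
      refine ⟨fun p => (Matrix.of fun i j : Fin r => (MvPolynomial.X (p, i, j) :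
        MvPolynomial (ι × Fin r × Fin r) ℂ)).det - 1, fun x p => ?_⟩
      rw [map_sub, map_one, RingHom.map_det]
      congr 2
      ext i j
      simp
    have hx1 : ∀ p, (Matrix.of fun i j => x (p, i, j)).det = 1 := by
      intro p
      have h1 := hxW (D p) ((hidl _ _).2 fun Y _ => by
        rw [H252.value_eq, hD, sub_eq_zero]
        exact (Y p).2)
      rwa [hD, sub_eq_zero] at h1
    obtain ⟨Y, hY⟩ : ∃ Y : ι → SpecialLinearGroup (Fin r) ℂ, H252.coords Y = x :=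
      ⟨fun p => ⟨Matrix.of fun i j => x (p, i, j), hx1 p⟩, rfl⟩
    have hYW : ∀ F ∈ J, value F Y = 0 := by
      intro F hF
      rw [H252.value_eq, hY]
      refine hxW F ((hidl _ _).2 fun Y hY => ?_)
      rw [hW] at hY
      exact hY F hF
    obtain ⟨g, hg⟩ := orbit_closed X hss Y (fun F hF => by
      rw [H252.value_eq, hY]
      refine hxO F ((hidl _ _).2 fun Y hY => ?_)
      rw [hO] at hY
      obtain ⟨g, rfl⟩ := hY
      exact hF g)
    apply hX
    have h1 := hJ Y hYW g⁻¹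
    have h2 : (fun p => g⁻¹ * Y p * (g⁻¹)⁻¹) = X := by
      funext p
      rw [hg]
      group
    rwa [h2] at h1
  obtain ⟨a, ha, b, hb, hab⟩ := Submodule.mem_sup.1
    ((Ideal.eq_top_iff_one _).1 htop)
  -- the averaging
  have hconj : ∀ (U : (Matrix (Fin r) (Fin r) ℂ)ˣ) (Y : ι → SpecialLinearGroup (Fin r) ℂ),
      ∃ g : SpecialLinearGroup (Fin r) ℂ, (cm U.1 (U⁻¹).1).mulVec (H252.coords Y) =
        H252.coords (fun p => g * Y p * g⁻¹) := by
    intro U Y
    obtain ⟨V, hV⟩ := conj_unit U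
    refine ⟨V, ?_⟩
    funext p
    rw [cm_mulVec]
    change (U.1 * (Y p.1).1 * (U⁻¹).1) p.2.1 p.2.2 = _
    rw [hV]
    rfl
  have hstarU : ∀ U : (Matrix (Fin r) (Fin r) ℂ)ˣ, ∃ U' : (Matrix (Fin r) (Fin r) ℂ)ˣ,
      (cm U'.1 (U'⁻¹).1 : Matrix (ι × Fin r × Fin r) (ι × Fin r × Fin r) ℂ) =
        (cm U.1 (U⁻¹).1)ᴴ := by
    intro U
    refine ⟨⟨U.1ᴴ, (U⁻¹).1ᴴ, ?_, ?_⟩, ?_⟩
    · rw [← Matrix.conjTranspose_mul, U.inv_mul, Matrix.conjTranspose_one]
    · rw [← Matrix.conjTranspose_mul, U.mul_inv, Matrix.conjTranspose_one]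
    · rw [cm_conj]
      rfl
  obtain ⟨n, T, hTW, hTO, hTinv⟩ := averaging
    (fun U : (Matrix (Fin r) (Fin r) ℂ)ˣ =>
      (cm U.1 (U⁻¹).1 : Matrix (ι × Fin r × Fin r) (ι × Fin r × Fin r) ℂ)) hstarU
    (H252.coords '' W) (H252.coords '' O)
    (by
      rintro U _ ⟨Y, hY, rfl⟩
      obtain ⟨g, hg⟩ := hconj U Y
      refine ⟨_, ?_, hg.symm⟩
      rw [hW] at hY ⊢
      exact hJ Y hY g)
    (by
      rintro U _ ⟨Y, hY, rfl⟩
      obtain ⟨g, hg⟩ := hconj U Y
      refine ⟨_, ?_, hg.symm⟩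
      rw [hO] at hY ⊢
      obtain ⟨h, rfl⟩ := hY
      refine ⟨g * h, ?_⟩
      funext p
      change g * (h * X p * h⁻¹) * g⁻¹ = g * h * X p * (g * h)⁻¹
      group)
    a (by
      rintro _ ⟨Y, hY, rfl⟩
      exact (hidl _ _).1 ha Y hY)
    (by
      rintro _ ⟨Y, hY, rfl⟩
      have h1 := (hidl _ _).1 hb Y hY
      have h2 := congrArg (MvPolynomial.eval (H252.coords Y)) hab
      rw [map_add, map_one, ← H252.value_eq b, h1, add_zero] at h2
      exact h2)
  refine ⟨polT n T, isInvariant_polT R n T (fun U k hk s => hTinv U k hk s), fun Y hY => ?_, ?_⟩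
  · rw [value_polT]
    exact hTW _ ⟨Y, by rw [hW]; exact hY, rfl⟩
  · rw [value_polT]
    have h1 : evT n T (H252.coords X) = 1 := hTO _ ⟨X, by
      rw [hO]
      refine ⟨1, ?_⟩
      funext p
      rw [one_mul, inv_one, mul_one], rfl⟩
    intro h2
    have h3 : (1 : ℂ) = 0 := h1.symm.trans h2
    exact one_ne_zero h3

end Vale.Agent.P002.H2
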