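import Vale.Agent.P002.H2.YD

/-!
# Irreducible components of subsets of `M_r`
-/

namespace Vale.Agent.P002.H2

open Matrix Module NumberField Vale.Agent.P002R.Orb Vale.Agent.P002.H326J Vale.Agent.P002.H252

variable {ι : Type} {r : ℕ}

theorem isRep_of_mem {s : ℕ} {R : Set (FreeGroup ι)} {w : Fin s → FreeGroup ι}
    {C : Fin s → SpecialLinearGroup (Fin r) ℂ} {X : ι → SpecialLinearGroup (Fin r) ℂ}
    (hX : X ∈ YW R w C) : IsRep R X := hX.1.1

/-- values of invariants on conjugates -/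
theorem IsInvariant.value_conj {R : Set (FreeGroup ι)} {F : MvPolynomial (ι × Fin r × Fin r) ℂ}
    (hF : IsInvariant R F) {X : ι → SpecialLinearGroup (Fin r) ℂ} (hX : IsRep R X)
    (g : SpecialLinearGroup (Fin r) ℂ) : (value F fun p => g * X p * g⁻¹) = value F X :=
  hF ℂ X g hX

/-- orbits are irreducible -/
theorem orbit_irred (X : ι → SpecialLinearGroup (Fin r) ℂ)
    (F G : MvPolynomial (ι × Fin r × Fin r) ℂ)
    (hFG : ∀ g : SpecialLinearGroup (Fin r) ℂ, (value F fun p => g * X p * g⁻¹) = 0 ∨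
      (value G fun p => g * X p * g⁻¹) = 0) :
    (∀ g : SpecialLinearGroup (Fin r) ℂ, (value F fun p => g * X p * g⁻¹) = 0) ∨
      ∀ g : SpecialLinearGroup (Fin r) ℂ, (value G fun p => g * X p * g⁻¹) = 0 := by
  by_contra hcon
  push Not at hcon
  obtain ⟨⟨g₁, hF⟩, g₂, hG⟩ := hcon
  obtain ⟨A, hA⟩ : ∃ A : Matrix (Fin r) (Fin r) (Polynomial ℂ), ∀ t : ℂ,
      A.map (Polynomial.eval t) = g₁.1 + t • (g₂.1 - g₁.1) := by
    refine ⟨Matrix.of fun i j => Polynomial.C (g₁.1 i j) +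
      Polynomial.X * Polynomial.C (g₂.1 i j - g₁.1 i j), fun t => ?_⟩
    ext i j
    simp [Matrix.map_apply, Polynomial.eval_mul]
  have hev : ∀ (t : ℂ), A.det.eval t = (A.map (Polynomial.eval t)).det := by
    intro t
    have h2 : A.map (Polynomial.eval t) = (Polynomial.evalRingHom t).mapMatrix A := rfl
    rw [h2, ← RingHom.map_det]
    rfl
  have hA0 : A.map (Polynomial.eval 0) = g₁.1 := by rw [hA, zero_smul, add_zero]
  have hA1 : A.map (Polynomial.eval 1) = g₂.1 := by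
    rw [hA, one_smul, add_sub_cancel]
  have hd0 : A.det.eval 0 = 1 := by rw [hev, hA0, g₁.2]
  have hd1 : A.det.eval 1 = 1 := by rw [hev, hA1, g₂.2]
  obtain ⟨N, Φ, hΦ⟩ := line_poly A X F
  obtain ⟨N', Φ', hΦ'⟩ := line_poly A X G
  have hΦ0 : Φ.eval 0 ≠ 0 := by
    rw [hΦ 0 g₁ 1 (by rw [hA0, one_smul]) (by rw [hd0]; exact one_ne_zero), hd0, one_pow,
      one_mul]
    exact hF
  have hΦ1 : Φ'.eval 1 ≠ 0 := by
    rw [hΦ' 1 g₂ 1 (by rw [hA1, one_smul]) (by rw [hd1]; exact one_ne_zero), hd1, one_pow,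
      one_mul]
    exact hG
  have hprod : A.det * (Φ * Φ') = 0 := by
    apply Polynomial.funext
    intro t
    rw [Polynomial.eval_zero, Polynomial.eval_mul, Polynomial.eval_mul]
    by_cases hd : A.det.eval t = 0
    · rw [hd, zero_mul]
    · obtain ⟨c, hc⟩ : ∃ c : ℂ, (c • A.map (Polynomial.eval t)).det = 1 := by
        rcases Nat.eq_zero_or_pos r with hr | hr
        · subst hr
          exact ⟨1, Matrix.det_fin_zero⟩
        · obtain ⟨c, hc⟩ := IsAlgClosed.exists_pow_nat_eq ((A.det.eval t)⁻¹) hr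
          refine ⟨c, ?_⟩
          rw [Matrix.det_smul, Fintype.card_fin, hc, ← hev, inv_mul_cancel₀ hd]
      have h2 := hΦ t ⟨_, hc⟩ c rfl hd
      have h3 := hΦ' t ⟨_, hc⟩ c rfl hd
      rcases hFG ⟨_, hc⟩ with h4 | h4
      · rw [h2, h4, mul_zero, zero_mul, mul_zero]
      · rw [h3, h4, mul_zero, mul_zero, mul_zero]
  rcases mul_eq_zero.1 hprod with h2 | h2
  · rw [h2, Polynomial.eval_zero] at hd0
    exact zero_ne_one hd0
  · rcases mul_eq_zero.1 h2 with h3 | h3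
    · rw [h3, Polynomial.eval_zero] at hΦ0
      exact hΦ0 rfl
    · rw [h3, Polynomial.eval_zero] at hΦ1
      exact hΦ1 rfl

/-- the translates of a polynomial -/
theorem exists_translates (F : MvPolynomial (ι × Fin r × Fin r) ℂ) :
    ∃ J : Set (MvPolynomial (ι × Fin r × Fin r) ℂ),
      ∀ X : ι → SpecialLinearGroup (Fin r) ℂ, (∀ G ∈ J, value G X = 0) ↔
        ∀ g : SpecialLinearGroup (Fin r) ℂ, (value F fun p => g * X p * g⁻¹) = 0 := by
  choose Fg hFg using fun g : SpecialLinearGroup (Fin r) ℂ => exists_conj_poly (ι := ι) g F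
  refine ⟨Set.range Fg, fun X => ?_⟩
  constructor
  · intro h g
    rw [← hFg]
    exact h _ ⟨g, rfl⟩
  · rintro h _ ⟨g, rfl⟩
    rw [hFg]
    exact h g

/-- Irreducible sets of points of `M_r` give irreducible sets of representations. -/
theorem IsIrredM.isIrredSet [Finite ι] {R : Set (FreeGroup ι)}
    {Z : Set (ι → SpecialLinearGroup (Fin r) ℂ)} (hZ : IsIrredM R Z)
    (hss : ∀ X ∈ Z, ∀ W, IsInv X W → ∃ W', IsInv X W' ∧ IsCompl W W')
    (hconj : ∀ X ∈ Z, ∀ g : SpecialLinearGroup (Fin r) ℂ, (fun p => g * X p * g⁻¹) ∈ Z) :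
    IsIrredSet Z := by
  refine ⟨hZ.1, fun F G hFG => ?_⟩
  by_contra hcon
  push Not at hcon
  obtain ⟨⟨X₁, hX₁, hF⟩, X₂, hX₂, hG⟩ := hcon
  -- the invariant separating `X₁` from the invariant closed set given by `F`
  have key : ∀ (F : MvPolynomial (ι × Fin r × Fin r) ℂ), ∀ X₁ ∈ Z, value F X₁ ≠ 0 →
      ∃ A : MvPolynomial (ι × Fin r × Fin r) ℂ, IsInvariant R A ∧
        (∀ Y : ι → SpecialLinearGroup (Fin r) ℂ,
          (∀ g : SpecialLinearGroup (Fin r) ℂ, (value F fun p => g * Y p * g⁻¹) = 0) →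
            value A Y = 0) ∧ value A X₁ ≠ 0 := by
    intro F X₁ hX₁ hF
    obtain ⟨J, hJ⟩ := exists_translates F
    obtain ⟨A, h1, h2, h3⟩ := separation R J (by
      intro Y hY g F' hF'
      have h1 := (hJ Y).1 hY
      have h2 : ∀ G ∈ J, (value G fun p => g * Y p * g⁻¹) = 0 := by
        rw [hJ]
        intro h
        have h3 := h1 (h * g)
        have h4 : (fun p => h * (g * Y p * g⁻¹) * h⁻¹) = fun p => h * g * Y p * (h * g)⁻¹ := by
          funext p
          group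
        rw [h4]
        exact h3
      exact h2 F' hF') X₁ (hss X₁ hX₁) (by
      intro h
      apply hF
      have h1 := (hJ X₁).1 h 1
      have h2 : (fun p => 1 * X₁ p * (1 : SpecialLinearGroup (Fin r) ℂ)⁻¹) = X₁ := by
        funext p
        rw [one_mul, inv_one, mul_one]
      rwa [h2] at h1)
    exact ⟨A, h1, fun Y hY => h2 Y ((hJ Y).2 hY), h3⟩
  obtain ⟨A, hAi, hA, hA1⟩ := key F X₁ hX₁ hF
  obtain ⟨B, hBi, hB, hB1⟩ := key G X₂ hX₂ hG
  rcases hZ.2 A B hAi hBi (fun X hX => by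
    rcases orbit_irred X F G fun g => hFG _ (hconj X hX g) with h | h
    · exact Or.inl (hA X h)
    · exact Or.inr (hB X h)) with h | h
  · exact hA1 (h X₁ hX₁)
  · exact hB1 (h X₂ hX₂)

theorem IsIrredSet.isIrredM (R : Set (FreeGroup ι)) {Z : Set (ι → SpecialLinearGroup (Fin r) ℂ)}
    (hZ : IsIrredSet Z) : IsIrredM R Z :=
  ⟨hZ.1, fun F G _ _ h => hZ.2 F G h⟩

/-- components are stable under conjugation -/
theorem IsComponentM.conj {R : Set (FreeGroup ι)} {Z Y : Set (ι → SpecialLinearGroup (Fin r) ℂ)}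
    (hZ : IsComponentM R Z Y) (hR : ∀ X ∈ Y, IsRep R X)
    (hY : ∀ X ∈ Y, ∀ g : SpecialLinearGroup (Fin r) ℂ, (fun p => g * X p * g⁻¹) ∈ Y) :
    ∀ X ∈ Z, ∀ g : SpecialLinearGroup (Fin r) ℂ, (fun p => g * X p * g⁻¹) ∈ Z := by
  obtain ⟨Z', hZ'⟩ : ∃ Z' : Set (ι → SpecialLinearGroup (Fin r) ℂ),
      Z' = {X | ∃ X' ∈ Z, ∃ g : SpecialLinearGroup (Fin r) ℂ, X = fun p => g * X' p * g⁻¹} :=
    ⟨_, rfl⟩
  have hsub : Z ⊆ Z' := by
    intro X hX
    rw [hZ']
    refine ⟨X, hX, 1, ?_⟩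
    funext p
    rw [one_mul, inv_one, mul_one]
  have h1 : Z' = Z := by
    refine hZ.2.2 Z' ?_ ⟨hZ.2.1.1.mono hsub, fun F G hF hG hFG => ?_⟩ hsub
    · rw [hZ']
      rintro _ ⟨X', hX', g, rfl⟩
      exact hY X' (hZ.1 hX') g
    · rcases hZ.2.1.2 F G hF hG (fun X hX => hFG X (hsub hX)) with h | h
      · left
        rw [hZ']
        rintro _ ⟨X', hX', g, rfl⟩
        rw [IsInvariant.value_conj hF (hR X' (hZ.1 hX'))]
        exact h X' hX'
      · right
        rw [hZ']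
        rintro _ ⟨X', hX', g, rfl⟩
        rw [IsInvariant.value_conj hG (hR X' (hZ.1 hX'))]
        exact h X' hX'
  intro X hX g
  rw [← h1, hZ']
  exact ⟨X, hX, g, rfl⟩

/-- Components of a set of points of `M_r` give components of the set of representations. -/
theorem IsComponentM.isComponent [Finite ι] {R : Set (FreeGroup ι)} {s : ℕ}
    {w : Fin s → FreeGroup ι} {C : Fin s → SpecialLinearGroup (Fin r) ℂ}
    {Z : Set (ι → SpecialLinearGroup (Fin r) ℂ)} (hZ : IsComponentM R Z (YW R w C)) :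
    IsComponent Z (YW R w C) :=
  ⟨hZ.1, hZ.2.1.isIrredSet (fun X hX => (hZ.1 hX).1.2)
    (hZ.conj (fun X hX => hX.1.1) fun X hX g => YW_conj R w C X hX g),
    fun Z' hZ' hirr hsub => hZ.2.2 Z' hZ' (hirr.isIrredM R) hsub⟩

/-- Points of the closure in `M_r` are in the closure in the representation variety. -/
theorem InClosureM.value_eq_zero [Finite ι] {R : Set (FreeGroup ι)}
    {Z : Set (ι → SpecialLinearGroup (Fin r) ℂ)}
    (hconj : ∀ X ∈ Z, ∀ g : SpecialLinearGroup (Fin r) ℂ, (fun p => g * X p * g⁻¹) ∈ Z)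
    {X : ι → SpecialLinearGroup (Fin r) ℂ} (hX : InClosureM R Z X)
    (F : MvPolynomial (ι × Fin r × Fin r) ℂ) (hF : ∀ X' ∈ Z, value F X' = 0) :
    value F X = 0 := by
  by_contra hne
  obtain ⟨A, h1, h2, h3⟩ := separation R {G | ∀ X' ∈ Z, value G X' = 0} (by
    intro Y hY g G hG
    obtain ⟨Gg, hGg⟩ := exists_conj_poly (ι := ι) g G
    rw [← hGg]
    refine hY Gg fun X' hX' => ?_
    rw [hGg]
    exact hG _ (hconj X' hX' g)) X hX.1.2 (fun h => hne (h F hF))
  exact h3 (hX.2 A h1 fun X' hX' => h2 X' fun G hG => hG X' hX')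

/-- conjugates of points of the closure -/
theorem value_conj_zero {Z : Set (ι → SpecialLinearGroup (Fin r) ℂ)}
    (hconj : ∀ X ∈ Z, ∀ g : SpecialLinearGroup (Fin r) ℂ, (fun p => g * X p * g⁻¹) ∈ Z)
    {X : ι → SpecialLinearGroup (Fin r) ℂ}
    (hX : ∀ F : MvPolynomial (ι × Fin r × Fin r) ℂ, (∀ X' ∈ Z, value F X' = 0) → value F X = 0)
    (g : SpecialLinearGroup (Fin r) ℂ) (F : MvPolynomial (ι × Fin r × Fin r) ℂ)
    (hF : ∀ X' ∈ Z, value F X' = 0) : (value F fun p => g * X p * g⁻¹) = 0 := by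
  obtain ⟨Fg, hFg⟩ := exists_conj_poly (ι := ι) g F
  rw [← hFg]
  refine hX Fg fun X' hX' => ?_
  rw [hFg]
  exact hF _ (hconj X' hX' g)

end Vale.Agent.P002.H2
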