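import Vale.Agent.P002.H2.YE

/-!
# Integral traces of integral points; the theorem for one component
-/

namespace Vale.Agent.P002.H2

open Matrix Module NumberField Vale.Agent.P002R.Orb Vale.Agent.P002.H326J Vale.Agent.P002.H252

variable {ι : Type} {r : ℕ}

/-- the matrix of a word, over `ℤ` -/
theorem exists_word_int (r : ℕ) (x : FreeGroup ι) :
    ∃ M : Matrix (Fin r) (Fin r) (MvPolynomial (ι × Fin r × Fin r) ℤ),
      ∀ (A : Type) [CommRing A] (X : ι → SpecialLinearGroup (Fin r) A),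
        (M.map fun F => value F X) = (FreeGroup.lift X x).1 := by
  have hm : ∀ (A : Type) [CommRing A] (X : ι → SpecialLinearGroup (Fin r) A),
      ∃ φ : MvPolynomial (ι × Fin r × Fin r) ℤ →+* A, ∀ F, φ F = value F X := by
    intro A _ X
    exact ⟨MvPolynomial.eval₂Hom (algebraMap ℤ A) (fun p => (X p.1).1 p.2.1 p.2.2), fun F => rfl⟩
  induction x using FreeGroup.induction_on with
  | C1 =>
    refine ⟨1, fun A _ X => ?_⟩
    obtain ⟨φ, hφ⟩ := hm A X
    have h1 : (fun F => value F X) = φ := (funext hφ).symm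
    rw [h1, map_one, Matrix.map_one _ (map_zero _) (map_one _)]
    rfl
  | of p =>
    refine ⟨Matrix.of fun i j => MvPolynomial.X (p, i, j), fun A _ X => ?_⟩
    rw [FreeGroup.lift_apply_of]
    ext i j
    simp [value]
  | inv_of p ih =>
    obtain ⟨M, hM⟩ := ih
    refine ⟨M.adjugate, fun A _ X => ?_⟩
    obtain ⟨φ, hφ⟩ := hm A X
    have h1 : (FreeGroup.lift X (FreeGroup.of p)⁻¹).1 =
        (FreeGroup.lift X (FreeGroup.of p)).1.adjugate := by
      rw [map_inv]
      rfl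
    have h2 : (fun F => value F X) = φ := (funext hφ).symm
    rw [h1, ← hM A X, h2]
    exact φ.map_adjugate M
  | mul v w hv hw =>
    obtain ⟨M, hM⟩ := hv
    obtain ⟨M', hM'⟩ := hw
    refine ⟨M * M', fun A _ X => ?_⟩
    obtain ⟨φ, hφ⟩ := hm A X
    have h2 : (fun F => value F X) = φ := (funext hφ).symm
    have h3 := hM A X
    have h4 := hM' A X
    rw [h2] at h3 h4 ⊢
    rw [Matrix.map_mul, h3, h4, map_mul]
    rfl

/-- conjugation of words -/
theorem lift_conj' {A : Type} [CommRing A] (X : ι → SpecialLinearGroup (Fin r) A)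
    (g : SpecialLinearGroup (Fin r) A) (x : FreeGroup ι) :
    FreeGroup.lift (fun p => g * X p * g⁻¹) x = g * FreeGroup.lift X x * g⁻¹ := by
  have h1 : FreeGroup.lift (fun p => g * X p * g⁻¹) =
      (MulAut.conj g).toMonoidHom.comp (FreeGroup.lift X) := by
    apply FreeGroup.ext_hom
    intro p
    rw [FreeGroup.lift_apply_of, MonoidHom.comp_apply, FreeGroup.lift_apply_of]
    rfl
  rw [h1]
  rfl

/-- conjugate matrices have the same characteristic polynomial -/
theorem charpoly_conj {A : Type} [CommRing A] (P M : SpecialLinearGroup (Fin r) A) :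
    (P * M * P⁻¹).1.charpoly = M.1.charpoly := by
  obtain ⟨Q, hQ⟩ : ∃ Q : SpecialLinearGroup (Fin r) A, Q = P⁻¹ := ⟨_, rfl⟩
  have h5 : Q.1 * P.1 = 1 := by
    have h6 : Q * P = 1 := by rw [hQ, inv_mul_cancel]
    exact congrArg Subtype.val h6
  have h7 : (P * M * Q).1 = P.1 * M.1 * Q.1 := rfl
  obtain ⟨p, hp⟩ : ∃ p : Matrix (Fin r) (Fin r) A, p = P.1 := ⟨_, rfl⟩
  obtain ⟨q, hq⟩ : ∃ q : Matrix (Fin r) (Fin r) A, q = Q.1 := ⟨_, rfl⟩
  rw [← hQ, h7]
  rw [← hp, ← hq] at h5 ⊢
  rw [mul_assoc, Matrix.charpoly_mul_comm, mul_assoc, h5, mul_one]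

/-- the coefficients of the characteristic polynomials of words are polynomials over `ℤ` -/
theorem exists_charpoly_int₀ (r : ℕ) (x : FreeGroup ι) (n : ℕ) :
    ∃ F : MvPolynomial (ι × Fin r × Fin r) ℤ,
      ∀ (A : Type) [CommRing A] (X : ι → SpecialLinearGroup (Fin r) A),
        value F X = (FreeGroup.lift X x).1.charpoly.coeff n := by
  obtain ⟨M, hM⟩ := exists_word_int r x
  obtain ⟨F, hF⟩ : ∃ F : MvPolynomial (ι × Fin r × Fin r) ℤ, F = M.charpoly.coeff n := ⟨_, rfl⟩
  refine ⟨F, fun A _ X => ?_⟩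
  obtain ⟨φ, hφ⟩ : ∃ φ : MvPolynomial (ι × Fin r × Fin r) ℤ →+* A, ∀ F, φ F = value F X :=
    ⟨MvPolynomial.eval₂Hom (algebraMap ℤ A) (fun p => (X p.1).1 p.2.1 p.2.2), fun F => rfl⟩
  have h2 : (fun F => value F X) = φ := (funext hφ).symm
  have h3 := hM A X
  rw [h2] at h3
  rw [← hφ, ← h3, Matrix.charpoly_map, Polynomial.coeff_map, hF]

/-- values over `ℤ` do not depend on the algebra structure -/
theorem value_int {A : Type} [CommRing A] (h : Algebra ℤ A) (F : MvPolynomial (ι × Fin r × Fin r) ℤ)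
    (X : ι → SpecialLinearGroup (Fin r) A) :
    @value ι r ℤ A _ _ h F X = @value ι r ℤ A _ _ (Ring.toIntAlgebra A) F X := by
  unfold value
  congr 1
  exact RingHom.ext_int _ _

/-- the coefficients of the characteristic polynomials of words are invariants over `ℤ` -/
theorem exists_charpoly_int (R : Set (FreeGroup ι)) (r : ℕ) (x : FreeGroup ι) (n : ℕ) :
    ∃ F : MvPolynomial (ι × Fin r × Fin r) ℤ, IsInvariant R F ∧
      ∀ (A : Type) [CommRing A] (X : ι → SpecialLinearGroup (Fin r) A),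
        value F X = (FreeGroup.lift X x).1.charpoly.coeff n := by
  obtain ⟨F, hF⟩ := exists_charpoly_int₀ r x n
  refine ⟨F, ?_, hF⟩
  intro A _ h X P _
  rw [value_int h, value_int h, hF, hF, lift_conj', charpoly_conj]

/-- traces of integral points are integral -/
theorem integral_coeff {R : Set (FreeGroup ι)} {L : IntermediateField ℚ ℂ}
    {X : ι → SpecialLinearGroup (Fin r) ℂ} (h : IsIntegralPoint R L X) (x : FreeGroup ι) (n : ℕ) :
    IsIntegral ℤ ((FreeGroup.lift X x).1.charpoly.coeff n) := by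
  obtain ⟨F, hF, hF'⟩ := exists_charpoly_int R r x n
  obtain ⟨a, ha⟩ := h F hF
  have h1 := hF' ℂ X
  rw [← h1, ha]
  exact a.2.map (L.val.restrictScalars ℤ)

theorem integral_trace {R : Set (FreeGroup ι)} {L : IntermediateField ℚ ℂ}
    {X : ι → SpecialLinearGroup (Fin r) ℂ} (h : IsIntegralPoint R L X) (x : FreeGroup ι) :
    IsIntegral ℤ (FreeGroup.lift X x).1.trace := by
  rcases Nat.eq_zero_or_pos r with hr | hr
  · subst hr
    have h1 : (FreeGroup.lift X x).1.trace = 0 := by simp [Matrix.trace]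
    rw [h1]
    exact isIntegral_zero
  · have : Nonempty (Fin r) := ⟨⟨0, hr⟩⟩
    rw [Matrix.trace_eq_neg_charpoly_coeff]
    exact (integral_coeff h x _).neg

/-- a class with algebraic eigenvalues contains a matrix with algebraic entries -/
theorem exists_algForm' {r : ℕ} (C : SpecialLinearGroup (Fin r) ℂ)
    (hC : ∀ z, IsEigenvalue C z → IsAlgebraic ℚ z) :
    ∃ C' : SpecialLinearGroup (Fin r) ℂ, IsConj C C' ∧
      ∀ i j, C'.1 i j ∈ algebraicClosure ℚ ℂ := by
  obtain ⟨d, hd, h⟩ := Vale.Agent.P002R.exists_jordan_permE C.1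
  obtain ⟨ν, hν, h⟩ := h 1
  obtain ⟨P, hP⟩ := h 1 one_ne_zero
  obtain ⟨M, hM⟩ : ∃ M : Matrix (Fin r) (Fin r) ℂ, M =
      diagonal (fun i => d ((1 : Equiv.Perm (Fin r)) i)) + (1 : ℂ) • ν.map (Int.castRingHom ℂ) :=
    ⟨_, rfl⟩
  rw [← hM] at hP
  have hPP : P.1 * (P⁻¹).1 = 1 := P.mul_inv
  have hPP' : (P⁻¹).1 * P.1 = 1 := P.inv_mul
  have hdet : M.det = 1 := by
    have h1 := C.2
    have h2 := congrArg Matrix.det hP
    rw [Matrix.det_mul, Matrix.det_mul, mul_comm P.1.det, mul_assoc, ← Matrix.det_mul, hPP,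
      Matrix.det_one, mul_one] at h2
    rw [← h2]
    exact C.2
  refine ⟨⟨M, hdet⟩, isConj_of_units (P⁻¹) ?_, fun i j => ?_⟩
  · change (P⁻¹).1 * C.1 = M * (P⁻¹).1
    rw [hP, ← mul_assoc, ← mul_assoc, hPP', one_mul]
  · change M i j ∈ _
    rw [hM, one_smul, Matrix.add_apply, Matrix.map_apply]
    refine add_mem ?_ (intCast_mem _ _)
    rw [Matrix.diagonal_apply]
    split_ifs
    · rw [mem_algebraicClosure_iff]
      exact hC _ (hd ((1 : Equiv.Perm (Fin r)) i))
    · exact zero_mem _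

/-- complex values of polynomials over `ℤ` -/
theorem value_map_int (F : MvPolynomial (ι × Fin r × Fin r) ℤ) (c : ℂ) :
    ∃ G : MvPolynomial (ι × Fin r × Fin r) ℂ,
      ∀ (A : Type) [CommRing A] [Algebra ℂ A] (Y : ι → SpecialLinearGroup (Fin r) A),
        value G Y = value F Y - algebraMap ℂ A c := by
  refine ⟨MvPolynomial.map (algebraMap ℤ ℂ) F - MvPolynomial.C c, fun A _ _ Y => ?_⟩
  unfold value
  rw [MvPolynomial.eval₂_sub, MvPolynomial.eval₂_C, MvPolynomial.eval₂_map]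
  congr 2
  exact RingHom.ext_int _ _

/-- the characteristic polynomials of the words `w k` on the closure -/
theorem charpoly_of_closure {s : ℕ} {R : Set (FreeGroup ι)} {w : Fin s → FreeGroup ι}
    {C : Fin s → SpecialLinearGroup (Fin r) ℂ} {Z : Set (ι → SpecialLinearGroup (Fin r) ℂ)}
    (hZ : Z ⊆ YW R w C) {X : ι → SpecialLinearGroup (Fin r) ℂ} (hX : InClosureM R Z X)
    (k : Fin s) : (FreeGroup.lift X (w k)).1.charpoly = (C k).1.charpoly := by
  ext n
  obtain ⟨F, hF, hF'⟩ := exists_charpoly_int R r (w k) n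
  obtain ⟨G, hval⟩ := value_map_int F ((C k).1.charpoly.coeff n)
  have hGi : IsInvariant R G := by
    intro A _ _ Y P hY
    rw [hval, hval]
    congr 1
    exact hF A Y P hY
  have h2 := hX.2 G hGi (by
    intro X' hX'
    rw [hval, hF' ℂ X']
    obtain ⟨c, hc⟩ := isConj_iff.1 ((hZ hX').2 k)
    rw [← hc, charpoly_conj]
    exact sub_self _)
  rw [hval, hF' ℂ X, sub_eq_zero] at h2
  exact h2

/-- the eigenvalues of the classes are algebraic if there is a point with integral traces in the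
closure -/
theorem algebraic_of_closure {s : ℕ} {R : Set (FreeGroup ι)} {w : Fin s → FreeGroup ι}
    {C : Fin s → SpecialLinearGroup (Fin r) ℂ} {Z : Set (ι → SpecialLinearGroup (Fin r) ℂ)}
    (hZ : Z ⊆ YW R w C) {X : ι → SpecialLinearGroup (Fin r) ℂ} (hX : InClosureM R Z X)
    {L : IntermediateField ℚ ℂ} (hL : IsIntegralPoint R L X) (k : Fin s) (z : ℂ)
    (hz : IsEigenvalue (C k) z) : IsAlgebraic ℚ z := by
  have h1 := charpoly_of_closure hZ hX k
  obtain ⟨q, hq⟩ : ∃ q : Polynomial ℂ, q = (C k).1.charpoly := ⟨_, rfl⟩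
  have hqm : q.Monic := hq ▸ Matrix.charpoly_monic _
  have hqi : ∀ n, IsIntegral ℤ (q.coeff n) := by
    intro n
    rw [hq, ← h1]
    exact integral_coeff hL (w k) n
  have hqz : q.eval z = 0 := by
    rw [hq]
    exact hz
  obtain ⟨p, hp, hpm⟩ : ∃ p : Polynomial (integralClosure ℤ ℂ),
      p.map (algebraMap _ ℂ) = q ∧ p.Monic := by
    have h5 : q ∈ Polynomial.lifts (algebraMap (integralClosure ℤ ℂ) ℂ) := by
      rw [Polynomial.lifts_iff_coeff_lifts]
      intro n
      exact ⟨⟨_, hqi n⟩, rfl⟩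
    obtain ⟨p, hp, -, hpm⟩ := Polynomial.lifts_and_natDegree_eq_and_monic h5 hqm
    exact ⟨p, hp, hpm⟩
  have h6 : IsIntegral (integralClosure ℤ ℂ) z := ⟨p, hpm, by
    rw [← Polynomial.eval_map, hp]
    exact hqz⟩
  have h2 : IsIntegral ℤ z := isIntegral_trans z h6
  exact (h2.tower_top (A := ℚ)).isAlgebraic

/-- **Component theorem.** -/
theorem dense_of_point [Finite ι] {s : ℕ} {R : Set (FreeGroup ι)} {w : Fin s → FreeGroup ι}
    {C : Fin s → SpecialLinearGroup (Fin r) ℂ} {Z : Set (ι → SpecialLinearGroup (Fin r) ℂ)}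
    (hZ : IsComponentM R Z (YW R w C)) {X : ι → SpecialLinearGroup (Fin r) ℂ}
    (hX : InClosureM R Z X) {L : IntermediateField ℚ ℂ} (hL : IsIntegralPoint R L X) :
    ∃ d : ℕ, IsDenseRepDeg d Z := by
  have hC := algebraic_of_closure hZ.1 hX hL
  choose C' hCC' hC' using fun k => exists_algForm' (C k) (hC k)
  rw [YW_congr R w C C' hCC'] at hZ
  have hconj := hZ.conj (fun X hX => hX.1.1) fun X hX g => YW_conj R w C' X hX g
  obtain ⟨L₁, X₁, hL₁, hX₁, g, hg⟩ := integral_form R X hX.1 fun x => integral_trace hL x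
  have hXg : X₁ = fun p => g * X p * g⁻¹ := funext hg
  refine dense_component R w C' hC' hZ.isComponent X₁ L₁ hL₁ hX₁ fun F hF => ?_
  obtain ⟨G, hG⟩ : ∃ G : MvPolynomial (ι × Fin r × Fin r) ℂ,
      ∀ X : ι → SpecialLinearGroup (Fin r) ℂ, value G X = value F X :=
    ⟨MvPolynomial.map (algebraMap Kb ℂ) F, fun X => value_map F X⟩
  rw [← hG, hXg]
  refine value_conj_zero hconj (fun F' hF' => hX.value_eq_zero hconj F' hF') g G fun X' hX' => ?_
  rw [hG]
  exact hF X' hX'

end Vale.Agent.P002.H2
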