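import Vale.Agent.P002.H2.YF
import Vale.Agent.P002.H265.N1

/-!
# The weak form of the density question and integral points in the components
-/

namespace Vale.Agent.P002.H2

open Matrix Module NumberField Vale.Agent.P002R.Orb Vale.Agent.P002.H326J Vale.Agent.P002.H252

variable {ι : Type} {r : ℕ}

/-- the invariant polynomials -/
theorem exists_inv (R : Set (FreeGroup ι)) (r : ℕ) :
    ∃ A : Submonoid (MvPolynomial (ι × Fin r × Fin r) ℂ), ∀ F, F ∈ A ↔ IsInvariant R F := by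
  refine ⟨
    { carrier := {F | IsInvariant R F}
      mul_mem' := ?_
      one_mem' := ?_ }, fun F => Iff.rfl⟩
  · intro F G hF hG A _ _ X P hX
    have h1 := hF A X P hX
    have h2 := hG A X P hX
    unfold value at h1 h2 ⊢
    rw [MvPolynomial.eval₂_mul, MvPolynomial.eval₂_mul, h1, h2]
  · intro A _ _ X P _
    unfold value
    rw [MvPolynomial.eval₂_one, MvPolynomial.eval₂_one]

/-- finite decomposition into components, in `M_r` -/
theorem components_M [Finite ι] (R : Set (FreeGroup ι))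
    (Y : Set (ι → SpecialLinearGroup (Fin r) ℂ)) :
    ∃ (n : ℕ) (Z : Fin n → Set (ι → SpecialLinearGroup (Fin r) ℂ)),
      (∀ i, IsComponentM R (Z i) Y) ∧ (⋃ i, Z i) = Y ∧ (∀ W, IsComponentM R W Y → ∃ i, W = Z i) ∧
      ∀ i, ∃ G : MvPolynomial (ι × Fin r × Fin r) ℂ, IsInvariant R G ∧
        (∀ j, j ≠ i → ∀ X ∈ Z j, value G X = 0) ∧ ∃ X ∈ Z i, value G X ≠ 0 := by
  obtain ⟨A, hA⟩ := exists_inv R r
  have hirr : ∀ Z : Set (ι → SpecialLinearGroup (Fin r) ℂ),
      H265.IsIrr (fun X => MvPolynomial.eval (H252.coords X)) A Z ↔ IsIrredM R Z := by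
    intro Z
    constructor
    · rintro ⟨h1, h2⟩
      refine ⟨h1, fun F G hF hG h => ?_⟩
      simp only [H252.value_eq] at h ⊢
      exact h2 F ((hA F).2 hF) G ((hA G).2 hG) h
    · rintro ⟨h1, h2⟩
      refine ⟨h1, fun F hF G hG h => ?_⟩
      have h3 := h2 F G ((hA F).1 hF) ((hA G).1 hG)
      simp only [H252.value_eq] at h3
      exact h3 h
  have hcomp : ∀ Z : Set (ι → SpecialLinearGroup (Fin r) ℂ),
      H265.IsComp (fun X => MvPolynomial.eval (H252.coords X)) A Y Z ↔ IsComponentM R Z Y := by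
    intro Z
    unfold H265.IsComp IsComponentM
    simp only [hirr]
  obtain ⟨n, Z, h1, h2, h3, -, -, h4⟩ := H265.finite_components'
    (fun X : ι → SpecialLinearGroup (Fin r) ℂ => MvPolynomial.eval (H252.coords X)) A Y
  refine ⟨n, Z, fun i => (hcomp _).1 (h1 i), h2, fun W hW => h3 W ((hcomp _).2 hW), fun i => ?_⟩
  obtain ⟨G, hG, hG1, X, hX, hG2⟩ := h4 i
  refine ⟨G, (hA G).1 hG, fun j hj X hX => ?_, X, hX, ?_⟩
  · rw [H252.value_eq]
    exact hG1 j hj X hX
  · rw [H252.value_eq]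
    exact hG2

/-- semisimple representations with integral traces are integral points -/
theorem integralPoint_of_trace [Finite ι] (R : Set (FreeGroup ι))
    (X : ι → SpecialLinearGroup (Fin r) ℂ) (hX : X ∈ YNone R r)
    (ht : ∀ x, IsIntegral ℤ (FreeGroup.lift X x).1.trace) :
    ∃ L : IntermediateField ℚ ℂ, FiniteDimensional ℚ L ∧ IsIntegralPoint R L X := by
  obtain ⟨L, X₁, hL, hX₁, g, hg⟩ := integral_form R X hX ht
  refine ⟨L, hL, fun F hF => ?_⟩
  obtain ⟨a, ha⟩ := hX₁.isIntegralPoint (R := R) F hF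
  refine ⟨a, ?_⟩
  rw [← ha, funext hg]
  exact (hF ℂ X g hX.1).symm

/-- bounded degree in the representation variety gives bounded degree in `M_r` -/
theorem IsDenseRepDeg.isDenseDeg {R : Set (FreeGroup ι)} {d : ℕ}
    {T : Set (ι → SpecialLinearGroup (Fin r) ℂ)} (h : IsDenseRepDeg d T) : IsDenseDeg R d T := by
  intro F _ hF X hX
  refine h F (fun X' hX' hint => hF X' hX' ?_) X hX
  obtain ⟨L, hL, hd, hi⟩ := hint
  exact ⟨L, hL, hd, hi.isIntegralPoint⟩

theorem IsDenseDeg.isDenseAll {R : Set (FreeGroup ι)} {d : ℕ}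
    {T : Set (ι → SpecialLinearGroup (Fin r) ℂ)} (h : IsDenseDeg R d T) : IsDenseAll R T := by
  intro F hFi hF X hX
  refine h F hFi (fun X' hX' hint => hF X' hX' ?_) X hX
  obtain ⟨L, hL, -, hi⟩ := hint
  exact ⟨L, hL, hi⟩

/-- the weak form of the question gives integral points in all components -/
theorem exists_of_denseAll [Finite ι] {R : Set (FreeGroup ι)}
    {Y Z : Set (ι → SpecialLinearGroup (Fin r) ℂ)} (h : IsDenseAll R Y) (hZ : IsComponentM R Z Y) :
    ∃ X ∈ Z, ∃ L : IntermediateField ℚ ℂ, FiniteDimensional ℚ L ∧ IsIntegralPoint R L X := by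
  obtain ⟨n, Z', h1, h2, h3, h4⟩ := components_M R Y
  obtain ⟨i, rfl⟩ := h3 Z hZ
  obtain ⟨G, hG, hG1, X₀, hX₀, hG2⟩ := h4 i
  by_contra hcon
  push Not at hcon
  apply hG2
  refine h G hG (fun X hX hint => ?_) X₀ (hZ.1 hX₀)
  rw [← h2] at hX
  obtain ⟨j, hj⟩ := Set.mem_iUnion.1 hX
  by_cases hij : j = i
  · subst hij
    obtain ⟨L, hL, hi⟩ := hint
    exact absurd hi (hcon X hj L hL)
  · exact hG1 j hij X hj

/-- integral points in the closures of all components give bounded degree density -/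
theorem dense_of_points [Finite ι] {s : ℕ} {R : Set (FreeGroup ι)} {w : Fin s → FreeGroup ι}
    {C : Fin s → SpecialLinearGroup (Fin r) ℂ}
    (h : ∀ Z, IsComponentM R Z (YW R w C) → ∃ d, IsDenseRepDeg d Z) :
    ∃ d, IsDenseRepDeg d (YW R w C) := by
  obtain ⟨n, Z, h1, h2, -, -⟩ := components_M R (YW R w C)
  choose d hd using fun i => h (Z i) (h1 i)
  refine ⟨∑ i, d i, fun F hF X hX => ?_⟩
  rw [← h2] at hX
  obtain ⟨i, hi⟩ := Set.mem_iUnion.1 hX
  refine hd i F (fun X' hX' hint => hF X' ((h1 i).1 hX') ?_) X hi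
  obtain ⟨L, hL, hdL, hL'⟩ := hint
  exact ⟨L, hL, hdL.trans (Finset.single_le_sum (fun _ _ => Nat.zero_le _) (Finset.mem_univ i)),
    hL'⟩

end Vale.Agent.P002.H2
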